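import Vale.Agent.P180.R2.H47.AltStr
import Vale.Agent.P180.H768.Brauer

/-!
P180: common notation for the local part.
-/

set_option linter.all false

namespace Vale.Agent.P180.R2.H365

open Vale.Agent.P180 Vale.Agent.P180.H768.Gd Vale.Agent.P180.R2.H47

/-- even permutations fixing all points outside `F` -/
def altF {α : Type} [Fintype α] [DecidableEq α] (F : Finset α) :
    Subgroup (alternatingGroup α) where
  carrier := {σ | ∀ x ∉ F, (σ : Equiv.Perm α) x = x}
  mul_mem' := by
    intro a b ha hb x hx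
    rw [Subgroup.coe_mul, Equiv.Perm.mul_apply, hb x hx, ha x hx]
  one_mem' := by
    intro x _
    rfl
  inv_mem' := by
    intro a ha x hx
    rw [Subgroup.coe_inv, Equiv.Perm.inv_eq_iff_eq]
    exact (ha x hx).symm

/-- `f` is an idempotent of `k Alt(F)` with one-dimensional corner. -/
def OneF {k : Type*} [Field k] {α : Type} [Fintype α] [DecidableEq α] (F : Finset α)
    (f : MonoidAlgebra k (alternatingGroup α)) : Prop :=
  f ∈ SubAlg k (altF F) ∧ f * f = f ∧ ∀ y ∈ SubAlg k (altF F), ∃ c : k, f * y * f = c • f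

variable {G : Type} [Group G]

/-- the embedding of the `j`-th factor -/
def emb (𝒜 : AltStr G) (j : Fin 𝒜.r) : alternatingGroup (Fin (𝒜.N j)) →* G :=
  𝒜.ι.comp (MonoidHom.mulSingle (fun j => alternatingGroup (Fin (𝒜.N j))) j)

/-- the embedding of the group algebra of the `j`-th factor -/
noncomputable def up (k : Type*) [Field k] (𝒜 : AltStr G) (j : Fin 𝒜.r) :
    MonoidAlgebra k (alternatingGroup (Fin (𝒜.N j))) →ₐ[k] MonoidAlgebra k G :=
  MonoidAlgebra.mapDomainAlgHom k k (emb 𝒜 j)

/-- the product of elements of the group algebras of the factors -/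
noncomputable def pr {k : Type*} [Field k] (𝒜 : AltStr G)
    (f : ∀ j, MonoidAlgebra k (alternatingGroup (Fin (𝒜.N j)))) : MonoidAlgebra k G :=
  ((List.finRange 𝒜.r).map fun j => up k 𝒜 j (f j)).prod

/-- every element of `D` stabilising `j` fixes all points of `F j` -/
def FixF (𝒜 : AltStr G) (D : Subgroup G) (F : ∀ j, Finset (Fin (𝒜.N j))) : Prop :=
  ∀ g ∈ D, ∀ j, ∀ x ∈ F j, (𝒜.ρ g ⟨j, x⟩).1 = j → 𝒜.ρ g ⟨j, x⟩ = ⟨j, x⟩

end Vale.Agent.P180.R2.H365
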