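import Vale.Agent.P180.H768.Brauer

/-!
P180: generation of a block by an idempotent not killed by the Brauer homomorphism.
-/

set_option linter.all false

namespace Vale.Agent.P180.R2.H365

open Vale.Agent.P180 Vale.Agent.P180.H768.Gd

section Trace

variable {k : Type*} [Field k] {H : Type*} [Group H] [Fintype H]

/-- the full trace -/
noncomputable def TT (w : MonoidAlgebra k H) : MonoidAlgebra k H :=
  ∑ g : H, cj k H g w

theorem TT_fix (w : MonoidAlgebra k H) : TT w ∈ Fix (cj k H) ⊤ := by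
  intro x _
  unfold TT
  rw [map_sum]
  apply Fintype.sum_bijective (fun g => x * g) (Group.mulLeft_bijective x)
  intro g
  rw [map_mul_act]

theorem TT_mul {z : MonoidAlgebra k H} (hz : z ∈ Fix (cj k H) ⊤) (w : MonoidAlgebra k H) :
    TT (z * w) = z * TT w := by
  unfold TT
  rw [Finset.mul_sum]
  refine Finset.sum_congr rfl fun g _ => ?_
  rw [map_mul, hz g trivial]

theorem coeff_one_comm (a b : MonoidAlgebra k H) : (a * b).coeff 1 = (b * a).coeff 1 := by
  induction a using MonoidAlgebra.induction_linear with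
  | zero => simp
  | add x y hx hy =>
    rw [add_mul, mul_add, MonoidAlgebra.coeff_add, MonoidAlgebra.coeff_add, Finsupp.add_apply,
      Finsupp.add_apply, hx, hy]
  | single g r =>
    induction b using MonoidAlgebra.induction_linear with
    | zero => simp
    | add x y hx hy =>
      rw [add_mul, mul_add, MonoidAlgebra.coeff_add, MonoidAlgebra.coeff_add, Finsupp.add_apply,
        Finsupp.add_apply, hx, hy]
    | single h s =>
      classical
      rw [MonoidAlgebra.single_mul_single, MonoidAlgebra.single_mul_single,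
        MonoidAlgebra.coeff_single, MonoidAlgebra.coeff_single, Finsupp.single_apply,
        Finsupp.single_apply, mul_comm r s]
      have : g * h = 1 ↔ h * g = 1 := mul_eq_one_comm
      simp only [this]

theorem coeff_eq_mul (a : MonoidAlgebra k H) (x : H) :
    a.coeff x = (a * MonoidAlgebra.single x⁻¹ 1).coeff 1 := by
  induction a using MonoidAlgebra.induction_linear with
  | zero => simp
  | add a b ha hb =>
    rw [add_mul, MonoidAlgebra.coeff_add, MonoidAlgebra.coeff_add, Finsupp.add_apply,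
      Finsupp.add_apply, ha, hb]
  | single g r =>
    classical
    rw [MonoidAlgebra.single_mul_single, MonoidAlgebra.coeff_single, MonoidAlgebra.coeff_single,
      Finsupp.single_apply, Finsupp.single_apply, mul_one]
    have : g = x ↔ g * x⁻¹ = 1 := by rw [mul_inv_eq_one]
    simp only [this]

theorem trace_form (u w : MonoidAlgebra k H) :
    LinearMap.trace k (MonoidAlgebra k H) (LinearMap.mulLeft k u ∘ₗ LinearMap.mulRight k w) =
      (u * TT w).coeff 1 := by
  classical
  rw [LinearMap.trace_eq_matrix_trace k (MonoidAlgebra.basis H k)]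
  unfold Matrix.trace TT
  rw [Finset.mul_sum, MonoidAlgebra.coeff_sum, Finsupp.finsetSum_apply]
  refine Finset.sum_congr rfl fun g _ => ?_
  rw [Matrix.diag_apply, LinearMap.toMatrix_apply, MonoidAlgebra.basis_apply]
  have h1 : ∀ a : MonoidAlgebra k H, (MonoidAlgebra.basis H k).repr a = a.coeff := fun a => rfl
  rw [h1, LinearMap.comp_apply, LinearMap.mulLeft_apply, LinearMap.mulRight_apply, coeff_eq_mul,
    cj_eq]
  congr 2
  simp only [mul_assoc]

theorem nilp_mul_TT {z : MonoidAlgebra k H} (hz : z ∈ Fix (cj k H) ⊤) (hn : IsNilpotent z)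
    (w : MonoidAlgebra k H) : z * TT w = 0 := by
  have hc : ∀ a, z * a = a * z := fun a =>
    (commute_of_mem (SubAlg_top a) hz).symm
  have key : ∀ u : MonoidAlgebra k H, (u * (z * TT w)).coeff 1 = 0 := by
    intro u
    rw [← mul_assoc, ← trace_form]
    have : IsNilpotent (LinearMap.mulLeft k (u * z) ∘ₗ LinearMap.mulRight k w) := by
      obtain ⟨n, hn⟩ := hn
      refine ⟨n, ?_⟩
      have h2 : ∀ (m : ℕ) (v : MonoidAlgebra k H),
          ((LinearMap.mulLeft k (u * z) ∘ₗ LinearMap.mulRight k w) ^ m) v =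
            z ^ m * (u ^ m * v * w ^ m) := by
        intro m
        induction m with
        | zero => intro v; simp
        | succ m ih =>
          intro v
          rw [pow_succ', Module.End.mul_apply, ih, LinearMap.comp_apply, LinearMap.mulLeft_apply,
            LinearMap.mulRight_apply]
          have hc' : ∀ a, z ^ m * a = a * z ^ m := fun a => by
            have : Commute (z ^ m) a := Commute.pow_left (hc a) m
            exact this
          calc u * z * (z ^ m * (u ^ m * v * w ^ m) * w)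
              = u * (z * z ^ m) * (u ^ m * v * w ^ m * w) := by simp only [mul_assoc]
            _ = (z * z ^ m) * u * (u ^ m * v * w ^ m * w) := by
                have : Commute (z * z ^ m) u :=
                  (show Commute z u from hc u).mul_left (show Commute (z ^ m) u from hc' u)
                rw [this.eq]
            _ = z ^ (m + 1) * (u ^ (m + 1) * v * w ^ (m + 1)) := by
                rw [pow_succ' z, pow_succ' u, pow_succ w]
                simp only [mul_assoc]
      exact LinearMap.ext fun v => by rw [h2, hn, zero_mul]; rfl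
    exact (LinearMap.isNilpotent_trace_of_isNilpotent this).eq_zero
  apply MonoidAlgebra.coeff_injective
  ext x
  rw [coeff_eq_mul, coeff_one_comm, key]
  rfl

/-- if `x ≠ 0` is fixed by a central element in the image of the trace, then some element
`TT (x * v)` is not nilpotent. -/
theorem exists_not_nilp {K : Subgroup H} {y x : MonoidAlgebra k H} (hy : y ∈ SubAlg k K)
    (hx : x ∈ SubAlg k K) (hxy : x * TT y = x) (hx0 : x ≠ 0) :
    ∃ v ∈ SubAlg k K, ¬ IsNilpotent (TT (x * v)) := by
  by_contra hcon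
  push Not at hcon
  apply hx0
  have hfix : TT y ∈ Fix (cj k H) ⊤ := TT_fix y
  have hcomm : ∀ a, a * TT y = TT y * a := fun a => commute_of_mem (SubAlg_top a) hfix
  have key : ∀ v ∈ SubAlg k K, (x * v).coeff 1 = 0 := by
    intro v hv
    have h1 : TT (x * v) * y * 1 = TT (x * v) * y := mul_one _
    have h2 : TT (x * v) = 0 := by
      have e1 : x * v = TT y * (x * v) := by
        rw [← mul_assoc, ← hcomm, hxy]
      rw [e1, TT_mul hfix, ← commute_of_mem (SubAlg_top _) hfix]
      exact nilp_mul_TT (TT_fix _) (hcon v hv) y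
    -- `λ (x v) = λ (x v TT y) = λ (TT (x v) y)`
    have h3 : (x * v * TT y).coeff 1 = (y * TT (x * v)).coeff 1 := by
      unfold TT
      rw [Finset.mul_sum, Finset.mul_sum, MonoidAlgebra.coeff_sum, MonoidAlgebra.coeff_sum,
        Finsupp.finsetSum_apply, Finsupp.finsetSum_apply]
      apply Fintype.sum_bijective (fun g : H => g⁻¹) (Equiv.inv H).bijective
      intro g
      rw [cj_eq, cj_eq, inv_inv]
      rw [coeff_one_comm y, ← mul_assoc (x * v), ← mul_assoc (x * v), coeff_one_comm]
      simp only [mul_assoc]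
    have h4 : x * v * TT y = x * v := by
      rw [mul_assoc, hcomm, ← mul_assoc, hxy]
    rw [← h4, h3, h2, mul_zero]
    rfl
  apply MonoidAlgebra.coeff_injective
  ext h
  by_cases hh : h ∈ K
  · rw [coeff_eq_mul, key _ (single_mem_SubAlg (K.inv_mem hh) 1)]
    rfl
  · by_contra hne
    exact hh (hx h hne)

end Trace

section Kill

theorem exists_kill {R : Type*} [Ring R] (S : Finset R) (hS : ∀ s ∈ S, IsNilpotent s)
    (hc : ∀ s ∈ S, ∀ r, s * r = r * s) : ∀ v : R, v ≠ 0 →
    ∃ u : R, u * v ≠ 0 ∧ ∀ s ∈ S, s * (u * v) = 0 := by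
  classical
  induction S using Finset.induction_on with
  | empty =>
    intro v hv
    exact ⟨1, by rwa [one_mul], by simp⟩
  | insert z S hz ih =>
    intro v hv
    have ih' := ih (fun s hs => hS s (Finset.mem_insert_of_mem hs))
      (fun s hs => hc s (Finset.mem_insert_of_mem hs))
    obtain ⟨n, hn⟩ := hS z (Finset.mem_insert_self z S)
    have hex : ∃ n, z ^ n * v = 0 := ⟨n, by rw [hn, zero_mul]⟩
    set m := Nat.find hex with hm
    have hm1 : z ^ m * v = 0 := Nat.find_spec hex
    have hm0 : m ≠ 0 := by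
      intro h0
      rw [h0, pow_zero, one_mul] at hm1
      exact hv hm1
    have hm2 : z ^ (m - 1) * v ≠ 0 := Nat.find_min hex (by omega)
    obtain ⟨u, hu, hu'⟩ := ih' _ hm2
    refine ⟨u * z ^ (m - 1), by rwa [mul_assoc], ?_⟩
    intro s hs
    rcases Finset.mem_insert.mp hs with rfl | hs
    · rw [← mul_assoc, ← mul_assoc, hc s (Finset.mem_insert_self s S), mul_assoc u, ← pow_succ',
        mul_assoc, Nat.sub_add_cancel (by omega), hm1, mul_zero]
    · rw [mul_assoc u]
      exact hu' s hs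

end Kill

section Ker

variable {k : Type*} [Field k] {p : ℕ} [Fact p.Prime] [CharP k p] {H : Type*} [Group H] [Finite H]

theorem single_sub_one_nilp {z : H} (hz : ∃ n : ℕ, z ^ (p ^ n) = 1) :
    IsNilpotent (MonoidAlgebra.single z (1 : k) - 1) := by
  have _ : CharP (MonoidAlgebra k H) p :=
    charP_of_injective_algebraMap (algebraMap k (MonoidAlgebra k H)).injective p
  obtain ⟨n, hn⟩ := hz
  refine ⟨p ^ n, ?_⟩
  rw [sub_pow_char_pow_of_commute _ _ (Commute.one_right _), MonoidAlgebra.single_pow, hn,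
    one_pow, one_pow, MonoidAlgebra.one_def, sub_self]

theorem ker_idem {Y : Subgroup H} [Y.Normal] (hY : IsPGroup p Y) {C : Subgroup H}
    (hC : ∀ c ∈ C, ∀ y ∈ Y, y * c = c * y) {x : MonoidAlgebra k H} (hx : x ∈ SubAlg k C)
    (hxx : x * x = x) (h0 : KP.qmap k Y x = 0) : x = 0 := by
  classical
  have _ := Fintype.ofFinite H
  let s : H ⧸ Y → H := fun q => if h : ∃ c ∈ C, (QuotientGroup.mk c : H ⧸ Y) = q then h.choose
    else 1
  have hs : ∀ c ∈ C, s (QuotientGroup.mk c) ∈ C ∧
      (QuotientGroup.mk (s (QuotientGroup.mk c)) : H ⧸ Y) = QuotientGroup.mk c := by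
    intro c hc
    have h : ∃ c' ∈ C, (QuotientGroup.mk c' : H ⧸ Y) = QuotientGroup.mk c := ⟨c, hc, rfl⟩
    have e : s (QuotientGroup.mk c) = h.choose := dif_pos h
    rw [e]
    exact h.choose_spec
  let S : MonoidAlgebra k (H ⧸ Y) →ₗ[k] MonoidAlgebra k H :=
    MonoidAlgebra.mapDomainLinearMap k k s
  have hS : ∀ (q : H ⧸ Y) (r : k), S (MonoidAlgebra.single q r) =
      MonoidAlgebra.single (s q) r := by
    intro q r
    exact MonoidAlgebra.mapDomainLinearMap_single _ _ _
  -- the representation of `x`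
  have key : ∀ a ∈ SubAlg k C, ∃ b : H → MonoidAlgebra k H, (∀ z, b z ∈ SubAlg k C) ∧
      a - S (KP.qmap k Y a) = ∑ z ∈ Finset.univ.filter (fun z : H => z ∈ Y ⊓ C),
        (MonoidAlgebra.single z (1 : k) - 1) * b z := by
    intro a ha
    refine SuppIn.induction (P := fun a => ∃ b : H → MonoidAlgebra k H,
      (∀ z, b z ∈ SubAlg k C) ∧
      a - S (KP.qmap k Y a) = ∑ z ∈ Finset.univ.filter (fun z : H => z ∈ Y ⊓ C),
        (MonoidAlgebra.single z (1 : k) - 1) * b z) ha ?_ ?_ ?_
    · exact ⟨0, fun _ => Subalgebra.zero_mem _, by simp⟩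
    · rintro a b ⟨b1, hb1, h1⟩ ⟨b2, hb2, h2⟩
      refine ⟨b1 + b2, fun z => Subalgebra.add_mem _ (hb1 z) (hb2 z), ?_⟩
      simp only [map_add, Pi.add_apply, mul_add, Finset.sum_add_distrib, ← h1, ← h2]
      abel
    · intro c hc r
      obtain ⟨hs1, hs2⟩ := hs c hc
      have hz : c * (s (QuotientGroup.mk c))⁻¹ ∈ Y ⊓ C := by
        refine ⟨?_, C.mul_mem hc (C.inv_mem hs1)⟩
        have h2 : (s (QuotientGroup.mk c))⁻¹ * c ∈ Y := QuotientGroup.eq.mp hs2
        have h3 := (inferInstance : Y.Normal).conj_mem _ h2 (s (QuotientGroup.mk c))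
        simpa [mul_assoc] using h3
      refine ⟨Pi.single (c * (s (QuotientGroup.mk c))⁻¹)
        (MonoidAlgebra.single (s (QuotientGroup.mk c)) r), ?_, ?_⟩
      · intro z
        by_cases hzc : z = c * (s (QuotientGroup.mk c))⁻¹
        · subst hzc
          rw [Pi.single_eq_same]
          exact single_mem_SubAlg hs1 r
        · rw [Pi.single_eq_of_ne hzc]
          exact Subalgebra.zero_mem _
      · rw [Finset.sum_eq_single (c * (s (QuotientGroup.mk c))⁻¹)]
        · rw [Pi.single_eq_same, sub_mul, one_mul, MonoidAlgebra.single_mul_single, one_mul,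
            map_smul, map_smul, KP.qmap_single, hS, inv_mul_cancel_right]
          simp [MonoidAlgebra.smul_single]
        · intro c' _ hc'
          rw [Pi.single_eq_of_ne hc', mul_zero]
        · intro h5
          exact absurd (Finset.mem_filter.mpr ⟨Finset.mem_univ _, hz⟩) h5
  obtain ⟨b, hb, hxb⟩ := key x hx
  rw [h0, map_zero, sub_zero] at hxb
  by_contra hne
  let R := SubAlg k C
  have hzR : ∀ z ∈ Y ⊓ C, (MonoidAlgebra.single z (1 : k) - 1) ∈ R := fun z hz =>
    Subalgebra.sub_mem _ (single_mem_SubAlg hz.2 1) (Subalgebra.one_mem _)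
  let T : Finset R := (Finset.univ.filter (fun z : H => z ∈ Y ⊓ C)).attach.image
    fun z => ⟨_, hzR z.1 (Finset.mem_filter.mp z.2).2⟩
  have hT : ∀ t ∈ T, ∃ z ∈ Y ⊓ C, (t : MonoidAlgebra k H) = MonoidAlgebra.single z (1 : k) - 1 := by
    intro t ht
    obtain ⟨z, -, rfl⟩ := Finset.mem_image.mp ht
    exact ⟨z.1, (Finset.mem_filter.mp z.2).2, rfl⟩
  have hcomm : ∀ z ∈ Y ⊓ C, ∀ r ∈ SubAlg k C, (MonoidAlgebra.single z (1 : k) - 1) * r =
      r * (MonoidAlgebra.single z (1 : k) - 1) := by
    intro z hz r hr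
    symm
    refine commute_of_mem hr ?_
    refine Subalgebra.sub_mem _ ?_ (Subalgebra.one_mem _)
    intro c hc
    rw [cj_single, ← hC c hc z hz.1, mul_inv_cancel_right]
  obtain ⟨u, hu, hu'⟩ := exists_kill T (fun t ht => by
      obtain ⟨z, hz, htz⟩ := hT t ht
      have h1 : IsNilpotent (t : MonoidAlgebra k H) := by
        rw [htz]
        obtain ⟨n, hn⟩ := hY ⟨z, hz.1⟩
        exact single_sub_one_nilp ⟨n, congrArg Subtype.val hn⟩
      obtain ⟨n, hn⟩ := h1
      exact ⟨n, Subtype.ext hn⟩)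
    (fun t ht r => by
      obtain ⟨z, hz, htz⟩ := hT t ht
      apply Subtype.ext
      change (t : MonoidAlgebra k H) * r = r * t
      rw [htz]
      exact hcomm z hz r r.2) (⟨x, hx⟩ : R) (fun h => hne (congrArg Subtype.val h))
  apply hu
  apply Subtype.ext
  change (u : MonoidAlgebra k H) * x = 0
  have e1 : (u : MonoidAlgebra k H) * x = (u * x) * x := by rw [mul_assoc, hxx]
  have e2 : (u : MonoidAlgebra k H) * x * x = (u * x) *
      ∑ z ∈ Finset.univ.filter (fun z : H => z ∈ Y ⊓ C),
        (MonoidAlgebra.single z (1 : k) - 1) * b z := congrArg (fun t => (u * x) * t) hxb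
  rw [e1, e2, Finset.mul_sum]
  apply Finset.sum_eq_zero
  intro z hz
  have hz' := (Finset.mem_filter.mp hz).2
  have h3 := hu' ⟨_, hzR z hz'⟩ (Finset.mem_image.mpr ⟨⟨z, hz⟩, Finset.mem_attach _ _, rfl⟩)
  have h4 : (MonoidAlgebra.single z (1 : k) - 1) * ((u : MonoidAlgebra k H) * x) = 0 :=
    congrArg Subtype.val h3
  rw [← mul_assoc, ← hcomm z hz' _ (Subalgebra.mul_mem _ u.2 hx), h4, zero_mul]

end Ker

section Main

variable {k : Type*} [Field k] {p : ℕ} [Fact p.Prime] [CharP k p]

theorem qmap_tr {H : Type*} [Group H] [Finite H] (Y : Subgroup H) [Y.Normal]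
    [Fintype (H ⧸ Y)] {w : MonoidAlgebra k H} (hw : w ∈ Fix (cj k H) Y) :
    KP.qmap k Y (tr (cj k H) Y ⊤ w) = TT (KP.qmap k Y w) := by
  rw [Vale.Agent.P180.tr_top_eq_sum hw, map_sum]
  unfold TT
  refine Finset.sum_congr rfl fun q _ => ?_
  rw [KP.qmap_cj, cj_eq, QuotientGroup.out_eq']

theorem qmap_mem {H : Type*} [Group H] (Y : Subgroup H) [Y.Normal] {C : Subgroup H}
    {a : MonoidAlgebra k H} (ha : a ∈ SubAlg k C) :
    KP.qmap k Y a ∈ SubAlg k (C.map (QuotientGroup.mk' Y)) := by
  refine SuppIn.induction (P := fun a => KP.qmap k Y a ∈ SubAlg k (C.map (QuotientGroup.mk' Y)))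
    ha ?_ ?_ ?_
  · rw [map_zero]; exact Subalgebra.zero_mem _
  · intro x y hx hy
    rw [map_add]; exact Subalgebra.add_mem _ hx hy
  · intro x hx c
    rw [map_smul, KP.qmap_single]
    exact Subalgebra.smul_mem _ (single_mem_SubAlg (Subgroup.mem_map_of_mem _ hx) 1) c

theorem exists_qmap {H : Type*} [Group H] (Y : Subgroup H) [Y.Normal] {C : Subgroup H}
    {a : MonoidAlgebra k (H ⧸ Y)} (ha : a ∈ SubAlg k (C.map (QuotientGroup.mk' Y))) :
    ∃ b ∈ SubAlg k C, KP.qmap k Y b = a := by
  refine SuppIn.induction (P := fun a => ∃ b ∈ SubAlg k C, KP.qmap k Y b = a) ha ?_ ?_ ?_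
  · exact ⟨0, Subalgebra.zero_mem _, map_zero _⟩
  · rintro x y ⟨x', hx', rfl⟩ ⟨y', hy', rfl⟩
    exact ⟨x' + y', Subalgebra.add_mem _ hx' hy', map_add _ _ _⟩
  · rintro _ ⟨x, hx, rfl⟩ c
    refine ⟨c • MonoidAlgebra.single x 1, Subalgebra.smul_mem _ (single_mem_SubAlg hx 1) c, ?_⟩
    rw [map_smul, KP.qmap_single]
    rfl

variable {G : Type*} [Group G] [Finite G]

omit [Fact p.Prime] [CharP k p] in
theorem br_self {D : Subgroup G} {v : MonoidAlgebra k G}
    (hv : v ∈ SubAlg k (Subgroup.centralizer (D : Set G))) : br D v = v := by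
  classical
  apply MonoidAlgebra.coeff_injective
  ext x
  rw [br_coeff]
  by_cases hx : x ∈ Subgroup.centralizer (D : Set G)
  · rw [if_pos hx]
  · rw [if_neg hx]
    by_contra h
    exact hx (hv x (Ne.symm h))

omit [Fact p.Prime] [CharP k p] in
theorem fix_of_cent {D : Subgroup G} {v : MonoidAlgebra k G}
    (hv : v ∈ SubAlg k (Subgroup.centralizer (D : Set G))) : v ∈ Fix (cj k G) D := by
  refine SuppIn.induction (P := fun v => v ∈ Fix (cj k G) D) hv (Subalgebra.zero_mem _)
    (fun a b => Subalgebra.add_mem _) ?_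
  intro x hx c
  refine Subalgebra.smul_mem _ ?_ c
  intro d hd
  rw [cj_single, mem_cent.mp hx d hd]

theorem br_pow {D : Subgroup G} (hD : IsPGroup p D) {a : MonoidAlgebra k G}
    (ha : a ∈ Fix (cj k G) D) (n : ℕ) : br D (a ^ n) = br D a ^ n := by
  induction n with
  | zero =>
    rw [pow_zero, pow_zero]
    exact br_self (Subalgebra.one_mem _)
  | succ n ih => rw [pow_succ, pow_succ, br_mul hD (Subalgebra.pow_mem _ ha n) ha, ih]

omit [Fact p.Prime] [CharP k p] in
theorem br_fix {D : Subgroup G} (a : MonoidAlgebra k G) : br D a ∈ Fix (cj k G) D :=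
  fix_of_cent (br_mem D a)

/-- **Local version of the generation lemma.** -/
theorem exists_not_nilp_tr {D : Subgroup G} (hD : IsPGroup p D) {x y : MonoidAlgebra k G}
    (hx : x ∈ SubAlg k (Subgroup.centralizer (D : Set G)))
    (hy : y ∈ SubAlg k (Subgroup.centralizer (D : Set G))) (hxx : x * x = x)
    (hxy : x * tr (cj k G) D (Subgroup.normalizer (D : Set G)) y = x) (hx0 : x ≠ 0) :
    ∃ v ∈ SubAlg k (Subgroup.centralizer (D : Set G)),
      ¬ IsNilpotent (tr (cj k G) D (Subgroup.normalizer (D : Set G)) (x * v)) := by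
  classical
  set N := Subgroup.normalizer (D : Set G) with hN
  set C := Subgroup.centralizer (D : Set G) with hC
  have hDN : D ≤ N := Subgroup.le_normalizer
  have hCN : C ≤ N := by
    intro c hc
    rw [hN, Subgroup.mem_normalizer_iff]
    intro d
    rw [hC, Subgroup.mem_centralizer_iff] at hc
    constructor
    · intro hd
      rw [← hc d hd, mul_inv_cancel_right]
      exact hd
    · intro hd
      have h1 := hc _ hd
      have h2 : d = c⁻¹ * (c * d * c⁻¹) * c := by group
      rw [h2, mul_assoc, h1, inv_mul_cancel_left]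
      exact hd
  let D' : Subgroup N := D.subgroupOf N
  let C' : Subgroup N := C.subgroupOf N
  have hD'n : D'.Normal := by
    rw [hN] at *
    exact Subgroup.normal_in_normalizer
  have hmapD : D'.map N.subtype = D := by
    rw [Subgroup.subgroupOf_map_subtype, inf_eq_left.mpr hDN]
  have _ := Fintype.ofFinite (N ⧸ D')
  -- transport of elements
  have lift : ∀ v ∈ SubAlg k C, ∃ v' ∈ SubAlg k C', incl k N v' = v := by
    intro v hv
    refine SuppIn.induction (P := fun v => ∃ v' ∈ SubAlg k C', incl k N v' = v) hv ?_ ?_ ?_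
    · exact ⟨0, Subalgebra.zero_mem _, map_zero _⟩
    · rintro x y ⟨x', hx', rfl⟩ ⟨y', hy', rfl⟩
      exact ⟨x' + y', Subalgebra.add_mem _ hx' hy', map_add _ _ _⟩
    · intro c hc r
      refine ⟨r • MonoidAlgebra.single ⟨c, hCN hc⟩ 1, Subalgebra.smul_mem _
        (single_mem_SubAlg (Subgroup.mem_subgroupOf.mpr hc) 1) r, ?_⟩
      rw [map_smul, incl_single]
  have unlift : ∀ v ∈ SubAlg k C', incl k N v ∈ SubAlg k C := by
    intro v hv
    refine SuppIn.induction (P := fun v => incl k N v ∈ SubAlg k C) hv ?_ ?_ ?_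
    · rw [map_zero]; exact Subalgebra.zero_mem _
    · intro x y hx hy
      rw [map_add]; exact Subalgebra.add_mem _ hx hy
    · intro c hc r
      rw [map_smul, incl_single]
      exact Subalgebra.smul_mem _ (single_mem_SubAlg (Subgroup.mem_subgroupOf.mp hc) 1) r
  have hfix : ∀ v ∈ SubAlg k C', v ∈ Fix (cj k N) D' := by
    intro v hv
    rw [← incl_mem_Fix_iff, hmapD]
    exact fix_of_cent (unlift v hv)
  obtain ⟨x', hx', rfl⟩ := lift x hx
  obtain ⟨y', hy', rfl⟩ := lift y hy
  have htr : ∀ v ∈ SubAlg k C', incl k N (tr (cj k N) D' ⊤ v) =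
      tr (cj k G) D N (incl k N v) := by
    intro v hv
    rw [incl_tr N D' (hfix v hv), hmapD]
  have hinj := incl_injective (k := k) N
  have hxx' : x' * x' = x' := hinj (by rw [map_mul, hxx])
  have hxy' : x' * tr (cj k N) D' ⊤ y' = x' := hinj (by rw [map_mul, htr y' hy', hxy])
  have hx0' : x' ≠ 0 := by
    rintro rfl
    exact hx0 (map_zero _)
  have hC' : ∀ c ∈ C', ∀ d ∈ D', d * c = c * d := by
    intro c hc d hd
    apply Subtype.ext
    have h1 := Subgroup.mem_centralizer_iff.mp (Subgroup.mem_subgroupOf.mp hc)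
    exact h1 _ (Subgroup.mem_subgroupOf.mp hd)
  have hq0 : KP.qmap k D' x' ≠ 0 := fun h =>
    hx0' (ker_idem (Y := D') (hD.comap_of_injective N.subtype N.subtype_injective) hC' hx' hxx' h)
  obtain ⟨vb, hvb, hnil⟩ := exists_not_nilp (qmap_mem D' hy') (qmap_mem D' hx')
    (by rw [← qmap_tr D' (hfix y' hy'), ← map_mul, hxy']) hq0
  obtain ⟨v', hv', rfl⟩ := exists_qmap D' hvb
  refine ⟨incl k N v', unlift v' hv', ?_⟩
  rintro ⟨n, hn⟩
  apply hnil
  refine ⟨n, ?_⟩
  rw [← map_mul, ← qmap_tr D' (hfix _ (Subalgebra.mul_mem _ hx' hv')), ← map_pow]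
  have h1 : tr (cj k N) D' ⊤ (x' * v') ^ n = 0 := by
    apply hinj
    rw [map_pow, htr _ (Subalgebra.mul_mem _ hx' hv'), map_mul, hn, map_zero]
  rw [h1, map_zero]

/-- **The generation lemma.** -/
theorem gen {b a i : MonoidAlgebra k G} (hb : IsBlockOf ⊤ b) {D : Subgroup G}
    (hD : IsPGroup p D) (ha : a ∈ Fix (cj k G) D) (hba : b = tr (cj k G) D ⊤ a)
    (hi : i ∈ Fix (cj k G) D) (hii : i * i = i) (hne : br D (i * b) ≠ 0) :
    ∃ w ∈ Fix (cj k G) D, w * b = w ∧ b = tr (cj k G) D ⊤ (i * w) := by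
  have hbfix : ∀ P : Subgroup G, b ∈ Fix (cj k G) P := fun P => Fix_mono _ le_top hb.mem.2
  have hbc : ∀ z : MonoidAlgebra k G, z * b = b * z := fun z =>
    commute_of_mem (SubAlg_top z) hb.mem.2
  have hib : i * b ∈ Fix (cj k G) D := Subalgebra.mul_mem _ hi (hbfix D)
  have hidem : (i * b) * (i * b) = i * b := by
    rw [mul_assoc, ← mul_assoc b, ← hbc i, mul_assoc i b b, hb.idem.eq, ← mul_assoc, hii]
  obtain ⟨v, hv, hnil⟩ := exists_not_nilp_tr hD (x := br D (i * b)) (y := br D a) (br_mem D _)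
    (br_mem D _) (by rw [← br_mul hD hib hib, hidem])
    (by rw [← br_tr hD ha, ← hba, ← br_mul hD hib (hbfix D), mul_assoc, hb.idem.eq]) hne
  have hvf : v ∈ Fix (cj k G) D := fix_of_cent hv
  have hw : i * b * v ∈ Fix (cj k G) D := Subalgebra.mul_mem _ hib hvf
  set t := tr (cj k G) D ⊤ (i * b * v) with ht
  have htf : t ∈ Fix (cj k G) ⊤ := tr_mem_Fix hw
  have htn : ¬ IsNilpotent t := by
    rintro ⟨n, hn⟩
    apply hnil
    refine ⟨n, ?_⟩
    have h1 : tr (cj k G) D (Subgroup.normalizer (D : Set G)) (br D (i * b) * v) = br D t := by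
      rw [ht, br_tr hD hw, br_mul hD hib hvf, br_self hv]
    rw [h1, ← br_pow hD (Fix_mono _ le_top htf), hn]
    exact br_self (Subalgebra.zero_mem _)
  have hib' : i * b * v * b = i * b * v := by
    rw [mul_assoc, hbc v, ← mul_assoc, mul_assoc i b b, hb.idem.eq]
  have htb : t * b = t := by
    rw [ht, tr_mul (hbfix ⊤), hib']
  have _ := Fintype.ofFinite G
  rcases hb.dichotomy (by exact ZAlg_comm) (x := t) ⟨SubAlg_top _, htf⟩ htb with h | ⟨z, hz, hzb, hz'⟩
  · exact absurd h htn
  · refine ⟨b * v * z, ?_, ?_, ?_⟩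
    · exact Subalgebra.mul_mem _ (Subalgebra.mul_mem _ (hbfix D) hvf)
        (Fix_mono _ le_top hz.2)
    · rw [mul_assoc, hzb]
    · have h1 : i * (b * v * z) = i * b * v * z := by simp only [mul_assoc]
      rw [h1, ← tr_mul hz.2, ← ht, hz']

end Main

end Vale.Agent.P180.R2.H365
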