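import Vale.Agent.P180.R2.H365.Itf
import Vale.Agent.P180.R2.H365.Gen
import Vale.Agent.P180.H768.Defect
import Vale.Agent.P180.R2.H799.Prod
import Vale.Agent.P180.R2.H799.Full
import Vale.Agent.P180.R2.H47.Red

/-!
P180: assembly of the local part.
-/

set_option linter.all false

namespace Vale.Agent.P180.R2.H365

open Vale.Agent.P180 Vale.Agent.P180.H768.Gd Vale.Agent.P180.R2.H47 Vale.Agent.P180.R2.H799

universe u

section Scalar

variable {k : Type*} [Field k] [IsAlgClosed k] {p : ℕ} [Fact p.Prime] [CharP k p]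

/-- central `p'`-elements act on a block by scalars -/
theorem central_smul {G : Type*} [Group G] [Finite G] {b : MonoidAlgebra k G} (hb : IsBlockOf ⊤ b)
    {Z : Subgroup G} (hZ : ∀ z ∈ Z, ∀ g, z * g = g * z) (hp : ¬ p ∣ Nat.card Z) {z : G}
    (hz : z ∈ Z) : ∃ c : k, MonoidAlgebra.single z 1 * b = c • b := by
  have _ := Fintype.ofFinite G
  set s : MonoidAlgebra k G := MonoidAlgebra.single z 1 with hs
  have hsZ : s ∈ ZAlg k (⊤ : Subgroup G) := by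
    refine ⟨SubAlg_top _, fun g _ => ?_⟩
    rw [hs, cj_single, ← hZ z hz g, mul_inv_cancel_right]
  have _ : FiniteDimensional k (MonoidAlgebra k G) :=
    Module.Finite.equiv (MonoidAlgebra.coeffLinearEquiv k (M := G) (S := k)).symm
  have _ : CharP (MonoidAlgebra k G) p :=
    charP_of_injective_algebraMap (algebraMap k (MonoidAlgebra k G)).injective p
  obtain ⟨c, n, hn⟩ := KP.isPrimIn_exists_scalar (by exact ZAlg_comm) hb hsZ
  have hcop : Nat.Coprime p (Nat.card Z) := (Nat.Prime.coprime_iff_not_dvd Fact.out).mpr hp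
  set N := n * Nat.totient (Nat.card Z) with hN
  have hZpos : 0 < Nat.card Z := Nat.card_pos
  have hpow : z ^ (p ^ N) = z := by
    have h1 : p ^ N ≡ 1 [MOD Nat.card Z] := by
      have h2 := (Nat.ModEq.pow_totient hcop).pow n
      rw [one_pow, ← pow_mul, mul_comm] at h2
      exact h2
    have h3 : z ^ Nat.card Z = 1 := by
      have h4 : (⟨z, hz⟩ : Z) ^ Nat.card Z = 1 := pow_card_eq_one'
      exact congrArg Subtype.val h4
    have h5 : p ^ N ≡ 1 [MOD orderOf z] := h1.of_dvd (orderOf_dvd_of_pow_eq_one h3)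
    have h6 := pow_eq_pow_iff_modEq.mpr h5
    rwa [pow_one] at h6
  have hnN : n ≤ p ^ N := by
    have h1 : n ≤ N := Nat.le_mul_of_pos_right n (Nat.totient_pos.mpr hZpos)
    exact h1.trans (Nat.lt_pow_self (Nat.Prime.one_lt Fact.out)).le
  have hcomm : s * b = b * s := ZAlg_comm _ hsZ _ hb.mem
  have hbpow : b ^ (p ^ N) = b := by
    have h1 : p ^ N ≠ 0 := pow_ne_zero _ (Nat.Prime.ne_zero Fact.out)
    obtain ⟨q, hq⟩ := Nat.exists_eq_succ_of_ne_zero h1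
    rw [hq]
    exact hb.idem.pow_succ_eq q
  have h7 : (s * b - c • b) ^ (p ^ N) = 0 := pow_eq_zero_of_le hnN hn
  rw [sub_pow_char_pow_of_commute _ _ (by
    show s * b * (c • b) = (c • b) * (s * b)
    rw [mul_smul_comm, smul_mul_assoc, hcomm, mul_assoc b s b, hcomm]),
    (show Commute s b from hcomm).mul_pow, smul_pow, hbpow, hs, MonoidAlgebra.single_pow, hpow,
    one_pow, sub_eq_zero] at h7
  exact ⟨_, h7⟩

end Scalar

section Prod

variable {k : Type*} [Field k] {G : Type} [Group G]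

theorem emb_range_le (𝒜 : AltStr G) (j : Fin 𝒜.r) : (emb 𝒜 j).range ≤ 𝒜.ι.range := by
  rintro _ ⟨x, rfl⟩
  exact ⟨_, rfl⟩

theorem emb_comm (𝒜 : AltStr G) (i j : Fin 𝒜.r) (hij : i ≠ j) :
    ∀ a ∈ (emb 𝒜 i).range, ∀ b ∈ (emb 𝒜 j).range, a * b = b * a := by
  rintro _ ⟨x, rfl⟩ _ ⟨y, rfl⟩
  have h : Commute (Pi.mulSingle i x : ∀ j, alternatingGroup (Fin (𝒜.N j))) (Pi.mulSingle j y) :=
    Pi.mulSingle_commute (f := fun j => alternatingGroup (Fin (𝒜.N j))) hij x y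
  have h1 := congrArg 𝒜.ι h.eq
  rw [map_mul, map_mul] at h1
  exact h1

theorem up_mem (𝒜 : AltStr G) (j : Fin 𝒜.r)
    (a : MonoidAlgebra k (alternatingGroup (Fin (𝒜.N j)))) :
    up k 𝒜 j a ∈ SubAlg k (emb 𝒜 j).range := by
  induction a using MonoidAlgebra.induction_linear with
  | zero => rw [map_zero]; exact Subalgebra.zero_mem _
  | add a b ha hb => rw [map_add]; exact Subalgebra.add_mem _ ha hb
  | single x r =>
    have : up k 𝒜 j (MonoidAlgebra.single x r) = MonoidAlgebra.single (emb 𝒜 j x) r := by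
      simp [up]
    rw [this]
    exact single_mem_SubAlg (MonoidHom.mem_range.mpr ⟨x, rfl⟩) r

theorem pr_mem (𝒜 : AltStr G) (f : ∀ j, MonoidAlgebra k (alternatingGroup (Fin (𝒜.N j)))) :
    pr 𝒜 f ∈ SubAlg k 𝒜.ι.range := by
  unfold pr
  refine Subalgebra.list_prod_mem _ ?_
  intro x hx
  obtain ⟨j, -, rfl⟩ := List.mem_map.mp hx
  exact SubAlg_mono (emb_range_le 𝒜 j) (up_mem 𝒜 j _)

theorem pr_idem [Finite G] (𝒜 : AltStr G)
    {f : ∀ j, MonoidAlgebra k (alternatingGroup (Fin (𝒜.N j)))} (hf : ∀ j, f j * f j = f j) :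
    pr 𝒜 f * pr 𝒜 f = pr 𝒜 f :=
  (finrank_NN_list (fun j => (emb 𝒜 j).range) (emb_comm 𝒜) (fun j => up k 𝒜 j (f j))
    (fun j => by rw [← map_mul, hf]) (fun j => up_mem 𝒜 j _) _ (List.nodup_finRange _)).1

end Prod

section Loc

variable (k : Type u) [Field k] [IsAlgClosed k] (p : ℕ) [Fact p.Prime] [CharP k p]

/-- interface R4 + R5 -/
def I1 (n M : ℕ) : Prop :=
  ∀ (G : Type) [Group G] [Finite G] (𝒜 : AltStr G) (D : Subgroup G) (b a : MonoidAlgebra k G),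
    (∀ j, 7 ≤ 𝒜.N j) → Function.Injective 𝒜.ι →
    𝒜.ρ.ker = Subgroup.centralizer (𝒜.ι.range : Set G) → IsBlockOf ⊤ b → IsPGroup p D →
    Nat.card D ≤ n → a ∈ Fix (cj k G) D → b = tr (cj k G) D ⊤ a → br D b ≠ 0 →
    ∃ (F : ∀ j, Finset (Fin (𝒜.N j)))
      (f : ∀ j, MonoidAlgebra k (alternatingGroup (Fin (𝒜.N j)))),
      (∀ j, (F j)ᶜ.card ≤ M) ∧ FixF 𝒜 D F ∧ (∀ j, OneF (F j) (f j)) ∧
      pr 𝒜 f ∈ Fix (cj k G) D ∧ br D (pr 𝒜 f * b) ≠ 0

/-- interface R7b -/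
def I3 (CC : ℕ → ℕ → ℕ) : Prop :=
  ∀ (G : Type) [Group G] [Finite G] (𝒜 : AltStr G) (Q : Subgroup G) (e z : MonoidAlgebra k G)
    (F : ∀ j, Finset (Fin (𝒜.N j))) (f : ∀ j, MonoidAlgebra k (alternatingGroup (Fin (𝒜.N j)))),
    Function.Injective 𝒜.ι → Q ≤ 𝒜.ι.range → IsPGroup p Q → IsBlockOf 𝒜.ι.range e →
    z ∈ SubAlg k 𝒜.ι.range → z ∈ Fix (cj k G) Q → e = tr (cj k G) Q 𝒜.ι.range z →
    FixF 𝒜 Q F → (∀ j, OneF (F j) (f j)) → br Q (pr 𝒜 f * e) ≠ 0 →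
    Module.finrank k (NN (SubAlg k 𝒜.ι.range) (e * pr 𝒜 f) (e * pr 𝒜 f)) ≤
      ∏ j, CC (Nat.card Q) (F j)ᶜ.card

/-- interface fullness -/
def I4 : Prop :=
  ∀ (G : Type) [Group G] [Finite G] (X : Subgroup G) [X.Normal] (D : Subgroup G)
    (b a e f : MonoidAlgebra k G), IsBlockOf ⊤ b → IsPGroup p D → a ∈ Fix (cj k G) D →
    b = tr (cj k G) D ⊤ a → IsBlockOf X e → e ∈ Fix (cj k G) ⊤ → e * b = b →
    f ∈ Fix (cj k G) D → f ∈ SubAlg k X → f * f = f → br D (f * b) ≠ 0 →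
    br (X ⊓ D) (f * e) ≠ 0 ∧ ∃ w ∈ SubAlg k X, w ∈ Fix (cj k G) (X ⊓ D) ∧
      e = tr (cj k G) (X ⊓ D) X (f * w)

variable {k p}

theorem full_of_tr {G : Type} [Group G] [Finite G] {X Q : Subgroup G} (hQ : Q ≤ X)
    {e f w : MonoidAlgebra k G} (hw : w ∈ SubAlg k X)
    (he : e = tr (cj k G) Q X (f * w)) :
    e ∈ Submodule.span k {z | ∃ x ∈ SubAlg k X, ∃ y ∈ SubAlg k X, z = x * f * y} := by
  have _ := Fintype.ofFinite (X ⧸ Q.subgroupOf X)
  rw [he, tr_def]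
  refine Submodule.sum_mem _ fun q _ => ?_
  rw [cj_eq]
  refine Submodule.subset_span ⟨MonoidAlgebra.single ((q.out : X) : G) 1,
    single_mem_SubAlg q.out.2 1, w * MonoidAlgebra.single ((q.out : X) : G)⁻¹ 1,
    Subalgebra.mul_mem _ hw (single_mem_SubAlg (X.inv_mem q.out.2) 1), ?_⟩
  simp only [mul_assoc]

theorem i4 : I4 k p := by
  intro G _ _ X _ D b a e f hb hD ha hba he heT heb hfD hfX hff hne
  have hbF : b ∈ Fix (cj k G) ⊤ := hb.mem.2
  obtain ⟨w, hw, hwF, -, h⟩ :=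
    exists_full_tr hD he heT hb.idem heb ha hba hfX hfD hff hne
  exact ⟨br_inf_ne_zero hD heT hbF heb hfD hne, w, hw, hwF, h⟩

/-- **The local theorem.** -/
theorem loc_aux {n M β : ℕ} {CC : ℕ → ℕ → ℕ} (h1 : I1 k p n M) (h3 : I3 k p CC)
    {G : Type} [Group G] [Finite G] (𝒜 : AltStr G) (hr : 𝒜.r ≤ n) (h7 : ∀ j, 7 ≤ 𝒜.N j)
    (hinj : Function.Injective 𝒜.ι)
    (hker : 𝒜.ρ.ker = Subgroup.centralizer (𝒜.ι.range : Set G)) {Z : Subgroup G}
    (hZ : ∀ z ∈ Z, ∀ g, z * g = g * z) (hZp : ¬ p ∣ Nat.card Z)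
    (hidx : (Z ⊔ 𝒜.ι.range).index ≤ β) {b a : MonoidAlgebra k G} (hb : IsBlock b)
    {D : Subgroup G} (hD : IsPGroup p D) (hDn : Nat.card D ≤ n) (ha : a ∈ Fix (cj k G) D)
    (hba : b = tr (cj k G) D ⊤ a) (hST : STab b) :
    ∃ (P : Subgroup G) (i : MonoidAlgebra k G) (hi : IsIdempotentElem i), P ≤ D ∧
      i ∈ Fix (cj k G) P ∧ b * i = i ∧
      (∃ w ∈ Fix (cj k G) P, b = tr (cj k G) P ⊤ (i * w)) ∧
      Module.finrank k hi.Corner ≤
        β * ((∏ _j : Fin 𝒜.r, (Finset.range (n + 1)).sup fun s =>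
          (Finset.range (M + 1)).sup (CC s)) ^ 2) := by
  have hbl : IsBlockOf ⊤ b := isBlock_iff.mp hb
  obtain ⟨P, hPD, a', ha', hba', c, hc, hc0⟩ := exists_min_defect hbl ha hba
  have hP : IsPGroup p P := hD.to_le hPD
  have hPn : Nat.card P ≤ n := (Nat.card_le_card_of_injective _
    (Subgroup.inclusion_injective hPD)).trans hDn
  have hbr : br P b ≠ 0 := by
    classical
    intro h0
    apply hc0
    have h2 := br_coeff P b c
    rw [h0, if_pos (mem_cent.mpr hc)] at h2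
    rw [← h2]
    rfl
  obtain ⟨F, f, hFM, hFF, hf1, hfP, hfb⟩ := h1 G 𝒜 P b a' h7 hinj hker hbl hP hPn ha' hba' hbr
  set X := 𝒜.ι.range with hX
  have hXn : X.Normal := 𝒜.nrm
  have hff : pr 𝒜 f * pr 𝒜 f = pr 𝒜 f := pr_idem 𝒜 fun j => (hf1 j).2.1
  have hbc : ∀ z : MonoidAlgebra k G, z * b = b * z := fun z =>
    commute_of_mem (SubAlg_top z) hbl.mem.2
  have hbF : ∀ S : Subgroup G, b ∈ Fix (cj k G) S := fun S => Fix_mono _ le_top hbl.mem.2
  have _ : FiniteDimensional k (MonoidAlgebra k G) :=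
    Module.Finite.equiv (MonoidAlgebra.coeffLinearEquiv k (M := G) (S := k)).symm
  -- the block of `kX`
  obtain ⟨e, he, hbe⟩ := exists_isPrimIn (ZAlg k X) (by exact ZAlg_comm) hbl.ne_zero
  have heg : ∀ g, cj k G g e = e := hST X hXn e he hbe
  have heT : e ∈ Fix (cj k G) ⊤ := fun g _ => heg g
  have heb : e * b = b := by
    have h2 : b * e = e * b := (hbc e).symm
    rcases hbl.primitive (b * e) (Subalgebra.mul_mem _ hbl.mem ⟨SubAlg_top _, heT⟩)
      (by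
        change b * e * (b * e) = b * e
        rw [mul_assoc, ← mul_assoc e, ← h2, mul_assoc b e e, he.idem.eq, ← mul_assoc,
          hbl.idem.eq])
      (by rw [mul_assoc, ← h2, ← mul_assoc, hbl.idem.eq]) with h | h
    · exact absurd h hbe
    · rw [← h2, h]
  obtain ⟨hbre, w, hw, hwF, hew⟩ := i4 G X P b a' e (pr 𝒜 f) hbl hP ha' hba' he heT heb hfP
    (pr_mem 𝒜 f) hff hfb
  have hQP : X ⊓ P ≤ P := inf_le_right
  have hQF : FixF 𝒜 (X ⊓ P) F := fun g hg => hFF g hg.2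
  have hQn : Nat.card (X ⊓ P : Subgroup G) ≤ n := (Nat.card_le_card_of_injective _
    (Subgroup.inclusion_injective hQP)).trans hPn
  have hdim := h3 G 𝒜 (X ⊓ P) e (pr 𝒜 f * w) F f hinj inf_le_left (hP.to_le hQP) he
    (Subalgebra.mul_mem _ (pr_mem 𝒜 f) hw) (Subalgebra.mul_mem _ (Fix_mono _ hQP hfP) hwF) hew
    hQF hf1 hbre
  obtain ⟨w', hw'F, hw'b, hbw'⟩ := gen hbl hP ha' hba' hfP hff hfb
  have hi : IsIdempotentElem (b * pr 𝒜 f) := by
    change b * pr 𝒜 f * (b * pr 𝒜 f) = b * pr 𝒜 f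
    rw [mul_assoc, ← mul_assoc (pr 𝒜 f), hbc, mul_assoc b (pr 𝒜 f), hff, ← mul_assoc,
      hbl.idem.eq]
  refine ⟨P, b * pr 𝒜 f, hi, hPD, Subalgebra.mul_mem _ (hbF P) hfP, ?_, ⟨w', hw'F, ?_⟩, ?_⟩
  · rw [← mul_assoc, hbl.idem.eq]
  · rw [mul_assoc, ← hbc, mul_assoc, hw'b]
    exact hbw'
  · have hle : Module.finrank k (NN (SubAlg k X) (e * pr 𝒜 f) (e * pr 𝒜 f)) ≤
        ∏ _j : Fin 𝒜.r, (Finset.range (n + 1)).sup fun s => (Finset.range (M + 1)).sup (CC s) := by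
      refine hdim.trans (Finset.prod_le_prod' fun j _ => ?_)
      have h5 : CC (Nat.card (X ⊓ P : Subgroup G)) (F j)ᶜ.card ≤
          (Finset.range (M + 1)).sup (CC (Nat.card (X ⊓ P : Subgroup G))) :=
        Finset.le_sup (f := CC (Nat.card (X ⊓ P : Subgroup G)))
          (Finset.mem_range.mpr (Nat.lt_succ_of_le (hFM j)))
      exact h5.trans (Finset.le_sup
        (f := fun s => (Finset.range (M + 1)).sup (CC s))
        (Finset.mem_range.mpr (Nat.lt_succ_of_le hQn)))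
    have h6 := finrank_corner_le hbl.idem.eq hbl.mem
      (fun z hz => central_smul hbl hZ hZp hz) hidx he.idem.eq he.mem heT heb hff
      (pr_mem 𝒜 f) (full_of_tr inf_le_left hw hew) hle hi
    rw [sq]
    exact h6

end Loc

end Vale.Agent.P180.R2.H365
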