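import Vale.Agent.P180.R2.H365.Def5

/-!
P180: definitions for the reduction theorem on arbitrary finite groups, general form.
-/

namespace Vale.Agent.P180.R2.H365

open Vale.Agent.P180

universe u

section Def

variable {k : Type u} [Field k] {G : Type} [Group G]

/-- Let `D`, `L` be subgroups of `G`, `R = N_D(L)` and `b` a block of `kG`. There is a block `f` of
`kL` with `f b = b` such that the block algebra `kLf` contains an idempotent `i` which is centralised
by `R`, whose image under the Brauer homomorphism `Br_R` is not zero, and with `dim (i kL i) ≤ m`.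
(If `R` is a defect group of the block `f` of `k[LR]` this says that its source algebras have
dimension at most `m |R : R ∩ L|`.) -/
def HasSmallSource (m : ℕ) (b : MonoidAlgebra k G) (D L : Subgroup G) : Prop :=
  ∃ (f i : MonoidAlgebra k L) (hi : IsIdempotentElem i), IsBlockR f ∧ embN L f * b = b ∧
    f * i = i ∧
    (∀ r ∈ D ⊓ Subgroup.normalizer (L : Set G),
      MonoidAlgebra.single r 1 * embN L i = embN L i * MonoidAlgebra.single r 1) ∧
    (∃ x : L, (∀ r ∈ D ⊓ Subgroup.normalizer (L : Set G), r * x = x * r) ∧ i.coeff x ≠ 0) ∧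
    Module.finrank k hi.Corner ≤ m

/-- `b` is a reduced block of `kG` with a defect group `D` of order at most `n`, and `G` has a
component `L` such that `p` divides the order of `L / Z(L)`, `D ∩ L` is not contained in `Z(L)` and
`Exc k G b D L` holds. -/
def IsCriticalR [Finite G]
    (Exc : ∀ (k : Type u) [Field k] (G : Type) [Group G] [Finite G],
      MonoidAlgebra k G → Subgroup G → Subgroup G → Prop) (p n : ℕ)
    (b : MonoidAlgebra k G) : Prop :=
  IsReduced p b ∧ ∃ D : Subgroup G, IsDefectGroupR b D ∧ IsPGroup p D ∧ Nat.card D ≤ n ∧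
    ∃ L : Subgroup G, IsComponent L ∧ p ∣ Nat.card (L ⧸ Subgroup.center L) ∧
      (∃ x ∈ D, x ∈ L ∧ ¬ ∀ y ∈ L, x * y = y * x) ∧ Exc k G b D L

end Def

/-- The component `L` of the group `G` with the block `b` and the `p`-subgroup `D` is exceptional:
`L / Z(L)` has order greater than `m`; `L / Z(L)` is not an alternating group; `L / Z(L)` is not of
local characteristic `p` up to order `n` (or, for odd `p`, it is, with Sylow `p`-subgroups of order
at most `n`); and either `|N_G(L) : L C_G(L)| > m`, or the block of `kL` below `b` has no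
idempotent `i` with `dim (i kL i) ≤ m` as in `HasSmallSource` and (`D ∩ L` is not cyclic or some
element of `N_D(L)` induces an outer automorphism of `L`). -/
def ExcD (p n m : ℕ) (k : Type u) [Field k] (G : Type) [Group G] [Finite G]
    (b : MonoidAlgebra k G) (D L : Subgroup G) : Prop :=
  m < Nat.card (L ⧸ Subgroup.center L) ∧
  ¬ (∃ d : ℕ, Nonempty (L ⧸ Subgroup.center L ≃* alternatingGroup (Fin d))) ∧
  ¬ (IsLocalChar p n (L ⧸ Subgroup.center L) ∧
    (p = 2 ∨ ∀ P : Sylow p (L ⧸ Subgroup.center L), n < Nat.card P)) ∧
  (m < (L ⊔ Subgroup.centralizer (L : Set G)).relIndex (Subgroup.normalizer (L : Set G)) ∨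
    (¬ HasSmallSource m b D L ∧ ¬ (IsCyclic (D ⊓ L : Subgroup G) ∧
      D ⊓ Subgroup.normalizer (L : Set G) ≤ L ⊔ Subgroup.centralizer (L : Set G))))

end Vale.Agent.P180.R2.H365
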