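import Vale.Agent.P180.R2.H365.Fin5
import Vale.Agent.P180.R2.H365.Def6

/-!
P180: the final assembly for arbitrary finite groups, relative to a class of blocks with finitely
many Morita equivalence classes.
-/

set_option linter.all false

namespace Vale.Agent.P180.R2.H365

open IsLocalRing
open Vale.Agent.P180 Vale.Agent.P180.H768.Gd Vale.Agent.P180.R2.H47 Vale.Agent.P180.R2.H259
open Vale.Agent.P180.I (EO rd Lf isBlock_rd isBlockR_of_lf exists_trace_rd isBlockR_iff exists_lf)
open Vale.Agent.P180.H768 hiding pull mem_pull exists_factor Lay mk_mem comm_mem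

open scoped Nat

universe u

/-- The blocks with the property `Λ` lie in finitely many Morita equivalence classes, over `k` and
over `O`, uniformly. -/
def Uni (p : ℕ) (Λ : ∀ (k : Type u) [Field k] (G : Type) [Group G] [Finite G],
    MonoidAlgebra k G → Prop) : Prop :=
  ∃ (r : ℕ) (H : Fin r → Type) (_ : ∀ i, Group (H i)) (_ : ∀ i, Finite (H i)),
    (∀ (k : Type u) [Field k] [IsAlgClosed k] [CharP k p],
      ∃ (c : ∀ i, MonoidAlgebra k (H i)) (hc : ∀ i, IsBlockR (c i)),
        ∀ (G : Type) [Group G] [Finite G] (b : MonoidAlgebra k G) (hb : IsBlockR b),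
          Λ k G b → ∃ i, IsMoritaEquivalent k hb.Alg (hc i).Alg) ∧
    (∀ (O : Type u) [CommRing O] [IsDomain O] [IsDiscreteValuationRing O]
      [IsAdicComplete (maximalIdeal O) O] [IsAlgClosed (ResidueField O)]
      [CharP (ResidueField O) p],
      ∃ (C : ∀ i, MonoidAlgebra O (H i)) (hC : ∀ i, IsBlockR (C i)),
        ∀ (G : Type) [Group G] [Finite G] (B : MonoidAlgebra O G) (hB : IsBlockR B),
          Λ (ResidueField O) G (MonoidAlgebra.mapRingHom G (residue O) B) →
            ∃ i, IsMoritaEquivalent O hB.Alg (hC i).Alg)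

/-- a small corner -/
def SmallC (n C : ℕ) (k : Type u) [Field k] (G : Type) [Group G] [Finite G]
    (b : MonoidAlgebra k G) : Prop :=
  ∃ (P : Subgroup G) (i : MonoidAlgebra k G) (hi : IsIdempotentElem i), Nat.card P ≤ n ∧
    i ∈ Fix (cj k G) P ∧ b * i = i ∧
    (∃ (m : ℕ) (u v : Fin m → MonoidAlgebra k G), (∀ l, u l ∈ Fix (cj k G) P) ∧
      (∀ l, v l ∈ Fix (cj k G) P) ∧ b = tr (cj k G) P ⊤ (∑ l, u l * i * v l)) ∧
    Module.finrank k hi.Corner ≤ C

theorem uni_small (p : ℕ) [Fact p.Prime] (n C : ℕ) : Uni.{u} p (SmallC n C) := by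
  obtain ⟨r, H, iG, iF, h1, h2⟩ := unif.{u} p (max n C)
  refine ⟨r, H, iG, iF, ?_, ?_⟩
  · intro k _ _ _
    obtain ⟨c, hc, h⟩ := h1 k
    refine ⟨c, hc, ?_⟩
    rintro G _ _ b hb ⟨R, i, hi, hR, hiR, hbi, ⟨m, u, v, hu, hv, huv⟩, hfr⟩
    exact h G b hb R i hi (hR.trans (le_max_left _ _)) (comm_of_fix hiR) hbi
      (gen_of_tr hiR u v hu hv huv) (hfr.trans (le_max_right _ _))
  · intro O _ _ _ _ _ _
    obtain ⟨c, hc, h⟩ := h2 O
    refine ⟨c, hc, ?_⟩
    rintro G _ _ B hB ⟨R, i, hi, hR, hiR, hbi, ⟨m, u, v, hu, hv, huv⟩, hfr⟩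
    exact h G B hB R i hi (hR.trans (le_max_left _ _)) (comm_of_fix hiR) hbi
      (gen_of_tr hiR u v hu hv huv) (hfr.trans (le_max_right _ _))

variable {Exc : ∀ (k : Type u) [Field k] (G : Type) [Group G] [Finite G],
    MonoidAlgebra k G → Subgroup G → Subgroup G → Prop}
  {Λ : ∀ (k : Type u) [Field k] (G : Type) [Group G] [Finite G], MonoidAlgebra k G → Prop}
  {p n : ℕ} [Fact p.Prime]

/-- Reduced blocks that are not critical have the property `Λ`. -/
def LocL (Exc : ∀ (k : Type u) [Field k] (G : Type) [Group G] [Finite G],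
      MonoidAlgebra k G → Subgroup G → Subgroup G → Prop)
    (Λ : ∀ (k : Type u) [Field k] (G : Type) [Group G] [Finite G], MonoidAlgebra k G → Prop)
    (k : Type u) [Field k] (p n : ℕ) : Prop :=
  ∀ (G : Type) [Group G] [Finite G] (Z D : Subgroup G) (a b : MonoidAlgebra k G),
    Rs p n Z D a b → STab b → NRed p Z ⊤ b → IsDefectGroupR b D →
    (∃ L : Subgroup G, IsComponent L ∧ p ∣ Nat.card (L ⧸ Subgroup.center L) ∧
      (∃ x ∈ D, x ∈ L ∧ ¬ ∀ y ∈ L, x * y = y * x) ∧ Exc k G b D L) ∨ Λ k G b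

theorem final6 (hU : Uni.{u} p Λ)
    (hloc : ∀ (k : Type u) [Field k] [IsAlgClosed k] [CharP k p], LocL Exc Λ k p n) :
    ∃ (r : ℕ) (H : Fin r → Type) (_ : ∀ i, Group (H i)) (_ : ∀ i, Finite (H i)),
      (∀ (k : Type u) [Field k] [IsAlgClosed k] [CharP k p],
        ∃ (c : ∀ i, MonoidAlgebra k (H i)) (hc : ∀ i, IsBlockR (c i)),
          ∀ (G : Type) [Group G] [Finite G] (b : MonoidAlgebra k G) (hb : IsBlockR b)
            (D : Subgroup G), IsDefectGroupR b D → Nat.card D ≤ n →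
            (∃ i, IsMoritaEquivalent k hb.Alg (hc i).Alg) ∨
            ∃ (G' : Type) (_ : Group G') (_ : Finite G') (b' : MonoidAlgebra k G')
              (hb' : IsBlockR b'), IsMoritaEquivalent k hb.Alg hb'.Alg ∧
              IsCriticalR Exc p (Nat.card D) b') ∧
      (∀ (O : Type u) [CommRing O] [IsDomain O] [IsDiscreteValuationRing O]
        [IsAdicComplete (maximalIdeal O) O] [IsAlgClosed (ResidueField O)]
        [CharP (ResidueField O) p],
        ∃ (C : ∀ i, MonoidAlgebra O (H i)) (hC : ∀ i, IsBlockR (C i)),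
          ∀ (G : Type) [Group G] [Finite G] (B : MonoidAlgebra O G) (hB : IsBlockR B)
            (D : Subgroup G),
            (IsDefectGroupR B D ∨
              IsDefectGroupR (MonoidAlgebra.mapRingHom G (residue O) B) D) → Nat.card D ≤ n →
            (∃ i, IsMoritaEquivalent O hB.Alg (hC i).Alg) ∨
            ∃ (G' : Type) (_ : Group G') (_ : Finite G') (B' : MonoidAlgebra O G')
              (hB' : IsBlockR B'), IsMoritaEquivalent O hB.Alg hB'.Alg ∧
              IsCriticalR Exc p (Nat.card D) (MonoidAlgebra.mapRingHom G' (residue O) B')) := by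
  obtain ⟨r, H, iG, iF, h1, h2⟩ := hU
  refine ⟨r, H, iG, iF, ?_, ?_⟩
  · intro k _ _ _
    obtain ⟨c, hc, h⟩ := h1 k
    refine ⟨c, hc, ?_⟩
    intro G _ _ b hb D hD hn
    have hb0 : IsBlock b := isBlockR_iff.mp hb
    obtain ⟨a, ha, hba⟩ := exists_trace hb0 (hb0.isSummand hD.prop)
    obtain ⟨P, hPD, hP, a', ha', hba'⟩ := exists_sylow_trace (p := p) ha hba
    have hPn : Nat.card P ≤ Nat.card D :=
      Nat.card_le_card_of_injective _ (Subgroup.inclusion_injective hPD)
    obtain ⟨n', hn'⟩ : ∃ n', n' = Nat.card D := ⟨_, rfl⟩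
    rw [← hn'] at hPn hn ⊢
    let Φ : ∀ (G : Type) [Group G] [Finite G], MonoidAlgebra k G → Prop := fun G _ _ b =>
      (∀ hb : IsBlockR b, ∃ i, IsMoritaEquivalent k hb.Alg (hc i).Alg) ∨ IsCriticalR Exc p n' b
    have hP5 := reduce_all (n := n') (clo_field' k p Φ) (by
      intro G _ _ Z D a b hs hST hNR hb
      refine ⟨G, inferInstance, inferInstance, b, hb, ?_, IsMoritaEquivalent.refl k _⟩
      obtain ⟨D', hD', hDD'⟩ := exists_defect hb hs.ha hs.hba
      obtain ⟨a', ha', hba'⟩ := exists_trace hb (hb.isSummand hDD'.prop)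
      have hD'n : Nat.card D' ≤ n' := (Nat.card_le_card_of_injective _
        (Subgroup.inclusion_injective hD')).trans hs.Dn
      have hs' : Rs p n Z D' a' b :=
        { Dp := hs.Dp.to_le hD'
          Zc := hs.Zc
          Zp := hs.Zp
          hb := hb
          ha := ha'
          hba := hba'
          Dn := hD'n.trans hn }
      rcases hloc k G Z D' a' b hs' hST hNR hDD' with hL | hΛ
      · right
        exact ⟨isReduced_of hs.Zc hs.Zp hST hNR, D', hDD', hs'.Dp, hD'n, hL⟩
      · left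
        intro hbR
        exact h G b hbR hΛ) G P hP hPn a' b hb0 ha' hba'
    obtain ⟨G', iG', fG', b', hb', hΦ, hM⟩ := hP5 hb0
    rcases hΦ with h3 | h3
    · left
      obtain ⟨i, hi⟩ := h3 (isBlockR_iff.mpr hb')
      exact ⟨i, IsMoritaEquivalent.trans k hM hi⟩
    · right
      exact ⟨G', iG', fG', b', isBlockR_iff.mpr hb', hM, h3⟩
  · intro O _ _ _ _ _ _
    obtain ⟨c, hc, h⟩ := h2 O
    refine ⟨c, hc, ?_⟩
    intro G _ _ B hB D hD hn
    obtain ⟨hb0, hlf⟩ := isBlock_rd hB
    obtain ⟨a, ha, hba⟩ : ∃ a ∈ Fix (cj (ResidueField O) G) D,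
        rd B = tr (cj (ResidueField O) G) D ⊤ a := by
      rcases hD with h | h
      · exact exists_trace_rd hB h.prop
      · exact exists_trace hb0 (hb0.isSummand h.prop)
    obtain ⟨P, hPD, hP, a', ha', hba'⟩ := exists_sylow_trace (p := p) ha hba
    have hPn : Nat.card P ≤ Nat.card D :=
      Nat.card_le_card_of_injective _ (Subgroup.inclusion_injective hPD)
    obtain ⟨n', hn'⟩ : ∃ n', n' = Nat.card D := ⟨_, rfl⟩
    rw [← hn'] at hPn hn ⊢
    let Φ : ∀ (G : Type) [Group G] [Finite G], MonoidAlgebra (ResidueField O) G → Prop :=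
      fun G _ _ b => IsBlock b ∧ ((∃ i, EO O b (rd (c i))) ∨ IsCriticalR Exc p n' b)
    have hP5 := reduce_all (n := n') (clo_integral' O p Φ) (by
      intro G _ _ Z D a b hs hST hNR
      have hb := hs.hb
      obtain ⟨B₁, hB₁⟩ := exists_lf (O := O) (b := b)
        (fun x => (Subalgebra.mem_center_iff.mp hb.central) x) hb.idem
      have hB₁R : IsBlockR B₁ := isBlockR_of_lf hb hB₁
      have hrd : rd B₁ = b := hB₁.rd_eq
      refine ⟨G, inferInstance, inferInstance, b, ⟨hb, ?_⟩,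
        ⟨B₁, B₁, hB₁, hB₁, IsMoritaEquivalent.refl O _⟩⟩
      obtain ⟨D', hD', hDD'⟩ := exists_defect hb hs.ha hs.hba
      obtain ⟨a', ha', hba'⟩ := exists_trace hb (hb.isSummand hDD'.prop)
      have hD'n : Nat.card D' ≤ n' := (Nat.card_le_card_of_injective _
        (Subgroup.inclusion_injective hD')).trans hs.Dn
      have hs' : Rs p n Z D' a' b :=
        { Dp := hs.Dp.to_le hD'
          Zc := hs.Zc
          Zp := hs.Zp
          hb := hb
          ha := ha'
          hba := hba'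
          Dn := hD'n.trans hn }
      rcases hloc (ResidueField O) G Z D' a' b hs' hST hNR hDD' with hL | hΛ
      · right
        exact ⟨isReduced_of hs.Zc hs.Zp hST hNR, D', hDD', hs'.Dp, hD'n, hL⟩
      · left
        obtain ⟨t, ht'⟩ := h G B₁ hB₁R (by
          have h4 : MonoidAlgebra.mapRingHom G (residue O) B₁ = b := hrd
          rw [h4]
          exact hΛ)
        exact ⟨t, B₁, c t, hB₁, (isBlock_rd (hc t)).2, ht'⟩) G P hP hPn a' (rd B) hb0 ha' hba'
    obtain ⟨G', iG', fG', b', ⟨hb', hΦ⟩, B₂, C₂, hB₂, hC₂, hM⟩ := hP5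
    obtain rfl := hB₂.unique hlf
    rcases hΦ with ⟨i, B₃, C₃, hB₃, hC₃, hM₃⟩ | h3
    · left
      obtain rfl := hB₃.unique hC₂
      obtain rfl := hC₃.unique (isBlock_rd (hc i)).2
      exact ⟨i, IsMoritaEquivalent.trans O hM hM₃⟩
    · right
      refine ⟨G', iG', fG', C₂, isBlockR_of_lf hb' hC₂, hM, ?_⟩
      have h4 : MonoidAlgebra.mapRingHom G' (residue O) C₂ = b' := hC₂.rd_eq
      rw [h4]
      exact h3

end Vale.Agent.P180.R2.H365
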