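import Vale.Agent.P180.R2.H365.Gen
import Vale.Agent.P180.R2.H799.Chain
import Vale.Agent.P180.R2.H954.LocCP

/-!
P180: the corner property from one idempotent that is not killed by the Brauer homomorphism.
-/

set_option linter.all false

namespace Vale.Agent.P180.R2.H365.Src

open Vale.Agent.P180 Vale.Agent.P180.H768.Gd Vale.Agent.P180.R2.H365 Vale.Agent.P180.R2.H799
  Vale.Agent.P180.R2.H12

section

variable {k : Type*} [Field k] {p : ℕ} [Fact p.Prime] [CharP k p]
variable {G : Type*} [Group G] [Finite G]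

/-- Local version of the generation lemma, for elements of `kC`, `C ≤ C_G(D)`. -/
theorem exists_not_nilp_trK {D C : Subgroup G} (hD : IsPGroup p D)
    (hCD : C ≤ Subgroup.centralizer (D : Set G)) {x y : MonoidAlgebra k G}
    (hx : x ∈ SubAlg k C)
    (hy : y ∈ SubAlg k C) (hxx : x * x = x)
    (hxy : x * tr (cj k G) D (Subgroup.normalizer (D : Set G)) y = x) (hx0 : x ≠ 0) :
    ∃ v ∈ SubAlg k C,
      ¬ IsNilpotent (tr (cj k G) D (Subgroup.normalizer (D : Set G)) (x * v)) := by
  classical
  set N := Subgroup.normalizer (D : Set G) with hN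
  have hDN : D ≤ N := Subgroup.le_normalizer
  have hCN : C ≤ N := by
    intro c hc
    rw [hN, Subgroup.mem_normalizer_iff]
    intro d
    have hc := Subgroup.mem_centralizer_iff.mp (hCD hc)
    constructor
    · intro hd
      rw [← hc d hd, mul_inv_cancel_right]
      exact hd
    · intro hd
      have h1 := hc _ hd
      have h2 : d = c⁻¹ * (c * d * c⁻¹) * c := by group
      rw [h2, mul_assoc, h1, inv_mul_cancel_left]
      exact hd
  let D' : Subgroup N := D.subgroupOf N
  let C' : Subgroup N := C.subgroupOf N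
  have hD'n : D'.Normal := by
    rw [hN] at *
    exact Subgroup.normal_in_normalizer
  have hmapD : D'.map N.subtype = D := by
    rw [Subgroup.subgroupOf_map_subtype, inf_eq_left.mpr hDN]
  have _ := Fintype.ofFinite (N ⧸ D')
  -- transport of elements
  have lift : ∀ v ∈ SubAlg k C, ∃ v' ∈ SubAlg k C', incl k N v' = v := by
    intro v hv
    refine SuppIn.induction (P := fun v => ∃ v' ∈ SubAlg k C', incl k N v' = v) hv ?_ ?_ ?_
    · exact ⟨0, Subalgebra.zero_mem _, map_zero _⟩
    · rintro x y ⟨x', hx', rfl⟩ ⟨y', hy', rfl⟩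
      exact ⟨x' + y', Subalgebra.add_mem _ hx' hy', map_add _ _ _⟩
    · intro c hc r
      refine ⟨r • MonoidAlgebra.single ⟨c, hCN hc⟩ 1, Subalgebra.smul_mem _
        (single_mem_SubAlg (Subgroup.mem_subgroupOf.mpr hc) 1) r, ?_⟩
      rw [map_smul, incl_single]
  have unlift : ∀ v ∈ SubAlg k C', incl k N v ∈ SubAlg k C := by
    intro v hv
    refine SuppIn.induction (P := fun v => incl k N v ∈ SubAlg k C) hv ?_ ?_ ?_
    · rw [map_zero]; exact Subalgebra.zero_mem _
    · intro x y hx hy
      rw [map_add]; exact Subalgebra.add_mem _ hx hy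
    · intro c hc r
      rw [map_smul, incl_single]
      exact Subalgebra.smul_mem _ (single_mem_SubAlg (Subgroup.mem_subgroupOf.mp hc) 1) r
  have hfix : ∀ v ∈ SubAlg k C', v ∈ Fix (cj k N) D' := by
    intro v hv
    rw [← incl_mem_Fix_iff, hmapD]
    exact fix_of_cent (SubAlg_mono hCD (unlift v hv))
  obtain ⟨x', hx', rfl⟩ := lift x hx
  obtain ⟨y', hy', rfl⟩ := lift y hy
  have htr : ∀ v ∈ SubAlg k C', incl k N (tr (cj k N) D' ⊤ v) =
      tr (cj k G) D N (incl k N v) := by
    intro v hv
    rw [incl_tr N D' (hfix v hv), hmapD]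
  have hinj := incl_injective (k := k) N
  have hxx' : x' * x' = x' := hinj (by rw [map_mul, hxx])
  have hxy' : x' * tr (cj k N) D' ⊤ y' = x' := hinj (by rw [map_mul, htr y' hy', hxy])
  have hx0' : x' ≠ 0 := by
    rintro rfl
    exact hx0 (map_zero _)
  have hC' : ∀ c ∈ C', ∀ d ∈ D', d * c = c * d := by
    intro c hc d hd
    apply Subtype.ext
    have h1 := Subgroup.mem_centralizer_iff.mp (hCD (Subgroup.mem_subgroupOf.mp hc))
    exact h1 _ (Subgroup.mem_subgroupOf.mp hd)
  have hq0 : KP.qmap k D' x' ≠ 0 := fun h =>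
    hx0' (ker_idem (Y := D') (hD.comap_of_injective N.subtype N.subtype_injective) hC' hx' hxx' h)
  obtain ⟨vb, hvb, hnil⟩ := exists_not_nilp (qmap_mem D' hy') (qmap_mem D' hx')
    (by rw [← qmap_tr D' (hfix y' hy'), ← map_mul, hxy']) hq0
  obtain ⟨v', hv', rfl⟩ := exists_qmap D' hvb
  refine ⟨incl k N v', unlift v' hv', ?_⟩
  rintro ⟨n, hn⟩
  apply hnil
  refine ⟨n, ?_⟩
  rw [← map_mul, ← qmap_tr D' (hfix _ (Subalgebra.mul_mem _ hx' hv')), ← map_pow]
  have h1 : tr (cj k N) D' ⊤ (x' * v') ^ n = 0 := by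
    apply hinj
    rw [map_pow, htr _ (Subalgebra.mul_mem _ hx' hv'), map_mul, hn, map_zero]
  rw [h1, map_zero]

theorem br_SubAlg {L R : Subgroup G} {x : MonoidAlgebra k G} (hx : x ∈ SubAlg k L) :
    br R x ∈ SubAlg k (L ⊓ Subgroup.centralizer (R : Set G)) := by
  classical
  intro g hg
  rw [br_coeff] at hg
  split_ifs at hg with h
  · exact ⟨hx g hg, h⟩
  · exact absurd rfl hg

/-- The generation lemma relative to a normal subgroup `L` with `L R = G`. -/
theorem gen_rel {L R : Subgroup G} [L.Normal] (hR : IsPGroup p R) {e z i : MonoidAlgebra k G}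
    (he : IsBlockOf L e) (heR : e ∈ Fix (cj k G) ⊤) (hz : z ∈ SubAlg k L)
    (hzR : z ∈ Fix (cj k G) R) (hez : e = tr (cj k G) R ⊤ z) (hi : i ∈ SubAlg k L)
    (hiR : i ∈ Fix (cj k G) R) (hii : i * i = i) (hne : br R (i * e) ≠ 0) :
    ∃ w ∈ SubAlg k L, w ∈ Fix (cj k G) R ∧ w * e = w ∧ e = tr (cj k G) R ⊤ (i * w) := by
  have hefix : ∀ P : Subgroup G, e ∈ Fix (cj k G) P := fun P => Fix_mono _ le_top heR
  have hec : ∀ z : MonoidAlgebra k G, z * e = e * z := fun z =>
    commute_of_mem (SubAlg_top z) heR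
  have hie : i * e ∈ Fix (cj k G) R := Subalgebra.mul_mem _ hiR (hefix R)
  have hieL : i * e ∈ SubAlg k L := Subalgebra.mul_mem _ hi he.mem.1
  have hidem : (i * e) * (i * e) = i * e := by
    rw [mul_assoc, ← mul_assoc e, ← hec i, mul_assoc i e e, he.idem.eq, ← mul_assoc, hii]
  obtain ⟨v, hv, hnil⟩ := exists_not_nilp_trK (C := L ⊓ Subgroup.centralizer (R : Set G)) hR
    inf_le_right (x := br R (i * e)) (y := br R z) (br_SubAlg hieL)
    (br_SubAlg hz) (by rw [← br_mul hR hie hie, hidem])
    (by rw [← br_tr hR hzR, ← hez, ← br_mul hR hie (hefix R), mul_assoc, he.idem.eq]) hne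
  have hvf : v ∈ Fix (cj k G) R := fix_of_cent (SubAlg_mono inf_le_right hv)
  have hvL : v ∈ SubAlg k L := SubAlg_mono inf_le_left hv
  have hw : i * e * v ∈ Fix (cj k G) R := Subalgebra.mul_mem _ hie hvf
  have hwL : i * e * v ∈ SubAlg k L := Subalgebra.mul_mem _ hieL hvL
  set t := tr (cj k G) R ⊤ (i * e * v) with ht
  have htf : t ∈ Fix (cj k G) ⊤ := tr_mem_Fix hw
  have htL : t ∈ SubAlg k L := by
    have _ := Fintype.ofFinite (G ⧸ R)
    rw [ht, tr_top_eq_sum hw]
    refine Subalgebra.sum_mem _ fun q _ => ?_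
    intro g hg
    have h1 : SuppIn (L : Set G) (cj k G q.out (i * e * v)) := by
      refine SuppIn.conj hwL q.out fun s hs => ?_
      exact (inferInstance : L.Normal).conj_mem s hs q.out
    exact h1 g hg
  have htn : ¬ IsNilpotent t := by
    rintro ⟨n, hn⟩
    apply hnil
    refine ⟨n, ?_⟩
    have h1 : tr (cj k G) R (Subgroup.normalizer (R : Set G)) (br R (i * e) * v) = br R t := by
      rw [ht, br_tr hR hw, br_mul hR hie hvf, br_self (SubAlg_mono inf_le_right hv)]
    rw [h1, ← br_pow hR (Fix_mono _ le_top htf), hn]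
    exact br_self (Subalgebra.zero_mem _)
  have hie' : i * e * v * e = i * e * v := by
    rw [mul_assoc, hec v, ← mul_assoc, mul_assoc i e e, he.idem.eq]
  have hte : t * e = t := by
    rw [ht, tr_mul (hefix ⊤), hie']
  have _ := Fintype.ofFinite G
  rcases he.dichotomy (by exact ZAlg_comm) (x := t) ⟨htL, Fix_mono _ le_top htf⟩ hte with
    h | ⟨y, hy, hye, hy'⟩
  · exact absurd h htn
  -- `y` is fixed by `G`
  have hyF : y ∈ Fix (cj k G) ⊤ := by
    intro g _
    have h1 : t * cj k G g y = e := by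
      have h2 := congrArg (cj k G g) hy'
      rw [map_mul, htf g trivial, heR g trivial] at h2
      exact h2
    have h3 : cj k G g y * e = cj k G g y := by
      have h2 := congrArg (cj k G g) hye
      rw [map_mul, heR g trivial] at h2
      exact h2
    have htc : ∀ x : MonoidAlgebra k G, x * t = t * x := fun x =>
      commute_of_mem (SubAlg_top x) htf
    calc cj k G g y = cj k G g y * (t * y) := by rw [hy', h3]
      _ = t * cj k G g y * y := by rw [← mul_assoc, htc]
      _ = e * y := by rw [h1]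
      _ = y := by rw [← hec, hye]
  refine ⟨e * v * y, ?_, ?_, ?_, ?_⟩
  · exact Subalgebra.mul_mem _ (Subalgebra.mul_mem _ he.mem.1 hvL) hy.1
  · exact Subalgebra.mul_mem _ (Subalgebra.mul_mem _ (hefix R) hvf) (Fix_mono _ le_top hyF)
  · rw [mul_assoc, hye]
  · have h1 : i * (e * v * y) = i * e * v * y := by simp only [mul_assoc]
    rw [h1, ← tr_mul hyF, ← ht, hy']

/-- The Brauer image of the block is generated by the conjugates of the idempotent. -/
theorem br_gen {L R : Subgroup G} [L.Normal] (hR : IsPGroup p R) {e z i : MonoidAlgebra k G}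
    (he : IsBlockOf L e) (heR : e ∈ Fix (cj k G) ⊤) (hz : z ∈ SubAlg k L)
    (hzR : z ∈ Fix (cj k G) R) (hez : e = tr (cj k G) R ⊤ z) (hi : i ∈ SubAlg k L)
    (hiR : i ∈ Fix (cj k G) R) (hii : i * i = i) (hne : br R (i * e) ≠ 0) :
    ∃ (m : ℕ) (x : Fin m → G) (y : Fin m → MonoidAlgebra k G),
      (∀ l, x l ∈ Subgroup.normalizer (R : Set G)) ∧
      (∀ l, y l ∈ SubAlg k (L ⊓ Subgroup.centralizer (R : Set G))) ∧
      br R e = ∑ l, br R (cj k G (x l) i) * y l := by
  obtain ⟨w, hw, hwR, hwe, hew⟩ := gen_rel hR he heR hz hzR hez hi hiR hii hne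
  set N := Subgroup.normalizer (R : Set G) with hN
  have _ := Fintype.ofFinite (N ⧸ R.subgroupOf N)
  obtain ⟨m, ⟨ε⟩⟩ := Finite.exists_equiv_fin (N ⧸ R.subgroupOf N)
  have hiw : i * w ∈ Fix (cj k G) R := Subalgebra.mul_mem _ hiR hwR
  refine ⟨m, fun l => ((ε.symm l).out : N), fun l => br R (cj k G ((ε.symm l).out : N) w),
    fun l => ((ε.symm l).out : N).2, ?_, ?_⟩
  · intro l
    refine br_SubAlg ?_
    intro g hg
    have h1 : SuppIn (L : Set G) (cj k G ((ε.symm l).out : N) w) := by
      refine SuppIn.conj hw _ fun s hs => ?_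
      exact (inferInstance : L.Normal).conj_mem s hs _
    exact h1 g hg
  · have h1 : br R e = tr (cj k G) R N (br R i * br R w) := by
      conv_lhs => rw [hew]
      rw [br_tr hR hiw, br_mul hR hiR hwR]
    rw [h1, tr_def]
    rw [← ε.symm.sum_comp]
    refine Finset.sum_congr rfl fun l _ => ?_
    rw [map_mul]
    have hcjbr : ∀ g ∈ N, ∀ v : MonoidAlgebra k G, cj k G g (br R v) = br R (cj k G g v) := by
      intro g hg v
      exact (br_cj_norm hg v).symm
    rw [hcjbr _ ((ε.symm l).out : N).2, hcjbr _ ((ε.symm l).out : N).2]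

omit [Fact p.Prime] [CharP k p] [Finite G] in
theorem incl_coeff' (T : Subgroup G) (v : MonoidAlgebra k T) (g : T) :
    (incl k T v).coeff (g : G) = v.coeff g := by
  induction v using MonoidAlgebra.induction_linear with
  | zero => rw [map_zero]; rfl
  | add a b ha hb =>
    rw [map_add, MonoidAlgebra.coeff_add, MonoidAlgebra.coeff_add, Finsupp.add_apply,
      Finsupp.add_apply, ha, hb]
  | single h r =>
    classical
    rw [incl_single, MonoidAlgebra.coeff_single, MonoidAlgebra.coeff_single,
      Finsupp.single_apply, Finsupp.single_apply]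
    have : (h : G) = g ↔ h = g := ⟨fun h1 => Subtype.ext h1, fun h1 => by rw [h1]⟩
    simp only [this]

/-- the Brauer homomorphism and inclusions -/
theorem incl_br {T : Subgroup G} (R : Subgroup T) (a : MonoidAlgebra k T) :
    incl k T (br R a) = br (R.map T.subtype) (incl k T a) := by
  classical
  apply MonoidAlgebra.coeff_injective
  ext y
  rw [br_coeff]
  by_cases hyT : y ∈ T
  · have h2 : ∀ v : MonoidAlgebra k T, (incl k T v).coeff y = v.coeff ⟨y, hyT⟩ := fun v =>
      incl_coeff' T v ⟨y, hyT⟩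
    rw [h2, h2, br_coeff]
    have h3 : (⟨y, hyT⟩ : T) ∈ Subgroup.centralizer (R : Set T) ↔
        y ∈ Subgroup.centralizer ((R.map T.subtype : Subgroup G) : Set G) := by
      rw [mem_cent, mem_cent]
      constructor
      · rintro h _ ⟨d, hd, rfl⟩
        exact congrArg Subtype.val (h d hd)
      · intro h d hd
        exact Subtype.ext (h _ ⟨d, hd, rfl⟩)
    by_cases hy : y ∈ Subgroup.centralizer ((R.map T.subtype : Subgroup G) : Set G)
    · rw [if_pos hy, if_pos (h3.mpr hy)]
    · rw [if_neg hy, if_neg (fun h => hy (h3.mp h))]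
  · have h2 : ∀ v : MonoidAlgebra k T, (incl k T v).coeff y = 0 := by
      intro v
      by_contra hne
      exact hyT (incl_mem T v y hne)
    rw [h2, h2]
    split_ifs <;> rfl

end

section Cor

open Vale.Agent.P180.R2.H954

variable {k : Type*} [Field k] {p : ℕ} [Fact p.Prime] [CharP k p] {G : Type} [Group G] [Finite G]

/-- The corner property from one idempotent. -/
theorem cor_of_source {S R : Subgroup G} (hR : IsPGroup p R)
    (hn : ∀ x ∈ R, ∀ s ∈ S, x * s * x⁻¹ ∈ S) {e i : MonoidAlgebra k G} (he : IsBlockOf S e)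
    (heR : e ∈ Fix (cj k G) R)
    (hez : ∃ z ∈ SubAlg k S, z ∈ Fix (cj k G) R ∧ e = tr (cj k G) R (S ⊔ R) z)
    (hi : i ∈ SubAlg k S) (hiR : i ∈ Fix (cj k G) R) (hii : i * i = i) (hei : e * i = i)
    (hne : br R i ≠ 0) {C : ℕ} (hdim : Module.finrank k (NN (SubAlg k S) i i) ≤ C) :
    Cor C S R e := by
  obtain ⟨z, hz, hzR, hez⟩ := hez
  set T : Subgroup G := S ⊔ R with hT
  have hST : S ≤ T := le_sup_left
  have hRT : R ≤ T := le_sup_right
  have hnorm : ∀ t ∈ T, ∀ s ∈ S, t * s * t⁻¹ ∈ S := by
    have h1 : T ≤ Subgroup.normalizer (S : Set G) := by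
      refine sup_le Subgroup.le_normalizer ?_
      intro x hx
      rw [Subgroup.mem_normalizer_iff]
      intro s
      constructor
      · exact hn x hx s
      · intro hs
        have := hn x⁻¹ (R.inv_mem hx) _ hs
        simpa [mul_assoc] using this
    intro t ht s hs
    exact (Subgroup.mem_normalizer_iff.mp (h1 ht) s).mp hs
  have heT : e ∈ Fix (cj k G) T := by
    have h1 : T ≤ stabE e := sup_le (le_stabE he) heR
    exact fun g hg => h1 hg
  let L' : Subgroup T := S.subgroupOf T
  let R' : Subgroup T := R.subgroupOf T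
  have hL'n : L'.Normal := by
    constructor
    intro s hs g
    exact hnorm g g.2 s hs
  have hmapL : L'.map T.subtype = S := by
    rw [Subgroup.subgroupOf_map_subtype, inf_eq_left.mpr hST]
  have hmapR : R'.map T.subtype = R := by
    rw [Subgroup.subgroupOf_map_subtype, inf_eq_left.mpr hRT]
  have hR'p : IsPGroup p R' := hR.comap_of_injective T.subtype T.subtype_injective
  have hinj := incl_injective (k := k) T
  have lift : ∀ v ∈ SubAlg k S, ∃ v' ∈ SubAlg k L', incl k T v' = v := by
    intro v hv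
    obtain ⟨v', rfl⟩ := exists_incl T (SubAlg_mono hST hv)
    refine ⟨v', ?_, rfl⟩
    intro g hg
    have h1 : (incl k T v').coeff (g : G) = v'.coeff g := incl_coeff' T v' g
    exact hv (g : G) (by rw [h1]; exact hg)
  have unlift : ∀ (K : Subgroup T), ∀ v ∈ SubAlg k K, incl k T v ∈ SubAlg k (K.map T.subtype) := by
    intro K v hv
    refine SuppIn.induction (P := fun v => incl k T v ∈ SubAlg k (K.map T.subtype)) hv ?_ ?_ ?_
    · rw [map_zero]; exact Subalgebra.zero_mem _
    · intro x y hx hy
      rw [map_add]; exact Subalgebra.add_mem _ hx hy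
    · intro c hc r
      rw [map_smul, incl_single]
      exact Subalgebra.smul_mem _ (single_mem_SubAlg (Subgroup.mem_map_of_mem T.subtype hc) 1) r
  obtain ⟨e', he'L, rfl⟩ := lift e he.mem.1
  obtain ⟨z', hz'L, rfl⟩ := lift z hz
  obtain ⟨i', hi'L, rfl⟩ := lift i hi
  have hfixR : ∀ v : MonoidAlgebra k T, incl k T v ∈ Fix (cj k G) R → v ∈ Fix (cj k T) R' := by
    intro v hv
    rw [← incl_mem_Fix_iff, hmapR]
    exact hv
  have he'T : e' ∈ Fix (cj k T) ⊤ := by
    rw [← incl_mem_Fix_iff]
    have h : (⊤ : Subgroup T).map T.subtype = T := by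
      rw [← MonoidHom.range_eq_map, Subgroup.range_subtype]
    rw [h]
    exact heT
  have he' : IsBlockOf L' e' := by
    refine ⟨⟨he'L, Fix_mono _ le_top he'T⟩, ?_, ?_, ?_⟩
    · apply hinj
      change incl k T (e' * e') = incl k T e'
      rw [map_mul]; exact he.idem
    · intro h0
      exact he.ne_zero (by rw [h0, map_zero])
    · intro c hc hcc hce
      have h1 : incl k T c ∈ ZAlg k S := by
        refine ⟨?_, ?_⟩
        · have := unlift L' c hc.1
          rwa [hmapL] at this
        · change incl k T c ∈ Fix (cj k G) S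
          rw [← hmapL, incl_mem_Fix_iff]
          exact hc.2
      rcases he.primitive (incl k T c) h1
        (by change incl k T c * incl k T c = incl k T c; rw [← map_mul, hcc.eq])
        (by rw [← map_mul, hce]) with h2 | h2
      · left
        exact hinj (by rw [h2, map_zero])
      · right
        exact hinj h2
  have hii' : i' * i' = i' := hinj (by rw [map_mul, hii])
  have hei' : e' * i' = i' := hinj (by rw [map_mul, hei])
  have hie' : i' * e' = i' := by
    rw [commute_of_mem (SubAlg_top i') he'T, hei']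
  obtain ⟨m, x, y, hx, hy, hsum⟩ := br_gen (L := L') (R := R') hR'p he' he'T hz'L
    (hfixR _ hzR) (by
      apply hinj
      rw [incl_tr T R' (hfixR _ hzR), hmapR]
      exact hez) hi'L (hfixR _ hiR) hii' (by
      rw [hie']
      intro h0
      apply hne
      rw [← hmapR, ← incl_br, h0, map_zero])
  refine ⟨m, fun l => cj k G (x l : G) (incl k T i'), ?_, ?_⟩
  · intro l
    have hS : conjS (x l : G) S = S := by
      ext g
      rw [mem_conjS]
      constructor
      · intro hg
        have := hnorm _ (x l).2 _ hg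
        simpa [mul_assoc] using this
      · intro hg
        have := hnorm _ (T.inv_mem (x l).2) _ hg
        simpa [mul_assoc] using this
    refine ⟨?_, ?_, ?_, ?_⟩
    · have h1 : SuppIn (S : Set G) (cj k G (x l : G) (incl k T i')) := by
        refine SuppIn.conj hi _ fun s hs => ?_
        exact hnorm _ (x l).2 s hs
      exact h1
    · change cj k G (x l : G) (incl k T i') ∈ Fix (cj k G) R
      rw [← incl_cj, ← hmapR, incl_mem_Fix_iff]
      refine conj_mem_Fix (hfixR _ hiR) (x l) ?_
      intro r hr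
      have h1 := (Subgroup.mem_normalizer_iff.mp (hx l)) ((x l)⁻¹ * r * x l)
      exact h1.mpr (by
        have : x l * ((x l)⁻¹ * r * x l) * (x l)⁻¹ = r := by group
        rw [this]; exact hr)
    · rw [← map_mul, hii]
    · have h1 : incl k T e' * cj k G (x l : G) (incl k T i') =
          cj k G (x l : G) (incl k T i') := by
        have h2 : cj k G (x l : G) (incl k T e') = incl k T e' := heT _ (x l).2
        conv_lhs => rw [← h2]
        rw [← map_mul, hei]
      rw [h1]
      have h3 := finrank_NN_conj S (x l : G) (incl k T i') (incl k T i')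
      rw [hS] at h3
      rw [h3]
      exact hdim
  · have h1 : br R (incl k T e') = ∑ l, br R (cj k G (x l : G) (incl k T i')) *
        incl k T (y l) := by
      have h2 := congrArg (incl k T) hsum
      rw [incl_br, hmapR, map_sum] at h2
      rw [h2]
      refine Finset.sum_congr rfl fun l _ => ?_
      rw [map_mul, incl_br, hmapR, incl_cj]
    rw [h1]
    refine Submodule.sum_mem _ fun l _ => Submodule.subset_span ?_
    refine ⟨l, 1, Subalgebra.one_mem _, incl k T (y l), ?_, by rw [one_mul]⟩
    have h2 := unlift _ _ (hy l)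
    refine SubAlg_mono ?_ h2
    rintro _ ⟨g, ⟨hg1, hg2⟩, rfl⟩
    refine Subgroup.mem_inf.mpr ⟨hg1, ?_⟩
    rw [mem_cent]
    intro d hd
    exact congrArg Subtype.val (mem_cent.mp hg2 ⟨d, hRT hd⟩ hd)

end Cor

end Vale.Agent.P180.R2.H365.Src
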