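import Vale.Agent.P180.R2.H365.LocA
import Vale.Agent.P180.R2.H365.Fin6
import Vale.Agent.P180.R2.H365.Src
import Vale.Agent.P180.R2.H47.E2

/-!
P180: the local theorem for reduced groups whose components have small source corners.
-/

set_option linter.all false

namespace Vale.Agent.P180.R2.H365

open Vale.Agent.P180 Vale.Agent.P180.H768.Gd Vale.Agent.P180.R2.H47 Vale.Agent.P180.R2.H954
open Vale.Agent.P180.R2.H799 (NN)
open Vale.Agent.P180.H768 hiding pull mem_pull exists_factor Lay mk_mem comm_mem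

open scoped Nat

universe u

section Quot

theorem center_quot_equiv {L L' : Type} [Group L] [Group L'] (e : L ≃* L') :
    Nonempty (L ⧸ Subgroup.center L ≃* L' ⧸ Subgroup.center L') := by
  refine ⟨QuotientGroup.congr _ _ e ?_⟩
  ext x
  constructor
  · rintro ⟨y, hy, rfl⟩
    rw [SetLike.mem_coe, Subgroup.mem_center_iff] at hy
    rw [Subgroup.mem_center_iff]
    intro g
    obtain ⟨g', rfl⟩ := e.surjective g
    change e g' * e y = e y * e g'
    rw [← map_mul, ← map_mul, hy]
  · intro hx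
    rw [Subgroup.mem_center_iff] at hx
    refine ⟨e.symm x, ?_, e.apply_symm_apply x⟩
    rw [SetLike.mem_coe, Subgroup.mem_center_iff]
    intro g
    apply e.injective
    rw [map_mul, map_mul, e.apply_symm_apply, hx]

theorem isComponent_map {G : Type} [Group G] {L : Subgroup G} (hL : IsComponent L) (g : G) :
    IsComponent (L.map (MulAut.conj g).toMonoidHom) := by
  obtain ⟨⟨h1, h2⟩, E, hE, hLE, hnorm⟩ := hL
  let e : L ≃* L.map (MulAut.conj g).toMonoidHom :=
    L.equivMapOfInjective _ (MulAut.conj g).injective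
  refine ⟨⟨?_, ?_⟩, E, hE, ?_, ?_⟩
  · rw [← top_le_iff]
    rintro x -
    obtain ⟨y, rfl⟩ := e.surjective x
    have h3 : y ∈ commutator L := by rw [h1]; trivial
    have h4 : (commutator L).map e.toMonoidHom ≤ commutator _ := by
      rw [commutator_def, commutator_def, Subgroup.map_commutator]
      exact Subgroup.commutator_mono le_top le_top
    exact h4 ⟨y, h3, rfl⟩
  · obtain ⟨f⟩ := center_quot_equiv e
    exact simple_of_equiv f h2
  · rintro _ ⟨x, hx, rfl⟩
    exact hE.conj_mem x (hLE hx) g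
  · rintro x hx _ ⟨y, hy, rfl⟩
    refine ⟨(g⁻¹ * x * g) * y * (g⁻¹ * x * g)⁻¹, hnorm _ ?_ y hy, ?_⟩
    · have := hE.conj_mem x hx g⁻¹
      simpa using this
    · change g * ((g⁻¹ * x * g) * y * (g⁻¹ * x * g)⁻¹) * g⁻¹ = x * (g * y * g⁻¹) * x⁻¹
      group

end Quot

section

variable {k : Type u} [Field k] [IsAlgClosed k] {p : ℕ} [Fact p.Prime] [CharP k p]

/-- The local theorem for a stable set of commuting components with the corner property. -/
theorem loc_comps {n β C : ℕ} {G : Type} [Group G] [Finite G] {𝒯 : Set (Subgroup G)}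
    (hna : ∀ T ∈ 𝒯, ¬ ∀ x ∈ T, ∀ y ∈ T, x * y = y * x)
    (hcomm : ∀ T ∈ 𝒯, ∀ T' ∈ 𝒯, T ≠ T' → ∀ x ∈ T, ∀ y ∈ T', x * y = y * x)
    (hconj : ∀ T ∈ 𝒯, ∀ g : G, T.map (MulAut.conj g).toMonoidHom ∈ 𝒯) (hcard : Nat.card 𝒯 ≤ n)
    {Z D : Subgroup G} {a b : MonoidAlgebra k G} (hs : Rs p n Z D a b) (hST : STab b)
    (hidx : (Z ⊔ sSup 𝒯).index ≤ β) (hC : 1 ≤ C)
    (hcor : ∀ T ∈ 𝒯, ∀ R ≤ D, (∀ x ∈ R, ∀ s ∈ T, x * s * x⁻¹ ∈ T) →
      ∀ e : MonoidAlgebra k G, Below b T e → e ∈ Fix (cj k G) R → br R e ≠ 0 →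
      (∃ z ∈ SubAlg k T, z ∈ Fix (cj k G) (T ⊓ R) ∧ e = tr (cj k G) (T ⊓ R) T z) →
      (∃ z ∈ SubAlg k T, z ∈ Fix (cj k G) R ∧ e = tr (cj k G) R (T ⊔ R) z) → Cor C T R e) :
    SmallC n (β * (C ^ n) ^ 2) k G b := by
  obtain ⟨F, hF1, hF2, hF3⟩ := H47.exists_fam 𝒯 hconj hcomm
  have hrange : F.μ.range = sSup 𝒯 := by
    have hμ : F.μ.range = ⨆ j, F.A j := Subgroup.noncommPiCoprod_range
    rw [hμ]
    apply le_antisymm
    · exact iSup_le fun j => le_sSup (hF1 j)
    · refine sSup_le fun T hT => ?_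
      obtain ⟨j, rfl⟩ := hF2 T hT
      exact le_iSup _ j
  have hXn : (sSup 𝒯).Normal := by
    constructor
    intro x hx g
    have h7 : sSup 𝒯 ≤ (sSup 𝒯).comap (MulAut.conj g).toMonoidHom := by
      refine sSup_le fun S hS => ?_
      rw [← Subgroup.map_le_iff_le_comap]
      exact le_sSup (hconj S hS g)
    exact h7 hx
  have hbB : IsBlockOf (⊤ : Subgroup G) b := isBlock_iff.mp hs.hb
  obtain ⟨P, i, hi, hPD, hiP, hbi, ⟨w, hw, hbw⟩, hfr⟩ := loc_cp (C := C) (C₀ := 1) F
    (X := sSup 𝒯) (X₀ := ⊥) (by rw [bot_sup_eq, hrange])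
    (fun j x hx y hy => by
      rw [Subgroup.mem_bot] at hx
      rw [hx, one_mul, mul_one])
    (by
      intro i j hij
      by_contra hne
      apply hna _ (hF1 i)
      intro x hx y hy
      exact F.comm i j hne x hx y (hij hy))
    hs.Zc hs.Zp hidx hbB hs.Dp hs.ha hs.hba hST
    (by
      intro P hP a' ha' hba' hbr
      refine ⟨1, Subalgebra.one_mem _, Subalgebra.one_mem _, one_mul 1, by rwa [one_mul], ?_⟩
      intro e₀ _ _ _ _ _
      have h1 : NN (SubAlg k (⊥ : Subgroup G)) (e₀ * 1) (e₀ * 1) ≤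
          Submodule.span k {(1 : MonoidAlgebra k G)} := by
        rintro x ⟨hx, -, -⟩
        rw [Submodule.mem_span_singleton]
        refine SuppIn.induction (P := fun x => ∃ c : k, c • (1 : MonoidAlgebra k G) = x) hx ?_ ?_ ?_
        · exact ⟨0, zero_smul _ _⟩
        · rintro _ _ ⟨c, rfl⟩ ⟨d, rfl⟩
          exact ⟨c + d, add_smul _ _ _⟩
        · intro y hy c
          rw [SetLike.mem_coe, Subgroup.mem_bot] at hy
          subst hy
          exact ⟨c, rfl⟩
      have hfin : FiniteDimensional k (MonoidAlgebra k G) :=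
        Module.Finite.equiv (MonoidAlgebra.coeffLinearEquiv k (M := G) (S := k)).symm
      refine (Submodule.finrank_mono h1).trans ?_
      exact (finrank_span_le_card _).trans (by simp))
    (fun j => hcor _ (hF1 j))
  refine ⟨P, i, hi, (Nat.card_le_card_of_injective _ (Subgroup.inclusion_injective hPD)).trans
    hs.Dn, hiP, hbi, ⟨1, fun _ => 1, fun _ => w, fun _ => Subalgebra.one_mem _, fun _ => hw, ?_⟩,
    ?_⟩
  · rw [Finset.univ_unique, Finset.sum_singleton, one_mul]
    exact hbw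
  · refine hfr.trans ?_
    rw [one_mul]
    exact Nat.mul_le_mul_left _ (Nat.pow_le_pow_left (Nat.pow_le_pow_right hC hcard) 2)

theorem finrank_NN_incl {k : Type*} [Field k] {G : Type*} [Group G] [Finite G] (S : Subgroup G)
    (i : MonoidAlgebra k S) :
    Module.finrank k (NN (SubAlg k S) (incl k S i) (incl k S i)) ≤
      Module.finrank k (NN (⊤ : Subalgebra k (MonoidAlgebra k S)) i i) := by
  have hfin : FiniteDimensional k (MonoidAlgebra k S) :=
    Module.Finite.equiv (MonoidAlgebra.coeffLinearEquiv k (M := S) (S := k)).symm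
  have h1 : NN (SubAlg k S) (incl k S i) (incl k S i) ≤
      (NN (⊤ : Subalgebra k (MonoidAlgebra k S)) i i).map (incl k S).toLinearMap := by
    rintro x ⟨hx, h2, h3⟩
    obtain ⟨y, rfl⟩ := exists_incl S hx
    refine ⟨y, ⟨Algebra.mem_top, ?_, ?_⟩, rfl⟩
    · apply incl_injective (k := k) S
      rw [map_mul]; exact h2
    · apply incl_injective (k := k) S
      rw [map_mul]; exact h3
  exact (Submodule.finrank_mono h1).trans (Submodule.finrank_map_le _ _)

/-- a small source idempotent gives the corner property -/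
theorem cor_of_small {m : ℕ} {G : Type} [Group G] [Finite G] {D L R : Subgroup G}
    {b e : MonoidAlgebra k G} (hb0 : b ≠ 0) (h : HasSmallSource m b D L) (hD : IsPGroup p D)
    (hRD : R ≤ D) (hn : ∀ x ∈ R, ∀ s ∈ L, x * s * x⁻¹ ∈ L) (he : Below b L e)
    (heR : e ∈ Fix (cj k G) R)
    (hez : ∃ z ∈ SubAlg k L, z ∈ Fix (cj k G) R ∧ e = tr (cj k G) R (L ⊔ R) z) :
    Cor m L R e := by
  classical
  obtain ⟨f, i, hi, hf, hfb, hfi, hcomm, ⟨x, hx, hix⟩, hfr⟩ := h
  have hf0 : IsBlock f := I.isBlockR_iff.mp hf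
  have hB : Below b L (incl k L f) := ⟨(isBlockOf_incl_iff L f).mpr
      ⟨hf0.central, hf0.idem, hf0.ne_zero, hf0.primitive⟩, hfb⟩
  obtain rfl : e = incl k L f := Below.eq hb0 he hB
  have hRN : ∀ r ∈ R, r ∈ D ⊓ Subgroup.normalizer (L : Set G) := by
    intro r hr
    refine Subgroup.mem_inf.mpr ⟨hRD hr, ?_⟩
    rw [Subgroup.mem_normalizer_iff]
    intro s
    constructor
    · exact hn r hr s
    · intro hs
      have := hn r⁻¹ (R.inv_mem hr) _ hs
      simpa [mul_assoc] using this
  refine Src.cor_of_source (i := incl k L i) (hD.to_le hRD) hn he.block heR hez (incl_mem L i)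
    ?_ ?_ ?_ ?_ ?_
  · rw [mem_Fix_cj_iff]
    intro r hr
    exact hcomm r (hRN r hr)
  · rw [← map_mul, hi.eq]
  · rw [← map_mul, hfi]
  · intro h0
    apply hix
    have h1 := congrArg (fun v : MonoidAlgebra k G => v.coeff (x : G)) h0
    simp only [br_coeff] at h1
    rw [if_pos (mem_cent.mpr fun d hd => by
      rw [hx d (hRN d hd), mul_inv_cancel_right]), Src.incl_coeff'] at h1
    exact h1
  · refine (finrank_NN_incl L i).trans ?_
    rw [← H799.finrank_corner hi]
    exact hfr

end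

/-- The corner property of the component `L`, for all the data which come from `b` and `D`. -/
def CorP (p C : ℕ) {k : Type u} [Field k] {G : Type} [Group G] [Finite G]
    (b : MonoidAlgebra k G) (D L : Subgroup G) : Prop :=
  ∀ R ≤ D, (∀ x ∈ R, ∀ s ∈ L, x * s * x⁻¹ ∈ L) →
    ∀ e : MonoidAlgebra k G, Below b L e → e ∈ Fix (cj k G) R → br R e ≠ 0 →
    (∃ z ∈ SubAlg k L, z ∈ Fix (cj k G) (L ⊓ R) ∧ e = tr (cj k G) (L ⊓ R) L z) →
    (∃ z ∈ SubAlg k L, z ∈ Fix (cj k G) R ∧ e = tr (cj k G) R (L ⊔ R) z) → Cor C L R e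

theorem CorP.mono {p C C' : ℕ} {k : Type u} [Field k] {G : Type} [Group G] [Finite G]
    {b : MonoidAlgebra k G} {D L : Subgroup G} (h : CorP p C b D L) (hC : C ≤ C') :
    CorP p C' b D L := by
  intro R hRD hn e he heR hbr h1 h2
  obtain ⟨l, f, hf, hsp⟩ := h R hRD hn e he heR hbr h1 h2
  exact ⟨l, f, fun j => ⟨(hf j).1, (hf j).2.1, (hf j).2.2.1, (hf j).2.2.2.trans hC⟩, hsp⟩

theorem corP_of_small {p : ℕ} [Fact p.Prime] {k : Type u} [Field k] [IsAlgClosed k] [CharP k p]
    {m : ℕ} {G : Type} [Group G] [Finite G] {D L : Subgroup G}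
    {b : MonoidAlgebra k G} (hb0 : b ≠ 0) (hD : IsPGroup p D) (h : HasSmallSource m b D L) :
    CorP p m b D L :=
  fun _ hRD hn _ he heR _ _ hez => cor_of_small (p := p) hb0 h hD hRD hn he heR hez

/-- the bound for the index -/
def b6 (n m M : ℕ) : ℕ := n * (n * max m (BF.bfBound n))! * n ! * (n ! * (max 1 M) ^ n)

/-- the bound for the corner -/
def c6 (n m M C : ℕ) : ℕ := b6 n m M * ((max 1 C) ^ n) ^ 2

/-- The local theorem, relative to a class of components with bounded outer automorphisms and the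
corner property. -/
theorem loc_gen {p n m M C : ℕ} [Fact p.Prime] {k : Type u} [Field k] [IsAlgClosed k] [CharP k p]
    {Exc : ∀ (k : Type u) [Field k] (G : Type) [Group G] [Finite G],
      MonoidAlgebra k G → Subgroup G → Subgroup G → Prop}
    (hcls : ∀ (G : Type) [Group G] [Finite G] (Z D : Subgroup G) (a b : MonoidAlgebra k G),
      Rs p n Z D a b → STab b → NRed p Z ⊤ b → IsDefectGroupR b D →
      ∀ L : Subgroup G, IsComponent L → p ∣ Nat.card (L ⧸ Subgroup.center L) →
      (∃ x ∈ D, x ∈ L ∧ ¬ ∀ y ∈ L, x * y = y * x) → ¬ Exc k G b D L →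
      Nat.card (L ⧸ Subgroup.center L) ≤ m ∨
      (IsLocalChar p n (L ⧸ Subgroup.center L) ∧
        (p = 2 ∨ ∀ P : Sylow p (L ⧸ Subgroup.center L), n < Nat.card P)) ∨
      ((L ⊔ Subgroup.centralizer (L : Set G)).relIndex (Subgroup.normalizer (L : Set G)) ≤ M ∧
        CorP p C b D L)) :
    LocL Exc (SmallC n (c6 n m M C)) k p n := by
  intro G _ _ Z D a b hs hST hNR hD
  by_cases hex : ∃ L : Subgroup G, IsComponent L ∧ p ∣ Nat.card (L ⧸ Subgroup.center L) ∧
      (∃ x ∈ D, x ∈ L ∧ ¬ ∀ y ∈ L, x * y = y * x) ∧ Exc k G b D L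
  · exact Or.inl hex
  right
  have hconjconj : ∀ (L : Subgroup G) (g h : G),
      (L.map (MulAut.conj g).toMonoidHom).map (MulAut.conj h).toMonoidHom =
        L.map (MulAut.conj (h * g)).toMonoidHom := by
    intro L g h
    ext x
    rw [mem_map_conj, mem_map_conj, mem_map_conj]
    have e : (h * g)⁻¹ * x * (h * g) = g⁻¹ * (h⁻¹ * x * h) * g := by group
    rw [e]
  obtain ⟨𝒯, h1, h2, h3, h4, h5⟩ := comp_bound
    (Q := fun L : Subgroup G => ∀ g : G, ((L.map (MulAut.conj g).toMonoidHom ⊔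
      Subgroup.centralizer ((L.map (MulAut.conj g).toMonoidHom : Subgroup G) : Set G)).relIndex
        (Subgroup.normalizer ((L.map (MulAut.conj g).toMonoidHom : Subgroup G) : Set G)) ≤ M) ∧
      CorP p C b D (L.map (MulAut.conj g).toMonoidHom))
    (m := max m (BF.bfBound n))
    (by
      intro L h hL g
      rw [hconjconj]
      exact hL (g * h)) hs hST hNR (by
    intro L hL hp hr hQ
    simp only [not_forall] at hQ
    obtain ⟨g, hg⟩ := hQ
    obtain ⟨L', hL'⟩ : ∃ L', L' = L.map (MulAut.conj g).toMonoidHom := ⟨_, rfl⟩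
    rw [← hL'] at hg
    have hcL' : IsComponent L' := by rw [hL']; exact isComponent_map hL g
    have e : L ≃* L' := (L.equivMapOfInjective _ (MulAut.conj g).injective).trans
      (MulEquiv.subgroupCongr hL'.symm)
    obtain ⟨f⟩ := center_quot_equiv e
    have hpL' : p ∣ Nat.card (L' ⧸ Subgroup.center L') := by
      rw [← Nat.card_congr f.toEquiv]; exact hp
    have hrL' := hr g
    rw [← hL'] at hrL'
    have hnE : ¬ Exc k G b D L' := fun h => hex ⟨L', hcL', hpL', hrL', h⟩
    have hcases : Nat.card (L' ⧸ Subgroup.center L') ≤ max m (BF.bfBound n) ∨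
        (IsLocalChar p n (L' ⧸ Subgroup.center L') ∧
          ∀ P : Sylow p (L' ⧸ Subgroup.center L'), n < Nat.card P) := by
      rcases hcls G Z D a b hs hST hNR hD L' hcL' hpL' hrL' hnE with h | ⟨hc1, hc2 | hc2⟩ | h
      · exact Or.inl (h.trans (le_max_left _ _))
      · subst hc2
        have hsim := hcL'.1.2
        by_cases h3 : ∀ P : Subgroup (L' ⧸ Subgroup.center L'), IsPGroup 2 P → Nat.card P ≤ n
        · left
          exact (BF.card_le_of_charType_two hpL' hc1 h3).trans (le_max_right _ _)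
        · push Not at h3
          obtain ⟨P, hP, hPn⟩ := h3
          refine Or.inr ⟨hc1, fun Q => ?_⟩
          obtain ⟨R, hR⟩ := hP.exists_le_sylow
          refine hPn.trans_le ?_
          rw [Nat.card_congr (Sylow.equiv Q R).toEquiv]
          exact Nat.card_le_card_of_injective _ (Subgroup.inclusion_injective hR)
      · exact Or.inr ⟨hc1, hc2⟩
      · exact absurd h hg
    rcases hcases with h | ⟨h, h'⟩
    · left
      rwa [Nat.card_congr f.toEquiv]
    · right
      refine ⟨isLocalChar_of_equiv f.symm h, fun P => ?_⟩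
      let P' : Sylow p (L' ⧸ Subgroup.center L') := P.comapOfInjective f.symm.toMonoidHom
        f.symm.injective (by
          rw [MonoidHom.range_eq_top.mpr f.symm.surjective]
          exact le_top)
      refine (h' P').trans_le ?_
      exact Nat.card_le_card_of_injective
        (fun x : P' => (⟨f.symm x.1, x.2⟩ : P)) (fun x y hxy => Subtype.ext (f.symm.injective
          (congrArg Subtype.val hxy))))
  have hna : ∀ T ∈ 𝒯, ¬ ∀ x ∈ T, ∀ y ∈ T, x * y = y * x := by
    intro T hT h
    obtain ⟨-, -, -, r, -, hr, hr'⟩ := h1 T hT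
    exact hr' fun y hy => h r hr y hy
  have hgood : ∀ T ∈ 𝒯, ((T ⊔ Subgroup.centralizer (T : Set G)).relIndex
      (Subgroup.normalizer (T : Set G)) ≤ M) ∧ CorP p C b D T := by
    intro T hT
    have h := (h1 T hT).2.1 1
    rwa [map_conj_one] at h
  have hXn : (sSup 𝒯).Normal := by
    constructor
    intro x hx g
    have h7 : sSup 𝒯 ≤ (sSup 𝒯).comap (MulAut.conj g).toMonoidHom := by
      refine sSup_le fun S hS => ?_
      rw [← Subgroup.map_le_iff_le_comap]
      exact le_sSup (h3 S hS g)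
    exact h7 hx
  have hZn : Z.Normal := by
    constructor
    intro z hz g
    rw [← hs.Zc z hz g, mul_inv_cancel_right]
    exact hz
  have hidx := index_sSup_le h3 h2 (c := M) fun T hT => (hgood T hT).1
  have hidx2 : (Z ⊔ sSup 𝒯).index ≤ b6 n m M := by
    refine index_le_of h5 (hidx.trans ?_) hs.Zc
    refine Nat.mul_le_mul (Nat.factorial_le h4) ?_
    exact (Nat.pow_le_pow_left (le_max_right 1 M) _).trans
      (Nat.pow_le_pow_right (le_max_left 1 M) h4)
  refine loc_comps (C := max 1 C) hna h2 h3 h4 hs hST hidx2 (le_max_left _ _) ?_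
  intro T hT
  exact (hgood T hT).2.mono (le_max_right _ _)

/-- The property of an exceptional component `L` of a group with a block `b` with defect
group `D`: `L / Z(L)` has order greater than `m` and is not of local characteristic `p` up to order
`n` (or, for odd `p`, has Sylow `p`-subgroups of order at most `n`), and either more than `m`
cosets of `L C_G(L)` in `N_G(L)`, or no small source idempotent. -/
def Exc6 (p n m : ℕ) (k : Type u) [Field k] (G : Type) [Group G] [Finite G]
    (b : MonoidAlgebra k G) (D L : Subgroup G) : Prop :=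
  m < Nat.card (L ⧸ Subgroup.center L) ∧
  ¬ (IsLocalChar p n (L ⧸ Subgroup.center L) ∧
    (p = 2 ∨ ∀ P : Sylow p (L ⧸ Subgroup.center L), n < Nat.card P)) ∧
  (m < (L ⊔ Subgroup.centralizer (L : Set G)).relIndex (Subgroup.normalizer (L : Set G)) ∨
    ¬ HasSmallSource m b D L)

/-- The local theorem for the general reduction. -/
theorem loc6 (p n m : ℕ) [Fact p.Prime] (k : Type u) [Field k] [IsAlgClosed k] [CharP k p] :
    LocL (Exc6 p n m) (SmallC n (c6 n m m m)) k p n := by
  refine loc_gen ?_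
  intro G _ _ Z D a b hs hST hNR hD L hL hp hr hE
  by_cases hm : Nat.card (L ⧸ Subgroup.center L) ≤ m
  · exact Or.inl hm
  by_cases hc : IsLocalChar p n (L ⧸ Subgroup.center L) ∧
      (p = 2 ∨ ∀ P : Sylow p (L ⧸ Subgroup.center L), n < Nat.card P)
  · exact Or.inr (Or.inl hc)
  right
  right
  by_cases ho : (L ⊔ Subgroup.centralizer (L : Set G)).relIndex
      (Subgroup.normalizer (L : Set G)) ≤ m
  · refine ⟨ho, ?_⟩
    by_cases hss : HasSmallSource m b D L
    · exact corP_of_small hs.hb.ne_zero hs.Dp hss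
    · exact absurd ⟨by omega, hc, Or.inr hss⟩ hE
  · exact absurd ⟨by omega, hc, Or.inl (by omega)⟩ hE

end Vale.Agent.P180.R2.H365
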