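import Vale.Agent.P180.R2.H365.Loc
import Vale.Agent.P180.R2.H12.I1
import Vale.Agent.P180.R2.H471.Three
import Vale.Agent.P180.R2.H589.AltC
import Vale.Agent.P180.R2.H47.LocDef

/-!
P180: the local theorem.
-/

set_option linter.all false

namespace Vale.Agent.P180.R2.H365

open Vale.Agent.P180 Vale.Agent.P180.H768.Gd Vale.Agent.P180.R2.H47 Vale.Agent.P180.R2.H799

universe u

section

variable (k : Type u) [Field k] [IsAlgClosed k] (p : ℕ) [Fact p.Prime] [CharP k p]

theorem i1 (n : ℕ) : I1 k p n (n * n + 4) := by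
  intro G _ _ 𝒜 D b a _ _ _ hb hD hDn ha hba hne
  obtain ⟨F, f, e, h1, -, h2, h3, -, h4, h5⟩ :=
    H12.exists_pr 𝒜 hD hDn ha hb.idem hba hne
  exact ⟨F, f, h1, h2, h3, h4, h5⟩

theorem cornerProp : H471.CornerProp k p H589.CC := by
  intro α _ _ F P hP hPF b f a hb ha hba hf hbr
  refine le_trans (Submodule.finrank_mono ?_) (H589.alt_corner F hP hPF hb ha hba hf hbr)
  rintro x ⟨-, h1, h2⟩
  refine H589.mem_crn.mpr ⟨x, ?_⟩
  rw [h1, h2]

theorem CC_mono {s n m : ℕ} (h : s ≤ n) : H589.CC s m ≤ H589.CC n m := by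
  unfold H589.CC
  gcongr

theorem i3 : I3 k p H589.CC :=
  H471.i3 (cornerProp k p) fun s n m h => CC_mono h

end

/-- the constant of the local theorem -/
def LC (n β : ℕ) : ℕ :=
  β * ((((Finset.range (n + 1)).sup fun s =>
    (Finset.range (n * n + 4 + 1)).sup (H589.CC s)) + 1) ^ n) ^ 2

/-- **The local theorem** for a normal direct product of alternating groups. -/
theorem loc (p : ℕ) [Fact p.Prime] (n β : ℕ) : LOC.{u} p n β (LC n β) := by
  intro k _ _ _ G _ _ 𝒜 Z D a b hr h7 hker hZ hZp hidx hb hD hDn ha hba hST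
  have hinj : Function.Injective 𝒜.ι := (H12.toData 𝒜).inj
  obtain ⟨P, i, hi, hPD, hiP, hbi, ⟨w, hw, hbw⟩, hdim⟩ :=
    loc_aux (i1 k p n) (i3 k p) 𝒜 hr h7 hinj hker hZ hZp hidx hb hD hDn ha hba hST
  refine ⟨P, hPD, i, hi, hiP, hbi, ⟨1, fun _ => 1, fun _ => w, fun _ => Subalgebra.one_mem _,
    fun _ => hw, ?_⟩, ?_⟩
  · rw [Finset.univ_unique, Finset.sum_singleton, one_mul]
    exact hbw
  · refine hdim.trans ?_
    unfold LC
    refine Nat.mul_le_mul_left _ (Nat.pow_le_pow_left ?_ 2)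
    rw [Finset.prod_const, Finset.card_univ, Fintype.card_fin]
    exact (Nat.pow_le_pow_left (Nat.le_succ _) _).trans
      (Nat.pow_le_pow_right (Nat.succ_pos _) hr)

end Vale.Agent.P180.R2.H365
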