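import Vale.Agent.P180.R2.H365.Rigid
import Vale.Agent.P180.R2.H259.Base

/-!
P180: relatively separable interior algebras of bounded dimension with an equivariant frame fall
into finitely many isomorphism classes.
-/

set_option linter.unusedSectionVars false

namespace Vale.Agent.P180.R2.H365

open Vale.Agent.P180.R2.H259

universe u v w

section

variable {k : Type u} [Field k] {Γ : Type} [Group Γ] {Ξ : Type} [Fintype Ξ] [DecidableEq Ξ]
  [MulAction (Γ × Γ) Ξ]

/-- left operators -/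
def PL (k : Type u) [Field k] (Ξ : Type) [DecidableEq Ξ] [MulAction (Γ × Γ) Ξ] (g : Γ) :
    Matrix Ξ Ξ k := fun n n' => if (g, (1 : Γ)) • n' = n then 1 else 0

/-- right operators -/
def PR (k : Type u) [Field k] (Ξ : Type) [DecidableEq Ξ] [MulAction (Γ × Γ) Ξ] (g : Γ) :
    Matrix Ξ Ξ k := fun n n' => if ((1 : Γ), g⁻¹) • n' = n then 1 else 0

theorem PL_mulVec (g : Γ) (c : Ξ → k) (n : Ξ) :
    (PL k Ξ g).mulVec c n = c ((g, (1 : Γ))⁻¹ • n) := by
  rw [Matrix.mulVec, dotProduct, Finset.sum_eq_single ((g, (1 : Γ))⁻¹ • n)]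
  · rw [PL, if_pos (smul_inv_smul _ _), one_mul]
  · intro b _ hb
    have : (g, (1 : Γ)) • b ≠ n := fun h => hb (by rw [← h, inv_smul_smul])
    simp [PL, this]
  · simp

theorem PR_mulVec (g : Γ) (c : Ξ → k) (n : Ξ) :
    (PR k Ξ g).mulVec c n = c (((1 : Γ), g⁻¹)⁻¹ • n) := by
  rw [Matrix.mulVec, dotProduct, Finset.sum_eq_single (((1 : Γ), g⁻¹)⁻¹ • n)]
  · rw [PR, if_pos (smul_inv_smul _ _), one_mul]
  · intro b _ hb
    have : ((1 : Γ), g⁻¹) • b ≠ n := fun h => hb (by rw [← h, inv_smul_smul])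
    simp [PR, this]
  · simp

variable {A : Type v} [Ring A] [Algebra k A] (ρ : Γ →* A) (f : Frame k ρ Ξ) {r : ℕ}
  (B : Module.Basis (Fin r) k A)

/-- the coordinates -/
noncomputable def pt : Ix Ξ r → k :=
  Sum.elim (fun p => f.a p.1 (B p.2)) (Sum.elim (fun p => B.equivFun (f.b p.2) p.1)
    (Sum.elim (fun p => B.equivFun (B p.1 * B p.2.1) p.2.2) (fun i => B.equivFun 1 i)))

theorem pt_un : un (pt ρ f B) = B.equivFun 1 := rfl

theorem pt_mulB (v w : Fin r → k) : mulB (pt ρ f B) v w =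
    B.equivFun (B.equivFun.symm v * B.equivFun.symm w) := by
  have h : mulB (pt ρ f B) = ((LinearMap.mul k A).compl₁₂ B.equivFun.symm.toLinearMap
      B.equivFun.symm.toLinearMap).compr₂ B.equivFun.toLinearMap := by
    refine bil_ext fun i j => ?_
    ext t
    rw [mulB_apply]
    simp only [LinearMap.compr₂_apply, LinearMap.compl₁₂_apply, LinearEquiv.coe_coe,
      LinearMap.mul_apply']
    rw [Finset.sum_eq_single i, Finset.sum_eq_single j]
    · simp only [Pi.single_eq_same, one_mul]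
      have h1 : ∀ i, B.equivFun.symm (Pi.single i 1) = B i := fun i => by
        rw [Module.Basis.equivFun_symm_apply]
        simp [Pi.single_apply]
      rw [h1, h1]
      rfl
    · intro b _ hb
      simp [Pi.single_apply, hb]
    · simp
    · intro b _ hb
      simp [Pi.single_apply, hb]
    · simp
  rw [h]
  rfl

theorem pt_al (x : A) : (al (pt ρ f B)).mulVec (B.equivFun x) = fun n => f.a n x := by
  ext n
  rw [Matrix.mulVec, dotProduct]
  conv_rhs => rw [← B.sum_equivFun x, map_sum]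
  refine Finset.sum_congr rfl fun i _ => ?_
  rw [map_smul, smul_eq_mul, mul_comm]
  rfl

theorem pt_be (c : Ξ → k) : (be (pt ρ f B)).mulVec c = B.equivFun (∑ n, c n • f.b n) := by
  ext i
  rw [Matrix.mulVec, dotProduct, map_sum, Finset.sum_apply]
  refine Finset.sum_congr rfl fun n _ => ?_
  rw [map_smul, Pi.smul_apply, smul_eq_mul, mul_comm]
  rfl

theorem frame_a_left (g : Γ) (n : Ξ) (x : A) : f.a ((g, (1 : Γ))⁻¹ • n) x = f.a n (ρ g * x) := by
  have := f.a_smul g 1 ((g, (1 : Γ))⁻¹ • n) x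
  rw [inv_one, map_one, mul_one, smul_inv_smul] at this
  exact this.symm

theorem frame_a_right (g : Γ) (n : Ξ) (x : A) :
    f.a (((1 : Γ), g⁻¹)⁻¹ • n) x = f.a n (x * ρ g) := by
  have := f.a_smul 1 g⁻¹ (((1 : Γ), g⁻¹)⁻¹ • n) x
  rw [inv_inv, map_one, one_mul, smul_inv_smul] at this
  exact this.symm

theorem frame_b_left (g : Γ) (c : Ξ → k) :
    ∑ n, c ((g, (1 : Γ))⁻¹ • n) • f.b n = ρ g * ∑ n, c n • f.b n := by
  rw [Finset.mul_sum]
  refine (Fintype.sum_equiv (MulAction.toPerm ((g, (1 : Γ)))) _ _ fun n => ?_).symm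
  rw [MulAction.toPerm_apply, inv_smul_smul, f.b_smul, inv_one, map_one, mul_one, mul_smul_comm]

theorem frame_b_right (g : Γ) (c : Ξ → k) :
    ∑ n, c (((1 : Γ), g⁻¹)⁻¹ • n) • f.b n = (∑ n, c n • f.b n) * ρ g := by
  rw [Finset.sum_mul]
  refine (Fintype.sum_equiv (MulAction.toPerm (((1 : Γ), g⁻¹))) _ _ fun n => ?_).symm
  rw [MulAction.toPerm_apply, inv_smul_smul, f.b_smul, inv_inv, map_one, one_mul, smul_mul_assoc]

theorem map_id_mat {m n : Type} (M : Matrix m n k) : M.map (algebraMap k k) = M := by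
  ext i j
  simp

theorem pt_opL (g : Γ) (v : Fin r → k) : op (pt ρ f B) (PL k Ξ g) v =
    B.equivFun (ρ g * B.equivFun.symm v) := by
  obtain ⟨x, rfl⟩ := B.equivFun.surjective v
  rw [op_apply, map_id_mat, pt_al, pt_be, LinearEquiv.symm_apply_apply]
  congr 1
  simp only [PL_mulVec]
  rw [frame_b_left ρ f g (fun n => f.a n x), f.sum_eq]

theorem pt_opR (g : Γ) (v : Fin r → k) : op (pt ρ f B) (PR k Ξ g) v =
    B.equivFun (B.equivFun.symm v * ρ g) := by
  obtain ⟨x, rfl⟩ := B.equivFun.surjective v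
  rw [op_apply, map_id_mat, pt_al, pt_be, LinearEquiv.symm_apply_apply]
  congr 1
  simp only [PR_mulVec]
  rw [frame_b_right ρ f g (fun n => f.a n x), f.sum_eq]

theorem mat_eq_of_mulVec {m n : Type} [Fintype n] [DecidableEq n] {M M' : Matrix m n k}
    (h : ∀ v, M.mulVec v = M'.mulVec v) : M = M' := by
  ext i j
  have := congrFun (h (Pi.single j 1)) i
  simpa using this

theorem pt_isStr : IsStr (pt ρ f B) (PL k Ξ (Γ := Γ)) (PR k Ξ) := by
  have hE : ∀ v, B.equivFun (B.equivFun.symm v) = v := fun v => LinearEquiv.apply_symm_apply _ _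
  have hE' : ∀ v, B.equivFun.symm (B.equivFun v) = v := fun v => LinearEquiv.symm_apply_apply _ _
  refine ⟨?_, fun g => ?_, fun g => ?_, fun i j l => ?_, fun i => ?_, fun i => ?_,
      fun g i j => ?_, fun g i j => ?_, fun g i j => ?_, fun g => ?_⟩
  · refine mat_eq_of_mulVec fun v => ?_
    obtain ⟨x, rfl⟩ := B.equivFun.surjective v
    rw [← Matrix.mulVec_mulVec, pt_al, pt_be, f.sum_eq, Matrix.one_mulVec]
  · refine mat_eq_of_mulVec fun v => ?_
    rw [map_id_mat]
    simp only [← Matrix.mulVec_mulVec, pt_be, pt_al]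
    ext n
    simp only [PL_mulVec]
    rw [frame_b_left ρ f g v, frame_a_left]
  · refine mat_eq_of_mulVec fun v => ?_
    rw [map_id_mat]
    simp only [← Matrix.mulVec_mulVec, pt_be, pt_al]
    ext n
    simp only [PR_mulVec]
    rw [frame_b_right ρ f g v, frame_a_right]
  · simp only [pt_mulB, hE', mul_assoc]
  · simp only [pt_mulB, pt_un, hE', one_mul, hE]
  · simp only [pt_mulB, pt_un, hE', mul_one, hE]
  · simp only [pt_mulB, pt_opL, hE', mul_assoc]
  · simp only [pt_mulB, pt_opR, hE', mul_assoc]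
  · simp only [pt_mulB, pt_opL, pt_opR, hE', mul_assoc]
  · simp only [pt_un, pt_opL, pt_opR, hE', mul_one, one_mul]

theorem pt_casK (hc : Cas k ρ) : CasK (PL k Ξ (Γ := Γ)) (PR k Ξ) (pt ρ f B) := by
  obtain ⟨n, x, y, h1, h2⟩ := hc
  refine ⟨n, fun j => B.equivFun (x j), fun j => B.equivFun (y j), ?_, ?_⟩
  · simp only [pt_mulB, LinearEquiv.symm_apply_apply]
    rw [← map_sum, h1, pt_un]
  · intro W _ _ β hβ c
    have h3 : CasB k W ρ x y := casB_of ρ x y h2
    obtain ⟨a, rfl⟩ := B.equivFun.surjective c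
    have h4 := h3 (β.compl₁₂ B.equivFun.toLinearMap B.equivFun.toLinearMap) (by
      intro u v g
      simp only [LinearMap.compl₁₂_apply, LinearEquiv.coe_coe]
      have h5 := hβ g (B.equivFun u) (B.equivFun v)
      rw [pt_opL, pt_opR, LinearEquiv.symm_apply_apply, LinearEquiv.symm_apply_apply] at h5
      exact h5) a
    simp only [LinearMap.compl₁₂_apply, LinearEquiv.coe_coe] at h4
    simp only [pt_mulB, LinearEquiv.symm_apply_apply]
    exact h4

end

/-- an isomorphism of points gives an isomorphism of interior algebras -/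
theorem algEquiv_of_isIso {k : Type u} [Field k] {Γ : Type} [Group Γ] {Ξ : Type} [Fintype Ξ]
    [DecidableEq Ξ] [MulAction (Γ × Γ) Ξ] {r : ℕ}
    {A : Type v} [Ring A] [Algebra k A] (ρ : Γ →* A) (f : Frame k ρ Ξ)
    (B : Module.Basis (Fin r) k A)
    {A' : Type w} [Ring A'] [Algebra k A'] (ρ' : Γ →* A') (f' : Frame k ρ' Ξ)
    (B' : Module.Basis (Fin r) k A') {G G' : Matrix (Fin r) (Fin r) k}
    (h : IsIso (PL k Ξ (Γ := Γ)) (PR k Ξ) (pt ρ f B) (pt ρ' f' B') G G') :
    ∃ F : A ≃ₐ[k] A', ∀ g, F (ρ g) = ρ' g := by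
  have hs := h.symm
  have h1 : ∀ v, G'.mulVec (G.mulVec v) = v := fun v => by
    rw [Matrix.mulVec_mulVec, h.inv', Matrix.one_mulVec]
  have h2 : ∀ v, G.mulVec (G'.mulVec v) = v := fun v => by
    rw [Matrix.mulVec_mulVec, h.inv, Matrix.one_mulVec]
  let e : (Fin r → k) ≃ₗ[k] (Fin r → k) :=
    LinearEquiv.ofLinearMap G'.mulVecLin G.mulVecLin (LinearMap.ext fun v => h1 v)
      (LinearMap.ext fun v => h2 v)
  let F : A ≃ₗ[k] A' := (B.equivFun.trans e).trans B'.equivFun.symm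
  have hF : ∀ a, B'.equivFun (F a) = G'.mulVec (B.equivFun a) := fun a => by
    change B'.equivFun (B'.equivFun.symm (e (B.equivFun a))) = _
    rw [LinearEquiv.apply_symm_apply]
    rfl
  have hmul : ∀ a b, F (a * b) = F a * F b := by
    intro a b
    apply B'.equivFun.injective
    have h3 := hs.mul' (B.equivFun a) (B.equivFun b)
    simp only [pt_mulB, ← hF, LinearEquiv.symm_apply_apply] at h3
    exact h3
  have hone : F 1 = 1 := by
    have h3 : ∀ b, F 1 * b = b := by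
      intro b
      obtain ⟨a, rfl⟩ := F.surjective b
      rw [← hmul, one_mul]
    rw [← h3 1, mul_one]
  refine ⟨AlgEquiv.ofLinearEquiv F hone hmul, fun g => ?_⟩
  change F (ρ g) = ρ' g
  apply B'.equivFun.injective
  have h3 := hs.left' g (B.equivFun 1)
  simp only [pt_opL, ← hF, LinearEquiv.symm_apply_apply, mul_one, hone] at h3
  exact h3

/-- **Finiteness theorem for interior algebras.** -/
theorem finite_classes {k : Type u} [Field k] [IsAlgClosed k] {Γ : Type} [Group Γ]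
    {Ξ : Type} [Fintype Ξ] [MulAction (Γ × Γ) Ξ] (r : ℕ) {M : Type w} (A : M → Type v)
    [∀ m, Ring (A m)] [∀ m, Algebra k (A m)] [∀ m, Module.Finite k (A m)]
    (hr : ∀ m, Module.finrank k (A m) = r) (ρ : ∀ m, Γ →* A m)
    (hc : ∀ m, Cas k (ρ m)) (hf : ∀ m, Nonempty (Frame k (ρ m) Ξ)) :
    ∃ M₀ : Finset M, ∀ m, ∃ m₀ ∈ M₀, ∃ F : A m ≃ₐ[k] A m₀, ∀ g, F (ρ m g) = ρ m₀ g := by
  classical
  let f : ∀ m, Frame k (ρ m) Ξ := fun m => (hf m).some
  let B : ∀ m, Module.Basis (Fin r) k (A m) := fun m => Module.finBasisOfFinrankEq k (A m) (hr m)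
  let y : M → (Ix Ξ r → k) := fun m => pt (ρ m) (f m) (B m)
  obtain ⟨S, h1, h2, h3⟩ := finite_structures (P := PL k Ξ (Γ := Γ)) (Q := PR k Ξ)
    (Set.range y) (by rintro _ ⟨m, rfl⟩; exact pt_isStr _ _ _)
    (by rintro _ ⟨m, rfl⟩; exact pt_casK _ _ _ (hc m))
  have h4 : ∀ s : S, ∃ m, y m = s := fun s => h2 s.2
  choose c hc' using h4
  have hfin : Finite S := h1
  refine ⟨(Set.finite_range c).toFinset, fun m => ?_⟩
  obtain ⟨y', hy', G, G', hG⟩ := h3 (y m) ⟨m, rfl⟩
  refine ⟨c ⟨y', hy'⟩, by simp, ?_⟩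
  have h5 : y (c ⟨y', hy'⟩) = y' := hc' ⟨y', hy'⟩
  rw [← h5] at hG
  exact algEquiv_of_isIso (ρ m) (f m) (B m) (ρ _) (f _) (B _) hG

end Vale.Agent.P180.R2.H365
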