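import Vale.Agent.P180.R2.H799.BT8
import Vale.Agent.P180.R2.H799.BY1
import Vale.Agent.P180.R2.H259.Cen.B1
import Mathlib.GroupTheory.SemidirectProduct

/-!
P180: the split parabolic systems of the classical groups are compatible with `p`-groups of
automorphisms which act by semilinear similitudes.
-/

set_option linter.all false

namespace Vale.Agent.P180.R2.H365.Oc

open Module Vale.Agent.P180 Vale.Agent.P180.R2.H799 Vale.Agent.P180.R2.H854
  Vale.Agent.P180.R2.H799.BS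
open Vale.Agent.P180.R2.H799.BN (span_EV_of_lt comm_of_span finite_sl sl_ext pow_apply_eigen
  comm_of_BD)

/-- `α` acts on the quotient `T` of `X` by the semilinear similitude `g`. -/
def SimAct {K E T : Type*} [Field K] [AddCommGroup E] [Module K E] [Group T] (Φ : HForm K E)
    {X : Subgroup (SpecialLinearGroup K E)} (π : X →* T) (α : MulAut T) (σ : K ≃+* K)
    (g : E → E) : Prop :=
  Semi σ g ∧ (∃ c : K, ∀ v w, Φ.B (g v) (g w) = c * σ (Φ.B v w)) ∧
    ∀ x : X, ∃ y : X, Tw g x.1 y.1 ∧ α (π x) = π y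

section Semidirect

variable {T : Type} [Group T] (Γ : Subgroup (MulAut T))

/-- the semidirect product of `T` and `Γ` -/
abbrev Sd : Type := T ⋊[Γ.subtype] Γ

/-- the copy of `T` -/
abbrev SdL : Subgroup (Sd Γ) := (SemidirectProduct.inl : T →* Sd Γ).range

/-- the map to the copy of `T` -/
abbrev SdM {X : Type*} [Group X] (π : X →* T) : X →* SdL Γ :=
  (SemidirectProduct.inl : T →* Sd Γ).rangeRestrict.comp π

theorem sd_finite [Finite T] : Finite (Sd Γ) := by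
  have : Finite (MulAut T) := Finite.of_injective (fun α : MulAut T => (α : T → T))
    DFunLike.coe_injective
  exact Finite.of_equiv (T × Γ) (SemidirectProduct.equivProd (φ := Γ.subtype)).symm

theorem sd_conj (α : Γ) (t : T) :
    (SemidirectProduct.inr α : Sd Γ) * SemidirectProduct.inl t * (SemidirectProduct.inr α)⁻¹ =
      SemidirectProduct.inl ((α : MulAut T) t) := by
  rw [← map_inv, ← SemidirectProduct.inl_aut]
  rfl

end Semidirect

section

variable {K E T : Type} [Field K] [AddCommGroup E] [Module K E] [Group T] {Φ : HForm K E}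
  {X : Subgroup (SpecialLinearGroup K E)} {π : X →* T}

theorem SimAct.actX {Γ : Subgroup (MulAut T)} {α : MulAut T} (hα : α ∈ Γ) {σ : K ≃+* K}
    {g : E → E} (h : SimAct Φ π α σ g) :
    ActX Φ (SdM Γ π) (SemidirectProduct.inr ⟨α, hα⟩ : Sd Γ) σ g := by
  refine ⟨h.1, h.2.1, fun x => ?_⟩
  obtain ⟨y, hy, hxy⟩ := h.2.2 x
  refine ⟨y, hy, ?_⟩
  change (SemidirectProduct.inr ⟨α, hα⟩ : Sd Γ) * SemidirectProduct.inl (π x) *
    (SemidirectProduct.inr ⟨α, hα⟩)⁻¹ = SemidirectProduct.inl (π y)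
  rw [sd_conj, ← hxy]

/-- the kernel of the map to the copy -/
theorem ker_SdM {Γ : Subgroup (MulAut T)} : (SdM Γ π).ker = π.ker := by
  ext x
  rw [MonoidHom.mem_ker, MonoidHom.mem_ker]
  constructor
  · intro h
    have h1 := congrArg Subtype.val h
    exact SemidirectProduct.inl_injective (φ := Γ.subtype) h1
  · intro h
    apply Subtype.ext
    change SemidirectProduct.inl (π x) = (1 : Sd Γ)
    rw [h, map_one]

theorem surj_SdM {Γ : Subgroup (MulAut T)} (hπ : Function.Surjective π) :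
    Function.Surjective (SdM Γ π) :=
  (MonoidHom.rangeRestrict_surjective _).comp hπ

/-- **The outer action is cyclic.** -/
theorem exists_cyc [Finite K] [FiniteDimensional K E] [Finite T] {p : ℕ} [Fact p.Prime]
    (hp2 : Odd p) {ζ : K} (hζ : ζ ^ p = 1) (hζ1 : ζ ≠ 1) (hζθ : Φ.θ ζ = ζ)
    (hE : 1 ≤ finrank K E) (hX2 : X.relIndex Φ.Iso ∣ 2) (hV : ∀ F, Φ.SD F → VF F ⊓ Φ.Iso ≤ X)
    (hL : Lines Φ) (hk : π.ker.map X.subtype ≤ Subgroup.center (SpecialLinearGroup K E))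
    (hπ : Function.Surjective π) {Γ : Subgroup (MulAut T)} (hΓ : IsPGroup p Γ)
    (hact : ∀ α ∈ Γ, ∃ (σ : K ≃+* K) (g : E → E), SimAct Φ π α σ g) :
    ∃ c : MulAut T, ∀ α ∈ Γ, ∃ (i : ℤ) (y : T), α = c ^ i * MulAut.conj y := by
  have hfin := sd_finite Γ
  obtain ⟨c, hcR, hc⟩ := exists_cycX (Φ := Φ) (π := SdM Γ π)
    (R := (SemidirectProduct.inr : Γ →* Sd Γ).range) (by
      rintro _ ⟨⟨α, hα⟩, rfl⟩
      obtain ⟨σ, g, h⟩ := hact α hα
      exact ⟨σ, g, h.actX hα⟩)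
  obtain ⟨c₁, rfl⟩ := hcR
  refine ⟨c₁, fun α hα => ?_⟩
  obtain ⟨n, g, hg⟩ := hc (SemidirectProduct.inr ⟨α, hα⟩) ⟨_, rfl⟩
  rw [← map_zpow, ← map_inv, ← map_mul] at hg
  obtain ⟨m, hm⟩ := hΓ ((c₁ ^ n)⁻¹ * ⟨α, hα⟩)
  obtain ⟨s, ⟨y, rfl⟩, c', hc', h1⟩ := hg.linear hp2 hζ hζ1 hζθ hE hX2 hV hL
    (by rw [ker_SdM]; exact hk) (surj_SdM hπ) (m := m) (by rw [← map_pow, hm, map_one])
  refine ⟨n, y, ?_⟩
  have h2 : (c₁ ^ n)⁻¹ * ⟨α, hα⟩ = ((c₁ ^ n)⁻¹ * ⟨α, hα⟩ : Γ) := rfl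
  have key : ∀ t : T, ((((c₁ ^ n)⁻¹ * ⟨α, hα⟩ : Γ) : MulAut T) t) = y * t * y⁻¹ := by
    intro t
    apply SemidirectProduct.inl_injective (φ := Γ.subtype)
    rw [← sd_conj, h1]
    have h3 : (SemidirectProduct.inl t : Sd Γ) * c' = c' * SemidirectProduct.inl t :=
      Subgroup.mem_centralizer_iff.mp hc' _ ⟨t, rfl⟩
    rw [map_mul, map_mul, map_inv]
    calc (SemidirectProduct.inl y : Sd Γ) * c' * SemidirectProduct.inl t *
          (SemidirectProduct.inl y * c')⁻¹ =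
        SemidirectProduct.inl y * (c' * SemidirectProduct.inl t) * c'⁻¹ *
          (SemidirectProduct.inl y)⁻¹ := by group
      _ = SemidirectProduct.inl y * (SemidirectProduct.inl t * c') * c'⁻¹ *
          (SemidirectProduct.inl y)⁻¹ := by rw [h3]
      _ = _ := by group
  have h4 : (((c₁ ^ n)⁻¹ * ⟨α, hα⟩ : Γ) : MulAut T) = MulAut.conj y := by
    ext t
    rw [key, MulAut.conj_apply]
  rw [← h4]
  change α = (c₁ : MulAut T) ^ n * (((c₁ : MulAut T) ^ n)⁻¹ * α)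
  rw [mul_inv_cancel_left]

/-- the action on a `p`-subgroup -/
theorem exists_phi [Finite K] [FiniteDimensional K E] {p : ℕ} [Fact p.Prime] {Q : Subgroup X}
    (hQ : IsPGroup p Q) {α : MulAut T}
    (hQα : ∀ x ∈ Q, ∀ y : X, (∃ i, y ^ p ^ i = 1) → α (π x) = π y → y ∈ Q)
    {σ : K ≃+* K} {g : E → E} (h : SimAct Φ π α σ g) :
    ∃ φ : Q.map X.subtype → Q.map X.subtype,
      Function.Surjective φ ∧ ∀ x : Q.map X.subtype,
        Tw g (x : SpecialLinearGroup K E) (φ x : SpecialLinearGroup K E) := by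
  have hfG : Finite (SpecialLinearGroup K E) := finite_sl
  have key : ∀ x : Q.map X.subtype, ∃ y : Q.map X.subtype,
      Tw g (x : SpecialLinearGroup K E) (y : SpecialLinearGroup K E) := by
    rintro ⟨_, x, hx, rfl⟩
    obtain ⟨y, hy, hxy⟩ := h.2.2 x
    obtain ⟨m₁, hm₁⟩ := hQ ⟨x, hx⟩
    have h3 : y ^ (p ^ m₁) = 1 := by
      have h4 := hy.pow (p ^ m₁)
      have h5 : x ^ (p ^ m₁) = 1 := congrArg Subtype.val hm₁
      have h6 : (x : SpecialLinearGroup K E) ^ (p ^ m₁) = 1 := congrArg Subtype.val h5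
      rw [h6] at h4
      exact Subtype.ext (Tw.unique h.1.bij.2 h4 Tw.one)
    exact ⟨⟨y.1, y, hQα x hx y ⟨m₁, h3⟩ hxy, rfl⟩, hy⟩
  choose φ hφ using key
  refine ⟨φ, Finite.surjective_of_injective fun x x' hxx => Subtype.ext ?_, hφ⟩
  refine SpecialLinearGroup.ext _ _ fun v => h.1.bij.1 ?_
  have h1 := hφ x v
  have h2 := hφ x' v
  rw [h1, h2, hxx]

end

end Vale.Agent.P180.R2.H365.Oc
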