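import Vale.Agent.P180.R2.H365.OcA
import Vale.Agent.P180.R2.H259.Cen.D1

/-!
P180: the split parabolic systems of the classical groups are compatible with `p`-groups of
automorphisms which act by semilinear similitudes (2).
-/

set_option linter.all false

namespace Vale.Agent.P180.R2.H365.Oc

open Module Vale.Agent.P180 Vale.Agent.P180.R2.H799 Vale.Agent.P180.R2.H854
  Vale.Agent.P180.R2.H799.BS
open Vale.Agent.P180.R2.H799.BN (span_EV_of_lt comm_of_span finite_sl sl_ext pow_apply_eigen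
  comm_of_BD)

variable {K E T : Type} [Field K] [AddCommGroup E] [Module K E] [Group T] {Φ : HForm K E}
  {X : Subgroup (SpecialLinearGroup K E)} {π : X →* T}

theorem stab_form [Finite K] [FiniteDimensional K E] {p : ℕ} [Fact p.Prime]
    (hp2 : Odd p) (hT : Φ.Tr) (hnorm : Φ.NormCond) {ζ : K} (hζ : ζ ^ p = 1) (hζ1 : ζ ≠ 1)
    (hζθ : Φ.θ ζ = ζ) (hXI : X ≤ Φ.Iso) (hX2 : X.relIndex Φ.Iso ∣ 2)
    (hV : ∀ F, Φ.SD F → VF F ⊓ Φ.Iso ≤ X) (hK : ¬ p ∣ Nat.card K)
    (hp1 : p ∣ Nat.card K - 1) (hlt : finrank K E < p) (hL : Lines Φ)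
    (hk : π.ker.map X.subtype ≤ Subgroup.center (SpecialLinearGroup K E))
    (hπ : Function.Surjective π) {Γ : Subgroup (MulAut T)} (hΓ : IsPGroup p Γ)
    (hact : ∀ α ∈ Γ, ∃ (σ : K ≃+* K) (g : E → E), SimAct Φ π α σ g) {Q : Subgroup X}
    (hQ : ∀ x, x ∈ Q ↔ (∃ i, x ^ p ^ i = 1) ∧ MulAut.conj (π x) ∈ Γ) :
    ParStab ((Φ.flagGeo hT hnorm hXI hV).sys p Fact.out hK) π Γ Q := by
  classical
  have hp : p.Prime := Fact.out
  have hfG : Finite (SpecialLinearGroup K E) := finite_sl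
  have hq1 : 1 < Nat.card K := Finite.one_lt_card
  have hQp : IsPGroup p Q := by
    rintro ⟨x, hx⟩
    obtain ⟨i, hi⟩ := ((hQ x).mp hx).1
    exact ⟨i, Subtype.ext hi⟩
  -- the image in the special linear group
  obtain ⟨Q', hQ'⟩ : ∃ Q', Q' = Q.map X.subtype := ⟨_, rfl⟩
  have hQ'p : IsPGroup p Q' := by rw [hQ']; exact hQp.map _
  have hQ'X : Q' ≤ X := by
    rw [hQ']
    rintro _ ⟨x, -, rfl⟩
    exact x.2
  have hQ'Q : Q'.subgroupOf X = Q := by
    apply Subgroup.map_injective X.subtype_injective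
    rw [map_subgroupOf_eq, inf_eq_left.mpr hQ'X, hQ']
  have hspan : Submodule.span K (BN.EV Q') = ⊤ := span_EV_of_lt hQ'p hp1 hlt
  have hQ'ab := comm_of_span hspan
  have hmemQ' : ∀ y ∈ Q, (y : SpecialLinearGroup K E) ∈ Q' := by
    intro y hy
    rw [hQ']
    exact ⟨y, hy, rfl⟩
  have hQab : ∀ x ∈ Q, ∀ y ∈ Q, x * y = y * x := fun x hx y hy =>
    Subtype.ext (hQ'ab x (hmemQ' x hx) y (hmemQ' y hy))
  refine ⟨hQab, fun hmax => ?_⟩
  obtain ⟨F, N, ι, hι, b, α, w, hw, hα, hN0, hFN, hFp, hF, hB, hC⟩ :=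
    Φ.exists_sd_data hp hp2 hζ hζ1 hζθ (hQ'X.trans hXI) hQ'p hspan
  have hFS : Φ.SD F := ⟨N, hN0, hFN, hFp⟩
  have hN : ∀ l, α l < N := fun l => hF.self_mem_iff.mp (by rw [hFN]; trivial)
  have hpair : IsLeviPair ((VF F).subgroupOf X) Q := by
    rw [← hQ'Q]
    exact (Φ.flagGeo hT hnorm hXI hV).levi hFS hF
      (Φ.dg_mem_X hXI (hV F hFS) hF hFN hFp hB) hQ'X hC
  have hcard : Fintype.card ι < p := by rw [← finrank_eq_card_basis b]; exact hlt
  -- `|K| - 1`
  obtain ⟨s, N', hpN, hq⟩ : ∃ s N' : ℕ, ¬ p ∣ N' ∧ Nat.card K - 1 = p ^ s * N' :=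
    Nat.exists_eq_pow_mul_and_not_dvd (by omega) p hp.ne_one
  have hs : 0 < s := by
    rw [Nat.pos_iff_ne_zero]
    intro h0
    rw [h0, pow_zero, one_mul] at hq
    rw [hq] at hp1
    exact hpN hp1
  obtain ⟨M₀, hM₀⟩ : ∃ M₀ : Subgroup X, M₀ = (M0 b α Q' N' (fun g => (hC g).mp)).subgroupOf X :=
    ⟨_, rfl⟩
  have hM₀' : ∀ x : X, x ∈ M₀ ↔ (x : SpecialLinearGroup K E) ∈ M0 b α Q' N'
      (fun g => (hC g).mp) := by
    intro x
    rw [hM₀]
    exact Iff.rfl
  have hM₀C : ∀ x ∈ M₀, (x : SpecialLinearGroup K E) ∈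
      Subgroup.centralizer (Q' : Set (SpecialLinearGroup K E)) := by
    intro x hx
    rw [hM₀'] at hx
    exact hx.1
  have hCX : ∀ x : X, x ∈ Subgroup.centralizer (Q : Set X) ↔
      (x : SpecialLinearGroup K E) ∈ Subgroup.centralizer (Q' : Set (SpecialLinearGroup K E)) := by
    intro x
    rw [Subgroup.mem_centralizer_iff, Subgroup.mem_centralizer_iff]
    constructor
    · intro h y hy
      rw [hQ'] at hy
      obtain ⟨y, hy, rfl⟩ := hy
      exact congrArg Subtype.val (h y hy)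
    · intro h y hy
      exact Subtype.ext (h y.1 (hmemQ' y hy))
  -- the blocks are preserved
  have hphi : ∀ β ∈ Γ, ∀ (σ : K ≃+* K) (g : E → E), SimAct Φ π β σ g → ∃ φ : Q' → Q',
      Function.Surjective φ ∧ ∀ x : Q',
        Tw g (x : SpecialLinearGroup K E) (φ x : SpecialLinearGroup K E) := by
    intro β hβ σ g hg
    rw [hQ']
    refine exists_phi hQp (fun x hx y hy hxy => (hQ y).mpr ⟨hy, ?_⟩) hg
    have h1 : MulAut.conj (π y) = β * MulAut.conj (π x) * β⁻¹ := by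
      ext t
      rw [← hxy, MulAut.mul_apply, MulAut.mul_apply, MulAut.conj_apply, MulAut.conj_apply,
        map_mul, map_mul, map_inv, MulAut.apply_inv_self]
    rw [h1]
    exact Γ.mul_mem (Γ.mul_mem hβ ((hQ x).mp hx).2) (Γ.inv_mem hβ)
  have hgb : ∀ β ∈ Γ, ∀ (σ : K ≃+* K) (g : E → E), SimAct Φ π β σ g →
      ∀ l m, b.repr (g (b l)) m ≠ 0 → α m = α l := by
    intro β hβ σ g hg l m hm
    obtain ⟨φ, hφ, hφg⟩ := hphi β hβ σ g hg
    obtain ⟨j, hj⟩ := hΓ ⟨β, hβ⟩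
    have h1 := wt_fixed b w hw hcard hg.1 φ hφ hφg (m := j)
      ((hg.actX hβ).per (by rw [ker_SdM]; exact hk) hV hL (by rw [← map_pow, hj, map_one])) l
    rw [hα]
    exact wt_repr b w hw h1 hm
  refine ⟨(VF F).subgroupOf X, ⟨VF F, ⟨F, hFS, rfl⟩, rfl⟩, M₀, hpair, ?_, ?_, fun β hβ => ⟨?_, ?_⟩⟩
  · rw [eq_bot_iff]
    rintro x ⟨hx, hxQ⟩
    obtain ⟨m, hm⟩ := hQp ⟨x, hxQ⟩
    have hx' := (hM₀' x).mp hx
    have h3 := m0_inf hcard hC hw hα hpN hx' (hmemQ' x hxQ)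
      (congrArg (fun y : Q => (y : X).1) hm) (Subgroup.one_mem _) (n := 1)
      (fun h => hp.one_lt.ne' (Nat.dvd_one.mp h)) (one_pow 1)
      (show x.1 = x.1 * 1 by rw [mul_one])
    exact Subgroup.mem_bot.mpr (Subtype.ext h3)
  · apply le_antisymm
    · refine sup_le (fun x hx => (hCX x).mpr (hM₀C x hx)) fun x hx => ?_
      rw [Subgroup.mem_centralizer_iff]
      exact fun y hy => hQab y hy x hx
    · intro x hx
      obtain ⟨m, hm, q, hqI, c, hcp, hqb, hxmq⟩ := exists_cov_iso Φ hp2 hζ hζ1 hζθ hcard hC hN hB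
        hq hpN hs (hXI x.2) ((hCX x).mp hx)
      have hqs : q ^ (p ^ s) = 1 := sl_ext b fun l => by
        rw [pow_apply_eigen (hqb l), hcp, one_smul]
        rfl
      have hqX : q ∈ X := mem_of_relIndex_dvd_two hX2 hqI (hp2.pow (n := s)) hqs
      have hmX : m ∈ X := by
        have h4 : m = x * q⁻¹ := by rw [hxmq, mul_inv_cancel_right]
        rw [h4]
        exact X.mul_mem x.2 (X.inv_mem hqX)
      have hqC : (⟨q, hqX⟩ : X) ∈ Subgroup.centralizer (Q : Set X) :=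
        (hCX _).mpr ((hC q).mpr (bd_diag hqb))
      have hqQ : (⟨q, hqX⟩ : X) ∈ Q := by
        refine hmax _ hqC ⟨s, Subtype.ext hqs⟩ fun y hy => ?_
        exact Subtype.ext (comm_of_BD (c := fun l => c (α l)) ((hC y.1).mp ((hCX y).mp hy)) hqb
          fun l m h => by simp only [h])
      have hx1 : x = ⟨m, hmX⟩ * ⟨q, hqX⟩ := Subtype.ext hxmq
      rw [hx1]
      exact Subgroup.mul_mem_sup ((hM₀' _).mpr hm) hqQ
  · rintro _ ⟨x, hx, rfl⟩
    obtain ⟨σ, g, hg⟩ := hact β hβ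
    obtain ⟨y, hy, hxy⟩ := hg.2.2 x
    exact ⟨y, VF_semi hF hg.1 (hgb β hβ σ g hg) hy hx, hxy.symm⟩
  · rintro _ ⟨x, hx, rfl⟩
    obtain ⟨σ, g, hg⟩ := hact β hβ
    obtain ⟨y, hy, hxy⟩ := hg.2.2 x
    refine ⟨y, ?_, hxy.symm⟩
    obtain ⟨φ, hφ, hφg⟩ := hphi β hβ σ g hg
    have hx' := (hM₀' x).mp hx
    refine (hM₀' y).mpr ⟨?_, fun i => ?_⟩
    · rw [Subgroup.mem_centralizer_iff]
      intro q hq
      obtain ⟨q', hq'⟩ := hφ ⟨q, hq⟩
      have h3 := hφg q'
      rw [hq'] at h3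
      have h4 : (q' : SpecialLinearGroup K E) * x = x * q' :=
        Subgroup.mem_centralizer_iff.mp hx'.1 _ q'.2
      have h5 := h3.mul hy
      have h6 := hy.mul h3
      rw [← h4] at h6
      exact Tw.unique hg.1.bij.2 h5 h6
    · have h3 : bdet b α i (toEnd y.1) = σ (bdet b α i (toEnd x.1)) :=
        bdet_semi b α i hg.1 (hgb β hβ σ g hg) (X := toEnd x.1) (Y := toEnd y.1) hy
      rw [h3, ← map_pow, hx'.2 i, map_one]

/-- **The split parabolic system of a classical group**, with an action by semilinear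
similitudes. -/
theorem parOutZ_form [FiniteDimensional K E] [Finite K] [Finite T] {p : ℕ} [Fact p.Prime]
    (hp2 : Odd p) {ζ : K} (hζ : ζ ^ p = 1) (hζ1 : ζ ≠ 1) (hζθ : Φ.θ ζ = ζ)
    (hgood : Φ.GoodX X) (hXI : X ≤ Φ.Iso) (hX2 : X.relIndex Φ.Iso ∣ 2)
    (h3 : 3 ≤ finrank K E) (h4 : 4 ≤ finrank K E ∨ ∃ a, Φ.θ a ≠ a) (hlt : finrank K E < p)
    (hπ : Function.Surjective π)
    (hcen : ∀ x : X, π x ∈ Subgroup.center T → x.1 ∈ Subgroup.center (SpecialLinearGroup K E))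
    {z : ℕ} (hz : (Nat.card K).Coprime z) {Γ : Subgroup (MulAut T)} (hΓ : IsPGroup p Γ)
    (hact : ∀ α ∈ Γ, ∃ (σ : K ≃+* K) (g : E → E), SimAct Φ π α σ g) :
    H259.Cen.ParOutZ p z T Γ := by
  have hp : p.Prime := Fact.out
  have hfG : Finite (SpecialLinearGroup K E) := finite_sl
  have hq1 : 1 < Nat.card K := Finite.one_lt_card
  have hT := Φ.trT hgood.or3
  have hnorm := Φ.normCondT hgood.or3
  have hV : ∀ F, Φ.SD F → VF F ⊓ Φ.Iso ≤ X := fun F _ => hgood.hV hX2 F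
  have hk : π.ker.map X.subtype ≤ Subgroup.center (SpecialLinearGroup K E) := by
    rintro _ ⟨x, hx, rfl⟩
    refine hcen x ?_
    rw [MonoidHom.mem_ker.mp hx]
    exact Subgroup.one_mem _
  have hL : Lines Φ := lines_of_form Φ hT h3 h4 (exists_isotropic Φ h3)
  have hζ0 : ζ ≠ 0 := by
    rintro rfl
    rw [zero_pow hp.ne_zero] at hζ
    exact zero_ne_one hζ
  have hp1 : p ∣ Nat.card K - 1 := by
    have h1 : orderOf (Units.mk0 ζ hζ0) = p := by
      apply orderOf_eq_prime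
      · ext
        simpa using hζ
      · intro h
        exact hζ1 (by simpa using congrArg Units.val h)
    rw [← Nat.card_units, ← h1]
    exact orderOf_dvd_natCard _
  have hKp : ¬ p ∣ Nat.card K := by
    intro hd
    have h1 := Nat.dvd_sub hd hp1
    rw [Nat.sub_sub_self hq1.le, Nat.dvd_one] at h1
    exact hp.one_lt.ne' h1
  have hZX : (Subgroup.center X).map X.subtype ≤
      Subgroup.center (SpecialLinearGroup K E) := by
    rintro _ ⟨x, hx, rfl⟩
    refine hcen x ?_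
    rw [Subgroup.mem_center_iff]
    intro l
    obtain ⟨y, rfl⟩ := hπ l
    rw [← map_mul, ← map_mul, Subgroup.mem_center_iff.mp hx y]
  have hcardZ : Nat.card (Subgroup.center X) = Nat.card ((Subgroup.center X).map X.subtype) :=
    (Subgroup.card_map_of_injective X.subtype_injective).symm
  refine ⟨exists_cyc hp2 hζ hζ1 hζθ (by omega) hX2 hV hL hk hπ hΓ hact, X, inferInstance,
    inferInstance, (Φ.flagGeo hT hnorm hXI hV).sys p hp hKp, π, hπ,
    Φ.hasLeviT hp hKp hT hnorm hXI hX2 hV hp2 hζ hζ1 hζθ, ?_, ?_, ?_, ?_⟩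
  · intro hd
    obtain ⟨x, hx⟩ := exists_prime_orderOf_dvd_card' p hd
    have h1 : x.1.1 ^ p ^ 1 = 1 := by
      have h2 : x ^ p = 1 := by
        rw [← hx]
        exact pow_orderOf_eq_one x
      rw [pow_one]
      exact congrArg (fun w : Subgroup.center X => w.1.1) h2
    have h3 := Φ.scalar_eq_one hp hp2 hζ hζ1 hζθ (hXI x.1.2) (hZX ⟨x.1, x.2, rfl⟩) h1
    have h4 : x = 1 := Subtype.ext (Subtype.ext h3)
    rw [h4, orderOf_one] at hx
    exact hp.one_lt.ne hx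
  · rintro _ ⟨_, ⟨F, hF, rfl⟩, rfl⟩
    have h1 : Nat.card ((VF F).subgroupOf X) ∣ Nat.card (VF F) := by
      have e : Nat.card ((VF F).subgroupOf X) =
          Nat.card (VF F ⊓ X : Subgroup (SpecialLinearGroup K E)) := by
        rw [← map_subgroupOf_eq]
        exact (Subgroup.card_map_of_injective X.subtype_injective).symm
      rw [e]
      exact Subgroup.card_dvd_of_le inf_le_left
    constructor
    · rw [hcardZ]
      exact Nat.Coprime.coprime_dvd_left h1 (coprime_center hZX F)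
    · refine Nat.Coprime.coprime_dvd_left h1 ?_
      rw [card_VF]
      exact Nat.Coprime.pow_left _ hz
  · intro x hx
    rw [Subgroup.mem_center_iff]
    intro y
    exact Subtype.ext (Subgroup.mem_center_iff.mp (hcen x hx) y.1)
  · intro Γ' hΓ' Q hQ
    exact stab_form hp2 hT hnorm hζ hζ1 hζθ hXI hX2 hV hKp hp1 hlt hL hk hπ (hΓ.to_le hΓ')
      (fun α hα => hact α (hΓ' hα)) hQ

end Vale.Agent.P180.R2.H365.Oc
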