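import Vale.Agent.P180.R2.H365.SpB
import Vale.Agent.P180.R2.H471.Au14
import Vale.Agent.P180.R2.H471.He4
import Vale.Agent.P180.R2.H471.El0

/-!
P180: the corner property for tame actions.
-/

set_option linter.all false

namespace Vale.Agent.P180.R2.H365.Y

open Subgroup Vale.Agent.P180 Vale.Agent.P180.H768.Gd Vale.Agent.P180.R2.H47
  Vale.Agent.P180.R2.H365

theorem mem_Gam {G : Type} [Group G] {D L : Subgroup G} {α : MulAut L} : α ∈ Gam D L ↔
    ∃ g ∈ D, g ∈ normalizer (L : Set G) ∧ ∀ s : L, ((α s : L) : G) = g * s * g⁻¹ := by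
  constructor
  · rintro ⟨g, hg, rfl⟩
    exact ⟨g, hg, g.2, fun s => rfl⟩
  · rintro ⟨g, hg, hgN, h⟩
    refine ⟨⟨g, hgN⟩, hg, ?_⟩
    ext s
    exact (h s).symm

section Cor

variable {G : Type} [Group G] [Finite G] {p m n : ℕ} [Fact p.Prime] {D L : Subgroup G}

theorem exists_pow_of_Gam (hD : IsPGroup p D) {α : MulAut L} (hα : α ∈ Gam D L) :
    ∃ i, α ^ p ^ i = 1 := by
  obtain ⟨x, hx, rfl⟩ := hα
  obtain ⟨i, hi⟩ := hD ⟨(x : G), hx⟩
  have h0 : (x : G) ^ p ^ i = 1 := congrArg Subtype.val hi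
  refine ⟨i, ?_⟩
  rw [← map_pow]
  have h1 : x ^ p ^ i = 1 := Subtype.ext (by rw [Subgroup.coe_pow]; exact h0)
  rw [h1, map_one]

theorem cycOn_of (hD : IsPGroup p D) (h1 : IsCyclic (Gam D L))
    (h2 : ¬ p ∣ Nat.card (Subgroup.center L)) : H471.He.CycOn (D ⊓ normalizer (L : Set G)) L := by
  obtain ⟨R, hR⟩ : ∃ R, R = D ⊓ normalizer (L : Set G) := ⟨_, rfl⟩
  rw [← hR]
  have hRN : R ≤ normalizer (L : Set G) := by rw [hR]; exact inf_le_right
  have hRD : R ≤ D := by rw [hR]; exact inf_le_left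
  let T : Subgroup G := L ⊔ R
  let C : Subgroup G := R ⊓ centralizer (L : Set G)
  have hcent : ∀ c ∈ centralizer (L : Set G), ∀ r ∈ normalizer (L : Set G),
      r * c * r⁻¹ ∈ centralizer (L : Set G) := by
    intro c hc r hr
    rw [mem_centralizer_iff]
    intro y hy
    have h3 : r⁻¹ * y * r ∈ L := by
      have := (mem_normalizer_iff.mp ((normalizer (L : Set G)).inv_mem hr) y).mp hy
      rwa [inv_inv] at this
    have h4 := mem_centralizer_iff.mp hc _ h3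
    calc y * (r * c * r⁻¹) = r * ((r⁻¹ * y * r) * c) * r⁻¹ := by group
      _ = r * (c * (r⁻¹ * y * r)) * r⁻¹ := by rw [h4]
      _ = r * c * r⁻¹ * y := by group
  have hT : T ≤ normalizer (C : Set G) := by
    refine sup_le ?_ ?_
    · refine le_trans ?_ (Subgroup.centralizer_le_normalizer _)
      intro l hl
      rw [mem_centralizer_iff]
      intro c hc
      exact (mem_centralizer_iff.mp hc.2 l hl).symm
    · intro r hr
      rw [mem_normalizer_iff]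
      intro c
      constructor
      · rintro ⟨h3, h4⟩
        exact ⟨R.mul_mem (R.mul_mem hr h3) (R.inv_mem hr), hcent c h4 r (hRN hr)⟩
      · rintro ⟨h3, h4⟩
        have h5 := R.mul_mem (R.mul_mem (R.inv_mem hr) h3) hr
        have h6 := hcent _ h4 r⁻¹ ((normalizer (L : Set G)).inv_mem (hRN hr))
        have e : r⁻¹ * (r * c * r⁻¹) * r = c := by group
        rw [inv_inv, e] at h6
        rw [e] at h5
        exact ⟨h5, h6⟩
  have hCn : (C.subgroupOf T).Normal := Subgroup.normal_subgroupOf_of_le_normalizer hT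
  have hLT : L ≤ T := le_sup_left
  have hRT : R ≤ T := le_sup_right
  let q : T →* T ⧸ C.subgroupOf T := QuotientGroup.mk' _
  refine ⟨T ⧸ C.subgroupOf T, inferInstance, q.comp (Subgroup.inclusion hLT),
    q.comp (Subgroup.inclusion hRT), ?_, ?_, ?_, ?_⟩
  · rw [injective_iff_map_eq_one]
    intro x hx
    have h3 : Subgroup.inclusion hLT x ∈ C.subgroupOf T := (QuotientGroup.eq_one_iff _).mp hx
    have h4 : (x : G) ∈ C := h3
    have h5 : x ∈ Subgroup.center L := by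
      rw [Subgroup.mem_center_iff]
      intro y
      exact Subtype.ext (mem_centralizer_iff.mp h4.2 y y.2)
    obtain ⟨i, hi⟩ := hD ⟨x, hRD h4.1⟩
    have hi : (x : G) ^ p ^ i = 1 := congrArg Subtype.val hi
    have hi' : x ^ p ^ i = 1 := Subtype.ext hi
    obtain ⟨j, -, hj⟩ := (Nat.dvd_prime_pow (Fact.out : p.Prime)).mp
      (orderOf_dvd_of_pow_eq_one hi')
    rcases Nat.eq_zero_or_pos j with h0 | h0
    · rw [h0, pow_zero] at hj
      exact orderOf_eq_one_iff.mp hj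
    · exfalso
      apply h2
      refine (dvd_pow_self p h0.ne').trans ?_
      rw [← hj]
      have h6 := orderOf_dvd_natCard (⟨x, h5⟩ : Subgroup.center L)
      rwa [Subgroup.orderOf_mk] at h6
  · obtain ⟨⟨γ, hγ⟩, hgen⟩ := h1.exists_generator
    obtain ⟨r, hrD, hrN, hr⟩ := mem_Gam.mp hγ
    have hrR : r ∈ R := by rw [hR]; exact ⟨hrD, hrN⟩
    refine ⟨⟨⟨_, ⟨r, hrR⟩, rfl⟩, ?_⟩⟩
    rintro ⟨_, ⟨t, ht⟩, rfl⟩
    have htD : t ∈ D := hRD ht
    have htN : t ∈ normalizer (L : Set G) := hRN ht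
    obtain ⟨i, hi⟩ := Subgroup.mem_zpowers_iff.mp (hgen ⟨L.normalizerMonoidHom ⟨t, htN⟩,
      mem_Gam.mpr ⟨t, htD, htN, fun s => rfl⟩⟩)
    have hi : γ ^ i = L.normalizerMonoidHom ⟨t, htN⟩ := congrArg Subtype.val hi
    have hγr : γ = L.normalizerMonoidHom ⟨r, hrN⟩ := by
      ext s
      exact hr s
    rw [hγr, ← map_zpow] at hi
    have h3 : ((⟨r, hrN⟩ : normalizer (L : Set G)) ^ i)⁻¹ * ⟨t, htN⟩ ∈
        L.normalizerMonoidHom.ker := by
      rw [MonoidHom.mem_ker, map_mul, map_inv, hi, inv_mul_cancel]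
    rw [Subgroup.normalizerMonoidHom_ker] at h3
    have h4 : (r ^ i)⁻¹ * t ∈ centralizer (L : Set G) := h3
    refine ⟨i, Subtype.ext ?_⟩
    change q (Subgroup.inclusion hRT ⟨r, hrR⟩) ^ i = q (Subgroup.inclusion hRT ⟨t, ht⟩)
    rw [← map_zpow]
    refine (QuotientGroup.eq (s := C.subgroupOf T)).mpr ?_
    exact ⟨R.mul_mem (R.inv_mem (R.zpow_mem hrR i)) ht, h4⟩
  · intro r s s' hs
    change q _ = q _ * q _ * (q _)⁻¹
    rw [← map_inv, ← map_mul, ← map_mul]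
    congr 1
    exact Subtype.ext hs
  · intro x hxL hxR
    rfl

theorem sup_of_Gam (h2 : Gam D L ≤ (MulAut.conj : L →* MulAut L).range) :
    D ⊓ normalizer (L : Set G) ≤ L ⊔ centralizer (L : Set G) := by
  rintro d ⟨hd, hdN⟩
  exact S.mem_sup_of_inner hdN (h2 (mem_Gam.mpr ⟨d, hd, hdN, fun s => rfl⟩))

theorem comm_of_center {x y : G} (hx : x ∈ L) (hy : y ∈ L)
    (h : (⟨x, hx⟩ * ⟨y, hy⟩ * (⟨x, hx⟩ : L)⁻¹ * (⟨y, hy⟩ : L)⁻¹ : L) ∈ Subgroup.center L) :
    ∀ l ∈ L, (x * y * x⁻¹ * y⁻¹) * l = l * (x * y * x⁻¹ * y⁻¹) := fun l hl =>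
  (congrArg Subtype.val (Subgroup.mem_center_iff.mp h ⟨l, hl⟩)).symm

theorem pow_of_exp {p : ℕ} (h : ExpOn p L (D.subgroupOf L)) :
    ∀ y ∈ D, y ∈ L → ∀ l ∈ L, y ^ p * l = l * y ^ p := fun y hy hyL l hl =>
  (congrArg Subtype.val (Subgroup.mem_center_iff.mp
    (h ⟨y, hyL⟩ (Subgroup.mem_subgroupOf.mpr hy)) ⟨l, hl⟩)).symm

theorem abEl_of_cenOn {p : ℕ} (h4 : CenOn p L (Gam D L) (D.subgroupOf L)) :
    H471.El.AbEl p D L := by
  rcases h4 with h4 | h4
  · left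
    intro x hx hxN y hy hyL l hl
    have h5 := h4 _ (mem_Gam.mpr ⟨x, hx, hxN, fun s => rfl⟩ :
      L.normalizerMonoidHom ⟨x, hxN⟩ ∈ Gam D L) ⟨y, hyL⟩ (Subgroup.mem_subgroupOf.mpr hy)
    have h6 := Subgroup.mem_center_iff.mp h5 ⟨l, hl⟩
    exact (congrArg Subtype.val h6).symm
  · right
    exact ⟨fun x hx hxL y hy hyL => comm_of_center hxL hyL (h4.2 ⟨x, hxL⟩
      (Subgroup.mem_subgroupOf.mpr hx) ⟨y, hyL⟩ (Subgroup.mem_subgroupOf.mpr hy)),
      pow_of_exp h4.1⟩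

theorem center_of_abEl {p : ℕ} (h : H471.El.AbEl p D L) :
    ∀ x ∈ D.subgroupOf L, ∀ y ∈ D.subgroupOf L, x * y * x⁻¹ * y⁻¹ ∈ Subgroup.center L := by
  intro x hx y hy
  rw [Subgroup.mem_center_iff]
  intro z
  exact Subtype.ext (h.ab x (Subgroup.mem_subgroupOf.mp hx) x.2 y (Subgroup.mem_subgroupOf.mp hy)
    y.2 z z.2).symm

theorem cenOn_of_exp {p : ℕ} (h : ExpOn p L (D.subgroupOf L))
    (hab : ∀ x ∈ D, x ∈ L → ∀ y ∈ D, y ∈ L → x * y = y * x) :
    CenOn p L (Gam D L) (D.subgroupOf L) := by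
  refine Or.inr ⟨h, fun x hx y hy => ?_⟩
  have h1 : x * y = y * x := Subtype.ext (hab x (Subgroup.mem_subgroupOf.mp hx) x.2 y
    (Subgroup.mem_subgroupOf.mp hy) y.2)
  rw [h1, mul_inv_cancel_right, mul_inv_cancel]
  exact Subgroup.one_mem _

end Cor

end Vale.Agent.P180.R2.H365.Y
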