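import Vale.Agent.P180.R2.H365.PrimR
import Vale.Agent.P180.R2.H365.LocC
import Vale.Agent.P180.R2.H954.CycFin
import Vale.Agent.P180.R2.H589.Cov.Tr
import Vale.Agent.P180.R2.H12.TwoQ
import Vale.Agent.P180.R2.H12.Alt1
import Vale.Agent.P180.R2.H667.Blk

/-!
P180: the corner property of a component on which the defect group acts through a cyclic group.
-/

set_option linter.all false

namespace Vale.Agent.P180.R2.H365

open Vale.Agent.P180 Vale.Agent.P180.H768.Gd Vale.Agent.P180.R2.H259.Cyc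
open Vale.Agent.P180.R2.H799 (NN)
open Vale.Agent.P180.R2.H12 (tm tm_mem tm_cj tm_inj tm_surj tm_smul tm_block_iff br_tm)

universe u

section

variable {k : Type u} [Field k] [IsAlgClosed k] {p : ℕ} [Fact p.Prime] [CharP k p]

theorem exists_cyc_top {G : Type} [Group G] [Finite G] {S R : Subgroup G} [S.Normal]
    (hSR : S ⊔ R = ⊤) (hR : IsPGroup p R)
    (hgen : ∃ x ∈ R, ∀ r ∈ R, ∃ j : ℤ, x ^ j * r ∈ Subgroup.centralizer (S : Set G))
    (hint : ∀ x ∈ R, x ∈ S → x ∈ Subgroup.centralizer (S : Set G) → x = 1)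
    {e z : MonoidAlgebra k G} (he : IsBlockOf S e) (heR : e ∈ Fix (cj k G) R) (hbr : br R e ≠ 0)
    (hz : z ∈ SubAlg k S) (hzR : z ∈ Fix (cj k G) R) (hez : e = tr (cj k G) R ⊤ z) :
    ∃ i ∈ SubAlg k S, i ∈ Fix (cj k G) R ∧ i * i = i ∧ e * i = i ∧ br R i ≠ 0 ∧
      Module.finrank k (NN (SubAlg k S) i i) ≤ cycB p (Nat.card R) := by
  classical
  have hfin : ∀ (H : Type) [Group H] [Finite H], FiniteDimensional k (MonoidAlgebra k H) :=
    fun H _ _ => Module.Finite.equiv (MonoidAlgebra.coeffLinearEquiv k (M := H) (S := k)).symm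
  have hfG := hfin G
  -- the quotient
  obtain ⟨C, hC⟩ : ∃ C : Subgroup G, C = R ⊓ Subgroup.centralizer (S : Set G) := ⟨_, rfl⟩
  have hCn : C.Normal := by
    constructor
    intro c hc g
    have hg : g ∈ S ⊔ R := by rw [hSR]; trivial
    obtain ⟨s, hs, r, hr, rfl⟩ := Subgroup.mem_sup_of_normal_left.mp hg
    rw [hC, Subgroup.mem_inf] at hc ⊢
    obtain ⟨hc1, hc2⟩ := hc
    have h1 : r * c * r⁻¹ ∈ R := R.mul_mem (R.mul_mem hr hc1) (R.inv_mem hr)
    have h2 : ∀ s ∈ S, s * (r * c * r⁻¹) = r * c * r⁻¹ * s := by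
      intro s hs
      have h3 := Subgroup.mem_centralizer_iff.mp hc2 (r⁻¹ * s * r) (by
        have := (inferInstance : S.Normal).conj_mem s hs r⁻¹
        rwa [inv_inv] at this)
      calc s * (r * c * r⁻¹) = r * ((r⁻¹ * s * r) * c) * r⁻¹ := by group
        _ = r * (c * (r⁻¹ * s * r)) * r⁻¹ := by rw [h3]
        _ = r * c * r⁻¹ * s := by group
    have h3 : s * r * c * (s * r)⁻¹ = r * c * r⁻¹ := by
      calc s * r * c * (s * r)⁻¹ = s * (r * c * r⁻¹) * s⁻¹ := by group
        _ = r * c * r⁻¹ * s * s⁻¹ := by rw [h2 s hs]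
        _ = r * c * r⁻¹ := by group
    rw [h3]
    exact ⟨h1, Subgroup.mem_centralizer_iff.mpr h2⟩
  let q : G →* G ⧸ C := QuotientGroup.mk' C
  have hqs : Function.Surjective q := QuotientGroup.mk'_surjective C
  have hqk : q.ker = C := QuotientGroup.ker_mk' C
  have hinj : Set.InjOn q (S : Set G) := by
    intro x hx y hy hxy
    have h1 : x⁻¹ * y ∈ C := QuotientGroup.eq.mp hxy
    rw [hC, Subgroup.mem_inf] at h1
    have h2 := hint _ h1.1 (S.mul_mem (S.inv_mem hx) hy) h1.2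
    exact inv_mul_eq_one.mp h2
  have hid : Function.Surjective (RingHom.id k) := fun x => ⟨x, rfl⟩
  have hSn : (S.map q).Normal := (inferInstance : S.Normal).map q hqs
  have hfH := hfin (G ⧸ C)
  -- the block
  have heS := he.mem.1
  have hē : IsBlockOf (S.map q) (tm (RingHom.id k) q e) := (tm_block_iff hid hinj heS).mpr he
  have heT : e ∈ Fix (cj k G) ⊤ := by
    have h1 : (⊤ : Subgroup G) ≤ stabE e := by
      rw [← hSR]
      exact sup_le (le_stabE he) heR
    exact fun g hg => h1 hg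
  have hēT : tm (RingHom.id k) q e ∈ Fix (cj k (G ⧸ C)) ⊤ := by
    intro g _
    obtain ⟨g, rfl⟩ := hqs g
    rw [← tm_cj, heT g trivial]
  have hRq : IsPGroup p (R.map q) := hR.map q
  have hsup : S.map q ⊔ R.map q = ⊤ := by
    rw [← Subgroup.map_sup, hSR, ← MonoidHom.range_eq_map, MonoidHom.range_eq_top.mpr hqs]
  have hēB : IsBlockOf ⊤ (tm (RingHom.id k) q e) := by
    refine H667.block_top (p := p) (X := S.map q) ?_ hē hēT
    intro g
    have hg : g ∈ S.map q ⊔ R.map q := by rw [hsup]; trivial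
    obtain ⟨s, hs, r, hr, rfl⟩ := Subgroup.mem_sup_of_normal_left.mp hg
    obtain ⟨n, hn⟩ := hRq ⟨r, hr⟩
    have hn' : r ^ p ^ n = 1 := congrArg Subtype.val hn
    refine ⟨n, ?_⟩
    rw [← QuotientGroup.eq_one_iff, QuotientGroup.mk_pow, QuotientGroup.mk_mul,
      (QuotientGroup.eq_one_iff s).mpr hs, one_mul, ← QuotientGroup.mk_pow, hn',
      QuotientGroup.mk_one]
  have hzq : tm (RingHom.id k) q z ∈ Fix (cj k (G ⧸ C)) (R.map q) := H589.fix_map hzR
  have hētr : tm (RingHom.id k) q e = tr (cj k (G ⧸ C)) (R.map q) ⊤ (tm (RingHom.id k) q z) := by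
    have hkR : q.ker ≤ R := by rw [hqk, hC]; exact inf_le_left
    rw [hez, H589.tm_tr_ker hkR hzR, ← MonoidHom.range_eq_map, MonoidHom.range_eq_top.mpr hqs]
  -- the cyclic group
  have hcyc : IsCyclic (R.map q) := by
    obtain ⟨x, hx, hgen⟩ := hgen
    refine ⟨⟨⟨q x, Subgroup.mem_map_of_mem q hx⟩, ?_⟩⟩
    intro y
    obtain ⟨r, hr, hry⟩ := y.2
    obtain ⟨j, hj⟩ := hgen r hr
    have h1 : x ^ j * r ∈ C := by
      rw [hC]
      exact ⟨R.mul_mem (R.zpow_mem hx j) hr, hj⟩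
    have h2 : q (x ^ j * r) = 1 := (QuotientGroup.eq_one_iff _).mpr h1
    refine ⟨-j, Subtype.ext ?_⟩
    change (q x) ^ (-j) = y.1
    rw [← hry]
    rw [map_mul, map_zpow] at h2
    rw [zpow_neg]
    exact inv_eq_of_mul_eq_one_right h2
  have hRab : ∀ x ∈ R.map q, ∀ y ∈ R.map q, x * y = y * x := by
    intro x hx y hy
    have h1 : (⟨x, hx⟩ : R.map q) * ⟨y, hy⟩ = ⟨y, hy⟩ * ⟨x, hx⟩ := hcyc.commGroup.mul_comm _ _
    exact congrArg Subtype.val h1
  -- the primitive idempotent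
  obtain ⟨m, f, hf, hsum⟩ := H954.exists_prim_decomp (SubAlg k S ⊓ Fix (cj k G) R) _ e
    ⟨heS, heR⟩ he.idem.eq le_rfl
  obtain ⟨l, hl⟩ : ∃ l, br R (f l) ≠ 0 := by
    by_contra hcon
    push Not at hcon
    apply hbr
    rw [hsum, H667.br_sum]
    exact Finset.sum_eq_zero fun l _ => hcon l
  obtain ⟨⟨⟨hiS, hiR⟩, hii, hi0, hprim⟩, hei, hie⟩ := hf l
  have hiq : PrimIn (SubAlg k (S.map q) ⊓ Fix (cj k (G ⧸ C)) (R.map q))
      (tm (RingHom.id k) q (f l)) := by
    refine ⟨⟨tm_mem hiS, H589.fix_map hiR⟩, by rw [← map_mul, hii], ?_, ?_⟩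
    · intro h0
      apply hi0
      apply tm_inj (φ := RingHom.id k) hinj hiS (Subalgebra.zero_mem _)
      rw [h0, map_zero]
    · rintro c ⟨hcS, hcR⟩ hcc hce hec
      obtain ⟨c', hc', rfl⟩ := tm_surj hid hcS
      have hc'R : c' ∈ Fix (cj k G) R := by
        intro r hr
        have h1 : cj k G r c' ∈ SubAlg k S :=
          SuppIn.conj hc' r fun s hs => (inferInstance : S.Normal).conj_mem s hs r
        apply tm_inj (φ := RingHom.id k) hinj h1 hc'
        rw [tm_cj]
        exact hcR _ (Subgroup.mem_map_of_mem q hr)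
      rcases hprim c' ⟨hc', hc'R⟩
        (tm_inj (φ := RingHom.id k) hinj (Subalgebra.mul_mem _ hc' hc') hc' (by rwa [map_mul]))
        (tm_inj (φ := RingHom.id k) hinj (Subalgebra.mul_mem _ hc' hiS) hc' (by rwa [map_mul]))
        (tm_inj (φ := RingHom.id k) hinj (Subalgebra.mul_mem _ hiS hc') hc' (by rwa [map_mul]))
        with h | h
      · left; rw [h, map_zero]
      · right; rw [h]
  have hprimR := primIn_fix hRq hRab hsup hiq
  have hbrq : br (R.map q) (tm (RingHom.id k) q (f l)) ≠ 0 := by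
    rw [br_tm q hR hiR]
    intro h0
    apply hl
    have h1 : br R (f l) ∈ SubAlg k S := SubAlg_mono inf_le_left (Src.br_SubAlg hiS)
    apply tm_inj (φ := RingHom.id k) hinj h1 (Subalgebra.zero_mem _)
    rw [h0, map_zero]
  have hdim := cyclic_corner hRq hcyc hēB hzq hētr hprimR (by rw [← map_mul, hei]) hbrq
  refine ⟨f l, hiS, hiR, hii, hei, hl, ?_⟩
  -- the dimension
  have hcard : Nat.card (R.map q) ≤ Nat.card R :=
    Nat.card_le_card_of_surjective (q.subgroupMap R) (q.subgroupMap_surjective R)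
  refine le_trans ?_ (hdim.trans (cycB_mono hcard))
  let τ : MonoidAlgebra k G →ₗ[k] MonoidAlgebra k (G ⧸ C) :=
    { toFun := tm (RingHom.id k) q
      map_add' := map_add _
      map_smul' := fun c a => tm_smul _ _ c a }
  have h1 : (NN (SubAlg k S) (f l) (f l)).map τ ≤ NN (⊤ : Subalgebra k (MonoidAlgebra k (G ⧸ C)))
      (tm (RingHom.id k) q (f l)) (tm (RingHom.id k) q (f l)) := by
    rintro _ ⟨x, ⟨-, h2, h3⟩, rfl⟩
    refine ⟨Algebra.mem_top, ?_, ?_⟩
    · change _ * tm (RingHom.id k) q x = tm (RingHom.id k) q x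
      rw [← map_mul, h2]
    · change tm (RingHom.id k) q x * _ = tm (RingHom.id k) q x
      rw [← map_mul, h3]
  refine le_trans ?_ (Submodule.finrank_mono h1)
  have h4 : Function.Injective (τ.domRestrict (NN (SubAlg k S) (f l) (f l))) := by
    intro x y hxy
    apply Subtype.ext
    exact tm_inj (φ := RingHom.id k) hinj x.2.1 y.2.1 hxy
  have h5 := LinearMap.finrank_le_finrank_of_injective
    (f := (τ.domRestrict (NN (SubAlg k S) (f l) (f l))).codRestrict
      ((NN (SubAlg k S) (f l) (f l)).map τ) (fun x => ⟨x.1, x.2, rfl⟩)) (by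
      intro x y hxy
      exact h4 (congrArg Subtype.val hxy))
  exact h5

/-- The defect group acts on `L` through a cyclic group, faithfully on `D ∩ L`. -/
theorem corP_cycR {n : ℕ} {G : Type} [Group G] [Finite G] {D L : Subgroup G} (hD : IsPGroup p D)
    (hDn : Nat.card D ≤ n)
    (hz : ∀ x ∈ D, x ∈ L → (∀ y ∈ L, x * y = y * x) → x = 1)
    (hc : ∃ x ∈ D ⊓ Subgroup.normalizer (L : Set G), ∀ r ∈ D ⊓ Subgroup.normalizer (L : Set G),
      ∃ j : ℤ, x ^ j * r ∈ Subgroup.centralizer (L : Set G)) (b : MonoidAlgebra k G) :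
    CorP p (cycB p n) b D L := by
  classical
  intro R hRD hn e he heR hbr _ h2
  have hR : IsPGroup p R := hD.to_le hRD
  have hRn : Nat.card R ≤ n := (Nat.card_le_card_of_injective _
    (Subgroup.inclusion_injective hRD)).trans hDn
  have hRN : R ≤ Subgroup.normalizer (L : Set G) := by
    intro r hr
    rw [Subgroup.mem_normalizer_iff]
    intro s
    constructor
    · exact hn r hr s
    · intro hs
      have := hn r⁻¹ (R.inv_mem hr) _ hs
      simpa [mul_assoc] using this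
  -- a generator
  have hgen : ∃ x ∈ R, ∀ r ∈ R, ∃ j : ℤ, x ^ j * r ∈ Subgroup.centralizer (L : Set G) := by
    obtain ⟨x, hx, hc⟩ := hc
    obtain ⟨hxD, hxN⟩ := Subgroup.mem_inf.mp hx
    let ρ := L.normalizerMonoidHom
    have hker : ∀ g : Subgroup.normalizer (L : Set G), ρ g = 1 ↔
        (g : G) ∈ Subgroup.centralizer (L : Set G) := by
      intro g
      rw [Subgroup.mem_centralizer_iff]
      constructor
      · intro h s hs
        have h1 := congrArg Subtype.val (DFunLike.congr_fun h ⟨s, hs⟩)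
        change (g : G) * s * (g : G)⁻¹ = s at h1
        exact (mul_inv_eq_iff_eq_mul.mp h1).symm
      · intro h
        apply MulEquiv.ext
        rintro ⟨s, hs⟩
        apply Subtype.ext
        change (g : G) * s * (g : G)⁻¹ = s
        rw [← h s hs, mul_inv_cancel_right]
    have hle : (R.subgroupOf (Subgroup.normalizer (L : Set G))).map ρ ≤
        Subgroup.zpowers (ρ ⟨x, hxN⟩) := by
      rintro _ ⟨r, hr, rfl⟩
      obtain ⟨j, hj⟩ := hc r (Subgroup.mem_inf.mpr ⟨hRD hr, r.2⟩)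
      have h1 : ρ ((⟨x, hxN⟩ : Subgroup.normalizer (L : Set G)) ^ j * r) = 1 :=
        (hker _).mpr hj
      rw [map_mul, map_zpow] at h1
      rw [Subgroup.mem_zpowers_iff]
      exact ⟨-j, by rw [zpow_neg]; exact inv_eq_of_mul_eq_one_right h1⟩
    have hcyc : IsCyclic ((R.subgroupOf (Subgroup.normalizer (L : Set G))).map ρ) :=
      isCyclic_of_injective (Subgroup.inclusion hle) (Subgroup.inclusion_injective hle)
    obtain ⟨⟨y, hy⟩, hgy⟩ := hcyc.exists_zpow_surjective
    obtain ⟨r₀, hr₀, hr₀y⟩ := hy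
    refine ⟨r₀, hr₀, fun r hr => ?_⟩
    obtain ⟨j, hj⟩ := hgy ⟨ρ ⟨r, hRN hr⟩, ⟨⟨r, hRN hr⟩, hr, rfl⟩⟩
    have hj' : y ^ j = ρ ⟨r, hRN hr⟩ := congrArg Subtype.val hj
    refine ⟨-j, ?_⟩
    have h1 : ρ (r₀ ^ (-j) * ⟨r, hRN hr⟩) = 1 := by
      rw [map_mul, map_zpow, hr₀y, ← hj', zpow_neg, inv_mul_cancel]
    exact (hker _).mp h1
  obtain ⟨z, hzL, hzR, hez⟩ := h2
  -- the group `L R`
  obtain ⟨K, hK⟩ : ∃ K, K = L ⊔ R := ⟨_, rfl⟩
  rw [← hK] at hez
  have hLK : L ≤ K := by rw [hK]; exact le_sup_left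
  have hRK : R ≤ K := by rw [hK]; exact le_sup_right
  have hLm : (L.subgroupOf K).map K.subtype = L := Subgroup.map_subgroupOf_eq_of_le hLK
  have hRm : (R.subgroupOf K).map K.subtype = R := Subgroup.map_subgroupOf_eq_of_le hRK
  have hKm : (⊤ : Subgroup K).map K.subtype = K := by
    rw [← MonoidHom.range_eq_map, Subgroup.range_subtype]
  have hLn : (L.subgroupOf K).Normal := by
    rw [Subgroup.normal_subgroupOf_iff_le_normalizer hLK, hK]
    exact sup_le Subgroup.le_normalizer hRN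
  have hsup : L.subgroupOf K ⊔ R.subgroupOf K = ⊤ := by
    rw [← Subgroup.subgroupOf_sup hLK hRK, ← hK, Subgroup.subgroupOf_self]
  obtain ⟨e', rfl⟩ := exists_incl K (SubAlg_mono hLK he.block.mem.1)
  obtain ⟨z', rfl⟩ := exists_incl K (SubAlg_mono hLK hzL)
  have hz'F : z' ∈ Fix (cj k K) (R.subgroupOf K) := by
    rw [← incl_mem_Fix_iff, hRm]; exact hzR
  obtain ⟨i, hiS, hiR, hii, hei, hbri, hdim⟩ := exists_cyc_top (p := p) (S := L.subgroupOf K)
    (R := R.subgroupOf K) hsup (hR.comap_of_injective K.subtype K.subtype_injective)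
    (by
      obtain ⟨x, hx, hgen⟩ := hgen
      refine ⟨⟨x, hRK hx⟩, hx, ?_⟩
      rintro ⟨r, hrK⟩ hr
      obtain ⟨j, hj⟩ := hgen r hr
      refine ⟨j, ?_⟩
      rw [Subgroup.mem_centralizer_iff]
      rintro ⟨s, hsK⟩ hs
      apply Subtype.ext
      exact Subgroup.mem_centralizer_iff.mp hj s hs)
    (by
      rintro ⟨x, hxK⟩ hxR hxL hxc
      apply Subtype.ext
      refine hz x (hRD hxR) hxL fun y hy => ?_
      have h3 := Subgroup.mem_centralizer_iff.mp hxc ⟨y, hLK hy⟩ hy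
      exact (congrArg Subtype.val h3).symm)
    (e := e') (z := z') ((isBlockOf_subgroupOf_iff hLK e').mpr he.block)
    (by rw [← incl_mem_Fix_iff, hRm]; exact heR)
    (by
      intro h0
      apply hbr
      rw [← hRm, ← Src.incl_br, h0, map_zero])
    (by rw [← incl_mem_SubAlg_iff, hLm]; exact hzL) hz'F
    (by
      apply incl_injective (k := k) K
      rw [incl_tr_gen K hz'F, hRm, hKm]
      exact hez)
  have hcard : Nat.card (R.subgroupOf K) ≤ n := by
    rw [Nat.card_congr (Subgroup.subgroupOfEquivOfLe hRK).toEquiv]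
    exact hRn
  refine Src.cor_of_source (i := incl k K i) hR hn he.block heR ⟨_, hzL, hzR, by rw [← hK]; exact hez⟩
    ?_ ?_ ?_ ?_ ?_ ?_
  · rw [← hLm]; exact (incl_mem_SubAlg_iff K _ i).mpr hiS
  · rw [← hRm, incl_mem_Fix_iff]; exact hiR
  · rw [← map_mul, hii]
  · rw [← map_mul, hei]
  · rw [← hRm, ← Src.incl_br]
    intro h0
    exact hbri (incl_injective (k := k) K (by rw [h0, map_zero]))
  · rw [← hLm, H12.finrank_NN_incl]
    exact hdim.trans (cycB_mono hcard)

end

end Vale.Agent.P180.R2.H365
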