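import Mathlib.LinearAlgebra.SpecialLinearGroup
import Mathlib.LinearAlgebra.QuadraticForm.Basic
import Mathlib.Algebra.CharP.Defs
import Mathlib.Algebra.Group.Subgroup.Pointwise

/-!
P180: classical groups (definitions).
-/

namespace Vale.Agent.P180.R2.H365

section Forms

variable {K E : Type} [Field K] [AddCommGroup E] [Module K E]

/-- The action of `SL(E)` on `E`. -/
def ap (g : SpecialLinearGroup K E) (x : E) : E := g x

/-- `B` is a nondegenerate form on `E`, linear in the first variable, with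
`B y x = ε θ (B x y)`, `θ` an automorphism of `K` with `θ ^ 2 = 1`. -/
def FormOn (B : E → E → K) (θ : K →+* K) (ε : K) : Prop :=
  (∀ x y z, B (x + y) z = B x z + B y z) ∧ (∀ (a : K) x y, B (a • x) y = a * B x y) ∧
  (∀ a, θ (θ a) = a) ∧ ε * θ ε = 1 ∧ (∀ x y, B y x = ε * θ (B x y)) ∧
  ∀ x, (∀ y, B x y = 0) → x = 0

/-- `g` preserves `B`. -/
def Pres (B : E → E → K) (g : SpecialLinearGroup K E) : Prop :=
  ∀ x y, B (ap g x) (ap g y) = B x y

/-- `X` is a subgroup of index at most two in the group of the isometries of determinant one of `B`,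
or this whole group if `|K|` is even. -/
def IsoOn (B : E → E → K) (X : Subgroup (SpecialLinearGroup K E)) : Prop :=
  (∀ g ∈ X, Pres B g) ∧ (∀ g h, g ∉ X → h ∉ X → Pres B g → Pres B h → g * h ∈ X) ∧
  (Odd (Nat.card K) ∨ ∀ g, Pres B g → g ∈ X)

/-- `p` does not divide `r ^ j + 1` if `θ` is `c ↦ c ^ (r ^ j)`, `r` the characteristic of `K` (so
`p` is odd and a linear prime: for `θ = 1` the order of `|K|` modulo `p` is odd; for `|K| = q ^ 2`
and `θ ≠ 1` the order of `- q` modulo `p` is even). -/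
def LinPr (p : ℕ) (θ : K →+* K) : Prop :=
  ∀ j : ℕ, (∀ c, θ c = c ^ (ringChar K ^ j)) → ¬ p ∣ ringChar K ^ j + 1

/-- `K` has a `p`-th root of unity `ζ ≠ 1` fixed by `θ`. -/
def RootIn (p : ℕ) (θ : K →+* K) : Prop :=
  ∃ ζ : K, ζ ^ p = 1 ∧ ζ ≠ 1 ∧ θ ζ = ζ

/-- The linear map `g - 1`. -/
def gm1 (g : SpecialLinearGroup K E) : E →ₗ[K] E := (g.1 : E →ₗ[K] E) - LinearMap.id

/-- The linear map `g - 1` has even rank. -/
def EvenOn (g : SpecialLinearGroup K E) : Prop :=
  Even (Module.finrank K (LinearMap.range (gm1 g)))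

/-- `Q` is a quadratic form with nondegenerate polar form, and `X` is the group `Ω(Q)` of the
isometries `g` of `Q` such that `g - 1` has even rank. -/
def OmegaOn (Q : QuadraticForm K E) (X : Subgroup (SpecialLinearGroup K E)) : Prop :=
  (∀ x, (∀ y, Q (x + y) = Q x + Q y) → x = 0) ∧
  ∀ g : SpecialLinearGroup K E, g ∈ X ↔ (∀ x, Q (ap g x) = Q x) ∧ EvenOn g

/-- `L` is the image of `X`, the preimage of the centre of `L` consists of scalars, and every
element of `Γ` acts on `L` as a semilinear similitude `g` of `B` acts on `X`. -/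
def SimMap (B : E → E → K) (X : Subgroup (SpecialLinearGroup K E)) {L : Type} [Group L]
    (Γ : Subgroup (MulAut L)) (π : X →* L) : Prop :=
  Function.Surjective π ∧ (∀ x : X, π x ∈ Subgroup.center L → x.1 ∈ Subgroup.center _) ∧
  ∀ α ∈ Γ, ∃ (σ : K ≃+* K) (c : K) (g : E → E), Function.Bijective g ∧
    (∀ v w, g (v + w) = g v + g w) ∧ (∀ (a : K) v, g (a • v) = σ a • g v) ∧
    (∀ v w, B (g v) (g w) = c * σ (B v w)) ∧
    ∀ x : X, ∃ y : X, (∀ v, g (ap x.1 v) = ap y.1 (g v)) ∧ α (π x) = π y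

end Forms

end Vale.Agent.P180.R2.H365
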