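import Vale.Agent.P180.R2.H365.Def7
import Vale.Agent.P180.R2.H365.Def0
import Vale.Agent.P180.R2.H259.Par.Def
import Vale.Agent.P180.R2.H799.BY1
import Vale.Agent.P180.R2.H799.BZ1
import Vale.Agent.P180.R2.H799.CC0
import Mathlib.RingTheory.Morita.Basic
import Mathlib.LinearAlgebra.SpecialLinearGroup
import Mathlib.LinearAlgebra.Matrix.SpecialLinearGroup
import Mathlib.LinearAlgebra.QuadraticForm.Basic
import Mathlib.GroupTheory.SpecificGroups.Cyclic
import Mathlib.Algebra.CharP.Defs

/-!
P180: classes of components with small source idempotents (3).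
-/

namespace Vale.Agent.P180.R2.H365

open Vale.Agent.P180

universe u

section Forms

variable {K E : Type} [Field K] [AddCommGroup E] [Module K E]

/-- `B` is a nondegenerate form on `E` with the field automorphism `θ`, and `|K|` is odd, `B` is
hermitian or `B` is alternating; `X` is as in `IsoOn`. -/
def IsoForm (B : E → E → K) (θ : K →+* K) (X : Subgroup (SpecialLinearGroup K E)) : Prop :=
  (∃ ε : K, FormOn B θ ε) ∧ IsoOn B X ∧
    (Odd (Nat.card K) ∨ (∃ a, θ a ≠ a) ∨ ∀ x, B x x = 0)

/-- `X` is as in `IsoForm` for a form `B` with the field automorphism `θ`, and `p` is as in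
`LinPr`. -/
def ClassForm (p : ℕ) (θ : K →+* K) (X : Subgroup (SpecialLinearGroup K E)) : Prop :=
  ∃ B : E → E → K, IsoForm B θ X ∧ LinPr p θ

/-- `X` is `SL(E)` and `θ = 1`, or `X` is as in `ClassForm`. -/
def ClassOn (p : ℕ) (θ : K →+* K) (X : Subgroup (SpecialLinearGroup K E)) : Prop :=
  ((∀ a, θ a = a) ∧ X = ⊤) ∨ ClassForm p θ X

/-- `L` is the image of `X`, the preimage of the centre of `L` consists of scalars, and with
`d = dim E`: `d < p`, or the elements of `p`-power order of `X` with image in `A` commute and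
either `d ≤ m`, or `K` has a `p`-th root of unity as in `RootIn` and one of the following holds: `p`
does not divide `d`; `X` is as in `ClassForm`; these elements `x` have `x ^ (|K| - 1) = 1`. -/
def ClassMap (p m d : ℕ) (θ : K →+* K) (X : Subgroup (SpecialLinearGroup K E)) {L : Type} [Group L]
    (A : Subgroup L) (π : X →* L) : Prop :=
  Function.Surjective π ∧ (∀ x : X, π x ∈ Subgroup.center L → x.1 ∈ Subgroup.center _) ∧
  (d < p ∨ ((∀ x y : X, (∃ i, x ^ (p ^ i) = 1) → (∃ i, y ^ (p ^ i) = 1) → π x ∈ A → π y ∈ A →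
      x * y = y * x) ∧
    (d ≤ m ∨ (RootIn p θ ∧ (¬ p ∣ d ∨ ClassForm p θ X ∨
      ∀ x : X, (∃ i, x ^ (p ^ i) = 1) → π x ∈ A → x ^ (Nat.card K - 1) = 1)))))

/-- `T` is the quotient, by the scalars which it contains, of a classical group `X` on `E` as in
`IsoOn`, `B` a nondegenerate form on `E`, which is alternating or hermitian, or `|K|` is odd and
`d ≠ 4`. -/
def ClassQuot (d : ℕ) (X : Subgroup (SpecialLinearGroup K E)) {T : Type} [Group T] (π : X →* T) :
    Prop :=
  (∃ (θ : K →+* K) (ε : K) (B : E → E → K), FormOn B θ ε ∧ IsoOn B X ∧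
    ((∀ x, B x x = 0) ∨ (∃ a, θ a ≠ a) ∨ (Odd (Nat.card K) ∧ d ≠ 4))) ∧
  Function.Surjective π ∧ ∀ x : X, π x = 1 ↔ x.1 ∈ Subgroup.center _

end Forms

/-- `L` is a classical group on the space `E` of dimension `d`, as in `ClassOn` and `ClassMap`. -/
def ClassData (p m d : ℕ) (K E : Type) [Field K] [AddCommGroup E] [Module K E] (L : Type)
    [Group L] (A : Subgroup L) : Prop :=
  ∃ (θ : K →+* K) (X : Subgroup (SpecialLinearGroup K E)) (π : X →* L),
    ClassOn p θ X ∧ ClassMap p m d θ X A π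

/-- `L` is a classical group of dimension `d` over a finite field `K` of characteristic different
from `p`, as in `ClassData`. -/
def ClassPair (p m : ℕ) (L : Type) [Group L] (A : Subgroup L) : Prop :=
  ∃ (K : Type) (_ : Field K) (_ : Finite K) (d : ℕ), 0 < d ∧ ¬ p ∣ Nat.card K ∧
    ClassData p m d K (Fin d → K) L A

/-- The `p`-subgroup `A` of the quasisimple group `L` is cyclic, or `(L, A)` is as in `ParPair`,
`LevPair` or `ClassPair`, or `L` is as in `CoverPair`. -/
def TameP (p m : ℕ) (L : Type) [Group L] (A : Subgroup L) : Prop :=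
  IsCyclic A ∨ (ParPair p L A ∨ LevPair p m L A ∨ CoverPair p L) ∨ ClassPair p m L A

/-- `T` is the quotient modulo scalars of a classical group of dimension `d` on `E`, as in
`ClassQuot`, or isomorphic to the group `Ω(Q)` of a nonsingular quadratic form `Q`, `q` even and
`d ≥ 6`. -/
def ClassOf (d : ℕ) (K E : Type) [Field K] [AddCommGroup E] [Module K E] (T : Type) [Group T] :
    Prop :=
  (∃ (X : Subgroup (SpecialLinearGroup K E)) (π : X →* T), ClassQuot d X π) ∨
  (2 ∣ Nat.card K ∧ 6 ≤ d ∧ ∃ (Q : QuadraticForm K E) (X : Subgroup (SpecialLinearGroup K E)),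
    OmegaOn Q X ∧ Nonempty (T ≃* X))

/-- `T` is a classical group of dimension `d ≥ 3` over a finite field `K` of characteristic `p`
(symplectic, unitary or orthogonal, as in `ClassOf`). -/
def ClassIn (p : ℕ) (T : Type) [Group T] : Prop :=
  ∃ (K : Type) (_ : Field K) (_ : Finite K) (d : ℕ), p ∣ Nat.card K ∧ 3 ≤ d ∧
    ClassOf d K (Fin d → K) T

/-- `T` is isomorphic to `PSL_d(K)`. -/
def IsLin (d : ℕ) (K : Type) [Field K] (T : Type) [Group T] : Prop :=
  Nonempty (T ≃* Matrix.SpecialLinearGroup (Fin d) K ⧸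
    Subgroup.center (Matrix.SpecialLinearGroup (Fin d) K))

/-- `T` is isomorphic to `PSp(E)` (`θ = 1`, `ε = -1`, `B` is alternating) or `PSU(E)` (`θ ≠ 1`,
`ε = 1`), and `3 ≤ d`, and `4 ≤ d` if `θ = 1`. -/
def FormGrp (d : ℕ) {K : Type} (E : Type) [Field K] [AddCommGroup E] [Module K E] (θ : K →+* K)
    (T : Type) [Group T] : Prop :=
  3 ≤ d ∧ ∃ (ε : K) (B : E → E → K) (X : Subgroup (SpecialLinearGroup K E)) (π : X →* T),
    (((∀ a, θ a = a) ∧ ε = -1 ∧ 4 ≤ d ∧ ∀ x, B x x = 0) ∨ ((∃ a, θ a ≠ a) ∧ ε = 1)) ∧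
    FormOn B θ ε ∧ (∀ g, g ∈ X ↔ Pres B g) ∧ Function.Surjective π ∧
    ∀ x : X, π x = 1 ↔ x.1 ∈ Subgroup.center _

/-- `T` is isomorphic to `PSp_d(K)` or `PSU_d(K)` as in `FormGrp`. -/
def IsFormGrp (d : ℕ) {K : Type} [Field K] (θ : K →+* K) (T : Type) [Group T] : Prop :=
  FormGrp d (Fin d → K) θ T

/-- `T` is an orthogonal group of dimension `d` as in `OrthAct` (and `θ = 1`), and `7 ≤ d < p`, or
`7 ≤ d ≤ m` and `d ≠ 8` if `p = 3`. -/
def IsOrthGrp (p m d : ℕ) {K : Type} [Field K] (θ : K →+* K) (T : Type) [Group T] : Prop :=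
  (∀ a, θ a = a) ∧ 7 ≤ d ∧ (d < p ∨ (d ≤ m ∧ (p = 3 → d ≠ 8))) ∧ OrthAct K (Fin d → K) T ⊥

/-- Either `d < p`, and (`K` has a `p`-th root of unity as in `RootIn`, or `p` does not divide the
order of the group of automorphisms of `K`, or `c` or `e` holds); or (`c` holds, or `s` holds and
(`p` does not divide this order or `e` holds)), and (`d ≤ m`, or `K` has a `p`-th root of unity as in
`RootIn` and `|K| > 9`, `|K| > 324` if `θ ≠ 1`). -/
def TameDim (c e s : Prop) (p m d : ℕ) {K : Type} [Field K] (θ : K →+* K) : Prop :=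
  (d < p ∧ (RootIn p θ ∨ ¬ p ∣ Nat.card (K ≃+* K) ∨ c ∨ e)) ∨
    ((c ∨ (s ∧ (¬ p ∣ Nat.card (K ≃+* K) ∨ e))) ∧
      (d ≤ m ∨ (9 < Nat.card K ∧ (324 < Nat.card K ∨ ∀ a, θ a = a) ∧ RootIn p θ)))

/-- `p` does not divide both `d` and `q - 1`, and `4` divides `q - 1` if `p = 2`. -/
def LinDeg (p d q : ℕ) : Prop :=
  ¬ (p ∣ d ∧ p ∣ q - 1) ∧ (p ≠ 2 ∨ 4 ∣ q - 1)

/-- The simple group `T` is covered: (1) `|T| ≤ m`; or (2) `T` is an alternating group; or (3) `T`
is a classical group in characteristic `p`; or (4) `T` is of local characteristic `p` up to order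
`n`, and `p = 2` or the Sylow `p`-subgroups of `T` have order greater than `n`; or, `K` a finite
field, (5) `T` is `PSL_d(K)`, and `d = 2`, or `p` divides `|K|`, or `d` is as in `LinDeg` and
`TameDim`; or (6) `T` is `PSp_d(K)` or `PSU_d(K)` as in `IsFormGrp` or an
orthogonal group as in `IsOrthGrp`, `p` is a linear prime not dividing `|K|`, and `d` is as in
`TameDim`. -/
def Covered (c e s : Prop) (p n m : ℕ) (T : Type) [Group T] : Prop :=
  Nat.card T ≤ m ∨
  (∃ d : ℕ, Nonempty (T ≃* alternatingGroup (Fin d))) ∨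
  ClassIn p T ∨
  (IsLocalChar p n T ∧ (p = 2 ∨ ∀ P : Sylow p T, n < Nat.card P)) ∨
  ∃ (K : Type) (_ : Field K) (_ : Finite K) (d : ℕ),
    (IsLin d K T ∧ (d = 2 ∨ p ∣ Nat.card K ∨
      (LinDeg p d (Nat.card K) ∧ TameDim c e s p m d (RingHom.id K)))) ∨
    ∃ θ : K →+* K, (IsFormGrp d θ T ∨ IsOrthGrp p m d θ T) ∧ ¬ p ∣ Nat.card K ∧ LinPr p θ ∧
      TameDim c e s p m d θ

/-- `L` is a quotient of `SL(E)` by a central subgroup. -/
def LinOn (K E : Type) [Field K] [AddCommGroup E] [Module K E] (L : Type) [Group L] : Prop :=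
  ∃ π : SpecialLinearGroup K E →* L, Function.Surjective π ∧ π.ker ≤ Subgroup.center _

/-- `L` is the quotient of a special linear group `SL_d(K)`, `K` a finite field, by a central
subgroup, `d ≥ 3` is as in `LinDeg`, and `p` does not divide `|K|`. -/
def LinQuot (p : ℕ) (L : Type) [Group L] : Prop :=
  ∃ (K : Type) (_ : Field K) (_ : Finite K) (d : ℕ), 3 ≤ d ∧ ¬ p ∣ Nat.card K ∧
    LinDeg p d (Nat.card K) ∧ LinOn K (Fin d → K) L

/-- `L` is a classical group on the space `E` of dimension `d` on which `Γ` acts by semilinear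
similitudes, as in `SimMap`, and `4 ≤ d` or the form is hermitian; and `d < p` and `K` has a `p`-th
root of unity as in `RootIn`, or `c` holds, `p` is a linear prime and does not divide `|K|`. -/
def SimData (c : Prop) (p d : ℕ) (K E : Type) [Field K] [AddCommGroup E] [Module K E] (L : Type)
    [Group L] (Γ : Subgroup (MulAut L)) : Prop :=
  ∃ (B : E → E → K) (θ : K →+* K) (X : Subgroup (SpecialLinearGroup K E)) (π : X →* L),
    IsoForm B θ X ∧ SimMap B X Γ π ∧ (4 ≤ d ∨ ∃ a, θ a ≠ a) ∧
    ((d < p ∧ RootIn p θ) ∨ (c ∧ ¬ p ∣ Nat.card K ∧ LinPr p θ))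

/-- `L` is a symplectic, unitary or orthogonal group of dimension `d ≥ 3` over a finite field, on
which `Γ` acts by semilinear similitudes as in `SimData`. -/
def SimOn (c : Prop) (p : ℕ) (L : Type) [Group L] (Γ : Subgroup (MulAut L)) : Prop :=
  ∃ (K : Type) (_ : Field K) (_ : Finite K) (d : ℕ), 3 ≤ d ∧ SimData c p d K (Fin d → K) L Γ

/-- The image of `A` in `L / Z(L)` has exponent `1` or `p`. -/
def ExpOn (p : ℕ) (L : Type) [Group L] (A : Subgroup L) : Prop :=
  ∀ y ∈ A, y ^ p ∈ Subgroup.center L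

/-- The image of `A` in `L / Z(L)` has order less than `p ^ p`. -/
def SmallOn (p : ℕ) (L : Type) [Group L] (A : Subgroup L) : Prop :=
  Nat.card (A.map (QuotientGroup.mk' (Subgroup.center L))) < p ^ p

/-- `Γ` acts trivially on the image of `A` in `L / Z(L)` (for example: `Γ` is abelian and contains
the inner automorphisms given by the elements of `A`), or this image is elementary abelian. -/
def CenOn (p : ℕ) (L : Type) [Group L] (Γ : Subgroup (MulAut L)) (A : Subgroup L) : Prop :=
  (∀ α ∈ Γ, ∀ y ∈ A, α y * y⁻¹ ∈ Subgroup.center L) ∨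
  (ExpOn p L A ∧ ∀ x ∈ A, ∀ y ∈ A, x * y * x⁻¹ * y⁻¹ ∈ Subgroup.center L)

/-- The group `Γ` of automorphisms of `L` is cyclic and `p` does not divide `|Z(L)|`; or the pair
`(L, A)` is as in `TameP` and `Γ` consists of inner automorphisms or `L` is as in `LinQuot` and
`(L, Γ, A)` is as in `CenOn`; or `(L, Γ)` is as in `SimOn`, where `c` says that `(L, A)` is as in
`TameP` and `(L, Γ, A)` is as in `CenOn`; or `(L, Γ)` is as in `ParOut` (`L` has a split parabolic
system compatible with `Γ`); or `(L, Γ)` is as in `CoverSim` (`L / Z(L)` is an orthogonal group on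
which `Γ` acts by semilinear similitudes), where `c` says that `(L, Γ, A)` is as in `CenOn`. -/
def TameAct (p m : ℕ) (L : Type) [Group L] (Γ : Subgroup (MulAut L)) (A : Subgroup L) : Prop :=
  (IsCyclic Γ ∧ ¬ p ∣ Nat.card (Subgroup.center L)) ∨
  (TameP p m L A ∧ (Γ ≤ (MulAut.conj : L →* MulAut L).range ∨
    (LinQuot p L ∧ CenOn p L Γ A))) ∨
  SimOn (TameP p m L A ∧ CenOn p L Γ A) p L Γ ∨ ParOut p L Γ ∨
  CoverSim (CenOn p L Γ A) p L Γ

section Classes

variable {G : Type} [Group G]

/-- The group of the automorphisms of `L` induced by the elements of `D` which normalise `L`. -/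
def Gam (D L : Subgroup G) : Subgroup (MulAut L) :=
  (D.subgroupOf (Subgroup.normalizer (L : Set G))).map L.normalizerMonoidHom

end Classes

/-- The component `L` of the group `G` with the block `b` and the `p`-subgroup `D` is exceptional:
`L / Z(L)` is not covered, where `c` says that `N_D(L)` acts trivially on the image of `D ∩ L` in
`L / Z(L)` or that this image is elementary abelian, `e` that it has exponent `1` or `p`, and `s`
that it has order less than `p ^ p`; and either `N_G(L) / L C_G(L)` is not solvable and of order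
greater than `m`, or the block of `kL` below `b` has no idempotent `i` with `dim (i kL i) ≤ m` as in
`HasSmallSource`, `N_D(L)` does not act on `L` as in `CycLev`, and `N_D(L)` and `D ∩ L` are not as in
`TameAct`. -/
def ExcX (p n m : ℕ) (k : Type u) [Field k] (G : Type) [Group G] [Finite G]
    (b : MonoidAlgebra k G) (D L : Subgroup G) : Prop :=
  ¬ Covered (CenOn p L (Gam D L) (D.subgroupOf L)) (ExpOn p L (D.subgroupOf L))
      (SmallOn p L (D.subgroupOf L)) p n m (L ⧸ Subgroup.center L) ∧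
  ((¬ SolvOut L ∧
      m < (L ⊔ Subgroup.centralizer (L : Set G)).relIndex (Subgroup.normalizer (L : Set G))) ∨
    (¬ HasSmallSource m b D L ∧ ¬ CycLev (D ⊓ Subgroup.normalizer (L : Set G)) L ∧
      ¬ TameAct p m L (Gam D L) (D.subgroupOf L)))

/-- The block algebras `RGb` and `RHc` are Morita equivalent over `R`. -/
def MorB (R : Type u) [CommRing R] {G H : Type} [Group G] [Group H] {b : MonoidAlgebra R G}
    {c : MonoidAlgebra R H} (hb : IsBlockR b) (hc : IsBlockR c) : Prop :=
  IsMoritaEquivalent R hb.Alg hc.Alg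

end Vale.Agent.P180.R2.H365
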