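import Vale.Agent.P180.Int.Defs
import Vale.Agent.P180.H768.Defs
import Mathlib.GroupTheory.SpecificGroups.Alternating

/-!
P180: definitions for the reduction theorem on arbitrary finite groups.
-/

namespace Vale.Agent.P180.R2.H365

open Vale.Agent.P180

universe u

/-- `L` is perfect and `L / Z(L)` is simple. -/
def IsQuasisimple (L : Type) [Group L] : Prop :=
  commutator L = ⊤ ∧ IsSimpleGroup (L ⧸ Subgroup.center L)

/-- `L` is a component of `G`: a quasisimple normal subgroup of a normal subgroup of `G`. -/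
def IsComponent {G : Type} [Group G] (L : Subgroup G) : Prop :=
  IsQuasisimple L ∧ ∃ E : Subgroup G, E.Normal ∧ L ≤ E ∧ ∀ x ∈ E, ∀ y ∈ L, x * y * x⁻¹ ∈ L

/-- The quasisimple group `L` is treated if `L / Z(L)` has order at most `m`, or `L` is an
alternating group, or `L / Z(L)` is of local characteristic `p` up to order `n` (and, unless
`p = 2`, has Sylow `p`-subgroups of order greater than `n`). -/
def Treated (p n m : ℕ) (L : Type) [Group L] : Prop :=
  Nat.card (L ⧸ Subgroup.center L) ≤ m ∨ (∃ d : ℕ, Nonempty (L ≃* alternatingGroup (Fin d))) ∨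
  (IsLocalChar p n (L ⧸ Subgroup.center L) ∧
    (p = 2 ∨ ∀ P : Sylow p (L ⧸ Subgroup.center L), n < Nat.card P))

section Def

variable {k : Type u} [Field k] {G : Type} [Group G]

/-- The inclusion `kN → kG` for a subgroup `N` of `G`. -/
noncomputable def embN (N : Subgroup G) : MonoidAlgebra k N →+* MonoidAlgebra k G :=
  MonoidAlgebra.mapDomainRingHom k N.subtype

/-- The block `b` of `kG` is reduced: (i) for every normal subgroup `N` of `G`, every block `f` of
`kN` covered by `b` (that is, `b f ≠ 0`) is `G`-stable; (ii) `G` has a central `p'`-subgroup `Z`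
such that every normal subgroup `N` of `G` containing `Z` for which some block `f` of `kN` covered
by `b` has a defect group contained in the centre of `N` is abelian, with `N / Z` a `p`-group. -/
structure IsReduced (p : ℕ) (b : MonoidAlgebra k G) : Prop where
  stable : ∀ N : Subgroup G, N.Normal → ∀ f : MonoidAlgebra k N, IsBlockR f → b * embN N f ≠ 0 →
    ∀ g : G, MonoidAlgebra.single g 1 * embN N f = embN N f * MonoidAlgebra.single g 1
  red : ∃ Z : Subgroup G, Z ≤ Subgroup.center G ∧ ¬ p ∣ Nat.card Z ∧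
    ∀ N : Subgroup G, N.Normal → Z ≤ N → ∀ f : MonoidAlgebra k N, IsBlockR f → b * embN N f ≠ 0 →
      ∀ Y : Subgroup N, IsDefectGroupR f Y → Y ≤ Subgroup.center N →
        (∀ x ∈ N, ∀ y ∈ N, x * y = y * x) ∧ ∀ x ∈ N, ∃ i : ℕ, x ^ p ^ i ∈ Z

/-- `b` is a reduced block of `kG` with a defect group `D` of order at most `n`, and `G` has a
component `L` such that `p` divides the order of `L / Z(L)`, `D ∩ L` is not contained in `Z(L)` and
`Exc G D L` holds. -/
def IsCritical [Finite G]
    (Exc : ∀ (G : Type) [Group G] [Finite G], Subgroup G → Subgroup G → Prop) (p n : ℕ)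
    (b : MonoidAlgebra k G) : Prop :=
  IsReduced p b ∧ ∃ D : Subgroup G, IsDefectGroupR b D ∧ IsPGroup p D ∧ Nat.card D ≤ n ∧
    ∃ L : Subgroup G, IsComponent L ∧ p ∣ Nat.card (L ⧸ Subgroup.center L) ∧
      (∃ x ∈ D, x ∈ L ∧ ¬ ∀ y ∈ L, x * y = y * x) ∧ Exc G D L

end Def

end Vale.Agent.P180.R2.H365
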