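import Vale.Agent.P180.R2.H365.Def6
import Mathlib.LinearAlgebra.SpecialLinearGroup

/-!
P180: definitions for the reduction theorem on arbitrary finite groups, with unbounded groups of
outer automorphisms.
-/

namespace Vale.Agent.P180.R2.H365

open Vale.Agent.P180

universe u

/-- `N_G(L) / L C_G(L)` is solvable: some term of the derived series of `N_G(L)` is contained in
`L C_G(L)`. -/
def SolvOut {G : Type} [Group G] (L : Subgroup G) : Prop :=
  ∃ l : ℕ, (derivedSeries (Subgroup.normalizer (L : Set G)) l).map
    (Subgroup.normalizer (L : Set G)).subtype ≤ L ⊔ Subgroup.centralizer (L : Set G)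

/-- `L` is a central quotient of the special linear group of a space of dimension `d` prime to `p`
over a finite field `K` with `p ∣ |K| - 1`, and `d < p` or `D ∩ L` is abelian of exponent dividing
`|K| - 1`. -/
def SplitSL (p : ℕ) {G : Type} [Group G] (D L : Subgroup G) : Prop :=
  ∃ (K : Type) (_ : Field K) (_ : Finite K) (d : ℕ)
    (π : SpecialLinearGroup K (Fin d → K) →* L), Function.Surjective π ∧
      π.ker ≤ Subgroup.center _ ∧ p ∣ Nat.card K - 1 ∧ ¬ p ∣ d ∧
      (d < p ∨ ((∀ x ∈ D, x ∈ L → ∀ y ∈ D, y ∈ L → x * y = y * x) ∧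
        ∀ x ∈ D, x ∈ L → x ^ (Nat.card K - 1) = 1))

/-- The component `L` of the group `G` with the block `b` and the `p`-subgroup `D` is exceptional:
`L / Z(L)` has order greater than `m`; `L / Z(L)` is not an alternating group; `L / Z(L)` is not of
local characteristic `p` up to order `n` (or, for odd `p`, it is, with Sylow `p`-subgroups of order
at most `n`); and either `N_G(L) / L C_G(L)` is not solvable and of order greater than `m`, or the
block of `kL` below `b` has no idempotent `i` with `dim (i kL i) ≤ m` as in `HasSmallSource` and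
(some element of `N_D(L)` induces an outer automorphism of `L`, or `D ∩ L` is not cyclic and not as
in `SplitSL`). -/
def ExcU (p n m : ℕ) (k : Type u) [Field k] (G : Type) [Group G] [Finite G]
    (b : MonoidAlgebra k G) (D L : Subgroup G) : Prop :=
  m < Nat.card (L ⧸ Subgroup.center L) ∧
  ¬ (∃ d : ℕ, Nonempty (L ⧸ Subgroup.center L ≃* alternatingGroup (Fin d))) ∧
  ¬ (IsLocalChar p n (L ⧸ Subgroup.center L) ∧
    (p = 2 ∨ ∀ P : Sylow p (L ⧸ Subgroup.center L), n < Nat.card P)) ∧
  ((¬ SolvOut L ∧
      m < (L ⊔ Subgroup.centralizer (L : Set G)).relIndex (Subgroup.normalizer (L : Set G))) ∨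
    (¬ HasSmallSource m b D L ∧
      ¬ (D ⊓ Subgroup.normalizer (L : Set G) ≤ L ⊔ Subgroup.centralizer (L : Set G) ∧
        (IsCyclic (D ⊓ L : Subgroup G) ∨ SplitSL p D L))))

end Vale.Agent.P180.R2.H365
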