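import Vale.Agent.P180.R2.H365.Def7
import Vale.Agent.P180.R2.H799.BN0

/-!
P180: classes of components with small source idempotents.
-/

namespace Vale.Agent.P180.R2.H365

open Vale.Agent.P180 Vale.Agent.P180.R2.H799

universe u

section Classes

variable {G : Type} [Group G]

/-- `D ∩ L` is abelian. -/
def AbInt (D L : Subgroup G) : Prop := ∀ x ∈ D, x ∈ L → ∀ y ∈ D, y ∈ L → x * y = y * x

/-- `L` is the quotient of `SL(E)` by a central subgroup, and, with `d = dim E`: `d < p`, or `D ∩ L`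
is abelian and: if `p ∣ |K| - 1`, then `p ∤ d` and `D ∩ L` has exponent dividing `|K| - 1`; if
`p ∤ |K| - 1`, then `d ≤ m`. -/
def LinSLOn (p m d : ℕ) (K E : Type) [Field K] [AddCommGroup E] [Module K E]
    (D L : Subgroup G) : Prop :=
  ∃ π : SpecialLinearGroup K E →* L, Function.Surjective π ∧ π.ker ≤ Subgroup.center _ ∧
    (d < p ∨ (AbInt D L ∧
      (p ∣ Nat.card K - 1 → ¬ p ∣ d ∧ ∀ x ∈ D, x ∈ L → x ^ (Nat.card K - 1) = 1) ∧
      (¬ p ∣ Nat.card K - 1 → d ≤ m)))

/-- `L` is the quotient of a special linear group `SL_d(K)`, `K` a finite field of characteristic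
different from `p`, by a central subgroup, as in `LinSLOn`. -/
def LinSL (p m : ℕ) (D L : Subgroup G) : Prop :=
  ∃ (K : Type) (_ : Field K) (_ : Finite K) (d : ℕ), 0 < d ∧ ¬ p ∣ Nat.card K ∧
    LinSLOn p m d K (Fin d → K) D L

/-- `B` is a nondegenerate form on `E`, linear in the first variable, with
`B y x = ε θ (B x y)`, `θ` an automorphism of `K` with `θ ^ 2 = 1`. -/
def IsForm {K E : Type} [Field K] [AddCommGroup E] [Module K E] (B : E → E → K) (θ : K →+* K)
    (ε : K) : Prop :=
  (∀ x y z, B (x + y) z = B x z + B y z) ∧ (∀ (a : K) x y, B (a • x) y = a * B x y) ∧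
  (∀ a, θ (θ a) = a) ∧ ε * θ ε = 1 ∧ (∀ x y, B y x = ε * θ (B x y)) ∧
  ∀ x, (∀ y, B x y = 0) → x = 0

/-- `L` is the quotient of a subgroup `X` of index at most 2 in the group of the isometries of
determinant 1 of a nondegenerate alternating, symmetric or hermitian form `B` on `E` by a group of
scalars, and, with `θ` the field automorphism of the form and `d = dim E`, either

(1) `K` has a `p`-th root of unity `ζ ≠ 1` fixed by `θ` (so `p` divides `q - 1`, `q` the order of
the fixed field of `θ`), and `d < p` or `D ∩ L` is abelian of exponent dividing `|K| - 1`; or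

(2) `p` does not divide `|K| - 1` and `p` does not divide `r ^ j + 1` if `θ` is `c ↦ c ^ (r ^ j)`,
`r` the characteristic of `K` (so `p` is a linear prime: for `θ = 1` the order of `|K|` modulo `p`
is odd; for `|K| = q ^ 2` and `θ ≠ 1` the order of `- q` modulo `p` is even), and `d < p`, or
`D ∩ L` is abelian and `d ≤ m`. -/
def LinIsoOn (p m d : ℕ) (K E : Type) [Field K] [AddCommGroup E] [Module K E]
    (D L : Subgroup G) : Prop :=
  ∃ (B : E → E → K) (θ : K →+* K) (ε : K) (X : Subgroup (SpecialLinearGroup K E)) (π : X →* L),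
    IsForm B θ ε ∧ (∀ g ∈ X, ∀ x y, B (g x) (g y) = B x y) ∧
    (∀ g h : SpecialLinearGroup K E, g ∉ X → h ∉ X → (∀ x y, B (g x) (g y) = B x y) →
      (∀ x y, B (h x) (h y) = B x y) → g * h ∈ X) ∧
    Function.Surjective π ∧ π.ker.map X.subtype ≤ Subgroup.center _ ∧
    (((∃ ζ : K, ζ ^ p = 1 ∧ ζ ≠ 1 ∧ θ ζ = ζ) ∧
        (d < p ∨ (AbInt D L ∧ ∀ x ∈ D, x ∈ L → x ^ (Nat.card K - 1) = 1))) ∨
      (¬ p ∣ Nat.card K - 1 ∧
        (∀ j : ℕ, (∀ c, θ c = c ^ (ringChar K ^ j)) → ¬ p ∣ ringChar K ^ j + 1) ∧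
        (d < p ∨ (AbInt D L ∧ d ≤ m))))

/-- `p` is odd and `L` is a classical group of dimension `d` over a finite field `K` of odd order
prime to `p`, as in `LinIsoOn`. -/
def LinIso (p m : ℕ) (D L : Subgroup G) : Prop :=
  ∃ (K : Type) (_ : Field K) (_ : Finite K) (d : ℕ), Odd p ∧ Odd (Nat.card K) ∧
    ¬ p ∣ Nat.card K ∧ LinIsoOn p m d K (Fin d → K) D L

/-- `D ∩ L` is abelian and `L` has a parabolic system with the Levi property for which every
subgroup of `D ∩ L` forms a Levi pair with a unipotent radical. -/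
def SplitPar (p : ℕ) (D L : Subgroup G) : Prop :=
  AbInt D L ∧ ∃ S : ParSys p L, S.HasLevi ∧ ∀ Q : Subgroup L, Q ≤ D.subgroupOf L →
    ∃ V ∈ S.car, IsLeviPair V Q

/-- The group `N_D(L) / C_D(L)` is cyclic and `D ∩ Z(L) = 1`. -/
def CycAct (D L : Subgroup G) : Prop :=
  (∀ x ∈ D, x ∈ L → (∀ y ∈ L, x * y = y * x) → x = 1) ∧
  ∃ x ∈ D ⊓ Subgroup.normalizer (L : Set G), ∀ r ∈ D ⊓ Subgroup.normalizer (L : Set G),
    ∃ j : ℤ, x ^ j * r ∈ Subgroup.centralizer (L : Set G)

/-- `N_D(L)` acts on `L` through a cyclic group (and `D ∩ Z(L) = 1`), or it acts by inner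
automorphisms and `D ∩ L` is cyclic or `D`, `L` are as in `LinSL`, `LinIso` or `SplitPar`. -/
def KnownC (p m : ℕ) (D L : Subgroup G) : Prop :=
  CycAct D L ∨
  (D ⊓ Subgroup.normalizer (L : Set G) ≤ L ⊔ Subgroup.centralizer (L : Set G) ∧
    (IsCyclic (D ⊓ L : Subgroup G) ∨ LinSL p m D L ∨ LinIso p m D L ∨ SplitPar p D L))

end Classes

/-- The component `L` of the group `G` with the block `b` and the `p`-subgroup `D` is exceptional:
`L / Z(L)` has order greater than `m`; `L / Z(L)` is not an alternating group; `L / Z(L)` is not of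
local characteristic `p` up to order `n` (or, for odd `p`, it is, with Sylow `p`-subgroups of order
at most `n`); and either `N_G(L) / L C_G(L)` is not solvable and of order greater than `m`, or the
block of `kL` below `b` has no idempotent `i` with `dim (i kL i) ≤ m` as in `HasSmallSource` and
`D`, `L` are not as in `KnownC`. -/
def ExcV (p n m : ℕ) (k : Type u) [Field k] (G : Type) [Group G] [Finite G]
    (b : MonoidAlgebra k G) (D L : Subgroup G) : Prop :=
  m < Nat.card (L ⧸ Subgroup.center L) ∧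
  ¬ (∃ d : ℕ, Nonempty (L ⧸ Subgroup.center L ≃* alternatingGroup (Fin d))) ∧
  ¬ (IsLocalChar p n (L ⧸ Subgroup.center L) ∧
    (p = 2 ∨ ∀ P : Sylow p (L ⧸ Subgroup.center L), n < Nat.card P)) ∧
  ((¬ SolvOut L ∧
      m < (L ⊔ Subgroup.centralizer (L : Set G)).relIndex (Subgroup.normalizer (L : Set G))) ∨
    (¬ HasSmallSource m b D L ∧ ¬ KnownC p m D L))

end Vale.Agent.P180.R2.H365
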