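import Vale.Agent.P180.R2.H365.Def7
import Vale.Agent.P180.R2.H47.PairDef
import Mathlib.LinearAlgebra.Matrix.ProjectiveSpecialLinearGroup

/-!
P180: classes of components with small source idempotents (2).
-/

namespace Vale.Agent.P180.R2.H365

open Vale.Agent.P180

universe u

section Classes

variable {G : Type} [Group G]

/-- `Q` acts on `L` through a cyclic group which contains the image of `Q ∩ L`: there are an
injective homomorphism `ψ` of `L` and a homomorphism `ρ` of `Q` with cyclic image to the same group,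
which agree on `Q ∩ L` and which are compatible with the action of `Q` on `L`. -/
def CycOn (Q L : Subgroup G) : Prop :=
  ∃ (H : Type) (_ : Group H) (ψ : L →* H) (ρ : Q →* H), Function.Injective ψ ∧
    IsCyclic ρ.range ∧
    (∀ (r : Q) (s s' : L), (s' : G) = r * s * (r : G)⁻¹ → ψ s' = ρ r * ψ s * (ρ r)⁻¹) ∧
    ∀ (x : G) (hL : x ∈ L) (hQ : x ∈ Q), ψ ⟨x, hL⟩ = ρ ⟨x, hQ⟩

/-- `N_D(L)` acts on `L` through a cyclic group, or it acts by inner automorphisms and the pair
`(L, D ∩ L)` is as in `TamePair`. -/
def KnownC (p m : ℕ) (D L : Subgroup G) : Prop :=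
  CycOn (D ⊓ Subgroup.normalizer (L : Set G)) L ∨
  (D ⊓ Subgroup.normalizer (L : Set G) ≤ L ⊔ Subgroup.centralizer (L : Set G) ∧
    TamePair p m L (D.subgroupOf L))

end Classes

/-- The component `L` of the group `G` with the block `b` and the `p`-subgroup `D` is exceptional:
`L / Z(L)` has order greater than `m`; `L / Z(L)` is not an alternating group and not a group
`PSL_2(K)`; `L / Z(L)` is not of local characteristic `p` up to order `n` (or, for odd `p`, it is,
with Sylow `p`-subgroups of order at most `n`); and either `N_G(L) / L C_G(L)` is not solvable and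
of order greater than `m`, or the block of `kL` below `b` has no idempotent `i` with
`dim (i kL i) ≤ m` as in `HasSmallSource` and `D`, `L` are not as in `KnownC`. -/
def ExcW (p n m : ℕ) (k : Type u) [Field k] (G : Type) [Group G] [Finite G]
    (b : MonoidAlgebra k G) (D L : Subgroup G) : Prop :=
  m < Nat.card (L ⧸ Subgroup.center L) ∧
  ¬ (∃ d : ℕ, Nonempty (L ⧸ Subgroup.center L ≃* alternatingGroup (Fin d))) ∧
  ¬ (∃ (K : Type) (_ : Field K) (_ : Finite K),
    Nonempty (L ⧸ Subgroup.center L ≃* Matrix.ProjectiveSpecialLinearGroup (Fin 2) K)) ∧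
  ¬ (IsLocalChar p n (L ⧸ Subgroup.center L) ∧
    (p = 2 ∨ ∀ P : Sylow p (L ⧸ Subgroup.center L), n < Nat.card P)) ∧
  ((¬ SolvOut L ∧
      m < (L ⊔ Subgroup.centralizer (L : Set G)).relIndex (Subgroup.normalizer (L : Set G))) ∨
    (¬ HasSmallSource m b D L ∧ ¬ KnownC p m D L))

end Vale.Agent.P180.R2.H365
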