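import Vale.Agent.P180.R2.H365.Hig
import Vale.Agent.P180.Int.Fin

/-!
P180: existence of defect groups below a subgroup from which the block is a trace.
-/

set_option linter.all false

namespace Vale.Agent.P180.R2.H365

open Vale.Agent.P180

universe u

variable {k : Type u} [Field k] {G : Type} [Group G] [Finite G]

theorem isSummand_of_tr {b a : MonoidAlgebra k G} (hb : IsBlock b) {D : Subgroup G}
    (ha : a ∈ Fix (cj k G) D) (hba : b = tr (cj k G) D ⊤ a) : IsSummandOfInducedR b D := by
  have _ := Fintype.ofFinite (G ⧸ D)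
  refine Hig.isSummandR_of_sum (a := a) D (fun x => (Subalgebra.mem_center_iff.mp hb.central) x)
    hb.idem ?_ ?_
  · intro d hd
    exact mem_Fix_cj_iff.1 ha d hd
  · rw [tr_top_eq_sum ha] at hba
    rw [hba]
    exact Finset.sum_congr rfl fun q _ => cj_eq _ _

theorem exists_defect {b a : MonoidAlgebra k G} (hb : IsBlock b) {D : Subgroup G}
    (ha : a ∈ Fix (cj k G) D) (hba : b = tr (cj k G) D ⊤ a) :
    ∃ D' ≤ D, IsDefectGroupR b D' := by
  obtain ⟨D', hD', h⟩ := exists_minimal_le_of_wellFoundedLT (IsSummandOfInducedR b) D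
    (isSummand_of_tr hb ha hba)
  exact ⟨D', hD', h⟩

end Vale.Agent.P180.R2.H365
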