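import Vale.Agent.P180.R2.H365.Comp
import Vale.Agent.P180.R2.H365.Def5
import Vale.Agent.P180.H768.LocalChar
import Vale.Agent.P180.R2.H47.Lyr

/-!
P180: components, and the index of the alternating part of a reduced group.
-/

set_option linter.all false

namespace Vale.Agent.P180.R2.H365

open Vale.Agent.P180 Vale.Agent.P180.H768.Gd Vale.Agent.P180.R2.H47
open Vale.Agent.P180.H768 hiding pull mem_pull exists_factor Lay mk_mem comm_mem

open scoped Nat commutatorElement

universe u

section Quasi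

variable {G : Type} [Group G] {W S : Subgroup G} [W.Normal]

theorem map_comm_eq (hsim : IsSimpleGroup (S.map (QuotientGroup.mk' W)))
    (hna : ¬ ∀ x ∈ S.map (QuotientGroup.mk' W), ∀ y ∈ S.map (QuotientGroup.mk' W), x * y = y * x) :
    (⁅S, S⁆ : Subgroup G).map (QuotientGroup.mk' W) = S.map (QuotientGroup.mk' W) := by
  set T := S.map (QuotientGroup.mk' W) with hT
  rw [Subgroup.map_commutator]
  have h1 : ((⁅T, T⁆ : Subgroup (G ⧸ W)).subgroupOf T).Normal := by
    constructor
    intro t ht g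
    have h2 : (⁅T, T⁆ : Subgroup (G ⧸ W)).map (MulAut.conj (g : G ⧸ W)).toMonoidHom = ⁅T, T⁆ := by
      rw [Subgroup.map_commutator]
      have h3 : T.map (MulAut.conj (g : G ⧸ W)).toMonoidHom = T := by
        ext x
        rw [mem_map_conj]
        constructor
        · intro hx
          have := T.mul_mem (T.mul_mem g.2 hx) (T.inv_mem g.2)
          simpa [mul_assoc] using this
        · intro hx
          exact T.mul_mem (T.mul_mem (T.inv_mem g.2) hx) g.2
      rw [h3]
    rw [Subgroup.mem_subgroupOf] at ht ⊢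
    rw [← h2, mem_map_conj]
    simpa [mul_assoc] using ht
  rcases hsim.eq_bot_or_eq_top_of_normal _ h1 with h | h
  · exfalso
    apply hna
    intro x hx y hy
    have h4 : ⁅x, y⁆ ∈ (⁅T, T⁆ : Subgroup (G ⧸ W)) := Subgroup.commutator_mem_commutator hx hy
    have h5 : (⟨⁅x, y⁆, Subgroup.commutator_le_self T h4⟩ : T) ∈
        (⁅T, T⁆ : Subgroup (G ⧸ W)).subgroupOf T := Subgroup.mem_subgroupOf.mpr h4
    rw [h, Subgroup.mem_bot] at h5
    have h6 : ⁅x, y⁆ = 1 := congrArg Subtype.val h5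
    rwa [commutatorElement_eq_one_iff_mul_comm] at h6
  · refine le_antisymm (Subgroup.commutator_le_self T) ?_
    rwa [Subgroup.subgroupOf_eq_top] at h

theorem le_sup_comm (hWS : W ≤ S) (hsim : IsSimpleGroup (S.map (QuotientGroup.mk' W)))
    (hna : ¬ ∀ x ∈ S.map (QuotientGroup.mk' W), ∀ y ∈ S.map (QuotientGroup.mk' W), x * y = y * x)
    {x : G} (hx : x ∈ S) : ∃ w ∈ W, ∃ l ∈ (⁅S, S⁆ : Subgroup G), w * l = x := by
  have h1 : QuotientGroup.mk' W x ∈ (⁅S, S⁆ : Subgroup G).map (QuotientGroup.mk' W) := by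
    rw [map_comm_eq hsim hna]
    exact Subgroup.mem_map_of_mem _ hx
  obtain ⟨l, hl, hlx⟩ := h1
  refine ⟨x * l⁻¹, ?_, l, hl, by rw [inv_mul_cancel_right]⟩
  have h2 : QuotientGroup.mk' W (x * l⁻¹) = 1 := by
    rw [map_mul, map_inv, hlx, mul_inv_cancel]
  exact (QuotientGroup.eq_one_iff _).mp h2

theorem comm_perfect (hWS : W ≤ S) (hcent : ∀ w ∈ W, ∀ s ∈ S, w * s = s * w)
    (hsim : IsSimpleGroup (S.map (QuotientGroup.mk' W)))
    (hna : ¬ ∀ x ∈ S.map (QuotientGroup.mk' W), ∀ y ∈ S.map (QuotientGroup.mk' W), x * y = y * x) :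
    (⁅(⁅S, S⁆ : Subgroup G), (⁅S, S⁆ : Subgroup G)⁆ : Subgroup G) = ⁅S, S⁆ := by
  refine le_antisymm (Subgroup.commutator_le_self _) ?_
  conv_lhs => rw [Subgroup.commutator_def]
  rw [Subgroup.closure_le]
  rintro _ ⟨x, hx, y, hy, rfl⟩
  obtain ⟨w, hw, l, hl, rfl⟩ := le_sup_comm hWS hsim hna hx
  obtain ⟨w', hw', l', hl', rfl⟩ := le_sup_comm hWS hsim hna hy
  have hlS := Subgroup.commutator_le_self S hl
  have hlS' := Subgroup.commutator_le_self S hl'
  have h1 : ⁅w * l, w' * l'⁆ = ⁅l, l'⁆ := by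
    rw [commutatorElement_def, commutatorElement_def]
    have e1 : w * l * (w' * l') = w * w' * (l * l') := by
      calc w * l * (w' * l') = w * (l * w') * l' := by group
        _ = w * (w' * l) * l' := by rw [hcent w' hw' l hlS]
        _ = _ := by group
    have e2 : w' * l' * (w * l) = w * w' * (l' * l) := by
      calc w' * l' * (w * l) = w' * (l' * w) * l := by group
        _ = w' * (w * l') * l := by rw [hcent w hw l' hlS']
        _ = w' * w * (l' * l) := by group
        _ = _ := by rw [hcent w' hw' w (hWS hw)]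
    calc w * l * (w' * l') * (w * l)⁻¹ * (w' * l')⁻¹
        = (w * l * (w' * l')) * (w' * l' * (w * l))⁻¹ := by group
      _ = (w * w' * (l * l')) * (w * w' * (l' * l))⁻¹ := by rw [e1, e2]
      _ = (w * w') * ((l * l') * (l' * l)⁻¹) * (w * w')⁻¹ := by group
      _ = l * l' * l⁻¹ * l'⁻¹ := by
        have h2 : (l * l') * (l' * l)⁻¹ ∈ S :=
          S.mul_mem (S.mul_mem hlS hlS') (S.inv_mem (S.mul_mem hlS' hlS))
        rw [hcent (w * w') (W.mul_mem hw hw') _ h2]
        group
  rw [SetLike.mem_coe, h1]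
  exact Subgroup.commutator_mem_commutator hl hl'

/-- the quotient of `[S, S]` by its centre -/
theorem comm_quot (hWS : W ≤ S) (hcent : ∀ w ∈ W, ∀ s ∈ S, w * s = s * w)
    (hsim : IsSimpleGroup (S.map (QuotientGroup.mk' W)))
    (hna : ¬ ∀ x ∈ S.map (QuotientGroup.mk' W), ∀ y ∈ S.map (QuotientGroup.mk' W), x * y = y * x) :
    Nonempty ((⁅S, S⁆ : Subgroup G) ⧸ Subgroup.center (⁅S, S⁆ : Subgroup G) ≃*
      S.map (QuotientGroup.mk' W)) := by
  set L : Subgroup G := ⁅S, S⁆ with hL
  have hLS : L ≤ S := Subgroup.commutator_le_self S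
  let f0 : L →* S.map (QuotientGroup.mk' W) :=
    { toFun := fun x => ⟨QuotientGroup.mk' W x, Subgroup.mem_map_of_mem _ (hLS x.2)⟩
      map_one' := Subtype.ext (map_one _)
      map_mul' := fun x y => Subtype.ext (map_mul _ _ _) }
  have hf0 : Function.Surjective f0 := by
    rintro ⟨x, hx⟩
    have hx' := hx
    rw [← map_comm_eq hsim hna] at hx'
    obtain ⟨l, hl, rfl⟩ := hx'
    exact ⟨⟨l, hl⟩, rfl⟩
  have hker : f0.ker = Subgroup.center L := by
    ext x
    rw [MonoidHom.mem_ker, Subgroup.mem_center_iff]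
    constructor
    · intro h y
      have h1 : QuotientGroup.mk' W (x : G) = 1 := congrArg Subtype.val h
      have h2 : (x : G) ∈ W := (QuotientGroup.eq_one_iff _).mp h1
      exact Subtype.ext (hcent x h2 y (hLS y.2)).symm
    · intro h
      apply Subtype.ext
      change QuotientGroup.mk' W (x : G) = 1
      apply center_trivial hsim hna (Subgroup.mem_map_of_mem _ (hLS x.2))
      intro y hy
      rw [← map_comm_eq hsim hna] at hy
      obtain ⟨l, hl, rfl⟩ := hy
      rw [← map_mul, ← map_mul]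
      congr 1
      exact (congrArg Subtype.val (h ⟨l, hl⟩)).symm
  exact ⟨(QuotientGroup.quotientMulEquivOfEq hker.symm).trans
    (QuotientGroup.quotientKerEquivOfSurjective f0 hf0)⟩

theorem comm_quasisimple (hWS : W ≤ S) (hcent : ∀ w ∈ W, ∀ s ∈ S, w * s = s * w)
    (hsim : IsSimpleGroup (S.map (QuotientGroup.mk' W)))
    (hna : ¬ ∀ x ∈ S.map (QuotientGroup.mk' W), ∀ y ∈ S.map (QuotientGroup.mk' W), x * y = y * x) :
    IsQuasisimple (⁅S, S⁆ : Subgroup G) := by
  refine ⟨?_, ?_⟩
  · have h1 := comm_perfect hWS hcent hsim hna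
    apply Subgroup.map_injective (Subgroup.subtype_injective (⁅S, S⁆ : Subgroup G))
    rw [commutator_def, Subgroup.map_commutator, ← MonoidHom.range_eq_map, Subgroup.range_subtype]
    exact h1
  · obtain ⟨e⟩ := comm_quot hWS hcent hsim hna
    exact simple_of_equiv e.symm hsim

end Quasi

end Vale.Agent.P180.R2.H365
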