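import Vale.Agent.P180.R2.H365.Xin
import Vale.Agent.P180.R2.H365.Dfg
import Vale.Agent.P180.R2.H47.Fin3

/-!
P180: the final assembly for arbitrary finite groups.
-/

set_option linter.all false

namespace Vale.Agent.P180.R2.H365

open IsLocalRing
open Vale.Agent.P180 Vale.Agent.P180.H768.Gd Vale.Agent.P180.R2.H47 Vale.Agent.P180.R2.H259
open Vale.Agent.P180.I (EO rd Lf isBlock_rd isBlockR_of_lf exists_trace_rd isBlockR_iff exists_lf)
open Vale.Agent.P180.H768 hiding pull mem_pull exists_factor Lay mk_mem comm_mem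

open scoped Nat

universe u

section Def

variable {k : Type u} [Field k] {G : Type} [Group G] [Finite G]

theorem embN_eq (N : Subgroup G) (f : MonoidAlgebra k N) : embN N f = incl k N f := rfl

theorem isReduced_of {p : ℕ} [Fact p.Prime] [CharP k p] {b : MonoidAlgebra k G} {Z : Subgroup G}
    (hZ : ∀ z ∈ Z, ∀ g, z * g = g * z) (hp : ¬ p ∣ Nat.card Z) (hST : STab b)
    (hNR : NRed p Z ⊤ b) : IsReduced p b := by
  refine ⟨?_, Z, ?_, hp, ?_⟩
  · intro N hN f hf hbf g
    rw [embN_eq] at hbf ⊢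
    have hf0 : IsBlock f := isBlockR_iff.mp hf
    have h0 : IsBlockOf N (incl k N f) := (isBlockOf_incl_iff N f).mpr
      ⟨hf0.central, hf0.idem, hf0.ne_zero, hf0.primitive⟩
    have h1 := hST N hN _ h0 hbf
    have h2 : incl k N f ∈ Fix (cj k G) (⊤ : Subgroup G) := fun x _ => h1 x
    exact mem_Fix_cj_iff.1 h2 g (Subgroup.mem_top g)
  · intro z hz
    rw [Subgroup.mem_center_iff]
    exact fun g => (hZ z hz g).symm
  · intro N hN hZN f hf hbf Y hY hYc
    rw [embN_eq] at hbf
    have hf0 : IsBlock f := isBlockR_iff.mp hf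
    have h0 : IsBlockOf N (incl k N f) := (isBlockOf_incl_iff N f).mpr
      ⟨hf0.central, hf0.idem, hf0.ne_zero, hf0.primitive⟩
    obtain ⟨a, ha, hfa⟩ := exists_trace hf0 (hf0.isSummand hY.prop)
    obtain ⟨P, hPY, hP, a', ha', hfa'⟩ := exists_sylow_trace (p := p) ha hfa
    -- `P` is central, so contained in `pZ p N`
    have hPZ : P.map N.subtype ≤ pZ p N := by
      rintro _ ⟨x, hx, rfl⟩
      refine ⟨x.2, ?_, ?_⟩
      · intro n hn
        have h3 := Subgroup.mem_center_iff.mp (hYc (hPY hx)) ⟨n, hn⟩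
        exact (congrArg Subtype.val h3).symm
      · obtain ⟨i, hi⟩ := hP ⟨x, hx⟩
        have h4 : x ^ p ^ i = 1 := congrArg Subtype.val hi
        refine ⟨i, ?_⟩
        change (x : G) ^ p ^ i = 1
        rw [← Subgroup.coe_pow, h4, Subgroup.coe_one]
    have hpZN : pZ p N ≤ N := fun x hx => hx.1
    have h5 : incl k N f = tr (cj k G) (P.map N.subtype) N (incl k N a') := by
      rw [← incl_tr N P ha', ← hfa']
    have h6 : incl k N a' ∈ Fix (cj k G) (P.map N.subtype) := (incl_mem_Fix_iff N P a').mpr ha'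
    have hpZp : IsPGroup p (pZ p N) := by
      rintro ⟨x, hx1, hx2, i, hi⟩
      exact ⟨i, Subtype.ext hi⟩
    have hcard := hNR N (pZ p N) hN (pZ_normal p hN) hZN le_top hpZN hpZp
      (fun y hy x hx => hy.2.1 x hx) _ h0 hbf
      ⟨tr (cj k G) (P.map N.subtype) (pZ p N) (incl k N a'),
        tr_mem_SubAlg hpZN (incl_mem N a'), tr_mem_Fix h6, by
          rw [tr_tr h6 hPZ hpZN]; exact h5⟩
    have hZn : Z.Normal := by
      constructor
      intro z hz g
      rw [← hZ z hz g, mul_inv_cancel_right]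
      exact hz
    have hpZn : (pZ p N).Normal := pZ_normal p hN
    rw [← card_sup_eq hp hpZp] at hcard
    have hN2 : Z ⊔ pZ p N = N := Subgroup.eq_of_le_of_card_ge (sup_le hZN hpZN) hcard.le
    have hdec : ∀ x ∈ N, ∃ z ∈ Z, ∃ y ∈ pZ p N, z * y = x := by
      intro x hx
      rw [← hN2] at hx
      exact Subgroup.mem_sup_of_normal_left.mp hx
    refine ⟨?_, ?_⟩
    · intro x hx y hy
      obtain ⟨z, hz, w, hw, rfl⟩ := hdec x hx
      have h7 : w * y = y * w := hw.2.1 y hy
      rw [mul_assoc, h7, ← mul_assoc, hZ z hz y, mul_assoc]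
    · intro x hx
      obtain ⟨z, hz, w, hw, rfl⟩ := hdec x hx
      obtain ⟨i, hi⟩ := hw.2.2
      refine ⟨i, ?_⟩
      rw [(show Commute z w from hZ z hz w).mul_pow, hi, mul_one]
      exact Z.pow_mem hz _

end Def

variable (Exc : ∀ (G : Type) [Group G] [Finite G], Subgroup G → Subgroup G → Prop)

/-- Reduced blocks that are not critical have a small corner. -/
def LocE (k : Type u) [Field k] (p n C : ℕ) : Prop :=
  ∀ (G : Type) [Group G] [Finite G] (Z D : Subgroup G) (a b : MonoidAlgebra k G),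
    Rs p n Z D a b → STab b → NRed p Z ⊤ b → IsDefectGroupR b D →
    (∃ L : Subgroup G, IsComponent L ∧ p ∣ Nat.card (L ⧸ Subgroup.center L) ∧
      (∃ x ∈ D, x ∈ L ∧ ¬ ∀ y ∈ L, x * y = y * x) ∧ Exc G D L) ∨
    ∃ (P : Subgroup G) (i : MonoidAlgebra k G) (hi : IsIdempotentElem i), Nat.card P ≤ n ∧
      i ∈ Fix (cj k G) P ∧ b * i = i ∧
      (∃ (m : ℕ) (u v : Fin m → MonoidAlgebra k G), (∀ l, u l ∈ Fix (cj k G) P) ∧
        (∀ l, v l ∈ Fix (cj k G) P) ∧ b = tr (cj k G) P ⊤ (∑ l, u l * i * v l)) ∧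
      Module.finrank k hi.Corner ≤ C

variable {Exc} {p n : ℕ} [Fact p.Prime]

theorem final5 {C : ℕ}
    (hloc : ∀ (k : Type u) [Field k] [IsAlgClosed k] [CharP k p], LocE Exc k p n C) :
    ∃ (r : ℕ) (H : Fin r → Type) (_ : ∀ i, Group (H i)) (_ : ∀ i, Finite (H i)),
      (∀ (k : Type u) [Field k] [IsAlgClosed k] [CharP k p],
        ∃ (c : ∀ i, MonoidAlgebra k (H i)) (hc : ∀ i, IsBlockR (c i)),
          ∀ (G : Type) [Group G] [Finite G] (b : MonoidAlgebra k G) (hb : IsBlockR b)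
            (D : Subgroup G), IsDefectGroupR b D → Nat.card D ≤ n →
            (∃ i, IsMoritaEquivalent k hb.Alg (hc i).Alg) ∨
            ∃ (G' : Type) (_ : Group G') (_ : Finite G') (b' : MonoidAlgebra k G')
              (hb' : IsBlockR b'), IsMoritaEquivalent k hb.Alg hb'.Alg ∧
              IsCritical Exc p (Nat.card D) b') ∧
      (∀ (O : Type u) [CommRing O] [IsDomain O] [IsDiscreteValuationRing O]
        [IsAdicComplete (maximalIdeal O) O] [IsAlgClosed (ResidueField O)]
        [CharP (ResidueField O) p],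
        ∃ (C : ∀ i, MonoidAlgebra O (H i)) (hC : ∀ i, IsBlockR (C i)),
          ∀ (G : Type) [Group G] [Finite G] (B : MonoidAlgebra O G) (hB : IsBlockR B)
            (D : Subgroup G),
            (IsDefectGroupR B D ∨
              IsDefectGroupR (MonoidAlgebra.mapRingHom G (residue O) B) D) → Nat.card D ≤ n →
            (∃ i, IsMoritaEquivalent O hB.Alg (hC i).Alg) ∨
            ∃ (G' : Type) (_ : Group G') (_ : Finite G') (B' : MonoidAlgebra O G')
              (hB' : IsBlockR B'), IsMoritaEquivalent O hB.Alg hB'.Alg ∧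
              IsCritical Exc p (Nat.card D) (MonoidAlgebra.mapRingHom G' (residue O) B')) := by
  obtain ⟨r, H, iG, iF, h1, h2⟩ := unif.{u} p (max n C)
  refine ⟨r, H, iG, iF, ?_, ?_⟩
  · intro k _ _ _
    obtain ⟨c, hc, h⟩ := h1 k
    refine ⟨c, hc, ?_⟩
    intro G _ _ b hb D hD hn
    have hb0 : IsBlock b := isBlockR_iff.mp hb
    obtain ⟨a, ha, hba⟩ := exists_trace hb0 (hb0.isSummand hD.prop)
    obtain ⟨P, hPD, hP, a', ha', hba'⟩ := exists_sylow_trace (p := p) ha hba
    have hPn : Nat.card P ≤ Nat.card D :=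
      Nat.card_le_card_of_injective _ (Subgroup.inclusion_injective hPD)
    obtain ⟨n', hn'⟩ : ∃ n', n' = Nat.card D := ⟨_, rfl⟩
    rw [← hn'] at hPn hn ⊢
    let Φ : ∀ (G : Type) [Group G] [Finite G], MonoidAlgebra k G → Prop := fun G _ _ b =>
      (∀ hb : IsBlockR b, ∃ i, IsMoritaEquivalent k hb.Alg (hc i).Alg) ∨ IsCritical Exc p n' b
    have hP5 := reduce_all (n := n') (clo_field' k p Φ) (by
      intro G _ _ Z D a b hs hST hNR hb
      refine ⟨G, inferInstance, inferInstance, b, hb, ?_, IsMoritaEquivalent.refl k _⟩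
      obtain ⟨D', hD', hDD'⟩ := exists_defect hb hs.ha hs.hba
      obtain ⟨a', ha', hba'⟩ := exists_trace hb (hb.isSummand hDD'.prop)
      have hD'n : Nat.card D' ≤ n' := (Nat.card_le_card_of_injective _
        (Subgroup.inclusion_injective hD')).trans hs.Dn
      have hs' : Rs p n Z D' a' b :=
        { Dp := hs.Dp.to_le hD'
          Zc := hs.Zc
          Zp := hs.Zp
          hb := hb
          ha := ha'
          hba := hba'
          Dn := hD'n.trans hn }
      rcases hloc k G Z D' a' b hs' hST hNR hDD' with hL | ⟨R, i, hi, hR, hiR, hbi, hw, hfr⟩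
      · right
        exact ⟨isReduced_of hs.Zc hs.Zp hST hNR, D', hDD', hs'.Dp, hD'n, hL⟩
      · left
        intro hbR
        obtain ⟨m, u, v, hu, hv, huv⟩ := hw
        exact h G b hbR R i hi (hR.trans (le_max_left _ _)) (comm_of_fix hiR) hbi
          (gen_of_tr hiR u v hu hv huv) (hfr.trans (le_max_right _ _))) G P hP hPn a' b hb0 ha'
      hba'
    obtain ⟨G', iG', fG', b', hb', hΦ, hM⟩ := hP5 hb0
    rcases hΦ with h3 | h3
    · left
      obtain ⟨i, hi⟩ := h3 (isBlockR_iff.mpr hb')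
      exact ⟨i, IsMoritaEquivalent.trans k hM hi⟩
    · right
      exact ⟨G', iG', fG', b', isBlockR_iff.mpr hb', hM, h3⟩
  · intro O _ _ _ _ _ _
    obtain ⟨c, hc, h⟩ := h2 O
    refine ⟨c, hc, ?_⟩
    intro G _ _ B hB D hD hn
    obtain ⟨hb0, hlf⟩ := isBlock_rd hB
    obtain ⟨a, ha, hba⟩ : ∃ a ∈ Fix (cj (ResidueField O) G) D,
        rd B = tr (cj (ResidueField O) G) D ⊤ a := by
      rcases hD with h | h
      · exact exists_trace_rd hB h.prop
      · exact exists_trace hb0 (hb0.isSummand h.prop)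
    obtain ⟨P, hPD, hP, a', ha', hba'⟩ := exists_sylow_trace (p := p) ha hba
    have hPn : Nat.card P ≤ Nat.card D :=
      Nat.card_le_card_of_injective _ (Subgroup.inclusion_injective hPD)
    obtain ⟨n', hn'⟩ : ∃ n', n' = Nat.card D := ⟨_, rfl⟩
    rw [← hn'] at hPn hn ⊢
    let Φ : ∀ (G : Type) [Group G] [Finite G], MonoidAlgebra (ResidueField O) G → Prop :=
      fun G _ _ b => IsBlock b ∧ ((∃ i, EO O b (rd (c i))) ∨ IsCritical Exc p n' b)
    have hP5 := reduce_all (n := n') (clo_integral' O p Φ) (by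
      intro G _ _ Z D a b hs hST hNR
      have hb := hs.hb
      obtain ⟨B₁, hB₁⟩ := exists_lf (O := O) (b := b)
        (fun x => (Subalgebra.mem_center_iff.mp hb.central) x) hb.idem
      have hB₁R : IsBlockR B₁ := isBlockR_of_lf hb hB₁
      have hrd : rd B₁ = b := hB₁.rd_eq
      refine ⟨G, inferInstance, inferInstance, b, ⟨hb, ?_⟩,
        ⟨B₁, B₁, hB₁, hB₁, IsMoritaEquivalent.refl O _⟩⟩
      obtain ⟨D', hD', hDD'⟩ := exists_defect hb hs.ha hs.hba
      obtain ⟨a', ha', hba'⟩ := exists_trace hb (hb.isSummand hDD'.prop)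
      have hD'n : Nat.card D' ≤ n' := (Nat.card_le_card_of_injective _
        (Subgroup.inclusion_injective hD')).trans hs.Dn
      have hs' : Rs p n Z D' a' b :=
        { Dp := hs.Dp.to_le hD'
          Zc := hs.Zc
          Zp := hs.Zp
          hb := hb
          ha := ha'
          hba := hba'
          Dn := hD'n.trans hn }
      rcases hloc (ResidueField O) G Z D' a' b hs' hST hNR hDD' with
        hL | ⟨R, i, hi, hR, hiR, hbi, hw, hfr⟩
      · right
        exact ⟨isReduced_of hs.Zc hs.Zp hST hNR, D', hDD', hs'.Dp, hD'n, hL⟩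
      · left
        obtain ⟨m, u, v, hu, hv, huv⟩ := hw
        obtain ⟨t, ht'⟩ := h G B₁ hB₁R R i hi (hR.trans (le_max_left _ _))
          (comm_of_fix hiR) (by rw [hrd]; exact hbi)
          (by rw [hrd]; exact gen_of_tr hiR u v hu hv huv)
          (hfr.trans (le_max_right _ _))
        exact ⟨t, B₁, c t, hB₁, (isBlock_rd (hc t)).2, ht'⟩) G P hP hPn a' (rd B) hb0 ha' hba'
    obtain ⟨G', iG', fG', b', ⟨hb', hΦ⟩, B₂, C₂, hB₂, hC₂, hM⟩ := hP5
    obtain rfl := hB₂.unique hlf
    rcases hΦ with ⟨i, B₃, C₃, hB₃, hC₃, hM₃⟩ | h3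
    · left
      obtain rfl := hB₃.unique hC₂
      obtain rfl := hC₃.unique (isBlock_rd (hc i)).2
      exact ⟨i, IsMoritaEquivalent.trans O hM hM₃⟩
    · right
      refine ⟨G', iG', fG', C₂, isBlockR_of_lf hb' hC₂, hM, ?_⟩
      have h4 : MonoidAlgebra.mapRingHom G' (residue O) C₂ = b' := hC₂.rd_eq
      rw [h4]
      exact h3

end Vale.Agent.P180.R2.H365
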