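import Vale.Agent.P180.R2.H365.LocU
import Vale.Agent.P180.R2.H667.Fin

/-!
P180: the blocks with a small idempotent in the group algebra of a normal subgroup.
-/

namespace Vale.Agent.P180.R2.H365

universe u

theorem uni_T (p : ℕ) [Fact p.Prime] (n C m : ℕ) : Uni.{u} p (SmallT p n C m) :=
  H667.uni_list p n C m

end Vale.Agent.P180.R2.H365
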