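import Vale.Agent.P180.Bdl.B1
import Vale.Agent.P180.Int.Defs

/-!
P180: Higman's criterion: a trace gives a direct summand of an induced module.
-/

set_option linter.all false

namespace Vale.Agent.P180.R2.H365.Hig

open Vale.Agent.P180 Representation

universe u

section

variable {k : Type u} [CommRing k] {G : Type} [Group G]

section LM

variable {V : Type*} [AddCommGroup V] [Module k V]

/-- the linear map with prescribed values on the group elements -/
noncomputable def LM (f : G → V) : MonoidAlgebra k G →ₗ[k] V :=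
  (Finsupp.linearCombination k f) ∘ₗ (MonoidAlgebra.coeffLinearEquiv k).toLinearMap

theorem LM_single (f : G → V) (g : G) (c : k) :
    LM f (MonoidAlgebra.single g c) = c • f g := by
  change Finsupp.linearCombination k f (MonoidAlgebra.single g c).coeff = _
  rw [MonoidAlgebra.coeff_single, Finsupp.linearCombination_single]

theorem lm_ext {f g : MonoidAlgebra k G →ₗ[k] V}
    (h : ∀ x, f (MonoidAlgebra.single x 1) = g (MonoidAlgebra.single x 1)) : f = g := by
  refine MonoidAlgebra.lhom_ext' fun x => LinearMap.ext_ring ?_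
  exact h x

end LM

variable (D : Subgroup G)

/-- the trivial module -/
noncomputable abbrev tz : Representation k D k := Representation.trivial k D k

/-- `x ⊗ y` in `kG ⊗_{kD} kG` -/
noncomputable def J : MonoidAlgebra k G →ₗ[k] MonoidAlgebra k G →ₗ[k]
    IndV (diagHom D) (tz (k := k) D) :=
  LM fun s => LM fun t => IndV.mk (diagHom D) (tz (k := k) D) (s⁻¹, t) 1

theorem J_single (s t : G) (c d : k) :
    J (k := k) D (MonoidAlgebra.single s c) (MonoidAlgebra.single t d) =
    (c * d) • IndV.mk (diagHom D) (tz (k := k) D) (s⁻¹, t) 1 := by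
  rw [J, LM_single, LinearMap.smul_apply, LM_single, smul_smul]

/-- two bilinear maps agreeing on the group elements are equal -/
theorem bil_ext2 {V : Type*} [AddCommGroup V] (f g : MonoidAlgebra k G → MonoidAlgebra k G → V)
    (hf0 : ∀ y, f 0 y = 0) (hg0 : ∀ y, g 0 y = 0) (hf0' : ∀ x, f x 0 = 0) (hg0' : ∀ x, g x 0 = 0)
    (hfa : ∀ x x' y, f (x + x') y = f x y + f x' y) (hga : ∀ x x' y, g (x + x') y = g x y + g x' y)
    (hfb : ∀ x y y', f x (y + y') = f x y + f x y') (hgb : ∀ x y y', g x (y + y') = g x y + g x y')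
    (h : ∀ s t c d, f (MonoidAlgebra.single s c) (MonoidAlgebra.single t d) =
      g (MonoidAlgebra.single s c) (MonoidAlgebra.single t d)) (x y : MonoidAlgebra k G) :
    f x y = g x y := by
  induction x using MonoidAlgebra.induction_linear with
  | zero => rw [hf0, hg0]
  | add x x' hx hx' => rw [hfa, hga, hx, hx']
  | single s c =>
    induction y using MonoidAlgebra.induction_linear with
    | zero => rw [hf0', hg0']
    | add y y' hy hy' => rw [hfb, hgb, hy, hy']
    | single t d => exact h s t c d

theorem mk_rel {d : G} (hd : d ∈ D) (s t : G) :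
    IndV.mk (diagHom D) (tz (k := k) D) (d * s, d * t) 1 =
      IndV.mk (diagHom D) (tz (k := k) D) (s, t) 1 := by
  have h := Coinvariants.mk_self_apply
    (Representation.tprod ((leftRegular k (G × G)).comp (diagHom D)) (tz (k := k) D)) ⟨d, hd⟩
    ((MonoidAlgebra.single ((s, t) : G × G) (1 : k)) ⊗ₜ[k] (1 : k))
  refine Eq.trans ?_ h
  change Coinvariants.mk _ _ = Coinvariants.mk _ _
  congr 1
  change _ = (TensorProduct.map _ _) _
  rw [TensorProduct.map_tmul]
  change (MonoidAlgebra.single ((d * s, d * t) : G × G) (1 : k)) ⊗ₜ[k] (1 : k) = _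
  congr 1
  change _ = (leftRegular k (G × G)) (diagHom D ⟨d, hd⟩) _
  simp
  rfl

theorem J_mid {d : G} (hd : d ∈ D) (x y : MonoidAlgebra k G) :
    J D (x * MonoidAlgebra.single d 1) y = J D x (MonoidAlgebra.single d 1 * y) := by
  refine bil_ext2 (fun x y => J D (x * MonoidAlgebra.single d 1) y)
    (fun x y => J D x (MonoidAlgebra.single d 1 * y)) ?_ ?_ ?_ ?_ ?_ ?_ ?_ ?_ ?_ x y
  · intro y; change J D (0 * _) y = 0; rw [zero_mul, map_zero, LinearMap.zero_apply]
  · intro y; change J D 0 _ = 0; rw [map_zero, LinearMap.zero_apply]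
  · intro x; change J D _ 0 = 0; rw [map_zero]
  · intro x; change J D _ (_ * 0) = 0; rw [mul_zero, map_zero]
  · intro x x' y
    change J D ((x + x') * _) y = J D (x * _) y + J D (x' * _) y
    rw [add_mul, map_add, LinearMap.add_apply]
  · intro x x' y
    change J D (x + x') _ = J D x _ + J D x' _
    rw [map_add, LinearMap.add_apply]
  · intro x y y'
    change J D _ (y + y') = J D _ y + J D _ y'
    rw [map_add]
  · intro x y y'
    change J D _ (_ * (y + y')) = J D _ (_ * y) + J D _ (_ * y')
    rw [mul_add, map_add]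
  · intro s t c e
    change J D (MonoidAlgebra.single s c * MonoidAlgebra.single d 1) (MonoidAlgebra.single t e) =
      J D (MonoidAlgebra.single s c) (MonoidAlgebra.single d 1 * MonoidAlgebra.single t e)
    rw [MonoidAlgebra.single_mul_single, MonoidAlgebra.single_mul_single, one_mul, mul_one,
      J_single, J_single]
    have := mk_rel (k := k) D (D.inv_mem hd) s⁻¹ (d * t)
    rw [inv_mul_cancel_left] at this
    rw [mul_inv_rev, this]

theorem J_act (s t : G) (x y : MonoidAlgebra k G) :
    ind (diagHom D) (tz (k := k) D) (s, t) (J D x y) =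
      J D (MonoidAlgebra.single s 1 * x) (y * MonoidAlgebra.single t⁻¹ 1) := by
  refine bil_ext2 (fun x y => ind (diagHom D) (tz (k := k) D) (s, t) (J D x y))
    (fun x y => J D (MonoidAlgebra.single s 1 * x) (y * MonoidAlgebra.single t⁻¹ 1))
    ?_ ?_ ?_ ?_ ?_ ?_ ?_ ?_ ?_ x y
  · intro y
    change ind _ _ _ (J D 0 y) = 0
    rw [map_zero, LinearMap.zero_apply, map_zero]
  · intro y
    change J D (_ * 0) _ = 0
    rw [mul_zero, map_zero, LinearMap.zero_apply]
  · intro x
    change ind _ _ _ (J D x 0) = 0
    rw [map_zero, map_zero]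
  · intro x
    change J D _ (0 * _) = 0
    rw [zero_mul, map_zero]
  · intro x x' y
    change ind _ _ _ (J D (x + x') y) = ind _ _ _ (J D x y) + ind _ _ _ (J D x' y)
    rw [map_add, LinearMap.add_apply, map_add]
  · intro x x' y
    change J D (_ * (x + x')) _ = J D (_ * x) _ + J D (_ * x') _
    rw [mul_add, map_add, LinearMap.add_apply]
  · intro x y y'
    change ind _ _ _ (J D x (y + y')) = ind _ _ _ (J D x y) + ind _ _ _ (J D x y')
    rw [map_add, map_add]
  · intro x y y'
    change J D _ ((y + y') * _) = J D _ (y * _) + J D _ (y' * _)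
    rw [add_mul, map_add]
  · intro x y c e
    change ind (diagHom D) (tz (k := k) D) (s, t)
      (J D (MonoidAlgebra.single x c) (MonoidAlgebra.single y e)) =
      J D (MonoidAlgebra.single s 1 * MonoidAlgebra.single x c)
        (MonoidAlgebra.single y e * MonoidAlgebra.single t⁻¹ 1)
    rw [MonoidAlgebra.single_mul_single, MonoidAlgebra.single_mul_single, one_mul, mul_one,
      J_single, J_single, map_smul, ind_mk, mul_inv_rev]
    rfl

/-- the multiplication `kG ⊗_{kD} kG → kG` before passing to the quotient -/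
noncomputable def mu0 : TensorProduct k (MonoidAlgebra k (G × G)) k →ₗ[k] MonoidAlgebra k G :=
  TensorProduct.lift (LM fun h : G × G =>
    (LinearMap.toSpanSingleton k (MonoidAlgebra k G) (MonoidAlgebra.single (h.1⁻¹ * h.2) (1 : k))))

theorem mu0_tmul (s t : G) (c : k) :
    mu0 (k := k) (G := G) ((MonoidAlgebra.single ((s, t) : G × G) (1 : k)) ⊗ₜ[k] c) =
      MonoidAlgebra.single (s⁻¹ * t) c := by
  rw [mu0, TensorProduct.lift.tmul, LM_single, one_smul, LinearMap.toSpanSingleton_apply,
    MonoidAlgebra.smul_single, smul_eq_mul, mul_one]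

/-- the multiplication `kG ⊗_{kD} kG → kG` -/
noncomputable def mu : IndV (diagHom D) (tz (k := k) D) →ₗ[k] MonoidAlgebra k G :=
  Coinvariants.lift _ mu0 (by
    intro d
    apply TensorProduct.ext
    apply lm_ext
    rintro ⟨s, t⟩
    apply LinearMap.ext_ring
    change mu0 ((TensorProduct.map _ _)
      ((MonoidAlgebra.single ((s, t) : G × G) (1 : k)) ⊗ₜ[k] (1 : k))) = mu0
      ((MonoidAlgebra.single ((s, t) : G × G) (1 : k)) ⊗ₜ[k] (1 : k))
    rw [TensorProduct.map_tmul]
    have h1 : ((leftRegular k (G × G)).comp (diagHom D)) d (MonoidAlgebra.single ((s, t) : G × G)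
        (1 : k)) = MonoidAlgebra.single ((d * s, d * t) : G × G) (1 : k) := by
      change (leftRegular k (G × G)) (diagHom D d) _ = _
      simp
      rfl
    have h2 : (tz (k := k) D) d (1 : k) = 1 := rfl
    rw [h1, h2, mu0_tmul, mu0_tmul]
    congr 1
    group)

theorem mu_J (x y : MonoidAlgebra k G) : mu D (J D x y) = x * y := by
  refine bil_ext2 (fun x y => mu D (J D x y)) (fun x y => x * y) ?_ ?_ ?_ ?_ ?_ ?_ ?_ ?_ ?_ x y
  · intro y
    change mu D (J D 0 y) = 0
    rw [map_zero, LinearMap.zero_apply, map_zero]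
  · intro y; exact zero_mul y
  · intro x
    change mu D (J D x 0) = 0
    rw [map_zero, map_zero]
  · intro x; exact mul_zero x
  · intro x x' y
    change mu D (J D (x + x') y) = mu D (J D x y) + mu D (J D x' y)
    rw [map_add, LinearMap.add_apply, map_add]
  · intro x x' y; exact add_mul x x' y
  · intro x y y'
    change mu D (J D x (y + y')) = mu D (J D x y) + mu D (J D x y')
    rw [map_add, map_add]
  · intro x y y'; exact mul_add x y y'
  · intro s t c e
    change mu D (J D (MonoidAlgebra.single s c) (MonoidAlgebra.single t e)) =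
      MonoidAlgebra.single s c * MonoidAlgebra.single t e
    rw [J_single, MonoidAlgebra.single_mul_single, map_smul]
    change (c * e) • Coinvariants.lift _ _ _ (Coinvariants.mk _
      ((MonoidAlgebra.single ((s⁻¹, t) : G × G) (1 : k)) ⊗ₜ[k] (1 : k))) = _
    rw [Coinvariants.lift_mk, mu0_tmul, inv_inv, MonoidAlgebra.smul_single, smul_eq_mul, mul_one]

theorem mu_act (s t : G) (v : IndV (diagHom D) (tz (k := k) D)) :
    mu D (ind (diagHom D) (tz (k := k) D) (s, t) v) =
      MonoidAlgebra.single s 1 * mu D v * MonoidAlgebra.single t⁻¹ 1 := by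
  have key : (mu D) ∘ₗ (ind (diagHom D) (tz (k := k) D) (s, t)) =
      (LinearMap.mulRight k (MonoidAlgebra.single t⁻¹ (1 : k))) ∘ₗ
        (LinearMap.mulLeft k (MonoidAlgebra.single s (1 : k))) ∘ₗ (mu D) := by
    apply IndV.hom_ext
    rintro ⟨x, y⟩
    apply LinearMap.ext_ring
    change mu D (ind (diagHom D) (tz (k := k) D) (s, t)
      (IndV.mk (diagHom D) (tz (k := k) D) (x, y) 1)) = MonoidAlgebra.single s 1 *
        mu D (IndV.mk (diagHom D) (tz (k := k) D) (x, y) 1) * MonoidAlgebra.single t⁻¹ 1
    have h := J_single (k := k) D x⁻¹ y 1 1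
    rw [inv_inv, one_mul, one_smul] at h
    rw [← h, J_act, mu_J, mu_J]
    simp only [mul_assoc]
  exact congrArg (fun f => f v) key

/-- Higman's criterion, the easy direction. -/
theorem isSummandR_of_sum {a b : MonoidAlgebra k G} [Fintype (G ⧸ D)]
    (hb : ∀ x, x * b = b * x) (hbb : b * b = b)
    (ha : ∀ d ∈ D, MonoidAlgebra.single d 1 * a = a * MonoidAlgebra.single d 1)
    (hba : b = ∑ q : G ⧸ D, MonoidAlgebra.single q.out 1 * a * MonoidAlgebra.single q.out⁻¹ 1) :
    IsSummandOfInducedR b D := by
  let F : MonoidAlgebra k G → G → IndV (diagHom D) (tz (k := k) D) := fun x g =>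
    J D (x * (MonoidAlgebra.single g 1 * a)) (MonoidAlgebra.single g⁻¹ 1)
  have hF : ∀ (x : MonoidAlgebra k G) (g d : G), d ∈ D → F x (g * d) = F x g := by
    intro x g d hd
    change J D (x * (MonoidAlgebra.single (g * d) 1 * a)) (MonoidAlgebra.single (g * d)⁻¹ 1) =
      J D (x * (MonoidAlgebra.single g 1 * a)) (MonoidAlgebra.single g⁻¹ 1)
    have h1 : (MonoidAlgebra.single (g * d) 1 : MonoidAlgebra k G) =
        MonoidAlgebra.single g 1 * MonoidAlgebra.single d 1 := by
      rw [MonoidAlgebra.single_mul_single, one_mul]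
    rw [h1, mul_assoc (MonoidAlgebra.single g 1), ha d hd, ← mul_assoc (MonoidAlgebra.single g 1),
      ← mul_assoc x, J_mid D hd, MonoidAlgebra.single_mul_single, one_mul, mul_inv_rev,
      mul_inv_cancel_left]
  have hFo : ∀ (x : MonoidAlgebra k G) (g : G), F x ((g : G ⧸ D).out) = F x g := by
    intro x g
    have h1 : g⁻¹ * ((g : G ⧸ D).out) ∈ D := by
      rw [← QuotientGroup.eq, QuotientGroup.out_eq']
    have h2 := hF x g _ h1
    rwa [mul_inv_cancel_left] at h2
  let i : MonoidAlgebra k G →ₗ[k] IndV (diagHom D) (tz (k := k) D) :=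
    ∑ q : G ⧸ D, ((J D).flip (MonoidAlgebra.single q.out⁻¹ 1)) ∘ₗ
      (LinearMap.mulRight k (MonoidAlgebra.single q.out 1 * a))
  have hi : ∀ x, i x = ∑ q : G ⧸ D, F x q.out := by
    intro x
    change (∑ q : G ⧸ D, ((J D).flip (MonoidAlgebra.single q.out⁻¹ 1)) ∘ₗ
      (LinearMap.mulRight k (MonoidAlgebra.single q.out 1 * a))) x = _
    rw [LinearMap.sum_apply]
    rfl
  let q : IndV (diagHom D) (tz (k := k) D) →ₗ[k] MonoidAlgebra k G :=
    (LinearMap.mulRight k b) ∘ₗ (mu D)
  have hq : ∀ v, q v = mu D v * b := fun v => rfl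
  refine ⟨k, inferInstance, inferInstance, tz (k := k) D, i, q, ?_, ?_, ?_, ?_⟩
  · intro s t x
    rw [hi, hi, map_sum]
    have h1 : ∀ g, F (MonoidAlgebra.single s 1 * x * MonoidAlgebra.single t⁻¹ 1) (t * g) =
        ind (diagHom D) (tz (k := k) D) (s, t) (F x g) := by
      intro g
      change J D _ _ = ind (diagHom D) (tz (k := k) D) (s, t) (J D _ _)
      rw [J_act]
      congr 2
      · have h2 : (MonoidAlgebra.single (t * g) 1 : MonoidAlgebra k G) =
            MonoidAlgebra.single t 1 * MonoidAlgebra.single g 1 := by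
          rw [MonoidAlgebra.single_mul_single, one_mul]
        have h3 : (MonoidAlgebra.single t⁻¹ 1 : MonoidAlgebra k G) * MonoidAlgebra.single t 1 = 1 := by
          rw [MonoidAlgebra.single_mul_single, one_mul, inv_mul_cancel]
          rfl
        rw [h2]
        calc MonoidAlgebra.single s 1 * x * MonoidAlgebra.single t⁻¹ 1 *
              (MonoidAlgebra.single t 1 * MonoidAlgebra.single g 1 * a)
            = MonoidAlgebra.single s 1 * x * (MonoidAlgebra.single t⁻¹ 1 *
              MonoidAlgebra.single t 1) * (MonoidAlgebra.single g 1 * a) := by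
              simp only [mul_assoc]
          _ = _ := by rw [h3, mul_one, mul_assoc]
      · rw [MonoidAlgebra.single_mul_single, one_mul, mul_inv_rev]
    symm
    apply Fintype.sum_bijective (fun q => t • q) (MulAction.bijective t)
    intro r
    rw [← h1, ← hFo _ (t * _)]
    congr 2
    conv_rhs => rw [← QuotientGroup.out_eq' r]
    rfl
  · intro s t v
    rw [hq, hq, mu_act]
    simp only [mul_assoc]
    rw [hb]
  · intro v
    rw [hq, mul_assoc, hbb]
  · intro x hx
    rw [hq, hi, map_sum]
    have h1 : ∀ g, mu D (F x g) = x * (MonoidAlgebra.single g 1 * a * MonoidAlgebra.single g⁻¹ 1) := by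
      intro g
      change mu D (J D _ _) = _
      rw [mu_J, mul_assoc]
    simp only [h1]
    rw [← Finset.mul_sum, ← hba, hx, hx]

end

end Vale.Agent.P180.R2.H365.Hig
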