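import Vale.Agent.P180.R2.H471.Au6

set_option linter.all false

/-!
P180: `p`-elements of the normaliser of a central quotient of `SL(d, K)` induce inner automorphisms
if `p` does not divide the number of automorphisms of `K` nor `gcd(d, |K| - 1)`.
-/

namespace Vale.Agent.P180.R2.H365.Inn

open Matrix Subgroup Module
open Vale.Agent.P180.R2.H589.Sch Vale.Agent.P180.R2.H589.Bt Vale.Agent.P180.R2.H471.Au

variable {K : Type*} [Field K] {n : ℕ} {L : Type*} [Group L] {π : GS (n + 1) K →* L}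

theorem iter_semi {α : MulAut L} {X Y : Matrix (Fin (n + 1)) (Fin (n + 1)) K} (hXY : X * Y = 1)
    {σ : K →+* K} (h : ∀ g, α (π g) = π (CJ hXY (Matrix.SpecialLinearGroup.map σ g))) (j : ℕ) :
    ∃ (X' Y' : Matrix (Fin (n + 1)) (Fin (n + 1)) K) (hXY' : X' * Y' = 1),
      ∀ g, (α ^ j) (π g) = π (CJ hXY' (Matrix.SpecialLinearGroup.map (σ ^ j) g)) := by
  induction j with
  | zero =>
    refine ⟨1, 1, one_mul 1, fun g => ?_⟩
    have h1 : CJ (one_mul 1) (Matrix.SpecialLinearGroup.map (σ ^ 0) g) = g := by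
      apply Subtype.ext
      rw [coe_CJ, one_mul, mul_one]
      ext a b
      rfl
    rw [h1]
    rfl
  | succ j ih =>
    obtain ⟨X', Y', hXY', h'⟩ := ih
    refine ⟨X * σ.mapMatrix X', σ.mapMatrix Y' * Y, ?_, fun g => ?_⟩
    · calc X * σ.mapMatrix X' * (σ.mapMatrix Y' * Y) =
          X * (σ.mapMatrix X' * σ.mapMatrix Y') * Y := by
            simp only [Matrix.mul_assoc]
        _ = 1 := by rw [← map_mul, hXY', map_one, Matrix.mul_one, hXY]
    · rw [pow_succ', MulAut.mul_apply, h', h]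
      congr 1
      apply Subtype.ext
      rw [coe_CJ, coe_CJ]
      have e1 : ((Matrix.SpecialLinearGroup.map σ (CJ hXY' (Matrix.SpecialLinearGroup.map (σ ^ j) g)) :
          GS (n + 1) K) : Matrix (Fin (n + 1)) (Fin (n + 1)) K) =
          σ.mapMatrix (X' * ((Matrix.SpecialLinearGroup.map (σ ^ j) g : GS (n + 1) K) :
            Matrix (Fin (n + 1)) (Fin (n + 1)) K) * Y') := rfl
      have e2 : ((Matrix.SpecialLinearGroup.map (σ ^ (j + 1)) g : GS (n + 1) K) :
          Matrix (Fin (n + 1)) (Fin (n + 1)) K) =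
          σ.mapMatrix ((Matrix.SpecialLinearGroup.map (σ ^ j) g : GS (n + 1) K) :
            Matrix (Fin (n + 1)) (Fin (n + 1)) K) := by
        ext a b
        change (σ ^ (j + 1)) (g a b) = σ ((σ ^ j) (g a b))
        rw [pow_succ']
        rfl
      rw [e1, e2, map_mul, map_mul]
      simp only [Matrix.mul_assoc]

theorem iter_lin {α : MulAut L} {X Y : Matrix (Fin (n + 1)) (Fin (n + 1)) K} (hXY : X * Y = 1)
    (h : ∀ g, α (π g) = π (CJ hXY g)) (j : ℕ) :
    ∃ hXY' : X ^ j * Y ^ j = 1, ∀ g, (α ^ j) (π g) = π (CJ hXY' g) := by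
  induction j with
  | zero =>
    refine ⟨by rw [pow_zero, pow_zero, one_mul], fun g => ?_⟩
    have h1 : CJ (by rw [pow_zero, pow_zero, one_mul] : X ^ 0 * Y ^ 0 = 1) g = g := by
      apply Subtype.ext
      rw [coe_CJ, pow_zero, pow_zero, one_mul, mul_one]
    rw [h1]
    rfl
  | succ j ih =>
    obtain ⟨hXY', h'⟩ := ih
    have h2 : X ^ (j + 1) * Y ^ (j + 1) = 1 := by
      rw [pow_succ', pow_succ]
      calc X * X ^ j * (Y ^ j * Y) = X * (X ^ j * Y ^ j) * Y := by simp only [Matrix.mul_assoc]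
        _ = 1 := by rw [hXY', Matrix.mul_one, hXY]
    refine ⟨h2, fun g => ?_⟩
    rw [pow_succ', MulAut.mul_apply, h', h]
    congr 1
    apply Subtype.ext
    rw [coe_CJ, coe_CJ, coe_CJ, pow_succ', pow_succ]
    simp only [Matrix.mul_assoc]

/-- a matrix which commutes with `SL` is a scalar -/
theorem scalar_of_comm {N : ℕ} {X : Matrix (Fin N) (Fin N) K}
    (h : ∀ g : GS N K, X * (g : Matrix (Fin N) (Fin N) K) = g * X) :
    ∃ c : K, X = Matrix.scalar (Fin N) c := by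
  have h1 : X ∈ Set.range (Matrix.scalar (Fin N)) := by
    refine Matrix.mem_range_scalar_of_commute_transvectionStruct ?_
    intro t
    have h2 := h ⟨t.toMatrix, t.det⟩
    exact h2.symm
  obtain ⟨c, hc⟩ := h1
  exact ⟨c, hc.symm⟩

theorem exists_root [Finite K] {p i d : ℕ} [hp : Fact p.Prime]
    (hg : ¬ p ∣ Nat.gcd d (Nat.card K - 1)) {a b : K} (ha : a ≠ 0) (hb : b ≠ 0)
    (h : a ^ (p ^ i) = b ^ d) : ∃ c : K, c ≠ 0 ∧ c ^ d = a := by
  classical
  have _ := Fintype.ofFinite K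
  let u : Kˣ := Units.mk0 a ha
  let v : Kˣ := Units.mk0 b hb
  let B : Subgroup Kˣ := (powMonoidHom d : Kˣ →* Kˣ).range
  have h1 : (u : Kˣ) ^ (p ^ i) ∈ B := ⟨v, Units.ext h.symm⟩
  have h2 : (u : Kˣ) ^ d ∈ B := ⟨u, rfl⟩
  have h3 : (u : Kˣ) ^ (Nat.card K - 1) ∈ B := by
    have : (u : Kˣ) ^ (Nat.card K - 1) = 1 := by
      rw [Nat.card_eq_fintype_card, ← Fintype.card_units]
      exact pow_card_eq_one
    rw [this]
    exact B.one_mem
  have key : ∀ j : ℕ, u ^ j ∈ B → orderOf (QuotientGroup.mk' B u) ∣ j := by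
    intro j hj
    apply orderOf_dvd_of_pow_eq_one
    rw [← map_pow]
    exact (QuotientGroup.eq_one_iff _).mpr hj
  have h4 : orderOf (QuotientGroup.mk' B u) ∣ Nat.gcd d (Nat.card K - 1) :=
    Nat.dvd_gcd (key _ h2) (key _ h3)
  obtain ⟨j, -, hj⟩ := (Nat.dvd_prime_pow hp.out).mp (key _ h1)
  have h5 : orderOf (QuotientGroup.mk' B u) = 1 := by
    rcases Nat.eq_zero_or_pos j with h0 | h0
    · rw [hj, h0, pow_zero]
    · rw [hj] at h4
      exact absurd ((dvd_pow_self p h0.ne').trans h4) hg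
  have h6 : u ∈ B := (QuotientGroup.eq_one_iff _).mp (orderOf_eq_one_iff.mp h5)
  obtain ⟨c, hc⟩ := h6
  refine ⟨c, c.ne_zero, ?_⟩
  have h7 := congrArg (fun z : Kˣ => (z : K)) hc
  exact h7

/-- Automorphisms of `p`-power order are inner. -/
theorem inner_aux [Finite K] {p i : ℕ} [hp : Fact p.Prime] (hp2 : p ≠ 2) (hn : 2 ≤ n)
    (hg : ¬ p ∣ Nat.gcd (n + 1) (Nat.card K - 1)) (hno : ¬ p ∣ Nat.card (K ≃+* K))
    (hπ : Function.Surjective π) (hk : π.ker ≤ center (GS (n + 1) K)) {α : MulAut L}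
    (hα : α ^ (p ^ i) = 1) : ∃ s : GS (n + 1) K, ∀ g, α (π g) = π (s * g * s⁻¹) := by
  obtain ⟨X, Y, hXY, σ, h⟩ := semi_of_odd hn hπ hk α ((hp.out.odd_of_ne_two hp2).pow) hα
  -- remove `σ`
  have _ : Finite (K ≃+* K) := Finite.of_injective (fun f : K ≃+* K => (f : K → K))
    (fun f g h => RingEquiv.ext (congrFun h))
  have hcop : (p ^ i).Coprime (Nat.card (K ≃+* K)) :=
    Nat.Coprime.pow_left i ((Nat.Prime.coprime_iff_not_dvd hp.out).mpr hno)
  obtain ⟨N, hN1, hN2⟩ := Nat.chineseRemainder hcop 1 0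
  have hαN : α ^ N = α := by
    have h1 : orderOf α ∣ p ^ i := orderOf_dvd_of_pow_eq_one hα
    have h2 : N ≡ 1 [MOD orderOf α] := hN1.of_dvd h1
    have h3 := (pow_eq_pow_iff_modEq (x := α)).mpr h2
    rwa [pow_one] at h3
  have hσN : σ ^ N = 1 := by
    let σ' : RingAut K := RingEquiv.ofBijective σ
      ⟨σ.injective, Finite.surjective_of_injective σ.injective⟩
    have h1 : σ' ^ N = 1 := by
      obtain ⟨c, rfl⟩ := (Nat.modEq_zero_iff_dvd).mp hN2
      have h2 : σ' ^ Nat.card (K ≃+* K) = 1 := pow_card_eq_one'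
      rw [pow_mul, h2, one_pow]
    have h2 : ∀ (j : ℕ) (a : K), (σ ^ j) a = (σ' ^ j) a := by
      intro j
      induction j with
      | zero => intro a; rfl
      | succ j ih =>
        intro a
        rw [pow_succ', pow_succ']
        change σ ((σ ^ j) a) = σ' ((σ' ^ j) a)
        rw [ih]
        rfl
    ext a
    rw [h2, h1]
    rfl
  obtain ⟨X', Y', hXY', h'⟩ := iter_semi hXY h N
  rw [hαN, hσN] at h'
  have hlin : ∀ g, α (π g) = π (CJ hXY' g) := by
    intro g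
    rw [h']
    congr 2
  -- the power of `X'` is a scalar
  obtain ⟨hP, h2⟩ := iter_lin hXY' hlin (p ^ i)
  rw [hα] at h2
  have h3 : ∀ g, (MonoidHom.id (GS (n + 1) K)) g = CJ hP g := by
    refine hom_eq (perfect_gs hn) ?_
    intro g
    apply hk
    rw [MonoidHom.mem_ker, map_mul, map_inv]
    change (π g)⁻¹ * π (CJ hP g) = 1
    rw [← h2]
    change (π g)⁻¹ * π g = 1
    rw [inv_mul_cancel]
  have hYX : Y' ^ (p ^ i) * X' ^ (p ^ i) = 1 := mul_eq_one_comm.mp hP
  obtain ⟨b, hb⟩ := scalar_of_comm (X := X' ^ (p ^ i)) (by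
    intro g
    have h4 : (g : Matrix (Fin (n + 1)) (Fin (n + 1)) K) =
        X' ^ (p ^ i) * (g : Matrix (Fin (n + 1)) (Fin (n + 1)) K) * Y' ^ (p ^ i) := by
      have h5 := congrArg Subtype.val (h3 g)
      exact h5
    calc X' ^ (p ^ i) * (g : Matrix (Fin (n + 1)) (Fin (n + 1)) K)
        = X' ^ (p ^ i) * (g : Matrix (Fin (n + 1)) (Fin (n + 1)) K) *
          (Y' ^ (p ^ i) * X' ^ (p ^ i)) := by rw [hYX, Matrix.mul_one]
      _ = (X' ^ (p ^ i) * (g : Matrix (Fin (n + 1)) (Fin (n + 1)) K) * Y' ^ (p ^ i)) *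
          X' ^ (p ^ i) := by simp only [Matrix.mul_assoc]
      _ = g * X' ^ (p ^ i) := by rw [← h4])
  have hdet : X'.det ≠ 0 := by
    intro h0
    have h4 := congrArg Matrix.det hXY'
    rw [Matrix.det_mul, h0, zero_mul, Matrix.det_one] at h4
    exact zero_ne_one h4
  have hdb : X'.det ^ (p ^ i) = b ^ (n + 1) := by
    rw [← Matrix.det_pow, hb, Matrix.scalar_apply, Matrix.det_diagonal, Finset.prod_const,
      Finset.card_univ, Fintype.card_fin]
  have hb0 : b ≠ 0 := by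
    rintro rfl
    rw [zero_pow (Nat.succ_ne_zero n)] at hdb
    exact hdet (pow_eq_zero_iff (pow_ne_zero i hp.out.ne_zero) |>.mp hdb)
  obtain ⟨c, hc0, hc⟩ := exists_root hg hdet hb0 hdb
  have hYX' : Y' * X' = 1 := mul_eq_one_comm.mp hXY'
  let s : GS (n + 1) K := ⟨c⁻¹ • X', by
    rw [Matrix.det_smul, Fintype.card_fin, inv_pow, hc, inv_mul_cancel₀ hdet]⟩
  refine ⟨s, fun g => ?_⟩
  rw [hlin]
  congr 1
  rw [eq_mul_inv_iff_mul_eq]
  apply Subtype.ext
  change X' * (g : Matrix (Fin (n + 1)) (Fin (n + 1)) K) * Y' * (c⁻¹ • X') = (c⁻¹ • X') * g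
  rw [Matrix.mul_smul, Matrix.smul_mul, Matrix.mul_assoc, hYX', Matrix.mul_one]

end Vale.Agent.P180.R2.H365.Inn
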