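import Vale.Agent.P180.R2.H365.Inn

set_option linter.all false

/-!
P180: the group of outer automorphisms of `PSL(d, K)` has order prime to `p` if `p` is odd and does
not divide the number of automorphisms of `K` nor `gcd(d, |K| - 1)`.
-/

namespace Vale.Agent.P180.R2.H365.Inn

open Matrix Subgroup Module
open Vale.Agent.P180.R2.H589.Sch Vale.Agent.P180.R2.H589.Bt Vale.Agent.P180.R2.H471.Au

/-- **The order of `Out(PSL(d, K))` is prime to `p`.** -/
theorem not_dvd_out {p : ℕ} [hp : Fact p.Prime] (hp2 : p ≠ 2) {K : Type*} [Field K] [Finite K]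
    {d : ℕ} (hd : 3 ≤ d) (hg : ¬ p ∣ Nat.gcd d (Nat.card K - 1)) (hno : ¬ p ∣ Nat.card (K ≃+* K))
    {T : Type*} [Group T] (e : T ≃* Matrix.SpecialLinearGroup (Fin d) K ⧸
      center (Matrix.SpecialLinearGroup (Fin d) K)) :
    ¬ p ∣ (MulAut.conj : T →* MulAut T).range.index := by
  obtain ⟨n, rfl⟩ : ∃ n, d = n + 1 := ⟨d - 1, by omega⟩
  let π : GS (n + 1) K →* T := e.symm.toMonoidHom.comp (QuotientGroup.mk' _)
  have hπ : Function.Surjective π := e.symm.surjective.comp (QuotientGroup.mk'_surjective _)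
  have hk : π.ker ≤ center (GS (n + 1) K) := by
    intro x hx
    have h1 : e.symm (QuotientGroup.mk' _ x) = 1 := hx
    rw [MulEquiv.map_eq_one_iff] at h1
    exact (QuotientGroup.eq_one_iff x).mp h1
  have hfin : Finite (GS (n + 1) K) := by
    have h1 : Finite (Matrix (Fin (n + 1)) (Fin (n + 1)) K) :=
      inferInstanceAs (Finite (Fin (n + 1) → Fin (n + 1) → K))
    exact Finite.of_injective _
      (Subtype.val_injective (p := fun A : Matrix (Fin (n + 1)) (Fin (n + 1)) K => A.det = 1))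
  have hT : Finite T := Finite.of_surjective π hπ
  have hA : Finite (MulAut T) := Finite.of_injective (fun f : MulAut T => (f : T → T))
    (fun f g h => MulEquiv.ext (congrFun h))
  obtain ⟨P⟩ : Nonempty (Sylow p (MulAut T)) := inferInstance
  have h1 : (P : Subgroup (MulAut T)) ≤ (MulAut.conj : T →* MulAut T).range := by
    intro α hα
    obtain ⟨i, hi⟩ := P.isPGroup' ⟨α, hα⟩
    have hi' : α ^ (p ^ i) = 1 := congrArg Subtype.val hi
    obtain ⟨s, hs⟩ := inner_aux hp2 (by omega) hg hno hπ hk hi'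
    refine ⟨π s, MulEquiv.ext fun t => ?_⟩
    obtain ⟨g, rfl⟩ := hπ t
    rw [hs, map_mul, map_mul, map_inv]
    rfl
  intro hdvd
  exact P.not_dvd_index' (by
    intro h0
    exact Subgroup.index_ne_zero_of_finite h0) (hdvd.trans (Subgroup.index_dvd_of_le h1))

/-- Elements of `p`-power order of `N_G(L)` act on the central quotient `L` of `SL(d, K)` by inner
automorphisms. -/
theorem inn_of_noaut {p : ℕ} [hp : Fact p.Prime] (hp2 : p ≠ 2) {K : Type*} [Field K] [Finite K]
    {d : ℕ} (hd : 3 ≤ d) (hg : ¬ p ∣ Nat.gcd d (Nat.card K - 1)) (hno : ¬ p ∣ Nat.card (K ≃+* K))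
    {G : Type*} [Group G] {L : Subgroup G}
    {π : _root_.SpecialLinearGroup K (Fin d → K) →* L} (hπ : Function.Surjective π)
    (hk : π.ker ≤ center _) {r : G} (hr : r ∈ normalizer (L : Set G)) {i : ℕ}
    (h : r ^ (p ^ i) = 1) : r ∈ L ⊔ centralizer (L : Set G) := by
  obtain ⟨n, rfl⟩ : ∃ n, d = n + 1 := ⟨d - 1, by omega⟩
  let ι := Matrix.SpecialLinearGroup.toLin'_equiv (R := K) (n := Fin (n + 1))
  let π' : GS (n + 1) K →* L := π.comp ι.toMonoidHom
  have hπ' : Function.Surjective π' := hπ.comp ι.surjective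
  have hk' : π'.ker ≤ center (GS (n + 1) K) := by
    intro x hx
    have h1 : ι x ∈ center (_root_.SpecialLinearGroup K (Fin (n + 1) → K)) := hk hx
    rw [mem_center_iff] at h1 ⊢
    intro y
    apply ι.injective
    rw [map_mul, map_mul]
    exact h1 (ι y)
  let α : MulAut L := L.normalizerMonoidHom ⟨r, hr⟩
  have hα : ∀ l : L, ((α l : L) : G) = r * l * r⁻¹ := fun l => rfl
  have hα1 : α ^ (p ^ i) = 1 := by
    have h1 : (⟨r, hr⟩ : normalizer (L : Set G)) ^ (p ^ i) = 1 := Subtype.ext h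
    change (L.normalizerMonoidHom ⟨r, hr⟩) ^ (p ^ i) = 1
    rw [← map_pow, h1, map_one]
  obtain ⟨s, hs⟩ := inner_aux hp2 (by omega) hg hno hπ' hk' hα1
  have h2 : ((π' s : L) : G)⁻¹ * r ∈ centralizer (L : Set G) := by
    rw [mem_centralizer_iff]
    intro l hl
    obtain ⟨g, hg'⟩ := hπ' ⟨l, hl⟩
    have h3 : r * l * r⁻¹ = (π' s : G) * l * (π' s : G)⁻¹ := by
      have h4 := congrArg (fun z : L => (z : G)) (hs g)
      rw [map_mul, map_mul, map_inv, hg'] at h4
      exact h4
    calc l * (((π' s : L) : G)⁻¹ * r) = ((π' s : L) : G)⁻¹ * ((π' s : G) * l * (π' s : G)⁻¹) * r := by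
          group
      _ = ((π' s : L) : G)⁻¹ * (r * l * r⁻¹) * r := by rw [h3]
      _ = ((π' s : L) : G)⁻¹ * r * l := by group
  have h5 : r = (π' s : G) * (((π' s : L) : G)⁻¹ * r) := by group
  rw [h5]
  exact Subgroup.mul_mem_sup (π' s).2 h2

end Vale.Agent.P180.R2.H365.Inn
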