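import Vale.Agent.P180.R2.H365.Fin5
import Vale.Agent.P180.R2.H365.LocF
import Vale.Agent.P180.R2.H12.Small

/-!
P180: reduced groups all of whose components are alternating, bounded or of local characteristic.
-/

set_option linter.all false

namespace Vale.Agent.P180.R2.H365

open Vale.Agent.P180 Vale.Agent.P180.H768.Gd Vale.Agent.P180.R2.H47
open Vale.Agent.P180.H768 hiding pull mem_pull exists_factor Lay mk_mem comm_mem

open scoped Nat

universe u

theorem card_alt_le {d : ℕ} (h : d < 7) : Nat.card (alternatingGroup (Fin d)) ≤ 360 := by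
  have h1 : Nat.card (alternatingGroup (Fin d)) ≤ 360 := by
    rcases Nat.lt_or_ge d 2 with h2 | h2
    · have : Nat.card (alternatingGroup (Fin d)) ≤ Nat.card (Equiv.Perm (Fin d)) :=
        Nat.card_le_card_of_injective _ Subtype.val_injective
      rw [Nat.card_perm, Nat.card_fin] at this
      have h3 : d ! ≤ 1 := by interval_cases d <;> decide
      omega
    · have _ : Nontrivial (Fin d) := Fin.nontrivial_iff_two_le.mpr h2
      have h3 := two_mul_card_alternatingGroup (α := Fin d)
      rw [Fintype.card_perm, Fintype.card_fin] at h3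
      rw [Nat.card_eq_fintype_card]
      have h4 : d ! ≤ 6 ! := Nat.factorial_le (by omega)
      have h5 : 6 ! = 720 := by decide
      omega
  exact h1

/-- the cases other than alternating groups of degree at least seven -/
theorem treated_cases {p n m : ℕ} [Fact p.Prime] {L : Type} [Group L] [Finite L]
    (hs : IsSimpleGroup (L ⧸ Subgroup.center L)) (hp : p ∣ Nat.card (L ⧸ Subgroup.center L))
    (h : Treated p n m L) (hQ : ¬ QA L) :
    Nat.card (L ⧸ Subgroup.center L) ≤ max m (max 360 (BF.bfBound n)) ∨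
      (IsLocalChar p n (L ⧸ Subgroup.center L) ∧
        ∀ P : Sylow p (L ⧸ Subgroup.center L), n < Nat.card P) := by
  rcases h with h | ⟨d, ⟨e⟩⟩ | ⟨h, h2 | h2⟩
  · exact Or.inl (h.trans (le_max_left _ _))
  · left
    have hd : d < 7 := by
      by_contra hd
      exact hQ ⟨d, by omega, ⟨e⟩⟩
    refine le_trans ?_ (le_max_right _ _)
    refine le_trans ?_ (le_max_left _ _)
    refine le_trans ?_ (card_alt_le hd)
    rw [← Nat.card_congr e.toEquiv]
    exact Nat.card_le_card_of_surjective _ (QuotientGroup.mk'_surjective (Subgroup.center L))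
  · subst h2
    by_cases h3 : ∀ P : Subgroup (L ⧸ Subgroup.center L), IsPGroup 2 P → Nat.card P ≤ n
    · left
      exact ((BF.card_le_of_charType_two hp h h3).trans (le_max_right _ _)).trans
        (le_max_right _ _)
    · push Not at h3
      obtain ⟨P, hP, hPn⟩ := h3
      refine Or.inr ⟨h, fun Q => ?_⟩
      obtain ⟨R, hR⟩ := hP.exists_le_sylow
      refine hPn.trans_le ?_
      rw [Nat.card_congr (Sylow.equiv Q R).toEquiv]
      exact Nat.card_le_card_of_injective _ (Subgroup.inclusion_injective hR)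
  · exact Or.inr ⟨h, h2⟩

section

variable {G : Type} [Group G] [Finite G]

/-- the subgroup generated by commuting simple subgroups -/
theorem ssp_of {Q : ∀ (S : Type) [Group S], Prop} {𝒯 : Set (Subgroup G)}
    (h1 : ∀ T ∈ 𝒯, IsSimpleGroup T ∧ (¬ ∀ x ∈ T, ∀ y ∈ T, x * y = y * x) ∧ Q T)
    (h2 : ∀ T ∈ 𝒯, ∀ T' ∈ 𝒯, T ≠ T' → ∀ x ∈ T, ∀ y ∈ T', x * y = y * x) :
    SSP Q (sSup 𝒯) ∧ simps Q (sSup 𝒯) ⊆ 𝒯 := by
  have hT : ∀ T ∈ 𝒯, T ∈ simps Q (sSup 𝒯) := by
    intro T hT
    refine ⟨le_sSup hT, ?_, h1 T hT⟩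
    have h3 : sSup 𝒯 ≤ Subgroup.normalizer (T : Set G) := by
      refine sSup_le fun T' hT' => ?_
      by_cases hne : T = T'
      · rw [← hne]
        exact Subgroup.le_normalizer
      · intro x hx
        rw [Subgroup.mem_normalizer_iff]
        have h6 := h2 T hT T' hT' hne
        intro z
        constructor
        · intro hz
          rw [← h6 z hz x hx, mul_inv_cancel_right]
          exact hz
        · intro hz
          have h8 := h6 _ hz x hx
          have h9 : x * z * x⁻¹ = z := by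
            calc x * z * x⁻¹ = x⁻¹ * (x * (x * z * x⁻¹)) := by group
              _ = x⁻¹ * (x * z * x⁻¹ * x) := by rw [h8]
              _ = z := by group
          rwa [h9] at hz
    intro x hx s hs
    exact (Subgroup.mem_normalizer_iff.mp (h3 hx) s).mp hs
  refine ⟨sSup_le fun T h => le_sSup (hT T h), ?_⟩
  intro S hS
  by_contra hST
  apply hS.2.2.2.1
  have h4 : sSup 𝒯 ≤ Subgroup.centralizer (S : Set G) := by
    refine sSup_le fun T hT' => ?_
    intro x hx
    rw [Subgroup.mem_centralizer_iff]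
    intro s hs
    exact simps_comm hS (hT T hT') (fun h => hST (h ▸ hT')) hs hx
  intro x hx y hy
  exact ((Subgroup.mem_centralizer_iff.mp (h4 (hS.1 hy))) x hx)

theorem map_conj_one (L : Subgroup G) : L.map (MulAut.conj (1 : G)).toMonoidHom = L := by
  ext x
  rw [mem_map_conj]
  simp

end

/-- the bound for the index -/
def bA (n m : ℕ) : ℕ :=
  n * (n * max m (max 360 (BF.bfBound n)))! * n ! * (n ! * 2 ^ n)

theorem alt_simple_facts {d : ℕ} (h : 7 ≤ d) {T : Type} [Group T]
    (e : T ≃* alternatingGroup (Fin d)) :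
    IsSimpleGroup T ∧ ¬ ∀ x y : T, x * y = y * x := by
  refine ⟨simple_of_equiv e.symm (H471.alt_simple (by omega)), ?_⟩
  intro hc
  obtain ⟨a, b, hab⟩ := H471.alt_noncomm (n := d) (by omega)
  apply hab
  have := hc (e.symm a) (e.symm b)
  rw [← map_mul, ← map_mul] at this
  exact e.symm.injective this

/-- The local theorem for reduced groups all of whose components are treated. -/
theorem locA (p n m : ℕ) [Fact p.Prime] (k : Type u) [Field k] [IsAlgClosed k] [CharP k p] :
    LocE (fun G _ _ D L => ¬ Treated p n m L) k p n (LC n (bA n m)) := by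
  intro G _ _ Z D a b hs hST hNR hD
  by_cases hex : ∃ L : Subgroup G, IsComponent L ∧ p ∣ Nat.card (L ⧸ Subgroup.center L) ∧
      (∃ x ∈ D, x ∈ L ∧ ¬ ∀ y ∈ L, x * y = y * x) ∧ ¬ Treated p n m L
  · exact Or.inl hex
  right
  obtain ⟨𝒯, h1, h2, h3, h4, h5⟩ := comp_bound (Q := fun L => QA L)
    (m := max m (max 360 (BF.bfBound n))) (fun L g h => isoInv_QA _ _
      ⟨L.equivMapOfInjective _ (MulAut.conj g).injective⟩ h) hs hST hNR (by
    intro L hL hp hr hQ
    have hr' : ∃ x ∈ D, x ∈ L ∧ ¬ ∀ y ∈ L, x * y = y * x := by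
      have h5 := hr 1
      rw [map_conj_one] at h5
      exact h5
    have h : Treated p n m L := by_contra fun h4 => hex ⟨L, hL, hp, hr', h4⟩
    exact treated_cases hL.1.2 hp h hQ)
  have h6 : ∀ T ∈ 𝒯, IsSimpleGroup T ∧ (¬ ∀ x ∈ T, ∀ y ∈ T, x * y = y * x) ∧ QA T := by
    intro T hT
    obtain ⟨-, hQT, -⟩ := h1 T hT
    obtain ⟨d, hd, ⟨e⟩⟩ := id hQT
    obtain ⟨h7, h8⟩ := alt_simple_facts hd e
    refine ⟨h7, ?_, hQT⟩
    intro h
    apply h8
    intro x y
    exact Subtype.ext (h x x.2 y y.2)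
  obtain ⟨hX, hsub⟩ := ssp_of h6 h2
  have hXn : (sSup 𝒯).Normal := by
    constructor
    intro x hx g
    have h7 : sSup 𝒯 ≤ (sSup 𝒯).comap (MulAut.conj g).toMonoidHom := by
      refine sSup_le fun S hS => ?_
      rw [← Subgroup.map_le_iff_le_comap]
      exact le_sSup (h3 S hS g)
    exact h7 hx
  have hcard : Nat.card (simps QA (sSup 𝒯)) ≤ n := by
    refine le_trans ?_ h4
    exact Nat.card_le_card_of_injective (Set.inclusion hsub) (Set.inclusion_injective hsub)
  obtain ⟨𝒜, hr, h7, hinj, hrange, hker, hidx⟩ := H471.exists_alt hX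
  have hrn : 𝒜.r ≤ n := by rw [hr]; exact hcard
  have hZn : Z.Normal := by
    constructor
    intro z hz g
    rw [← hs.Zc z hz g, mul_inv_cancel_right]
    exact hz
  have hidx2 : (Z ⊔ sSup 𝒯).index ≤ bA n m := by
    refine index_le_of h5 (hidx.trans ?_) hs.Zc
    exact Nat.mul_le_mul (Nat.factorial_le hrn) (Nat.pow_le_pow_right (by norm_num) hrn)
  obtain ⟨P, hPD, i, hi, hiP, hbi, hw, hfr⟩ := loc p n (bA n m) k G 𝒜 Z D a b hrn h7
    (by rw [hrange]; exact hker) hs.Zc hs.Zp (by rw [hrange]; exact hidx2) hs.hb hs.Dp hs.Dn hs.ha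
    hs.hba hST
  exact ⟨P, i, hi, (Nat.card_le_card_of_injective _ (Subgroup.inclusion_injective hPD)).trans hs.Dn,
    hiP, hbi, hw, hfr⟩

end Vale.Agent.P180.R2.H365
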