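import Vale.Agent.P180.R2.H365.LocC
import Vale.Agent.P180.R2.H589.Cov.Cls
import Vale.Agent.P180.R2.H954.CycFin
import Vale.Agent.P180.R2.H47.IdxK

/-!
P180: the classes of components with the corner property.
-/

set_option linter.all false

namespace Vale.Agent.P180.R2.H365

open Vale.Agent.P180 Vale.Agent.P180.H768.Gd Vale.Agent.P180.R2.H47 Vale.Agent.P180.R2.H954
open Vale.Agent.P180.R2.H799 (NN)
open Vale.Agent.P180.H768 hiding pull mem_pull exists_factor Lay mk_mem comm_mem

open scoped Nat

universe u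

section

variable {k : Type u} [Field k] [IsAlgClosed k] {p n : ℕ} [Fact p.Prime] [CharP k p]
variable {G : Type} [Group G] [Finite G]

/-- components meeting the defect group in a cyclic group -/
theorem corP_cyc {D L : Subgroup G} (hD : IsPGroup p D) (hDn : Nat.card D ≤ n)
    (hc : IsCyclic (D ⊓ L : Subgroup G))
    (hin : D ⊓ Subgroup.normalizer (L : Set G) ≤ L ⊔ Subgroup.centralizer (L : Set G))
    (b : MonoidAlgebra k G) : CorP p (H259.Cyc.cycB p n) b D L := by
  rintro R hRD hn e he heR hbr ⟨z, hz, hzF, hez⟩ -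
  have hR : IsPGroup p R := hD.to_le hRD
  have hin' : ∀ r ∈ R, ∃ s ∈ L, ∃ c ∈ Subgroup.centralizer (L : Set G), r = s * c := by
    intro r hr
    have h1 : r ∈ L ⊔ Subgroup.centralizer (L : Set G) := by
      refine hin (Subgroup.mem_inf.mpr ⟨hRD hr, ?_⟩)
      rw [Subgroup.mem_normalizer_iff]
      intro s
      constructor
      · exact hn r hr s
      · intro hs
        have := hn r⁻¹ (R.inv_mem hr) _ hs
        simpa [mul_assoc] using this
    obtain ⟨s, hs, c, hc, h⟩ := mem_sup_of_commute
      (fun s hs c hc => Subgroup.mem_centralizer_iff.mp hc s hs) h1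
    exact ⟨s, hs, c, hc, h.symm⟩
  refine cor_of_corner hR hin' he.block hbr hz hzF hez ?_
  -- `R ∩ L` is cyclic
  have hcyc : IsCyclic (R.subgroupOf L) := by
    let f : R.subgroupOf L →* (D ⊓ L : Subgroup G) :=
      { toFun := fun x => ⟨((x : L) : G), Subgroup.mem_inf.mpr ⟨hRD x.2, (x : L).2⟩⟩
        map_one' := rfl
        map_mul' := fun _ _ => rfl }
    have hf : Function.Injective f := by
      intro x y hxy
      have h' : ((x : L) : G) = ((y : L) : G) :=
        congrArg (fun w : (D ⊓ L : Subgroup G) => (w : G)) hxy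
      exact Subtype.ext (Subtype.ext h')
    exact isCyclic_of_injective f hf
  have hcard : Nat.card (R.subgroupOf L) ≤ n := by
    refine le_trans ?_ hDn
    refine (Nat.card_le_card_of_injective
      (fun x : R.subgroupOf L => (⟨((x : L) : G), hRD x.2⟩ : D)) ?_)
    intro x y hxy
    have h' : ((x : L) : G) = ((y : L) : G) := congrArg (fun w : D => (w : G)) hxy
    exact Subtype.ext (Subtype.ext h')
  intro e' a' i' he' ha' hea' hi' hei' hbr'
  exact (H259.Cyc.cyclic_corner (hR.comap_of_injective L.subtype L.subtype_injective) hcyc he' ha'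
    hea' hi' hei' hbr').trans (H259.Cyc.cycB_mono hcard)

end

/-- the constant -/
def cD (p n m : ℕ) : ℕ := max m (max (2 * H12.CA n) (H259.Cyc.cycB p n))

/-- The local theorem for the general reduction. -/
theorem locD (p n m : ℕ) [Fact p.Prime] (k : Type u) [Field k] [IsAlgClosed k] [CharP k p] :
    LocL (ExcD p n m) (SmallC n (c6 n (max m 2520) (max m 2) (cD p n m))) k p n := by
  refine loc_gen ?_
  intro G _ _ Z D a b hs hST hNR hD L hL hp hr hE
  by_cases hm : Nat.card (L ⧸ Subgroup.center L) ≤ m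
  · exact Or.inl (hm.trans (le_max_left _ _))
  by_cases ha : ∃ d : ℕ, Nonempty (L ⧸ Subgroup.center L ≃* alternatingGroup (Fin d))
  · obtain ⟨d, ⟨iso⟩⟩ := ha
    by_cases hd : d < 8
    · left
      refine le_trans ?_ (le_max_right _ _)
      refine le_trans ?_ (H589.card_alt_lt_eight hd)
      exact (Nat.card_congr iso.toEquiv).le
    · right
      right
      refine ⟨(H589.out_ext' (by omega) hL.1.1 iso).trans (le_max_right _ _), ?_⟩
      exact (H589.corP_ext (n := n) (by omega) hL.1.1 iso hs.Dp hs.Dn b).mono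
        ((le_max_left _ _).trans (le_max_right _ _))
  by_cases hc : IsLocalChar p n (L ⧸ Subgroup.center L) ∧
      (p = 2 ∨ ∀ P : Sylow p (L ⧸ Subgroup.center L), n < Nat.card P)
  · exact Or.inr (Or.inl hc)
  right
  right
  by_cases ho : (L ⊔ Subgroup.centralizer (L : Set G)).relIndex
      (Subgroup.normalizer (L : Set G)) ≤ m
  · refine ⟨ho.trans (le_max_left _ _), ?_⟩
    by_cases hss : HasSmallSource m b D L
    · exact (corP_of_small hs.hb.ne_zero hs.Dp hss).mono (le_max_left _ _)
    by_cases hcy : IsCyclic (D ⊓ L : Subgroup G) ∧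
      D ⊓ Subgroup.normalizer (L : Set G) ≤ L ⊔ Subgroup.centralizer (L : Set G)
    · exact (corP_cyc (n := n) hs.Dp hs.Dn hcy.1 hcy.2 b).mono
        ((le_max_right _ _).trans (le_max_right _ _))
    · exact absurd ⟨by omega, ha, hc, Or.inr ⟨hss, hcy⟩⟩ hE
  · exact absurd ⟨by omega, ha, hc, Or.inl (by omega)⟩ hE

end Vale.Agent.P180.R2.H365
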