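import Vale.Agent.P180.R2.H365.OutE
import Vale.Agent.P180.R2.H365.Def7

/-!
P180: the group of outer automorphisms of a quotient of `SL_2(K)` by a central subgroup is solvable.
-/

set_option linter.all false

namespace Vale.Agent.P180.R2.H365.OutA

variable {K : Type*} [Field K] {L : Type*} [Group L] {π : Matrix.SpecialLinearGroup (Fin 2) K →* L}

/-- the preimage of the centre is central -/
theorem center_of_map (hπ : Function.Surjective π) (hk : π.ker ≤ Subgroup.center _)
    {g : Matrix.SpecialLinearGroup (Fin 2) K} (hg : π g ∈ Subgroup.center L) :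
    g ∈ Subgroup.center (Matrix.SpecialLinearGroup (Fin 2) K) := by
  have hc : ∀ l, π g * l = l * π g := fun l => (Subgroup.mem_center_iff.mp hg l).symm
  have h1 : π g * π (mU 1) * (π g)⁻¹ = π (mU 1) := by rw [hc, mul_inv_cancel_right]
  have h2 : π (g * mU 1) = π (mU 1 * g) := by rw [map_mul, map_mul, hc]
  have h3 : π (g * mW) = π (mW * g) := by rw [map_mul, map_mul, hc]
  obtain ⟨e, he, h4, -⟩ := of_eq hk h2
  obtain ⟨e', he', h5, -⟩ := of_eq hk h3
  have a0 := ent h4 0 0
  have a1 := ent h4 0 1
  have a2 := ent h4 1 0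
  have a3 := ent h4 1 1
  have b0 := ent h5 0 0
  have b1 := ent h5 0 1
  revert a0 a1 a2 a3 b0 b1
  simp only [mul2, mU, mH, mW, mS, mk00, mk01, mk10, mk11, one00, one01, one10, one11, mul_zero,
        zero_mul, mul_one, one_mul, add_zero, zero_add, neg_mul, mul_neg, neg_neg, neg_zero,
        Units.mul_inv, Units.inv_mul, Units.val_mul, mul_inv, inv_inv, Units.val_one, inv_one,
        Units.val_mk0, Units.val_inv_eq_inv_val]
  intro a0 a1 a2 a3 b0 b1
  have hd := det2 g
  have hc0 : g 1 0 = 0 := by
    by_contra hne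
    have he1 : e = 1 := by
      have : (e - 1) * g 1 0 = 0 := by linear_combination -a2
      exact sub_eq_zero.mp ((mul_eq_zero.mp this).resolve_right hne)
    rw [he1] at a3
    exact hne (by linear_combination a3)
  have hb0 : g 0 1 = 0 := by
    rw [hc0, mul_zero] at b0
    linear_combination -b0
  rw [hb0, zero_mul, sub_zero] at hd
  have h00 : g 0 0 ≠ 0 := left_ne_zero_of_mul_eq_one hd
  have he1 : e = 1 := by
    rw [hc0, add_zero] at a0
    have : (e - 1) * g 0 0 = 0 := by linear_combination -a0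
    exact sub_eq_zero.mp ((mul_eq_zero.mp this).resolve_right h00)
  have had : g 0 0 = g 1 1 := by
    rw [he1, hb0] at a1
    linear_combination a1
  have hsq : g 0 0 * g 0 0 = 1 := by
    conv_lhs => rw [had]
    rw [← had] at hd ⊢
    exact hd
  have hgS : g = mS (g 0 0) hsq := by
    apply ext2 <;> simp only [mul2, mU, mH, mW, mS, mk00, mk01, mk10, mk11, one00, one01, one10, one11, mul_zero,
        zero_mul, mul_one, one_mul, add_zero, zero_add, neg_mul, mul_neg, neg_neg, neg_zero,
        Units.mul_inv, Units.inv_mul, Units.val_mul, mul_inv, inv_inv, Units.val_one, inv_one,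
        Units.val_mk0, Units.val_inv_eq_inv_val]
    · exact hb0
    · exact hc0
    · exact had.symm
  rw [Subgroup.mem_center_iff]
  intro x
  rw [hgS, mS_comm]

/-- the outer automorphism group of `L / Z(L)` is solvable -/
theorem derived_le_conj_center [Finite K] [Finite L] (hK : 5 < Nat.card K)
    (hπ : Function.Surjective π) (hk : π.ker ≤ Subgroup.center _) :
    derivedSeries (MulAut (L ⧸ Subgroup.center L)) 2 ≤
      (MulAut.conj : (L ⧸ Subgroup.center L) →* MulAut (L ⧸ Subgroup.center L)).range := by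
  refine derived_le_conj (π := (QuotientGroup.mk' (Subgroup.center L)).comp π) hK
    ((QuotientGroup.mk'_surjective _).comp hπ) fun g hg => center_of_map hπ hk ?_
  exact (QuotientGroup.eq_one_iff _).mp hg

/-- for a subgroup `L` of a group -/
theorem solvOut_of_derived {G : Type} [Group G] {L : Subgroup G} {l : ℕ}
    (h : derivedSeries (MulAut L) l ≤ (MulAut.conj : L →* MulAut L).range) : SolvOut L := by
  refine ⟨l, ?_⟩
  rintro _ ⟨g, hg, rfl⟩
  have h1 : (Subgroup.normalizerMonoidHom L) g ∈ derivedSeries (MulAut L) l :=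
    map_derivedSeries_le_derivedSeries _ l ⟨g, hg, rfl⟩
  obtain ⟨x, hx⟩ := h h1
  have h2 : (x : G)⁻¹ * g ∈ Subgroup.centralizer (L : Set G) := by
    rw [Subgroup.mem_centralizer_iff]
    intro y hy
    have h3 : (MulAut.conj x) ⟨y, hy⟩ = (Subgroup.normalizerMonoidHom L g) ⟨y, hy⟩ := by rw [hx]
    have h4 : (x : G) * y * (x : G)⁻¹ = (g : G) * y * (g : G)⁻¹ := congrArg Subtype.val h3
    have h5 : y = (x : G)⁻¹ * ((g : G) * y * (g : G)⁻¹) * (x : G) := by
      rw [← h4]; group
    calc y * ((x : G)⁻¹ * g) = ((x : G)⁻¹ * ((g : G) * y * (g : G)⁻¹) * (x : G)) * ((x : G)⁻¹ * g) := by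
          rw [← h5]
      _ = (x : G)⁻¹ * g * y := by group
  have h3 : (g : G) = (x : G) * ((x : G)⁻¹ * g) := by group
  show (g : G) ∈ L ⊔ Subgroup.centralizer (L : Set G)
  rw [h3]
  exact Subgroup.mul_mem_sup x.2 h2

/-- **Components of type `SL_2(K)`.** -/
theorem solvOut_sl2 {K : Type} [Field K] [Finite K] {G : Type} [Group G] {L : Subgroup G} [Finite L]
    (hK : 5 < Nat.card K) {π : Matrix.SpecialLinearGroup (Fin 2) K →* L}
    (hπ : Function.Surjective π) (hk : π.ker ≤ Subgroup.center _) : SolvOut L :=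
  solvOut_of_derived (derived_le_conj hK hπ hk)

end Vale.Agent.P180.R2.H365.OutA
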