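import Vale.Agent.P180.R2.H365.LocU
import Vale.Agent.P180.R2.H365.OutF
import Vale.Agent.P180.R2.H365.Dfg
import Vale.Agent.P180.R2.H12.SlF
import Vale.Agent.P180.R2.H259.Schur.Main
import Vale.Agent.P180.R2.H259.Schur.Loc
import Mathlib.LinearAlgebra.Matrix.ProjectiveSpecialLinearGroup

/-!
P180: components `L` with `L / Z(L)` isomorphic to `PSL_2(K)`.
-/

set_option linter.all false

namespace Vale.Agent.P180.R2.H365

open Vale.Agent.P180 Vale.Agent.P180.H768.Gd Vale.Agent.P180.R2.H47 Vale.Agent.P180.R2.H954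
  Vale.Agent.P180.R2.H667
open Vale.Agent.P180.R2.H799 (NN)
open Vale.Agent.P180.H768 hiding pull mem_pull exists_factor Lay mk_mem comm_mem

universe u

/-- the Brauer homomorphism does not vanish on a block at a defect group -/
theorem br_of_defect {p : ℕ} {k : Type u} [Field k] [CharP k p] [Fact p.Prime] {G : Type} [Group G]
    [Finite G] {a b : MonoidAlgebra k G} (hb : IsBlock b) {D : Subgroup G}
    (ha : a ∈ Fix (cj k G) D) (hba : b = tr (cj k G) D ⊤ a) (hD : IsDefectGroupR b D) :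
    br D b ≠ 0 := by
  obtain ⟨P, hPD, a', ha', hba', c, hc, hc0⟩ := exists_min_defect (isBlock_iff.mp hb) ha hba
  have h1 : P = D := le_antisymm hPD (hD.2 (isSummand_of_tr hb ha' hba') hPD)
  subst h1
  exact br_ne_zero_of_coeff hc hc0

theorem card_psl2 {K : Type} [Field K] [Finite K] :
    Nat.card (Matrix.ProjectiveSpecialLinearGroup (Fin 2) K) ≤ Nat.card K ^ 4 := by
  have h1 : Nat.card (Matrix.ProjectiveSpecialLinearGroup (Fin 2) K) ≤
      Nat.card (Matrix.SpecialLinearGroup (Fin 2) K) :=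
    Nat.card_le_card_of_surjective _ (QuotientGroup.mk'_surjective
      (Subgroup.center (Matrix.SpecialLinearGroup (Fin 2) K)))
  have h2 : Nat.card (Matrix.SpecialLinearGroup (Fin 2) K) ≤
      Nat.card (Fin 2 → Fin 2 → K) :=
    Nat.card_le_card_of_injective (fun g i j => g i j) (fun g h hgh =>
      Matrix.SpecialLinearGroup.ext _ _ fun i j => congrFun (congrFun hgh i) j)
  refine h1.trans (h2.trans ?_)
  rw [Nat.card_fun, Nat.card_fun, Nat.card_fin, ← pow_mul]

/-- **Components with `L / Z(L)` isomorphic to `PSL_2(K)`.** -/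
theorem psl2_case {p n : ℕ} [Fact p.Prime] {k : Type u} [Field k] [IsAlgClosed k] [CharP k p]
    {G : Type} [Group G] [Finite G] {D L : Subgroup G} {a b : MonoidAlgebra k G}
    (hD : IsPGroup p D) (hDn : Nat.card D ≤ n) (hb : IsBlock b) (ha : a ∈ Fix (cj k G) D)
    (hba : b = tr (cj k G) D ⊤ a) (hdef : IsDefectGroupR b D) (hL : commutator L = ⊤)
    (hr : ∃ x ∈ D, x ∈ L ∧ ¬ ∀ y ∈ L, x * y = y * x) {K : Type} [Field K] [Finite K]
    (e : L ⧸ Subgroup.center L ≃* Matrix.ProjectiveSpecialLinearGroup (Fin 2) K) :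
    Nat.card (L ⧸ Subgroup.center L) ≤ (max n 9) ^ 4 ∨
    (IsLocalChar p n (L ⧸ Subgroup.center L) ∧
      ∀ P : Sylow p (L ⧸ Subgroup.center L), n < Nat.card P) ∨
    (SolvOut L ∧ CorP p (H12.Sl.csl (2 * n)) b D L) := by
  by_cases hK : Nat.card K ≤ max n 9
  · left
    rw [Nat.card_congr e.toEquiv]
    exact card_psl2.trans (Nat.pow_le_pow_left hK 4)
  · push Not at hK
    right
    by_cases hp : (p : K) = 0
    · exact Or.inl (H259.Schur.lc_psl2 hp ((le_max_left _ _).trans_lt hK) e)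
    · right
      obtain ⟨π, hπ, hk⟩ := H259.Schur.exists_surj_sl2 ((le_max_right _ _).trans_lt hK) hL e
      refine ⟨OutA.solvOut_sl2 (by omega) hπ hk, ?_⟩
      have hpK : ¬ p ∣ Nat.card K := by
        intro hdvd
        have _ := Fintype.ofFinite K
        obtain ⟨r, hr, j, hrp, hc⟩ := FiniteField.card' K
        rw [Nat.card_eq_fintype_card, hc] at hdvd
        have h1 : p = r := (Nat.prime_dvd_prime_iff_eq Fact.out hrp).mp
          ((Fact.out : p.Prime).dvd_of_dvd_pow hdvd)
        apply hp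
        rw [h1, CharP.cast_eq_zero]
      exact H12.corP_sl2 hD hDn ⟨K, inferInstance, inferInstance, π, hπ, hk, hpK⟩ hr
        (isBlock_iff.mp hb).mem.2 (br_of_defect hb ha hba hdef)

end Vale.Agent.P180.R2.H365
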