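import Vale.Agent.P180.R2.H667.Top
import Vale.Agent.P180.R2.H47.E2
import Vale.Agent.P180.R2.H365.Def7

/-!
P180: the normal series above the product of the components.
-/

set_option linter.all false

namespace Vale.Agent.P180.R2.H365

open Vale.Agent.P180.R2.H667 Vale.Agent.P180.R2.H47 Subgroup

open scoped Nat

section Ab

variable {p : ℕ} [Fact p.Prime] {G : Type*} [Group G] [Finite G]

/-- The preimage of the `p`-torsion of an abelian section. -/
def ptor (p : ℕ) (K Q : Subgroup G) (hKQ : K ≤ Q) (hK : K.Normal)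
    (hab : ∀ x ∈ Q, ∀ y ∈ Q, x * y * x⁻¹ * y⁻¹ ∈ K) : Subgroup G where
  carrier := {x | x ∈ Q ∧ ∃ n : ℕ, x ^ p ^ n ∈ K}
  one_mem' := ⟨Q.one_mem, 0, by rw [one_pow]; exact K.one_mem⟩
  mul_mem' := by
    rintro x y ⟨hx, n, hn⟩ ⟨hy, m, hm⟩
    refine ⟨Q.mul_mem hx hy, n + m, ?_⟩
    have hc : Commute (x : G ⧸ K) (y : G ⧸ K) := by
      have h1 : ((x * y * x⁻¹ * y⁻¹ : G) : G ⧸ K) = 1 :=
        (QuotientGroup.eq_one_iff _).mpr (hab x hx y hy)
      rw [QuotientGroup.mk_mul, QuotientGroup.mk_mul, QuotientGroup.mk_mul, QuotientGroup.mk_inv,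
        QuotientGroup.mk_inv] at h1
      change (x : G ⧸ K) * y = y * x
      have h2 := mul_inv_eq_one.mp h1
      exact mul_inv_eq_iff_eq_mul.mp h2
    rw [← QuotientGroup.eq_one_iff, QuotientGroup.mk_pow, QuotientGroup.mk_mul, hc.mul_pow,
      pow_add, pow_mul, mul_comm (p ^ n) (p ^ m), pow_mul, ← QuotientGroup.mk_pow (N := K) x,
      ← QuotientGroup.mk_pow (N := K) y, (QuotientGroup.eq_one_iff _).mpr hn,
      (QuotientGroup.eq_one_iff _).mpr hm, one_pow, one_pow, one_mul]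
  inv_mem' := by
    rintro x ⟨hx, n, hn⟩
    exact ⟨Q.inv_mem hx, n, by rw [inv_pow]; exact K.inv_mem hn⟩

theorem tw_ab {K Q : Subgroup G} (hKQ : K ≤ Q) (hK : K.Normal) (hQ : Q.Normal)
    (hab : ∀ x ∈ Q, ∀ y ∈ Q, x * y * x⁻¹ * y⁻¹ ∈ K) {m : ℕ} (h : Tw p Q m) : Tw p K m := by
  have hle : K ≤ ptor p K Q hKQ hK hab := fun x hx => ⟨hKQ hx, 0, by rwa [pow_zero, pow_one]⟩
  have hle' : ptor p K Q hKQ hK hab ≤ Q := fun x hx => hx.1
  have hn : (ptor p K Q hKQ hK hab).Normal := by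
    constructor
    rintro x ⟨hx, n, hn⟩ g
    refine ⟨hQ.conj_mem x hx g, n, ?_⟩
    rw [conj_pow]
    exact hK.conj_mem _ hn g
  have h1 : ¬ p ∣ (ptor p K Q hKQ hK hab).relIndex Q := by
    intro hd
    obtain ⟨P, hP⟩ : ∃ P, P = (ptor p K Q hKQ hK hab).subgroupOf Q := ⟨_, rfl⟩
    have hPn : P.Normal := by rw [hP]; exact hn.subgroupOf Q
    have hd' : p ∣ Nat.card (Q ⧸ P) := by
      have h2 : Nat.card (Q ⧸ P) = P.index := rfl
      rw [h2, hP]
      exact hd
    obtain ⟨x, hx⟩ := exists_prime_orderOf_dvd_card' (G := Q ⧸ P) p hd'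
    obtain ⟨x, rfl⟩ := QuotientGroup.mk_surjective x
    have h3 : (x ^ p : Q) ∈ P := by
      rw [← QuotientGroup.eq_one_iff, QuotientGroup.mk_pow, ← hx]
      exact pow_orderOf_eq_one _
    have h4 : x ∈ P := by
      rw [hP, mem_subgroupOf] at h3 ⊢
      obtain ⟨-, n, hn⟩ := h3
      refine ⟨x.2, n + 1, ?_⟩
      rw [pow_succ' p n, pow_mul]
      exact hn
    have h5 : ((x : Q) : Q ⧸ P) = 1 := (QuotientGroup.eq_one_iff _).mpr h4
    rw [h5, orderOf_one] at hx
    exact (Fact.out : p.Prime).one_lt.ne hx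
  exact Tw.step (c := 1) (m' := m) hle hn ⟨le_rfl, Or.inl fun x hx => hx.2⟩
    (Tw.step (c := 1) (m' := m) hle' hQ ⟨le_rfl, Or.inr (Or.inl h1)⟩ h (by rw [one_mul]))
    (by rw [one_mul])

end Ab

section Der

variable {G : Type*} [Group G]

/-- the derived series of a subgroup, inside `G` -/
def dser (H : Subgroup G) : ℕ → Subgroup G
  | 0 => H
  | l + 1 => ⁅dser H l, dser H l⁆

theorem dser_eq (H : Subgroup G) (l : ℕ) : (derivedSeries H l).map H.subtype = dser H l := by
  induction l with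
  | zero =>
    rw [derivedSeries_zero, ← MonoidHom.range_eq_map, Subgroup.range_subtype]
    rfl
  | succ l ih =>
    rw [derivedSeries_succ, Subgroup.map_commutator, ih]
    rfl

theorem dser_mono {H K : Subgroup G} (h : H ≤ K) (l : ℕ) : dser H l ≤ dser K l := by
  induction l with
  | zero => exact h
  | succ l ih => exact Subgroup.commutator_mono ih ih

theorem dser_normal {H : Subgroup G} (h : H.Normal) (l : ℕ) : (dser H l).Normal := by
  induction l with
  | zero => exact h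
  | succ l ih =>
    have := ih
    exact Subgroup.commutator_normal _ _

theorem dser_succ_le (H : Subgroup G) (l : ℕ) : dser H (l + 1) ≤ dser H l := by
  rw [dser, Subgroup.commutator_le]
  intro x hx y hy
  exact (dser H l).mul_mem ((dser H l).mul_mem ((dser H l).mul_mem hx hy) ((dser H l).inv_mem hx))
    ((dser H l).inv_mem hy)

theorem dser_anti (H : Subgroup G) {l l' : ℕ} (h : l ≤ l') : dser H l' ≤ dser H l := by
  induction h with
  | refl => exact le_rfl
  | step _ ih => exact (dser_succ_le H _).trans ih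

variable {p : ℕ} [Fact p.Prime] [Finite G]

theorem tw_dser {M H : Subgroup G} (hM : M.Normal) (hH : H.Normal) {m : ℕ} (l : ℕ)
    (h : Tw p (M ⊔ H) m) : Tw p (M ⊔ dser H l) m := by
  induction l with
  | zero => exact h
  | succ l ih =>
    have h1 := dser_normal hH l
    have h2 := dser_normal hH (l + 1)
    refine tw_ab (sup_le_sup_left (dser_succ_le H l) M) inferInstance inferInstance ?_ ih
    intro x hx y hy
    have h3 : M ⊔ dser H (l + 1) = (M ⊔ dser H (l + 1) : Subgroup G) := rfl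
    -- in the quotient by `M ⊔ dser H (l+1)` the images of `dser H l` commute
    obtain ⟨N, hN⟩ : ∃ N, N = M ⊔ dser H (l + 1) := ⟨_, rfl⟩
    have hNn : N.Normal := by rw [hN]; infer_instance
    rw [← hN]
    have hMN : M ≤ N := by rw [hN]; exact le_sup_left
    have hDN : dser H (l + 1) ≤ N := by rw [hN]; exact le_sup_right
    have h4 : ∀ x ∈ M ⊔ dser H l, ∃ u ∈ dser H l, (x : G ⧸ N) = (u : G ⧸ N) := by
      intro x hx
      obtain ⟨a, ha, u, hu, rfl⟩ := Subgroup.mem_sup_of_normal_left.mp hx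
      refine ⟨u, hu, ?_⟩
      rw [QuotientGroup.mk_mul, (QuotientGroup.eq_one_iff a).mpr (hMN ha), one_mul]
    obtain ⟨u, hu, hxu⟩ := h4 x hx
    obtain ⟨v, hv, hyv⟩ := h4 y hy
    rw [← QuotientGroup.eq_one_iff, QuotientGroup.mk_mul, QuotientGroup.mk_mul,
      QuotientGroup.mk_mul, QuotientGroup.mk_inv, QuotientGroup.mk_inv, hxu, hyv,
      ← QuotientGroup.mk_inv, ← QuotientGroup.mk_inv, ← QuotientGroup.mk_mul,
      ← QuotientGroup.mk_mul, ← QuotientGroup.mk_mul, QuotientGroup.eq_one_iff]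
    exact hDN (Subgroup.commutator_mem_commutator hu hv)

end Der

section Main

variable {p : ℕ} [Fact p.Prime] {G : Type} [Group G] [Finite G] {𝒯 : Set (Subgroup G)}

theorem map_conj_sup_centralizer (L : Subgroup G) (g : G) :
    (L ⊔ centralizer (L : Set G)).map (MulAut.conj g).toMonoidHom =
      L.map (MulAut.conj g).toMonoidHom ⊔
        centralizer ((L.map (MulAut.conj g).toMonoidHom : Subgroup G) : Set G) := by
  rw [Subgroup.map_sup]
  congr 1
  ext x
  rw [mem_map_conj', mem_centralizer_iff, mem_centralizer_iff]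
  constructor
  · intro h y hy
    rw [SetLike.mem_coe, mem_map_conj'] at hy
    have := h _ hy
    calc y * x = g * ((g⁻¹ * y * g) * (g⁻¹ * x * g)) * g⁻¹ := by group
      _ = g * ((g⁻¹ * x * g) * (g⁻¹ * y * g)) * g⁻¹ := by rw [this]
      _ = x * y := by group
  · intro h y hy
    have h1 : g * y * g⁻¹ ∈ L.map (MulAut.conj g).toMonoidHom := by
      rw [mem_map_conj']
      have e : g⁻¹ * (g * y * g⁻¹) * g = y := by group
      rwa [e]
    have := h _ h1
    calc y * (g⁻¹ * x * g) = g⁻¹ * ((g * y * g⁻¹) * x) * g := by group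
      _ = g⁻¹ * (x * (g * y * g⁻¹)) * g := by rw [this]
      _ = (g⁻¹ * x * g) * y := by group

theorem tw_comps {n M₁ B : ℕ} {Z : Subgroup G}
    (hconj : ∀ S ∈ 𝒯, ∀ g : G, S.map (MulAut.conj g).toMonoidHom ∈ 𝒯)
    (hcomm : ∀ S ∈ 𝒯, ∀ T ∈ 𝒯, S ≠ T → ∀ x ∈ S, ∀ y ∈ T, x * y = y * x)
    (hcard : Nat.card 𝒯 ≤ n)
    (hZ : ∀ z ∈ Z, ∀ g : G, z * g = g * z) (hZp : ¬ p ∣ Nat.card Z)
    (hB : Z.relIndex (centralizer ((sSup 𝒯 : Subgroup G) : Set G)) ≤ B)
    (hout : ∀ S ∈ 𝒯, (∀ g : G,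
      (S.map (MulAut.conj g).toMonoidHom ⊔
        centralizer ((S.map (MulAut.conj g).toMonoidHom : Subgroup G) : Set G)).relIndex
          (normalizer ((S.map (MulAut.conj g).toMonoidHom : Subgroup G) : Set G)) ≤ M₁) ∨
      SolvOut S) :
    Tw p (sSup 𝒯) (max 1 B * (n ! * (max 1 M₁) ^ n)) := by
  classical
  have : Fintype 𝒯 := Fintype.ofFinite _
  have hXn : (sSup 𝒯).Normal := by
    constructor
    intro x hx g
    have h7 : sSup 𝒯 ≤ (sSup 𝒯).comap (MulAut.conj g).toMonoidHom := by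
      refine sSup_le fun S hS => ?_
      rw [← Subgroup.map_le_iff_le_comap]
      exact le_sSup (hconj S hS g)
    exact h7 hx
  obtain ⟨X, hX⟩ : ∃ X, X = sSup 𝒯 := ⟨_, rfl⟩
  rw [← hX] at hXn hB ⊢
  have hZn : Z.Normal := by
    constructor
    intro z hz g
    rw [← hZ z hz g, mul_inv_cancel_right]
    exact hz
  have hZX : Z ≤ centralizer (X : Set G) := by
    intro z hz
    rw [mem_centralizer_iff]
    intro x _
    exact (hZ z hz x).symm
  have hCn : (centralizer (X : Set G)).Normal := inferInstance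
  set K₀ := (actSet 𝒯 hconj).ker with hK₀
  -- the bounded components
  let 𝒯₁ : Set (Subgroup G) := {S | S ∈ 𝒯 ∧ ∀ g : G,
      (S.map (MulAut.conj g).toMonoidHom ⊔
        centralizer ((S.map (MulAut.conj g).toMonoidHom : Subgroup G) : Set G)).relIndex
          (normalizer ((S.map (MulAut.conj g).toMonoidHom : Subgroup G) : Set G)) ≤ M₁}
  have hconjconj : ∀ (L : Subgroup G) (g h : G),
      (L.map (MulAut.conj g).toMonoidHom).map (MulAut.conj h).toMonoidHom =
        L.map (MulAut.conj (h * g)).toMonoidHom := by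
    intro L g h
    ext x
    rw [mem_map_conj', mem_map_conj', mem_map_conj']
    have e : (h * g)⁻¹ * x * (h * g) = g⁻¹ * (h⁻¹ * x * h) * g := by group
    rw [e]
  have hconj₁ : ∀ S ∈ 𝒯₁, ∀ g : G, S.map (MulAut.conj g).toMonoidHom ∈ 𝒯₁ := by
    rintro S ⟨hS, hS'⟩ g
    refine ⟨hconj S hS g, fun h => ?_⟩
    rw [hconjconj]
    exact hS' (h * g)
  let I : Subgroup G := ⨅ S : 𝒯₁, ((S : Subgroup G) ⊔ centralizer ((S : Subgroup G) : Set G))
  have hIn : I.Normal := by
    constructor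
    intro x hx g
    rw [mem_iInf] at hx ⊢
    intro S
    have h1 := hx ⟨_, hconj₁ S.1 S.2 g⁻¹⟩
    change x ∈ (S.1.map (MulAut.conj g⁻¹).toMonoidHom ⊔ centralizer
      ((S.1.map (MulAut.conj g⁻¹).toMonoidHom : Subgroup G) : Set G)) at h1
    rw [← map_conj_sup_centralizer, mem_map_conj', inv_inv] at h1
    exact h1
  obtain ⟨K₁, hK₁⟩ : ∃ K₁, K₁ = I ⊓ K₀ := ⟨_, rfl⟩
  have hK₁n : K₁.Normal := by rw [hK₁]; infer_instance
  have hcard₁ : Nat.card 𝒯₁ ≤ n :=
    (Nat.card_le_card_of_injective (fun S : 𝒯₁ => (⟨S.1, S.2.1⟩ : 𝒯))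
      (fun S T h => Subtype.ext (by have h' := congrArg Subtype.val h; exact h'))).trans hcard
  have : Fintype 𝒯₁ := Fintype.ofFinite _
  have hK₁i : K₁.index ≤ n ! * (max 1 M₁) ^ n := by
    have h3 : (I ⊓ K₀).index = I.relIndex K₀ * K₀.index := by
      rw [← relIndex_mul_index (inf_le_right : I ⊓ K₀ ≤ K₀), inf_relIndex_right]
    have h4 : I.relIndex K₀ ≤ (max 1 M₁) ^ n := by
      refine (relIndex_iInf_le _).trans ?_
      refine le_trans ?_ (Nat.pow_le_pow_right (lt_of_lt_of_le Nat.zero_lt_one (le_max_left _ _)) hcard₁)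
      rw [Nat.card_eq_fintype_card, ← Finset.card_univ, ← Finset.prod_const]
      refine Finset.prod_le_prod' fun S _ => ?_
      have h5 := S.2.2 1
      rw [show (S.1.map (MulAut.conj (1 : G)).toMonoidHom) = S.1 by
        ext x
        rw [mem_map_conj']
        simp] at h5
      exact (relIndex_le_of_le_right (actSet_ker_le hconj S.2.1)
        index_ne_zero_of_finite).trans (h5.trans (le_max_right _ _))
    have h5 : K₀.index ≤ n ! := by
      rw [hK₀, index_ker]
      refine (Nat.card_le_card_of_injective _ Subtype.val_injective).trans ?_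
      rw [Nat.card_perm]
      exact Nat.factorial_le hcard
    rw [hK₁, h3, mul_comm]
    exact Nat.mul_le_mul h5 h4
  -- the derived length
  have hl : ∃ l : ℕ, ∀ S ∈ 𝒯, dser K₁ l ≤ (S : Subgroup G) ⊔ centralizer (S : Set G) := by
    have h1 : ∀ S : 𝒯, ∃ l : ℕ, dser K₁ l ≤ (S : Subgroup G) ⊔
        centralizer ((S : Subgroup G) : Set G) := by
      intro S
      rcases hout S.1 S.2 with h | ⟨l, h⟩
      · refine ⟨0, ?_⟩
        rw [dser, hK₁]
        exact inf_le_left.trans (iInf_le (fun S : 𝒯₁ => ((S : Subgroup G) ⊔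
          centralizer ((S : Subgroup G) : Set G))) (⟨S.1, S.2, h⟩ : 𝒯₁))
      · rw [dser_eq] at h
        have h2 : K₁ ≤ normalizer ((S : Subgroup G) : Set G) := by
          rw [hK₁]
          exact inf_le_right.trans (actSet_ker_le hconj S.2)
        exact ⟨l, (dser_mono h2 l).trans h⟩
    choose l hl using h1
    refine ⟨Finset.univ.sup l, fun S hS => ?_⟩
    exact (dser_anti K₁ (Finset.le_sup (f := l) (Finset.mem_univ ⟨S, hS⟩))).trans (hl ⟨S, hS⟩)
  obtain ⟨l, hl⟩ := hl
  have hlM : dser K₁ l ≤ X ⊔ centralizer (X : Set G) := by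
    intro g hg
    have hfin : 𝒯.Finite := Set.toFinite _
    obtain ⟨x, hx, h2, -⟩ := exists_inner_set hcomm (g := g) hfin.toFinset
      (fun S hS => hfin.mem_toFinset.mp hS) (fun S hS => hl S (hfin.mem_toFinset.mp hS) hg)
    rw [← hX] at hx
    have h3 : x⁻¹ * g ∈ centralizer (X : Set G) := by
      have h4 : X ≤ centralizer ({x⁻¹ * g} : Set G) := by
        rw [hX]
        refine sSup_le fun S hS y hy => ?_
        rw [mem_centralizer_singleton_iff]
        have h5 := h2 S (hfin.mem_toFinset.mpr hS) y hy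
        calc y * (x⁻¹ * g) = x⁻¹ * (x * y * x⁻¹) * g := by group
          _ = x⁻¹ * (g * y * g⁻¹) * g := by rw [h5]
          _ = x⁻¹ * g * y := by group
      rw [mem_centralizer_iff]
      intro y hy
      exact mem_centralizer_singleton_iff.mp (h4 hy)
    have h6 : g = x * (x⁻¹ * g) := by group
    rw [h6]
    exact mul_mem_sup hx h3
  -- the series
  have hpos : 1 ≤ n ! * (max 1 M₁) ^ n :=
    Nat.one_le_iff_ne_zero.mpr (Nat.mul_ne_zero (Nat.factorial_ne_zero _)
      (pow_ne_zero _ (by have := le_max_left 1 M₁; omega)))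
  obtain ⟨M, hM⟩ : ∃ M, M = X ⊔ centralizer (X : Set G) := ⟨_, rfl⟩
  have hMn : M.Normal := by rw [hM]; infer_instance
  have t1 : Tw p (M ⊔ K₁) (n ! * (max 1 M₁) ^ n) := by
    refine Tw.step (Q := ⊤) (c := n ! * (max 1 M₁) ^ n) (m' := 1) le_top inferInstance
      ⟨hpos, Or.inr (Or.inr ?_)⟩ (Tw.top le_rfl) (by rw [mul_one])
    rw [relIndex_top_right]
    refine le_trans ?_ hK₁i
    exact Nat.le_of_dvd (Nat.pos_of_ne_zero index_ne_zero_of_finite) (index_dvd_of_le le_sup_right)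
  have t2 : Tw p M (n ! * (max 1 M₁) ^ n) := by
    have h := tw_dser hMn hK₁n l t1
    rwa [sup_eq_left.mpr (by rw [hM]; exact hlM)] at h
  have t3 : Tw p (X ⊔ Z) (max 1 B * (n ! * (max 1 M₁) ^ n)) := by
    refine Tw.step (Q := M) (c := max 1 B) (by rw [hM]; exact sup_le_sup_left hZX X) hMn
      ⟨le_max_left _ _, Or.inr (Or.inr ?_)⟩ t2 le_rfl
    have h1 : M = centralizer (X : Set G) ⊔ (X ⊔ Z) := by
      rw [hM, sup_comm, sup_comm X Z, ← sup_assoc, sup_eq_left.mpr hZX]
    rw [h1, relIndex_sup_right]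
    refine le_trans ?_ (le_max_right _ _)
    refine le_trans ?_ hB
    exact Nat.le_of_dvd (Nat.pos_of_ne_zero rel_ne_zero) (relIndex_dvd_of_le_left _ le_sup_right)
  refine Tw.step (Q := X ⊔ Z) (c := 1) le_sup_left inferInstance ⟨le_rfl, Or.inr (Or.inl ?_)⟩ t3
    (by rw [one_mul])
  intro hd
  apply hZp
  have h1 : X.relIndex (X ⊔ Z) = X.relIndex Z := by rw [sup_comm, relIndex_sup_right]
  rw [h1] at hd
  exact hd.trans (relIndex_dvd_card X Z)

end Main

end Vale.Agent.P180.R2.H365
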