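import Vale.Agent.P180.R2.H365.LocD
import Vale.Agent.P180.R2.H365.LocX
import Vale.Agent.P180.R2.H365.TwG
import Vale.Agent.P180.R2.H799.BNL6

/-!
P180: the local theorem for reduced groups, with unbounded groups of outer automorphisms.
-/

set_option linter.all false

namespace Vale.Agent.P180.R2.H365

open Vale.Agent.P180 Vale.Agent.P180.H768.Gd Vale.Agent.P180.R2.H47 Vale.Agent.P180.R2.H954
  Vale.Agent.P180.R2.H667
open Vale.Agent.P180.R2.H799 (NN)
open Vale.Agent.P180.H768 hiding pull mem_pull exists_factor Lay mk_mem comm_mem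

open scoped Nat

universe u

/-- The block `b` has a defect group `P` of order at most `n` and there are a normal subgroup `X`
which is the bottom of a normal series of `G` with factors of order prime to `p`, `p`-groups, or of
bounded order (the product of the bounds being at most `m`), and an idempotent `i ∈ (kX)^P` with
`Br_P(i b) ≠ 0` and `dim (i kX i) ≤ C`. -/
def SmallT (p n C m : ℕ) (k : Type u) [Field k] (G : Type) [Group G] [Finite G]
    (b : MonoidAlgebra k G) : Prop :=
  ∃ (X P : Subgroup G) (a i : MonoidAlgebra k G), X.Normal ∧ Tw p X m ∧ IsPGroup p P ∧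
    Nat.card P ≤ n ∧ a ∈ Fix (cj k G) P ∧ b = tr (cj k G) P ⊤ a ∧ i ∈ SubAlg k X ∧
    i ∈ Fix (cj k G) P ∧ i * i = i ∧ br P (i * b) ≠ 0 ∧
    Module.finrank k (NN (SubAlg k X) i i) ≤ C

section

variable {k : Type u} [Field k] [IsAlgClosed k] {p : ℕ} [Fact p.Prime] [CharP k p]

/-- The local theorem for a stable set of commuting components with the corner property. -/
theorem loc_compsT {n m C : ℕ} {G : Type} [Group G] [Finite G] {𝒯 : Set (Subgroup G)}
    (hna : ∀ T ∈ 𝒯, ¬ ∀ x ∈ T, ∀ y ∈ T, x * y = y * x)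
    (hcomm : ∀ T ∈ 𝒯, ∀ T' ∈ 𝒯, T ≠ T' → ∀ x ∈ T, ∀ y ∈ T', x * y = y * x)
    (hconj : ∀ T ∈ 𝒯, ∀ g : G, T.map (MulAut.conj g).toMonoidHom ∈ 𝒯) (hcard : Nat.card 𝒯 ≤ n)
    {Z D : Subgroup G} {a b : MonoidAlgebra k G} (hs : Rs p n Z D a b) (hST : STab b)
    (hTw : Tw p (sSup 𝒯) m) (hC : 1 ≤ C)
    (hcor : ∀ T ∈ 𝒯, ∀ R ≤ D, (∀ x ∈ R, ∀ s ∈ T, x * s * x⁻¹ ∈ T) →
      ∀ e : MonoidAlgebra k G, Below b T e → e ∈ Fix (cj k G) R → br R e ≠ 0 →
      (∃ z ∈ SubAlg k T, z ∈ Fix (cj k G) (T ⊓ R) ∧ e = tr (cj k G) (T ⊓ R) T z) →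
      (∃ z ∈ SubAlg k T, z ∈ Fix (cj k G) R ∧ e = tr (cj k G) R (T ⊔ R) z) → Cor C T R e) :
    SmallT p n (C ^ n) m k G b := by
  obtain ⟨F, hF1, hF2, hF3⟩ := H47.exists_fam 𝒯 hconj hcomm
  have hrange : F.μ.range = sSup 𝒯 := by
    have hμ : F.μ.range = ⨆ j, F.A j := Subgroup.noncommPiCoprod_range
    rw [hμ]
    apply le_antisymm
    · exact iSup_le fun j => le_sSup (hF1 j)
    · refine sSup_le fun T hT => ?_
      obtain ⟨j, rfl⟩ := hF2 T hT
      exact le_iSup _ j
  have hXn : (sSup 𝒯).Normal := by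
    constructor
    intro x hx g
    have h7 : sSup 𝒯 ≤ (sSup 𝒯).comap (MulAut.conj g).toMonoidHom := by
      refine sSup_le fun S hS => ?_
      rw [← Subgroup.map_le_iff_le_comap]
      exact le_sSup (hconj S hS g)
    exact h7 hx
  have hbB : IsBlockOf (⊤ : Subgroup G) b := isBlock_iff.mp hs.hb
  obtain ⟨P, a', e, i, hPD, ha', hba', he, heT, heb, hiX, hiP, hii, hie, hbr, hfr⟩ :=
    loc_x (C := C) (C₀ := 1) F
    (X := sSup 𝒯) (X₀ := ⊥) (by rw [bot_sup_eq, hrange])
    (fun j x hx y hy => by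
      rw [Subgroup.mem_bot] at hx
      rw [hx, one_mul, mul_one])
    (by
      intro i j hij
      by_contra hne
      apply hna _ (hF1 i)
      intro x hx y hy
      exact F.comm i j hne x hx y (hij hy))
    hbB hs.Dp hs.ha hs.hba hST
    (by
      intro P hP a' ha' hba' hbr
      refine ⟨1, Subalgebra.one_mem _, Subalgebra.one_mem _, one_mul 1, by rwa [one_mul], ?_⟩
      intro e₀ _ _ _ _ _
      have h1 : NN (SubAlg k (⊥ : Subgroup G)) (e₀ * 1) (e₀ * 1) ≤
          Submodule.span k {(1 : MonoidAlgebra k G)} := by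
        rintro x ⟨hx, -, -⟩
        rw [Submodule.mem_span_singleton]
        refine SuppIn.induction (P := fun x => ∃ c : k, c • (1 : MonoidAlgebra k G) = x) hx ?_ ?_ ?_
        · exact ⟨0, zero_smul _ _⟩
        · rintro _ _ ⟨c, rfl⟩ ⟨d, rfl⟩
          exact ⟨c + d, add_smul _ _ _⟩
        · intro y hy c
          rw [SetLike.mem_coe, Subgroup.mem_bot] at hy
          subst hy
          exact ⟨c, rfl⟩
      have hfin : FiniteDimensional k (MonoidAlgebra k G) :=
        Module.Finite.equiv (MonoidAlgebra.coeffLinearEquiv k (M := G) (S := k)).symm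
      refine (Submodule.finrank_mono h1).trans ?_
      exact (finrank_span_le_card _).trans (by simp))
    (fun j => hcor _ (hF1 j))
  refine ⟨sSup 𝒯, P, a', i, hXn, hTw, hs.Dp.to_le hPD, (Nat.card_le_card_of_injective _
    (Subgroup.inclusion_injective hPD)).trans hs.Dn, ha', hba', hiX, hiP, hii, hbr, ?_⟩
  refine hfr.trans ?_
  rw [one_mul]
  exact Nat.pow_le_pow_right hC hcard

end

theorem relIndex_conj {G : Type} [Group G] [Finite G] (L : Subgroup G) (g : G) :
    (L.map (MulAut.conj g).toMonoidHom ⊔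
      Subgroup.centralizer ((L.map (MulAut.conj g).toMonoidHom : Subgroup G) : Set G)).relIndex
        (Subgroup.normalizer ((L.map (MulAut.conj g).toMonoidHom : Subgroup G) : Set G)) =
      (L ⊔ Subgroup.centralizer (L : Set G)).relIndex (Subgroup.normalizer (L : Set G)) := by
  have h1 : Subgroup.normalizer ((L.map (MulAut.conj g).toMonoidHom : Subgroup G) : Set G) =
      (Subgroup.normalizer (L : Set G)).map (MulAut.conj g).toMonoidHom := by
    ext x
    rw [mem_map_conj', Subgroup.mem_normalizer_iff, Subgroup.mem_normalizer_iff]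
    constructor
    · intro h y
      have h2 := h (g * y * g⁻¹)
      rw [mem_map_conj', mem_map_conj'] at h2
      have e1 : g⁻¹ * (g * y * g⁻¹) * g = y := by group
      have e2 : g⁻¹ * (x * (g * y * g⁻¹) * x⁻¹) * g =
        (g⁻¹ * x * g) * y * (g⁻¹ * x * g)⁻¹ := by group
      rwa [e1, e2] at h2
    · intro h y
      have h2 := h (g⁻¹ * y * g)
      rw [mem_map_conj', mem_map_conj']
      have e2 : g⁻¹ * (x * y * x⁻¹) * g =
        (g⁻¹ * x * g) * (g⁻¹ * y * g) * (g⁻¹ * x * g)⁻¹ := by group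
      rw [e2]
      exact h2
  rw [h1, ← map_conj_sup_centralizer,
    Subgroup.relIndex_map_map_of_injective _ _ (MulAut.conj g).injective]

theorem map_conj_one' {G : Type} [Group G] (L : Subgroup G) :
    L.map (MulAut.conj (1 : G)).toMonoidHom = L := by
  ext x
  rw [mem_map_conj']
  simp

/-- the bound for the top -/
def b7 (n m M : ℕ) : ℕ := max 1 (n * (n * max m (BF.bfBound n))! * n !) * (n ! * (max 1 M) ^ n)

/-- The local theorem, relative to a class of components with bounded or solvable groups of outer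
automorphisms and the corner property. -/
theorem loc_genU {p n m M C : ℕ} [Fact p.Prime] {k : Type u} [Field k] [IsAlgClosed k] [CharP k p]
    {Exc : ∀ (k : Type u) [Field k] (G : Type) [Group G] [Finite G],
      MonoidAlgebra k G → Subgroup G → Subgroup G → Prop}
    (hcls : ∀ (G : Type) [Group G] [Finite G] (Z D : Subgroup G) (a b : MonoidAlgebra k G),
      Rs p n Z D a b → STab b → NRed p Z ⊤ b → IsDefectGroupR b D →
      ∀ L : Subgroup G, IsComponent L → p ∣ Nat.card (L ⧸ Subgroup.center L) →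
      (∃ x ∈ D, x ∈ L ∧ ¬ ∀ y ∈ L, x * y = y * x) → ¬ Exc k G b D L →
      Nat.card (L ⧸ Subgroup.center L) ≤ m ∨
      (IsLocalChar p n (L ⧸ Subgroup.center L) ∧
        (p = 2 ∨ ∀ P : Sylow p (L ⧸ Subgroup.center L), n < Nat.card P)) ∨
      (((L ⊔ Subgroup.centralizer (L : Set G)).relIndex (Subgroup.normalizer (L : Set G)) ≤ M ∨
          SolvOut L) ∧ CorP p C b D L)) :
    LocL Exc (SmallT p n ((max 1 C) ^ n) (b7 n m M)) k p n := by
  intro G _ _ Z D a b hs hST hNR hD
  by_cases hex : ∃ L : Subgroup G, IsComponent L ∧ p ∣ Nat.card (L ⧸ Subgroup.center L) ∧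
      (∃ x ∈ D, x ∈ L ∧ ¬ ∀ y ∈ L, x * y = y * x) ∧ Exc k G b D L
  · exact Or.inl hex
  right
  have hconjconj : ∀ (L : Subgroup G) (g h : G),
      (L.map (MulAut.conj g).toMonoidHom).map (MulAut.conj h).toMonoidHom =
        L.map (MulAut.conj (h * g)).toMonoidHom := by
    intro L g h
    ext x
    rw [mem_map_conj, mem_map_conj, mem_map_conj]
    have e : (h * g)⁻¹ * x * (h * g) = g⁻¹ * (h⁻¹ * x * h) * g := by group
    rw [e]
  obtain ⟨𝒯, h1, h2, h3, h4, h5⟩ := comp_bound
    (Q := fun L : Subgroup G => ∀ g : G, ((L.map (MulAut.conj g).toMonoidHom ⊔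
      Subgroup.centralizer ((L.map (MulAut.conj g).toMonoidHom : Subgroup G) : Set G)).relIndex
        (Subgroup.normalizer ((L.map (MulAut.conj g).toMonoidHom : Subgroup G) : Set G)) ≤ M ∨
        SolvOut (L.map (MulAut.conj g).toMonoidHom)) ∧
      CorP p C b D (L.map (MulAut.conj g).toMonoidHom))
    (m := max m (BF.bfBound n))
    (by
      intro L h hL g
      rw [hconjconj]
      exact hL (g * h)) hs hST hNR (by
    intro L hL hp hr hQ
    simp only [not_forall] at hQ
    obtain ⟨g, hg⟩ := hQ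
    obtain ⟨L', hL'⟩ : ∃ L', L' = L.map (MulAut.conj g).toMonoidHom := ⟨_, rfl⟩
    rw [← hL'] at hg
    have hcL' : IsComponent L' := by rw [hL']; exact isComponent_map hL g
    have e : L ≃* L' := (L.equivMapOfInjective _ (MulAut.conj g).injective).trans
      (MulEquiv.subgroupCongr hL'.symm)
    obtain ⟨f⟩ := center_quot_equiv e
    have hpL' : p ∣ Nat.card (L' ⧸ Subgroup.center L') := by
      rw [← Nat.card_congr f.toEquiv]; exact hp
    have hrL' := hr g
    rw [← hL'] at hrL'
    have hnE : ¬ Exc k G b D L' := fun h => hex ⟨L', hcL', hpL', hrL', h⟩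
    have hcases : Nat.card (L' ⧸ Subgroup.center L') ≤ max m (BF.bfBound n) ∨
        (IsLocalChar p n (L' ⧸ Subgroup.center L') ∧
          ∀ P : Sylow p (L' ⧸ Subgroup.center L'), n < Nat.card P) := by
      rcases hcls G Z D a b hs hST hNR hD L' hcL' hpL' hrL' hnE with h | ⟨hc1, hc2 | hc2⟩ | h
      · exact Or.inl (h.trans (le_max_left _ _))
      · subst hc2
        have hsim := hcL'.1.2
        by_cases h3 : ∀ P : Subgroup (L' ⧸ Subgroup.center L'), IsPGroup 2 P → Nat.card P ≤ n
        · left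
          exact (BF.card_le_of_charType_two hpL' hc1 h3).trans (le_max_right _ _)
        · push Not at h3
          obtain ⟨P, hP, hPn⟩ := h3
          refine Or.inr ⟨hc1, fun Q => ?_⟩
          obtain ⟨R, hR⟩ := hP.exists_le_sylow
          refine hPn.trans_le ?_
          rw [Nat.card_congr (Sylow.equiv Q R).toEquiv]
          exact Nat.card_le_card_of_injective _ (Subgroup.inclusion_injective hR)
      · exact Or.inr ⟨hc1, hc2⟩
      · exact absurd h hg
    rcases hcases with h | ⟨h, h'⟩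
    · left
      rwa [Nat.card_congr f.toEquiv]
    · right
      refine ⟨isLocalChar_of_equiv f.symm h, fun P => ?_⟩
      let P' : Sylow p (L' ⧸ Subgroup.center L') := P.comapOfInjective f.symm.toMonoidHom
        f.symm.injective (by
          rw [MonoidHom.range_eq_top.mpr f.symm.surjective]
          exact le_top)
      refine (h' P').trans_le ?_
      exact Nat.card_le_card_of_injective
        (fun x : P' => (⟨f.symm x.1, x.2⟩ : P)) (fun x y hxy => Subtype.ext (f.symm.injective
          (congrArg Subtype.val hxy))))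
  have hna : ∀ T ∈ 𝒯, ¬ ∀ x ∈ T, ∀ y ∈ T, x * y = y * x := by
    intro T hT h
    obtain ⟨-, -, -, r, -, hr, hr'⟩ := h1 T hT
    exact hr' fun y hy => h r hr y hy
  have hgood : ∀ T ∈ 𝒯, ((T ⊔ Subgroup.centralizer (T : Set G)).relIndex
      (Subgroup.normalizer (T : Set G)) ≤ M ∨ SolvOut T) ∧ CorP p C b D T := by
    intro T hT
    have h := (h1 T hT).2.1 1
    rwa [map_conj_one'] at h
  have hTw := tw_comps (M₁ := M) h3 h2 h4 hs.Zc hs.Zp h5 (fun S hS => by
    rcases (hgood S hS).1 with h | h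
    · left
      intro g
      rwa [relIndex_conj]
    · exact Or.inr h)
  refine loc_compsT (C := max 1 C) hna h2 h3 h4 hs hST hTw (le_max_left _ _) ?_
  intro T hT
  exact (hgood T hT).2.mono (le_max_right _ _)

/-- the constant -/
def cU (p n m : ℕ) : ℕ := max (cD p n m) (H799.BN.bnB n)

/-- The local theorem for the general reduction. -/
theorem locU (p n m : ℕ) [Fact p.Prime] (k : Type u) [Field k] [IsAlgClosed k] [CharP k p] :
    LocL (ExcU p n m) (SmallT p n ((max 1 (cU p n m)) ^ n) (b7 n (max m 2520) (max m 2))) k p n := by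
  refine loc_genU ?_
  intro G _ _ Z D a b hs hST hNR hD L hL hp hr hE
  by_cases hm : Nat.card (L ⧸ Subgroup.center L) ≤ m
  · exact Or.inl (hm.trans (le_max_left _ _))
  by_cases ha : ∃ d : ℕ, Nonempty (L ⧸ Subgroup.center L ≃* alternatingGroup (Fin d))
  · obtain ⟨d, ⟨iso⟩⟩ := ha
    by_cases hd : d < 8
    · left
      refine le_trans ?_ (le_max_right _ _)
      refine le_trans ?_ (H589.card_alt_lt_eight hd)
      exact (Nat.card_congr iso.toEquiv).le
    · right
      right
      refine ⟨Or.inl ((H589.out_ext' (by omega) hL.1.1 iso).trans (le_max_right _ _)), ?_⟩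
      exact (H589.corP_ext (n := n) (by omega) hL.1.1 iso hs.Dp hs.Dn b).mono
        (((le_max_left _ _).trans (le_max_right _ _)).trans (le_max_left _ _))
  by_cases hc : IsLocalChar p n (L ⧸ Subgroup.center L) ∧
      (p = 2 ∨ ∀ P : Sylow p (L ⧸ Subgroup.center L), n < Nat.card P)
  · exact Or.inr (Or.inl hc)
  right
  right
  by_cases ho : (L ⊔ Subgroup.centralizer (L : Set G)).relIndex
      (Subgroup.normalizer (L : Set G)) ≤ m ∨ SolvOut L
  · refine ⟨ho.imp_left fun h => h.trans (le_max_left _ _), ?_⟩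
    by_cases hss : HasSmallSource m b D L
    · exact (corP_of_small hs.hb.ne_zero hs.Dp hss).mono ((le_max_left _ _).trans (le_max_left _ _))
    by_cases hcy : D ⊓ Subgroup.normalizer (L : Set G) ≤ L ⊔ Subgroup.centralizer (L : Set G) ∧
        (IsCyclic (D ⊓ L : Subgroup G) ∨ SplitSL p D L)
    · rcases hcy.2 with h | h
      · exact (corP_cyc (n := n) hs.Dp hs.Dn h hcy.1 b).mono
          (((le_max_right _ _).trans (le_max_right _ _)).trans (le_max_left _ _))
      · exact (H799.BN.corP_sl (n := n) hs.Dp hs.Dn h hcy.1 b).mono (le_max_right _ _)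
    · exact absurd ⟨by omega, ha, hc, Or.inr ⟨hss, hcy⟩⟩ hE
  · push Not at ho
    exact absurd ⟨by omega, ha, hc, Or.inl ⟨ho.2, ho.1⟩⟩ hE

end Vale.Agent.P180.R2.H365
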