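import Vale.Agent.P180.R2.H365.LocU
import Vale.Agent.P180.R2.H365.Def8
import Vale.Agent.P180.R2.H365.CycR
import Vale.Agent.P180.R2.H471.Hc11
import Vale.Agent.P180.R2.H471.Hd5
import Vale.Agent.P180.R2.H854.FormP

/-!
P180: the local theorem for reduced groups, with the classes of components with small source
idempotents.
-/

set_option linter.all false

namespace Vale.Agent.P180.R2.H365

open Vale.Agent.P180 Vale.Agent.P180.H768.Gd Vale.Agent.P180.R2.H47 Vale.Agent.P180.R2.H954
  Vale.Agent.P180.R2.H667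
open Vale.Agent.P180.R2.H799 (NN)
open Vale.Agent.P180.H768 hiding pull mem_pull exists_factor Lay mk_mem comm_mem

open scoped Nat

universe u

/-- the constant for the known classes -/
noncomputable def cK (p n m : ℕ) : ℕ :=
  max (H259.Cyc.cycB p n) (max (H799.BN.bnB n)
    (max (H471.Hc.bdSL p (max m n) n) (H471.Hd.bdF p (max m n) n)))

theorem LinSL.split {p n m : ℕ} {G : Type} [Group G] {D L : Subgroup G} (hpn : p ≤ n)
    (h : LinSL p m D L) : SplitSL p D L ∨ H471.Hc.NonsplitSL' p (max m n) D L := by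
  obtain ⟨K, _, _, d, hd, hpK, π, hπ, hk, h⟩ := h
  by_cases h1 : p ∣ Nat.card K - 1
  · left
    refine ⟨K, inferInstance, inferInstance, d, π, hπ, hk, h1, ?_, ?_⟩
    · rcases h with h | h
      · exact fun hdvd => absurd (Nat.le_of_dvd hd hdvd) (by omega)
      · exact (h.2.1 h1).1
    · rcases h with h | h
      · exact Or.inl h
      · exact Or.inr ⟨h.1, (h.2.1 h1).2⟩
  · right
    refine ⟨K, inferInstance, inferInstance, d, π, hπ, hk, ?_, hpK, h1, ?_⟩
    · rcases h with h | h
      · exact (h.le.trans hpn).trans (le_max_right _ _)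
      · exact (h.2.2 h1).trans (le_max_left _ _)
    · exact h.imp_right fun h => h.1

theorem relIndex_of_two {H : Type} [Group H] {X Y : Subgroup H}
    (h : ∀ g ∈ Y, ∀ g' ∈ Y, g ∉ X → g' ∉ X → g * g' ∈ X) : X.relIndex Y ∣ 2 := by
  by_cases hY : Y ≤ X
  · rw [Subgroup.relIndex_eq_one.mpr hY]
    exact one_dvd 2
  · obtain ⟨a, haY, haX⟩ := SetLike.not_le_iff_exists.mp hY
    have : X.relIndex Y = 2 := by
      rw [Subgroup.relIndex_eq_two_iff]
      refine ⟨a, haY, fun b hb => ?_⟩
      by_cases hbX : b ∈ X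
      · refine Or.inr ⟨hbX, fun hba => haX ?_⟩
        have := X.mul_mem (X.inv_mem hbX) hba
        rwa [inv_mul_cancel_left] at this
      · exact Or.inl ⟨h b hb a haY hbX haX, hbX⟩
    rw [this]

theorem LinIso.split {p n m : ℕ} {G : Type} [Group G] {D L : Subgroup G} (hpn : p ≤ n)
    (h : LinIso p m D L) : H854.SplitIso p D L ∨ H471.Hd.NonsplitIso p (max m n) D L := by
  obtain ⟨K, _, _, d, hp, hK, hpK, B, θ, ε, X, π, ⟨f1, f2, f3, f4, f5, f6⟩, hX, hX2, hπ, hk, h⟩ := h
  let Φ : H854.HForm K (Fin d → K) :=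
    { B := B, θ := θ, ε := ε, add_left := f1, smul_left := f2, θθ := f3, εε := f4, symm := f5,
      nondeg := f6 }
  have hX' : X ≤ Φ.Iso := hX
  have hX2' : X.relIndex Φ.Iso ∣ 2 :=
    relIndex_of_two fun g hg g' hg' hgX hgX' => hX2 g g' hgX hgX' hg hg'
  rcases h with ⟨hζ, h⟩ | ⟨h1, hl, h⟩
  · exact Or.inl ⟨K, inferInstance, inferInstance, d, Φ, X, π, hp, hK, hζ, hX', hX2', hπ, hk, h⟩
  · right
    refine ⟨K, inferInstance, inferInstance, d, Φ, X, π, hK, hX', hX2', hπ, hk, ?_, hpK, h1, hl, ?_⟩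
    · rcases h with h | h
      · exact (h.le.trans hpn).trans (le_max_right _ _)
      · exact h.2.trans (le_max_left _ _)
    · exact h.imp_right fun h => h.1

theorem corP_known {p n m : ℕ} [Fact p.Prime] {k : Type u} [Field k] [IsAlgClosed k] [CharP k p]
    {G : Type} [Group G] [Finite G] {D L : Subgroup G} (hD : IsPGroup p D)
    (hDn : Nat.card D ≤ n) (h : KnownC p m D L) (b : MonoidAlgebra k G) :
    CorP p (cK p n m) b D L := by
  have e1 : H259.Cyc.cycB p n ≤ cK p n m := le_max_left _ _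
  have e2 : H799.BN.bnB n ≤ cK p n m := (le_max_left _ _).trans (le_max_right _ _)
  have e3 : H471.Hc.bdSL p (max m n) n ≤ cK p n m :=
    (le_max_left _ _).trans ((le_max_right _ _).trans (le_max_right _ _))
  have e4 : H471.Hd.bdF p (max m n) n ≤ cK p n m :=
    (le_max_right _ _).trans ((le_max_right _ _).trans (le_max_right _ _))
  rcases h with ⟨hz, hc⟩ | ⟨hin, h⟩
  · exact (corP_cycR hD hDn hz hc b).mono e1
  by_cases hcy : IsCyclic (D ⊓ L : Subgroup G)
  · exact (corP_cyc hD hDn hcy hin b).mono e1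
  have hpn : p ≤ n := by
    refine le_trans ?_ hDn
    have hD1 : D ≠ ⊥ := by
      rintro rfl
      apply hcy
      rw [bot_inf_eq]
      infer_instance
    haveI : Nontrivial D := (Subgroup.nontrivial_iff_ne_bot D).mpr hD1
    obtain ⟨j, hj0, hj⟩ := hD.nontrivial_iff_card.mp inferInstance
    rw [hj]
    exact Nat.le_self_pow hj0.ne' p
  rcases h with h | h | h | h
  · exact absurd h hcy
  · rcases h.split hpn with h | h
    · exact (H799.BN.corP_sl hD hDn h hin b).mono e2
    · exact (H471.Hc.corP_nonsplit' hD hDn h hin b).mono e3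
  · rcases h.split hpn with h | h
    · exact (H854.corP_iso hD hDn h hin b).mono e2
    · exact (H471.Hd.corP_nonsplit_iso hD hDn h hin b).mono e4
  · exact (H854.corP_par hD hDn h hin b).mono e2

/-- the constant -/
noncomputable def cV (p n m : ℕ) : ℕ := max m (max (2 * H12.CA n) (cK p n m))

/-- The local theorem for the general reduction. -/
theorem locV (p n m : ℕ) [Fact p.Prime] (k : Type u) [Field k] [IsAlgClosed k] [CharP k p] :
    LocL (ExcV p n m) (SmallT p n ((max 1 (cV p n m)) ^ n) (b7 n (max m 2520) (max m 2))) k p n := by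
  refine loc_genU ?_
  intro G _ _ Z D a b hs hST hNR hD L hL hp hr hE
  by_cases hm : Nat.card (L ⧸ Subgroup.center L) ≤ m
  · exact Or.inl (hm.trans (le_max_left _ _))
  by_cases ha : ∃ d : ℕ, Nonempty (L ⧸ Subgroup.center L ≃* alternatingGroup (Fin d))
  · obtain ⟨d, ⟨iso⟩⟩ := ha
    by_cases hd : d < 8
    · left
      refine le_trans ?_ (le_max_right _ _)
      refine le_trans ?_ (H589.card_alt_lt_eight hd)
      exact (Nat.card_congr iso.toEquiv).le
    · right
      right
      refine ⟨Or.inl ((H589.out_ext' (by omega) hL.1.1 iso).trans (le_max_right _ _)), ?_⟩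
      exact (H589.corP_ext (n := n) (by omega) hL.1.1 iso hs.Dp hs.Dn b).mono
        ((le_max_left _ _).trans (le_max_right _ _))
  by_cases hc : IsLocalChar p n (L ⧸ Subgroup.center L) ∧
      (p = 2 ∨ ∀ P : Sylow p (L ⧸ Subgroup.center L), n < Nat.card P)
  · exact Or.inr (Or.inl hc)
  right
  right
  by_cases ho : (L ⊔ Subgroup.centralizer (L : Set G)).relIndex
      (Subgroup.normalizer (L : Set G)) ≤ m ∨ SolvOut L
  · refine ⟨ho.imp_left fun h => h.trans (le_max_left _ _), ?_⟩
    by_cases hss : HasSmallSource m b D L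
    · exact (corP_of_small hs.hb.ne_zero hs.Dp hss).mono (le_max_left _ _)
    by_cases hk : KnownC p m D L
    · exact (corP_known hs.Dp hs.Dn hk b).mono ((le_max_right _ _).trans (le_max_right _ _))
    · exact absurd ⟨by omega, ha, hc, Or.inr ⟨hss, hk⟩⟩ hE
  · push Not at ho
    exact absurd ⟨by omega, ha, hc, Or.inl ⟨ho.2, ho.1⟩⟩ hE

end Vale.Agent.P180.R2.H365
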