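import Vale.Agent.P180.R2.H365.LocP2
import Vale.Agent.P180.R2.H365.Def9
import Vale.Agent.P180.R2.H47.Pair
import Vale.Agent.P180.R2.H471.He4

/-!
P180: the local theorem for reduced groups, with the classes of components with small source
idempotents.
-/

set_option linter.all false

namespace Vale.Agent.P180.R2.H365

open Vale.Agent.P180 Vale.Agent.P180.H768.Gd Vale.Agent.P180.R2.H47 Vale.Agent.P180.R2.H954
  Vale.Agent.P180.R2.H667
open Vale.Agent.P180.R2.H799 (NN)
open Vale.Agent.P180.H768 hiding pull mem_pull exists_factor Lay mk_mem comm_mem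

open scoped Nat

universe u

theorem corP_knownC {p n m : ℕ} [Fact p.Prime] {k : Type u} [Field k] [IsAlgClosed k] [CharP k p]
    {G : Type} [Group G] [Finite G] {D L : Subgroup G} (hD : IsPGroup p D)
    (hDn : Nat.card D ≤ n) (h : KnownC p m D L) (b : MonoidAlgebra k G) :
    CorP p (PairP.cP p n m) b D L := by
  rcases h with hc | ⟨hin, h⟩
  · exact (H471.He.corP_cycOn hD hDn hc b).mono PairP.le_cP1
  · exact PairP.corP_tamePair hD hDn h hin b

/-- the constant -/
noncomputable def cW (p n m : ℕ) : ℕ :=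
  max m (max (2 * H12.CA n) (max (PairP.cP p n m) (H12.Sl.csl (2 * n))))

/-- The local theorem for the general reduction. -/
theorem locW (p n m : ℕ) [Fact p.Prime] (k : Type u) [Field k] [IsAlgClosed k] [CharP k p] :
    LocL (ExcW p n m) (SmallT p n ((max 1 (cW p n m)) ^ n)
      (b7 n (max m (max 2520 ((max n 9) ^ 4))) (max m 2))) k p n := by
  have e1 : m ≤ cW p n m := le_max_left _ _
  have e2 : 2 * H12.CA n ≤ cW p n m := (le_max_left _ _).trans (le_max_right _ _)
  have e3 : PairP.cP p n m ≤ cW p n m :=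
    (le_max_left _ _).trans ((le_max_right _ _).trans (le_max_right _ _))
  have e4 : H12.Sl.csl (2 * n) ≤ cW p n m :=
    (le_max_right _ _).trans ((le_max_right _ _).trans (le_max_right _ _))
  refine loc_genU ?_
  intro G _ _ Z D a b hs hST hNR hD L hL hp hr hE
  by_cases hm : Nat.card (L ⧸ Subgroup.center L) ≤ m
  · exact Or.inl (hm.trans (le_max_left _ _))
  by_cases ha : ∃ d : ℕ, Nonempty (L ⧸ Subgroup.center L ≃* alternatingGroup (Fin d))
  · obtain ⟨d, ⟨iso⟩⟩ := ha
    by_cases hd : d < 8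
    · left
      refine le_trans ?_ ((le_max_left _ _).trans (le_max_right _ _))
      refine le_trans ?_ (H589.card_alt_lt_eight hd)
      exact (Nat.card_congr iso.toEquiv).le
    · right
      right
      refine ⟨Or.inl ((H589.out_ext' (by omega) hL.1.1 iso).trans (le_max_right _ _)), ?_⟩
      exact (H589.corP_ext (n := n) (by omega) hL.1.1 iso hs.Dp hs.Dn b).mono e2
  by_cases h2 : ∃ (K : Type) (_ : Field K) (_ : Finite K),
      Nonempty (L ⧸ Subgroup.center L ≃* Matrix.ProjectiveSpecialLinearGroup (Fin 2) K)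
  · obtain ⟨K, _, _, ⟨iso⟩⟩ := h2
    rcases psl2_case hs.Dp hs.Dn hs.hb hs.ha hs.hba hD hL.1.1 hr iso with h | h | h
    · exact Or.inl (h.trans ((le_max_right _ _).trans (le_max_right _ _)))
    · exact Or.inr (Or.inl ⟨h.1, Or.inr h.2⟩)
    · exact Or.inr (Or.inr ⟨Or.inr h.1, h.2.mono e4⟩)
  by_cases hc : IsLocalChar p n (L ⧸ Subgroup.center L) ∧
      (p = 2 ∨ ∀ P : Sylow p (L ⧸ Subgroup.center L), n < Nat.card P)
  · exact Or.inr (Or.inl hc)
  right
  right
  by_cases ho : (L ⊔ Subgroup.centralizer (L : Set G)).relIndex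
      (Subgroup.normalizer (L : Set G)) ≤ m ∨ SolvOut L
  · refine ⟨ho.imp_left fun h => h.trans (le_max_left _ _), ?_⟩
    by_cases hss : HasSmallSource m b D L
    · exact (corP_of_small hs.hb.ne_zero hs.Dp hss).mono e1
    by_cases hk : KnownC p m D L
    · exact (corP_knownC hs.Dp hs.Dn hk b).mono e3
    · exact absurd ⟨by omega, ha, h2, hc, Or.inr ⟨hss, hk⟩⟩ hE
  · push Not at ho
    exact absurd ⟨by omega, ha, h2, hc, Or.inl ⟨ho.2, ho.1⟩⟩ hE

end Vale.Agent.P180.R2.H365
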