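import Vale.Agent.P180.R2.H365.OcC
import Vale.Agent.P180.R2.H589.Oa.Fin
import Vale.Agent.P180.R2.H589.O8.Od4

/-!
P180: the automorphisms of the simple orthogonal groups.
-/

set_option linter.all false

namespace Vale.Agent.P180.R2.H365.Oc

open Module Vale.Agent.P180 Vale.Agent.P180.R2.H799 Vale.Agent.P180.R2.H854
  Vale.Agent.P180.R2.H799.BS

theorem perfect_quot {L : Type} [Group L] (hL : commutator L = ⊤) :
    commutator (L ⧸ Subgroup.center L) = ⊤ := by
  have hf := QuotientGroup.mk'_surjective (Subgroup.center L)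
  rw [eq_top_iff, ← MonoidHom.range_eq_top.mpr hf, MonoidHom.range_eq_map, ← hL, commutator_def,
    Subgroup.map_commutator, ← MonoidHom.range_eq_map, MonoidHom.range_eq_top.mpr hf,
    ← commutator_def]

/-- the facts on the automorphisms of a simple orthogonal group -/
theorem out_pack {p d : ℕ} [Fact p.Prime] (hp2 : Odd p) {K : Type} [Field K] [Finite K]
    (hodd : Odd (Nat.card K)) (hK : 9 < Nat.card K) (h7 : 7 ≤ d) (h8 : p = 3 → d ≠ 8)
    {L : Type} [Group L] (hL : commutator L = ⊤) {B : (Fin d → K) → (Fin d → K) → K}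
    {X : Subgroup (SpecialLinearGroup K (Fin d → K))} {π : X →* L ⧸ Subgroup.center L}
    (hB : FormOn B (RingHom.id K) 1) (hX : IsoOn B X) (hπ : Function.Surjective π)
    (hker : ∀ x : X, π x = 1 → (x : SpecialLinearGroup K (Fin d → K)) ∈ Subgroup.center _) :
    OutPack p B π := by
  obtain ⟨f1, f2, -, -, f3', f4⟩ := hB
  obtain ⟨f5, f6, -⟩ := hX
  have f3 : ∀ x y, B y x = B x y := fun x y =>
    (f3' x y).trans (by rw [RingHom.id_apply, one_mul])
  have hfd : finrank K (Fin d → K) = d := by rw [Module.finrank_fin_fun]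
  have hT := perfect_quot hL
  have hZ := CC.center_quot hL
  refine ⟨fun α i hi => ?_, fun hno α i hi => ?_, 5, H589.O8.derived_le_conj_T hodd (by omega)
    (by rw [hfd]; exact h7) f1 f2 f3 f4 f5 f6 hπ hker hT hZ⟩
  · by_cases h3 : p = 3
    · obtain ⟨σ, c, g, -, h⟩ := H589.Oa.sim_of_aut hodd (by omega) (by rw [hfd]; exact h7)
        (by rw [hfd]; exact h8 h3) f1 f2 f3 f4 f5 f6 hπ hker hT hZ α
      exact ⟨σ, c, g, h⟩
    · obtain ⟨σ, c, g, -, h⟩ := H589.O8.sim_of_aut hodd (by omega) (by rw [hfd]; exact h7)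
        f1 f2 f3 f4 f5 f6 hπ hker hT hZ (coprime_six hp2 h3 i) hi
      exact ⟨σ, c, g, h⟩
  · have hc : (p ^ i).Coprime (Nat.card (K ≃+* K)) :=
      Nat.Coprime.pow_left _ ((Nat.Prime.coprime_iff_not_dvd Fact.out).mpr hno)
    by_cases h3 : p = 3
    · exact H589.Oa.inner_of_coprime_T hodd (by omega) (by rw [hfd]; exact h7)
        (by rw [hfd]; exact h8 h3) f1 f2 f3 f4 f5 f6 hπ hker hT hZ hp2.pow hc hi
    · exact H589.O8.inner_of_coprime_T hodd (by omega) (by rw [hfd]; exact h7)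
        f1 f2 f3 f4 f5 f6 hπ hker hT hZ (coprime_six hp2 h3 i) hc hi

end Vale.Agent.P180.R2.H365.Oc
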