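import Vale.Agent.P180.R2.H365.Def10
import Vale.Agent.P180.R2.H47.PairDef

/-!
P180: the classes `TameP` and `TamePair`.
-/

set_option linter.all false

namespace Vale.Agent.P180.R2.H365

open Vale.Agent.P180

namespace Y

theorem classForm_iff {p : ℕ} {K E : Type} [Field K] [AddCommGroup E] [Module K E] {θ : K →+* K}
    {X : Subgroup (SpecialLinearGroup K E)} : ClassForm p θ X ↔ ClassicalForm p K E θ X := by
  constructor
  · rintro ⟨B, ⟨⟨ε, a1⟩, ⟨a2, a3, a4⟩, a5⟩, a6⟩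
    refine ⟨B, ε, a1, a2, a3, ?_, a6⟩
    rcases a4 with a4 | a4
    · exact Or.inl a4
    · rcases a5 with a5 | a5
      · exact Or.inl a5
      · exact Or.inr ⟨a4, a5⟩
  · rintro ⟨B, ε, a1, a2, a3, a5, a6⟩
    exact ⟨B, ⟨⟨ε, a1⟩, ⟨a2, a3, a5.imp_right fun h => h.1⟩, a5.imp_right fun h => h.2⟩, a6⟩

theorem tameP_iff {p m : ℕ} {L : Type} [Group L] {A : Subgroup L} :
    TameP p m L A ↔ TamePair p m L A := by
  refine or_congr_right (or_congr_right ?_)
  constructor
  · rintro ⟨K, _, _, d, h0, hK, θ, X, π, h1, h2, h3, h4⟩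
    exact ⟨K, inferInstance, inferInstance, d, h0, hK, θ, X, π, h1.imp_right classForm_iff.mp,
      h2, h3, h4.imp_right fun h => ⟨h.1, h.2.imp_right fun h => ⟨h.1, h.2.imp_right fun h =>
        h.imp_left classForm_iff.mp⟩⟩⟩
  · rintro ⟨K, _, _, d, h0, hK, θ, X, π, h1, h2, h3, h4⟩
    exact ⟨K, inferInstance, inferInstance, d, h0, hK, θ, X, π, h1.imp_right classForm_iff.mpr,
      h2, h3, h4.imp_right fun h => ⟨h.1, h.2.imp_right fun h => ⟨h.1, h.2.imp_right fun h =>
        h.imp_left classForm_iff.mpr⟩⟩⟩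

theorem tameP_imp {p m : ℕ} {L : Type} [Group L] {A : Subgroup L} (h : TameP p m L A) :
    TamePair p m L A := tameP_iff.mp h

end Y

end Vale.Agent.P180.R2.H365
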