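import Vale.Agent.P180.R2.H365.SpA
import Vale.Agent.P180.R2.H589.Ux.Au8
import Vale.Agent.P180.R2.H471.Cu8

/-!
P180: components with `L / Z(L)` isomorphic to `PSU_d(K)`.
-/

set_option linter.all false

namespace Vale.Agent.P180.R2.H365

open Vale.Agent.P180 Vale.Agent.P180.R2.H47

universe u

namespace S

/-- the facts on components with `L / Z(L)` isomorphic to `PSU_d(K)` -/
theorem un_pack {d : ℕ} {K : Type} [Field K] [Finite K] (hK : 324 < Nat.card K)
    (hd : 3 ≤ d) {G : Type} [Group G] [Finite G] {L : Subgroup G} (hL : commutator L = ⊤)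
    {θ : K →+* K} (hθ : ∃ a, θ a ≠ a)
    {B : (Fin d → K) → (Fin d → K) → K} {X : Subgroup (SpecialLinearGroup K (Fin d → K))}
    {π : X →* L ⧸ Subgroup.center L} (hB : FormOn B θ 1) (hX : ∀ g, g ∈ X ↔ Pres B g)
    (hπ : Function.Surjective π) (hker : ∀ x : X, π x = 1 ↔ x.1 ∈ Subgroup.center _) :
    derivedSeries (MulAut (L ⧸ Subgroup.center L)) 2 ≤
      (MulAut.conj : L ⧸ Subgroup.center L →* MulAut (L ⧸ Subgroup.center L)).range ∧
    FPack d θ L := by
  have hfd : Module.finrank K (Fin d → K) = d := by rw [Module.finrank_fin_fun]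
  have hB' := hB
  obtain ⟨b1, b2, b3, b4, b5, b6⟩ := hB'
  obtain ⟨τ, hτ, hI, hH⟩ := H589.Un.exists_hm b3 hθ b1 b2 (fun x y => by rw [b5 x y, one_mul]) b6
  have hXe : ∀ g : SpecialLinearGroup K (Fin d → K), g ∈ X ↔ ∀ x y, B (g x) (g y) = B x y := hX
  have hF : 18 < Nat.card (H589.Un.FF τ) := by
    by_contra hcon
    have h3 := H589.Un.card_sq hI
    have h4 : Nat.card (H589.Un.FF τ) ^ 2 ≤ 18 ^ 2 := Nat.pow_le_pow_left (not_lt.mp hcon) 2
    omega
  obtain ⟨π', hπ', hcen⟩ := H471.Cu.exists_surj_un hI hH hF hXe hπ hker hL (MulEquiv.refl _)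
  have hcX : ∀ x : X, x ∈ Subgroup.center X ↔
      (x : SpecialLinearGroup K (Fin d → K)) ∈ Subgroup.center _ := by
    intro x
    constructor
    · intro hx
      rw [← hcen, Subgroup.mem_center_iff]
      intro y
      obtain ⟨y, rfl⟩ := hπ' y
      rw [← map_mul, ← map_mul, Subgroup.mem_center_iff.mp hx y]
    · intro hx
      rw [Subgroup.mem_center_iff] at hx ⊢
      intro y
      exact Subtype.ext (hx y)
  have hkT : π.ker = Subgroup.center X := by
    ext x
    rw [MonoidHom.mem_ker, hker, hcX]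
  have hkL : π'.ker ≤ Subgroup.center X := by
    intro x hx
    rw [hcX, ← hcen, MonoidHom.mem_ker.mp hx]
    exact Subgroup.one_mem _
  refine ⟨H589.Ux.derived_le_conj_T hI hH (by omega) (by omega) hXe hπ hkT, 1, B, X, π', hB,
    Or.inr (Or.inl hθ), hX, hπ', hcen, ?_, fun α _ _ _ => ?_⟩
  · intro r m hr hm hco hcd hrm
    refine mem_sup_of_inner hr ?_
    refine H589.Ux.inner_of_coprime_X hI hH (by omega) (by omega) hXe hπ' hkL hco
      (by rw [hfd]; exact hcd) (m := m) ?_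
    have h1 : (⟨r, hr⟩ : Subgroup.normalizer (L : Set G)) ^ m = 1 := Subtype.ext hrm
    rw [← map_pow, h1, map_one]
  · obtain ⟨σ, κ, g, g1, g2, g3, g4⟩ :=
      H589.Ux.ssim_of_aut hI hH (by omega) (by omega) hXe hπ' hkL α
    refine ⟨σ, κ, g, g.bijective, fun v w => map_add g v w, g2, g3, fun x => ?_⟩
    have hs : H589.Un.SSim B g σ κ := ⟨g2, g1, g3⟩
    let x' : H589.Un.SUG B :=
      ⟨((x : SpecialLinearGroup K (Fin d → K)) : (Fin d → K) ≃ₗ[K] (Fin d → K)),
        (hXe _).mp x.2, (x : SpecialLinearGroup K (Fin d → K)).2⟩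
    have hV : ∃ v : Fin d → K, v ≠ 0 := ⟨fun _ => 1, fun h =>
      one_ne_zero (congrFun h ⟨0, by omega⟩)⟩
    obtain ⟨y, hy⟩ := hs.exists_conjX hI hH (by omega) hV x'
    let y' : SpecialLinearGroup K (Fin d → K) := ⟨(y : _ ≃ₗ[K] _), MonoidHom.mem_ker.mp y.2.2⟩
    have hy' : y' ∈ X := (hXe _).mpr y.2.1
    exact ⟨⟨y', hy'⟩, hy, g4 x ⟨y', hy'⟩ hy⟩

end S

end Vale.Agent.P180.R2.H365
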