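import Vale.Agent.P180.R2.H365.Def10
import Vale.Agent.P180.R2.H47.PairB
import Vale.Agent.P180.R2.H47.PairDef

/-!
P180: tame pairs of classical groups whose central `p`-elements are trivial.
-/

set_option linter.all false

namespace Vale.Agent.P180.R2.H365.Y

open Vale.Agent.P180 Vale.Agent.P180.R2.H47

theorem rootIn_id {p : ℕ} [hp : Fact p.Prime] {K : Type} [Field K] [Finite K] :
    RootIn p (RingHom.id K) ↔ p ∣ Nat.card K - 1 := by
  constructor
  · rintro ⟨ζ, h1, h2, -⟩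
    have h0 : ζ ≠ 0 := by
      rintro rfl
      rw [zero_pow hp.out.ne_zero] at h1
      exact zero_ne_one h1
    have h3 : orderOf ζ = p := orderOf_eq_prime h1 h2
    rw [← h3]
    refine orderOf_dvd_of_pow_eq_one ?_
    classical
    have _ := Fintype.ofFinite K
    have h4 := FiniteField.pow_card_sub_one_eq_one ζ h0
    rwa [← Nat.card_eq_fintype_card] at h4
  · intro hpK1
    classical
    have _ := Fintype.ofFinite K
    have h3 : p ∣ Nat.card Kˣ := by
      rw [Nat.card_units]; exact hpK1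
    obtain ⟨u, hu⟩ := exists_prime_orderOf_dvd_card' p h3
    refine ⟨u, ?_, ?_, rfl⟩
    · have h4 : u ^ p = 1 := by rw [← hu]; exact pow_orderOf_eq_one u
      have h5 := congrArg Units.val h4
      rwa [Units.val_pow_eq_pow_val] at h5
    · intro h4
      have h5 : u = 1 := Units.ext h4
      rw [h5, orderOf_one] at hu
      exact hp.out.one_lt.ne hu

/-- the general form -/
theorem tame_gen {p m d : ℕ} [hp : Fact p.Prime] {K : Type} [Field K] [Finite K] (hd : 0 < d)
    (hpK : ¬ p ∣ Nat.card K) {L : Type} [Group L] {θ : K →+* K}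
    {X : Subgroup (SpecialLinearGroup K (Fin d → K))} {π : X →* L}
    (hcl : ClassOn p θ X) (hπ : Function.Surjective π)
    (hcen : ∀ x : X, π x ∈ Subgroup.center L → x.1 ∈ Subgroup.center _)
    (ht : ∀ (z : X) (i : ℕ), z ^ (p ^ i) = 1 → z.1 ∈ Subgroup.center _ → z = 1)
    {A : Subgroup L}
    (h : d < p ∨ ((∀ x ∈ A, ∀ y ∈ A, x * y * x⁻¹ * y⁻¹ ∈ Subgroup.center L) ∧
      (d ≤ m ∨ (RootIn p θ ∧ (¬ p ∣ d ∨ ClassForm p θ X))))) : TameP p m L A := by
  refine Or.inr (Or.inr ⟨K, inferInstance, inferInstance, d, hd, hpK, θ, X, π, hcl, hπ,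
    hcen, ?_⟩)
  rcases h with h | ⟨ha, h1⟩
  · exact Or.inl h
  refine Or.inr ⟨?_, h1.imp_right fun h => ⟨h.1, h.2.imp_right Or.inl⟩⟩
  rintro x y - ⟨i, hi⟩ hxA hyA
  have h3 := ha _ hxA _ hyA
  rw [← map_inv, ← map_inv, ← map_mul, ← map_mul, ← map_mul] at h3
  have h4 := hcen _ h3
  obtain ⟨z, hz⟩ : ∃ z, z = x * y * x⁻¹ * y⁻¹ := ⟨_, rfl⟩
  rw [← hz] at h4
  have e1 : x * y * x⁻¹ = z * y := by rw [hz]; group
  have hc : Commute z y := Subtype.ext (Subgroup.mem_center_iff.mp h4 y.1).symm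
  have h5 : z ^ (p ^ i) = 1 := by
    have h2 : (x * y * x⁻¹) ^ (p ^ i) = 1 := by
      rw [conj_pow, hi, mul_one, mul_inv_cancel]
    rwa [e1, hc.mul_pow, hi, mul_one] at h2
  have h6 : z = 1 := ht z i h5 h4
  rw [h6, one_mul] at e1
  calc x * y = x * y * x⁻¹ * x := by group
    _ = y * x := by rw [e1]

end Vale.Agent.P180.R2.H365.Y
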