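import Vale.Agent.P180.R2.H365.SpA
import Vale.Agent.P180.R2.H365.TmG
import Vale.Agent.P180.R2.H471.Is5
import Vale.Agent.P180.R2.H799.CC1

/-!
P180: components with `L / Z(L)` isomorphic to `PSp_d(K)` or `PSU_d(K)`: the pairs.
-/

set_option linter.all false

namespace Vale.Agent.P180.R2.H365

open Vale.Agent.P180 Vale.Agent.P180.R2.H47 Vale.Agent.P180.H768.Gd
open Vale.Agent.P180.H768 hiding pull mem_pull exists_factor Lay mk_mem comm_mem

universe u

namespace S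

theorem card_form_le {d : ℕ} {K : Type} [Field K] [Finite K] {T : Type} [Group T]
    {X : Subgroup (SpecialLinearGroup K (Fin d → K))} {π : X →* T}
    (hπ : Function.Surjective π) : Nat.card T ≤ Nat.card K ^ (d * d) := by
  have h1 : Nat.card (Matrix (Fin d) (Fin d) K) = Nat.card K ^ (d * d) := by
    rw [Matrix, Nat.card_pi, Finset.prod_const, Nat.card_pi, Finset.prod_const, ← pow_mul]
    simp
  have h2 : Finite (Matrix (Fin d) (Fin d) K) := inferInstanceAs (Finite (Fin d → Fin d → K))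
  have hfG : Finite (SpecialLinearGroup K (Fin d → K)) := H799.BN.finite_sl
  let ε : Matrix.SpecialLinearGroup (Fin d) K ≃* SpecialLinearGroup K (Fin d → K) :=
    Matrix.SpecialLinearGroup.toLin'_equiv
  have h3 : Nat.card (SpecialLinearGroup K (Fin d → K)) ≤ Nat.card K ^ (d * d) := by
    rw [← Nat.card_congr ε.toEquiv, ← h1]
    exact Nat.card_le_card_of_injective _
      (Subtype.val_injective (p := fun A : Matrix (Fin d) (Fin d) K => A.det = 1))
  refine (Nat.card_le_card_of_surjective π hπ).trans (le_trans ?_ h3)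
  exact Nat.card_le_card_of_injective _ (Subtype.val_injective (p := fun x => x ∈ X))

/-- a scalar isometry of `p`-power order is trivial for linear `p` -/
theorem scalar_one {p d : ℕ} [hp : Fact p.Prime] {K : Type} [Field K] [Finite K]
    (hpK : ¬ p ∣ Nat.card K) {θ : K →+* K} (hlin : LinPr p θ) {ε : K}
    {B : (Fin d → K) → (Fin d → K) → K} (hB : FormOn B θ ε) (hd : 0 < d)
    {z : SpecialLinearGroup K (Fin d → K)} (hz : Pres B z) (hc : z ∈ Subgroup.center _) {i : ℕ}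
    (hi : z ^ (p ^ i) = 1) : z = 1 := by
  obtain ⟨c, -, h1⟩ := SpecialLinearGroup.mem_center_iff.mp hc
  have h2 : ∀ x, z x = c • x := fun x => LinearMap.congr_fun h1 x
  obtain ⟨b1, b2, b3, b4, b5, b6⟩ := hB
  obtain ⟨x, hx⟩ : ∃ x : Fin d → K, x ≠ 0 := ⟨fun _ => 1, fun h =>
    one_ne_zero (congrFun h ⟨0, hd⟩)⟩
  have h3 : c * θ c = 1 := by
    have h4 : ∃ y, B x y ≠ 0 := by
      by_contra hcon
      push Not at hcon
      exact hx (b6 x hcon)
    obtain ⟨y, hy⟩ := h4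
    have h5 : B (z x) (z y) = B x y := hz x y
    have h6 : B x (c • y) = θ c * B x y := by
      rw [b5 (c • y) x, b2, map_mul, b5 y x]
      ring
    rw [h2, h2, b2, h6] at h5
    have h6 : (c * θ c - 1) * B x y = 0 := by linear_combination h5
    have h7 := (mul_eq_zero.mp h6).resolve_right hy
    linear_combination h7
  have hpow : ∀ (j : ℕ) (v : Fin d → K), (z ^ j) v = c ^ j • v := by
    intro j
    induction j with
    | zero => intro v; rw [pow_zero, pow_zero, one_smul]; rfl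
    | succ j ih =>
      intro v
      rw [pow_succ, SpecialLinearGroup.coe_mul]
      change (z ^ j) (z v) = _
      rw [h2, ih, smul_smul, pow_succ]
  have h4 : c ^ p ^ i = 1 := by
    have h5 := hpow (p ^ i) x
    rw [hi] at h5
    have h6 : x = c ^ p ^ i • x := h5
    have h7 : (c ^ p ^ i - 1) • x = 0 := by rw [sub_smul, ← h6, one_smul, sub_self]
    rcases smul_eq_zero.mp h7 with h8 | h8
    · exact sub_eq_zero.mp h8
    · exact absurd h8 hx
  have h5 := H954.Hc.eq_one_of_norm hp.out hpK θ b3 hlin h4 h3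
  ext v
  rw [h2, h5, one_smul, SpecialLinearGroup.coe_one]
  rfl

/-- the pairs in a covering group of `PSp_d(K)` or `PSU_d(K)` -/
theorem tame_form {p m d : ℕ} [hp : Fact p.Prime] {K : Type} [Field K] [Finite K] (hd : 0 < d)
    (hpK : ¬ p ∣ Nat.card K) {θ : K →+* K} (hlin : LinPr p θ)
    {L : Type} [Group L] {ε : K} {B : (Fin d → K) → (Fin d → K) → K}
    {X : Subgroup (SpecialLinearGroup K (Fin d → K))} {π : X →* L}
    (hB : FormOn B θ ε) (hgood : Odd (Nat.card K) ∨ (∃ a, θ a ≠ a) ∨ ∀ x, B x x = 0) (hX : ∀ g, g ∈ X ↔ Pres B g) (hπ : Function.Surjective π)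
    (hcen : ∀ x : X, π x ∈ Subgroup.center L ↔ x.1 ∈ Subgroup.center _) {A : Subgroup L}
    (h : d < p ∨ ((∀ x ∈ A, ∀ y ∈ A, x * y * x⁻¹ * y⁻¹ ∈ Subgroup.center L) ∧
      (d ≤ m ∨ RootIn p θ))) : TameP p m L A := by
  have hF : ClassForm p θ X := ⟨B, ⟨⟨ε, hB⟩, ⟨fun g hg => (hX g).mp hg,
    fun g h hg _ hg' _ => absurd ((hX g).mpr hg') hg, Or.inr fun g hg => (hX g).mpr hg⟩, hgood⟩,
    hlin⟩
  refine Y.tame_gen hd hpK (Or.inr hF) hπ (fun x hx => (hcen x).mp hx) ?_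
    (h.imp_right fun h => ⟨h.1, h.2.imp_right fun h => ⟨h, Or.inr hF⟩⟩)
  intro z i hz hc
  exact Subtype.ext (scalar_one hpK hlin hB hd ((hX _).mp z.2) hc (i := i)
    (by rw [← Subgroup.coe_pow, hz]; rfl))

open Vale.Agent.P180.R2.H854 in
/-- the class of `SimOn` -/
theorem simOn_imp {c : Prop} {p : ℕ} [hp : Fact p.Prime] {G : Type}
    [Group G] [Finite G] {D L : Subgroup G} (h : SimOn c p L (Gam D L)) :
    H799.BS.SemiIso p D L ∨ (c ∧ H471.Is.IsoSim p D L) := by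
  obtain ⟨K, _, _, d, hd, B, θ, X, π, ⟨⟨ε, f1, f2, f3, f4, f5, f6⟩, ⟨i1, i2, i3⟩, hgood⟩,
    ⟨hπ, hc, hact⟩, hd4, hor⟩ := h
  let Φ : HForm K (Fin d → K) :=
    { B := B, θ := θ, ε := ε, add_left := f1, smul_left := f2, θθ := f3, εε := f4, symm := f5,
      nondeg := f6 }
  have hXI : X ≤ Φ.Iso := i1
  have hX2 : X.relIndex Φ.Iso ∣ 2 :=
    H799.CC.relIndex_of_two fun g hg g' hg' hgX hgX' => i2 g g' hgX hgX' hg hg'
  have hG : Φ.GoodX X := by
    rcases i3 with h | h1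
    · exact Or.inl h
    · rcases hgood with h2 | h2
      · exact Or.inl h2
      · exact Or.inr ⟨le_antisymm hXI h1, h2⟩
  have hd4' : 4 ≤ d ∨ (3 ≤ d ∧ ∃ a, Φ.θ a ≠ a) := hd4.imp_right fun h => ⟨hd, h⟩
  have hact' : ∀ r ∈ D, (∀ s ∈ L, r * s * r⁻¹ ∈ L) →
      ∃ (σ : K ≃+* K) (g : (Fin d → K) → (Fin d → K)), H799.BS.ActX Φ π r σ g := by
    intro r hr hn
    have hrN : r ∈ Subgroup.normalizer (L : Set G) := by
      have h1 : ∀ j : ℕ, ∀ s ∈ L, r ^ j * s * (r ^ j)⁻¹ ∈ L := by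
        intro j
        induction j with
        | zero => intro s hs; simpa using hs
        | succ j ih =>
          intro s hs
          have h2 := hn _ (ih s hs)
          have e : r * (r ^ j * s * (r ^ j)⁻¹) * r⁻¹ = r ^ (j + 1) * s * (r ^ (j + 1))⁻¹ := by
            rw [pow_succ']; group
          rwa [e] at h2
      rw [Subgroup.mem_normalizer_iff]
      intro s
      constructor
      · exact fun hs => hn s hs
      · intro hs
        have h3 := h1 (orderOf r - 1) _ hs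
        have e : r ^ (orderOf r - 1) = r⁻¹ := by
          rw [eq_inv_iff_mul_eq_one, ← pow_succ, Nat.sub_add_cancel (orderOf_pos r),
            pow_orderOf_eq_one]
        rw [e] at h3
        have e2 : r⁻¹ * (r * s * r⁻¹) * (r⁻¹)⁻¹ = s := by group
        rwa [e2] at h3
    obtain ⟨σ, c, g, g1, g2, g3, g4, g5⟩ := hact (L.normalizerMonoidHom ⟨r, hrN⟩)
      ⟨⟨r, hrN⟩, hr, rfl⟩
    refine ⟨σ, g, ⟨g1, g2, g3⟩, ⟨c, g4⟩, fun x => ?_⟩
    obtain ⟨y, hy, hy'⟩ := g5 x
    exact ⟨y, hy, congrArg Subtype.val hy'⟩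
  rcases hor with ⟨hdp, hζ⟩ | ⟨hc', hpK, hlin⟩
  · left
    have hk : π.ker.map X.subtype ≤ Subgroup.center _ := by
      rintro _ ⟨x, hx, rfl⟩
      apply hc
      rw [MonoidHom.mem_ker.mp hx]
      exact Subgroup.one_mem _
    have hpo : Odd p := by
      refine hp.out.odd_of_ne_two ?_
      omega
    exact ⟨K, inferInstance, inferInstance, d, Φ, X, π, hpo, hG, hζ, hXI, hX2, hπ, hk, hdp, hd4',
      hact'⟩
  · exact Or.inr ⟨hc', K, inferInstance, inferInstance, d, Φ, X, π, hG, hpK, hlin, hXI, hX2, hπ,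
      hc, hd4', hact'⟩

/-- `PSp_d(K)` and `PSU_d(K)`: the action is by semilinear similitudes -/
theorem form_sim {c : Prop} {p d : ℕ} [hp : Fact p.Prime] {K : Type} [Field K] [Finite K]
    {θ : K →+* K} (hd3 : 3 ≤ d) (hd4 : 4 ≤ d ∨ ∃ a, θ a ≠ a)
    (h : (d < p ∧ RootIn p θ) ∨ (c ∧ ¬ p ∣ Nat.card K ∧ LinPr p θ))
    {L : Type} [Group L] (Γ : Subgroup (MulAut L)) {ε : K}
    {B : (Fin d → K) → (Fin d → K) → K} {X : Subgroup (SpecialLinearGroup K (Fin d → K))}
    {π : X →* L} (hB : FormOn B θ ε)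
    (hgood : Odd (Nat.card K) ∨ (∃ a, θ a ≠ a) ∨ ∀ x, B x x = 0) (hX : ∀ g, g ∈ X ↔ Pres B g)
    (hπ : Function.Surjective π)
    (hcen : ∀ x : X, π x ∈ Subgroup.center L ↔ x.1 ∈ Subgroup.center _)
    (hsim : ∀ α ∈ Γ, ∃ (σ : K ≃+* K) (c : K) (g : (Fin d → K) → (Fin d → K)),
      Function.Bijective g ∧ (∀ v w, g (v + w) = g v + g w) ∧
      (∀ (a : K) v, g (a • v) = σ a • g v) ∧ (∀ v w, B (g v) (g w) = c * σ (B v w)) ∧
      ∀ x : X, ∃ y : X, (∀ v, g (ap x.1 v) = ap y.1 (g v)) ∧ α (π x) = π y) :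
    SimOn c p L Γ :=
  ⟨K, inferInstance, inferInstance, d, hd3, B, θ, X, π,
    ⟨⟨ε, hB⟩, ⟨fun g hg => (hX g).mp hg,
      fun g h hg _ hg' _ => absurd ((hX g).mpr hg') hg, Or.inr fun g hg => (hX g).mpr hg⟩, hgood⟩,
    ⟨hπ, fun x hx => (hcen x).mp hx, hsim⟩, hd4, h⟩

end S

end Vale.Agent.P180.R2.H365
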