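import Vale.Agent.P180.R2.H365.Def10
import Vale.Agent.P180.R2.H365.OcB
import Vale.Agent.P180.R2.H799.CC1
import Vale.Agent.P180.R2.H799.BY2
import Vale.Agent.P180.R2.H589.Sec

/-!
P180: components with `L / Z(L)` an orthogonal group of dimension less than `p`.
-/

set_option linter.all false

namespace Vale.Agent.P180.R2.H365.Oc

open Module Vale.Agent.P180 Vale.Agent.P180.H768.Gd Vale.Agent.P180.R2.H799
  Vale.Agent.P180.R2.H854 Vale.Agent.P180.R2.H799.BS

universe u

theorem coprime_six {p : ℕ} [Fact p.Prime] (hp2 : Odd p) (h3 : p ≠ 3) (i : ℕ) :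
    (p ^ i).Coprime 6 := by
  have hp : p.Prime := Fact.out
  refine Nat.Coprime.pow_left _ ((Nat.Prime.coprime_iff_not_dvd hp).mpr fun h => ?_)
  have h1 : p ∣ 2 * 3 := h
  rcases hp.dvd_mul.mp h1 with h2 | h2
  · have h4 := (Nat.prime_dvd_prime_iff_eq hp Nat.prime_two).mp h2
    rw [h4] at hp2
    exact absurd hp2 (by decide)
  · exact h3 ((Nat.prime_dvd_prime_iff_eq hp Nat.prime_three).mp h2)

/-- `α` acts on the quotient `T` of `X` by a semilinear similitude. -/
def SimB {K E T : Type} [Field K] [AddCommGroup E] [Module K E] [Group T] (B : E → E → K)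
    {X : Subgroup (SpecialLinearGroup K E)} (π : X →* T) (α : MulAut T) : Prop :=
  ∃ (σ : K ≃+* K) (c : K) (g : E → E), Function.Bijective g ∧
    (∀ v w, g (v + w) = g v + g w) ∧ (∀ (a : K) v, g (a • v) = σ a • g v) ∧
    (∀ v w, B (g v) (g w) = c * σ (B v w)) ∧
    ∀ x : X, ∃ y : X, (∀ v, g (ap x.1 v) = ap y.1 (g v)) ∧ α (π x) = π y

/-- the facts on the automorphisms of `p`-power order of the simple group `T` -/
def OutPack (p : ℕ) {K E T : Type} [Field K] [AddCommGroup E] [Module K E] [Group T]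
    (B : E → E → K) {X : Subgroup (SpecialLinearGroup K E)} (π : X →* T) : Prop :=
  (∀ (α : MulAut T) (i : ℕ), α ^ p ^ i = 1 → SimB B π α) ∧
  (¬ p ∣ Nat.card (K ≃+* K) → ∀ (α : MulAut T) (i : ℕ), α ^ p ^ i = 1 →
    α ∈ (MulAut.conj : T →* MulAut T).range) ∧
  ∃ l, derivedSeries (MulAut T) l ≤ (MulAut.conj : T →* MulAut T).range

theorem isPGroup_Gam {p : ℕ} {G : Type} [Group G] {D L : Subgroup G} (hD : IsPGroup p D) :
    IsPGroup p (Gam D L) :=
  (hD.comap_of_injective (Subgroup.normalizer (L : Set G)).subtype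
    (Subgroup.subtype_injective _)).map _

theorem pow_of_pgroup {p : ℕ} {A : Type} [Group A] {Γ : Subgroup A} (hΓ : IsPGroup p Γ) {α : A}
    (hα : α ∈ Γ) : ∃ i, α ^ p ^ i = 1 := by
  obtain ⟨i, hi⟩ := hΓ ⟨α, hα⟩
  exact ⟨i, congrArg Subtype.val hi⟩

theorem sup_of_Gam {G : Type} [Group G] {D L : Subgroup G}
    (h2 : Gam D L ≤ (MulAut.conj : L →* MulAut L).range) :
    D ⊓ Subgroup.normalizer (L : Set G) ≤ L ⊔ Subgroup.centralizer (L : Set G) := by
  rintro d ⟨hd, hdN⟩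
  obtain ⟨s, hs⟩ := h2 ⟨⟨d, hdN⟩, hd, rfl⟩
  have h3 : ((s : L) : G)⁻¹ * d ∈ Subgroup.centralizer (L : Set G) := by
    rw [Subgroup.mem_centralizer_iff]
    intro l hl
    have h4 : d * l * d⁻¹ = (s : G) * l * (s : G)⁻¹ :=
      (congrArg (fun α : MulAut L => ((α ⟨l, hl⟩ : L) : G)) hs).symm
    calc l * (((s : L) : G)⁻¹ * d) = ((s : L) : G)⁻¹ * ((s : G) * l * (s : G)⁻¹) * d := by
          group
      _ = ((s : L) : G)⁻¹ * (d * l * d⁻¹) * d := by rw [h4]
      _ = ((s : L) : G)⁻¹ * d * l := by group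
  have h5 : d = (s : G) * (((s : L) : G)⁻¹ * d) := by group
  rw [h5]
  exact Subgroup.mul_mem_sup s.2 h3

/-- automorphisms which are inner modulo the centre are inner -/
theorem inner_of_quot {L : Type} [Group L] (hL : commutator L = ⊤) {α : MulAut L}
    (h : H589.autQ α ∈ (MulAut.conj : L ⧸ Subgroup.center L →*
      MulAut (L ⧸ Subgroup.center L)).range) : α ∈ (MulAut.conj : L →* MulAut L).range := by
  rw [← H589.autQ_conj] at h
  obtain ⟨_, ⟨y, rfl⟩, hy⟩ := h
  exact ⟨y, H589.autQ_injective hL hy⟩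

section

variable {K E : Type} [Field K] [AddCommGroup E] [Module K E] [FiniteDimensional K E] [Finite K]

/-- **Covering groups of orthogonal groups**, with an action by semilinear similitudes. -/
theorem parOut_orth {p : ℕ} [Fact p.Prime] (hp2 : Odd p) (hd : finrank K E < p)
    (h4 : 4 ≤ finrank K E) (hodd : Odd (Nat.card K)) (hK : 9 < Nat.card K)
    (hζ : RootIn p (RingHom.id K)) {L : Type} [Group L] [Finite L] (hL : commutator L = ⊤)
    {B : E → E → K} {X : Subgroup (SpecialLinearGroup K E)} {π : X →* L ⧸ Subgroup.center L}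
    (hB : FormOn B (RingHom.id K) 1) (hX : IsoOn B X) (hπ : Function.Surjective π)
    (hker : ∀ x : X, π x = 1 → (x : SpecialLinearGroup K E) ∈ Subgroup.center _)
    {Γ : Subgroup (MulAut L)} (hΓ : IsPGroup p Γ)
    (hsim : ∀ α ∈ Γ, SimB B π (H589.autQ α)) : ParOut p L Γ := by
  obtain ⟨f1, f2, g1, g2, f3', f4⟩ := hB
  obtain ⟨f5, f6, -⟩ := hX
  have hp : p.Prime := Fact.out
  have f3 : ∀ x y, B y x = B x y := fun x y =>
    (f3' x y).trans (by rw [RingHom.id_apply, one_mul])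
  let Φ : HForm K E :=
    { B := B, θ := RingHom.id K, ε := 1, add_left := f1, smul_left := f2, θθ := g1, εε := g2,
      symm := f3', nondeg := f4 }
  have hXI : X ≤ Φ.Iso := f5
  have hX2 : X.relIndex Φ.Iso ∣ 2 :=
    CC.relIndex_of_two fun g hg g' hg' hgX hgX' => f6 g g' hgX hgX' hg hg'
  have hgood : Φ.GoodX X := Or.inl hodd
  obtain ⟨ζ, hζ, hζ1, hζθ⟩ := hζ
  have hcen := CC.center_quot hL
  have hsq : ∀ g : SpecialLinearGroup K E, (∀ x y, B (g x) (g y) = B x y) → g ^ 2 ∈ X := by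
    intro g hg
    rw [sq]
    by_cases hgX : g ∈ X
    · exact X.mul_mem hgX hgX
    · exact f6 g g hgX hgX hg hg
  have hrk := H589.Or.coprime_center hodd hK f1 f2 f3 f4 f5 hsq hL π hπ hker
  have hkk : (QuotientGroup.mk' (Subgroup.center L)).ker = Subgroup.center L :=
    QuotientGroup.ker_mk' _
  have hpk := H259.Cen.not_dvd_center (Φ := Φ) hp2 hgood hXI hX2 hζ hζ1 hζθ hd hL
    (QuotientGroup.mk'_surjective (Subgroup.center L)) hkk.le π hπ
  refine H259.Cen.parOut_lift (QuotientGroup.mk'_surjective (Subgroup.center L)) hkk.le hL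
    (by rw [hkk]; exact hpk) (Γ := Γ) (Γ₁ := Γ.map H589.autQ) ?_
    (parOutZ_form (Φ := Φ) hp2 hζ hζ1 hζθ hgood hXI hX2 (by omega) (Or.inl h4) hd hπ ?_
      (by rw [hkk]; exact hrk) (hΓ.map _) ?_)
  · intro α hα
    exact ⟨H589.autQ α, ⟨α, hα, rfl⟩, fun s => rfl⟩
  · intro x hx
    rw [hcen, Subgroup.mem_bot] at hx
    exact hker x hx
  · rintro _ ⟨α, hα, rfl⟩
    obtain ⟨σ, c, g, g1, g2, g3, g4, g5⟩ := hsim α hα
    exact ⟨σ, g, ⟨g1, g2, g3⟩, ⟨c, g4⟩, fun x => g5 x⟩

/-- **Covering groups of orthogonal groups of dimension less than `p`**: the corner property. -/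
theorem cor_orth {p n : ℕ} [Fact p.Prime] {k : Type u} [Field k] [IsAlgClosed k] [CharP k p]
    {d : ℕ} (hd : d < p) (h4 : 4 ≤ d) {K : Type} [Field K] [Finite K]
    (hodd : Odd (Nat.card K)) (hK : 9 < Nat.card K) (hpK : ¬ p ∣ Nat.card K)
    (hlin : LinPr p (RingHom.id K))
    (hζ : RootIn p (RingHom.id K) ∨ ¬ p ∣ Nat.card (K ≃+* K)) {G : Type} [Group G] [Finite G]
    {D L : Subgroup G} (hD : IsPGroup p D) (hDn : Nat.card D ≤ n) (hL : commutator L = ⊤)
    {B : (Fin d → K) → (Fin d → K) → K} {X : Subgroup (SpecialLinearGroup K (Fin d → K))}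
    {π : X →* L ⧸ Subgroup.center L} (hB : FormOn B (RingHom.id K) 1) (hX : IsoOn B X)
    (hπ : Function.Surjective π)
    (hker : ∀ x : X, π x = 1 → (x : SpecialLinearGroup K (Fin d → K)) ∈ Subgroup.center _)
    (hout : OutPack p B π) (b : MonoidAlgebra k G) :
    SolvOut L ∧ CorP p (max (bO n) (max (H799.BN.bnB n) (BZ.bdL p (CB.lvM p) n))) b D L := by
  have hp : p.Prime := Fact.out
  have hp2 : Odd p := H954.Hc.odd_of_lin hp hpK (RingHom.id K) hlin
  have hfd : finrank K (Fin d → K) = d := by rw [Module.finrank_fin_fun]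
  refine ⟨hout.2.2.imp fun l hl => H589.solvOut_of_quot hL hl, ?_⟩
  rcases hζ with hζ | hno
  · refine (BY.corP_parOut hD hDn (parOut_orth hp2 (by rw [hfd]; exact hd) (by rw [hfd]; exact h4)
      hodd hK hζ hL hB hX hπ hker (isPGroup_Gam hD) fun α hα => ?_) b).mono (le_max_left _ _)
    obtain ⟨i, hi⟩ := pow_of_pgroup ((isPGroup_Gam hD).map H589.autQ) ⟨α, hα, rfl⟩
    exact hout.1 _ i hi
  · refine (CC.corP_cover hD hDn ⟨hL, K, inferInstance, inferInstance, d, Or.inl rfl, hd, hpK, hodd,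
      hK, hlin, B, X, π, hB, hX, hπ, fun x hx => ?_, fun α hα => ?_⟩ ?_ b).mono (le_max_right _ _)
    · rw [CC.center_quot hL, Subgroup.mem_bot] at hx
      exact hker x hx
    · rw [Subgroup.mem_bot.mp hα]
      exact ⟨RingEquiv.refl K, 1, id, Function.bijective_id, fun _ _ => rfl, fun _ _ => rfl,
        fun _ _ => (one_mul _).symm, fun x => ⟨x, fun _ => rfl, rfl⟩⟩
    refine sup_of_Gam fun α hα => inner_of_quot hL ?_
    obtain ⟨i, hi⟩ := pow_of_pgroup ((isPGroup_Gam hD).map H589.autQ) ⟨α, hα, rfl⟩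
    exact hout.2.1 hno _ i hi

end

end Vale.Agent.P180.R2.H365.Oc
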