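import Vale.Agent.P180.R2.H365.LocP2
import Vale.Agent.P180.R2.H365.TmP
import Vale.Agent.P180.R2.H365.Act
import Vale.Agent.P180.R2.H365.UnA
import Vale.Agent.P180.R2.H365.InnB
import Vale.Agent.P180.R2.H365.OcD
import Vale.Agent.P180.R2.H47.Pair
import Vale.Agent.P180.R2.H47.Bm9
import Vale.Agent.P180.R2.H471.El5
import Vale.Agent.P180.R2.H799.BS15
import Vale.Agent.P180.R2.H799.BY2
import Vale.Agent.P180.R2.H799.CD4
import Vale.Agent.P180.R2.H799.CG1
import Vale.Agent.P180.R2.H799.CH3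
import Vale.Agent.P180.R2.H799.CH4
import Vale.Agent.P180.R2.H471.Os6
import Vale.Agent.P180.R2.H259.Loc.Size
import Vale.Agent.P180.R2.H259.Loc.Cls
import Vale.Agent.P180.R2.H259.Loc.QdC
import Vale.Agent.P180.R2.H589.Sch.Main
import Vale.Agent.P180.R2.H589.Bt.Out3

/-!
P180: the local theorem for reduced groups, with the classes of components with small source
idempotents (3).
-/

set_option linter.all false

namespace Vale.Agent.P180.R2.H365

open Vale.Agent.P180 Vale.Agent.P180.H768.Gd Vale.Agent.P180.R2.H47 Vale.Agent.P180.R2.H954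
  Vale.Agent.P180.R2.H667
open Vale.Agent.P180.R2.H799 (NN)
open Vale.Agent.P180.H768 hiding pull mem_pull exists_factor Lay mk_mem comm_mem

open scoped Nat

universe u

namespace Y

theorem card_lin_le (d : ℕ) (K : Type) [Field K] [Finite K] {T : Type} [Group T] [Finite T]
    (h : IsLin d K T) : Nat.card T ≤ Nat.card K ^ (d * d) := by
  obtain ⟨e⟩ := h
  have h1 : Nat.card (Matrix (Fin d) (Fin d) K) = Nat.card K ^ (d * d) := by
    rw [Matrix, Nat.card_pi, Finset.prod_const, Nat.card_pi, Finset.prod_const, ← pow_mul]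
    simp
  have h2 : Finite (Matrix (Fin d) (Fin d) K) := inferInstanceAs (Finite (Fin d → Fin d → K))
  rw [Nat.card_congr e.toEquiv, ← h1]
  refine (Nat.card_le_card_of_surjective _ (QuotientGroup.mk'_surjective _)).trans ?_
  exact Nat.card_le_card_of_injective _
    (Subtype.val_injective (p := fun A : Matrix (Fin d) (Fin d) K => A.det = 1))

theorem perfect_lin {d : ℕ} {K : Type} [Field K] [Finite K] (hd : 2 ≤ d) (hK : 9 < Nat.card K) :
    commutator (SpecialLinearGroup K (Fin d → K)) = ⊤ := by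
  let ε : Matrix.SpecialLinearGroup (Fin d) K ≃* SpecialLinearGroup K (Fin d → K) :=
    Matrix.SpecialLinearGroup.toLin'_equiv
  have h1 : commutator (Matrix.SpecialLinearGroup (Fin d) K) = ⊤ :=
    H589.Sch.sl_perfect (by omega) (by omega)
  have h2 := congrArg (Subgroup.map ε.toMonoidHom) h1
  rw [commutator_def, Subgroup.map_commutator, Subgroup.map_top_of_surjective _ ε.surjective] at h2
  rw [commutator_def]
  exact h2

theorem card_lin_one {d : ℕ} (hd : d < 2) {K : Type} [Field K] {T : Type} [Group T]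
    (h : IsLin d K T) : Nat.card T ≤ 1 := by
  obtain ⟨e⟩ := h
  have : Subsingleton (Fin d) := by
    constructor
    intro a b
    apply Fin.ext
    omega
  have h1 : Subsingleton (Matrix.SpecialLinearGroup (Fin d) K ⧸
      Subgroup.center (Matrix.SpecialLinearGroup (Fin d) K)) :=
    (QuotientGroup.mk'_surjective _).subsingleton
  rw [Nat.card_congr e.toEquiv]
  exact (Nat.card_of_subsingleton 1).le

/-- the constant -/
def cD (p m : ℕ) : ℕ := 324 ^ (max p m * max p m)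

theorem cD_bound {p m d K₀ T₀ : ℕ} (h : T₀ ≤ K₀ ^ (d * d)) (hK : K₀ ≤ 324) (hd0 : 0 < d)
    (hd : d ≤ max p m) : T₀ ≤ cD p m := by
  refine h.trans ((Nat.pow_le_pow_left hK _).trans ?_)
  exact Nat.pow_le_pow_right (by omega) (Nat.mul_le_mul hd hd)

/-- central `p`-elements of a special linear group -/
theorem cen_one {p d : ℕ} [Fact p.Prime] {K : Type} [Field K] [Finite K]
    (hg : ¬ p ∣ Nat.gcd d (Nat.card K - 1)) (hd : 2 ≤ d)
    {z : SpecialLinearGroup K (Fin d → K)} {i : ℕ} (h1 : z ^ (p ^ i) = 1)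
    (h : z ∈ Subgroup.center (SpecialLinearGroup K (Fin d → K))) : z = 1 := by
  have h2 : z ^ d = 1 := by
    classical
    let e := SpecialLinearGroup.centerEquivRootsOfUnity (R := K) (V := Fin d → K)
    have h3 : (e ⟨z, h⟩) ^ (max (Module.finrank K (Fin d → K)) 1) = 1 :=
      Subtype.ext (e ⟨z, h⟩).2
    rw [← map_pow, MulEquiv.map_eq_one_iff] at h3
    have h4 : z ^ (max (Module.finrank K (Fin d → K)) 1) = 1 := congrArg Subtype.val h3
    rwa [Module.finrank_fin_fun, max_eq_left (by omega)] at h4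
  have h3 : z ^ (Nat.card K - 1) = 1 := PairP.orderOf_center_dvd h
  have h4 : orderOf z ∣ Nat.gcd d (Nat.card K - 1) :=
    Nat.dvd_gcd (orderOf_dvd_of_pow_eq_one h2) (orderOf_dvd_of_pow_eq_one h3)
  obtain ⟨j, -, hj⟩ := (Nat.dvd_prime_pow (Fact.out : p.Prime)).mp (orderOf_dvd_of_pow_eq_one h1)
  rcases Nat.eq_zero_or_pos j with h0 | h0
  · rw [h0, pow_zero] at hj
    exact orderOf_eq_one_iff.mp hj
  · rw [hj] at h4
    exact absurd ((dvd_pow_self p h0.ne').trans h4) hg

theorem cast_zero_of_dvd {p : ℕ} [Fact p.Prime] {K : Type} [Field K] [Finite K]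
    (h : p ∣ Nat.card K) : (p : K) = 0 := by
  obtain ⟨x, hx⟩ := exists_prime_addOrderOf_dvd_card' p h
  have h1 : p • x = 0 := by rw [← hx]; exact addOrderOf_nsmul_eq_zero x
  have h2 : x ≠ 0 := by
    rintro rfl
    rw [addOrderOf_zero] at hx
    exact (Fact.out : p.Prime).one_lt.ne hx
  rw [nsmul_eq_mul] at h1
  exact (mul_eq_zero.mp h1).resolve_right h2

theorem eq_two {p : ℕ} [Fact p.Prime] {K : Type} [Field K] [Finite K] (h : p ∣ Nat.card K)
    (h2 : 2 ∣ Nat.card K) : p = 2 := by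
  by_contra hne
  have a1 : (p : K) = 0 := cast_zero_of_dvd h
  have a2 : ((2 : ℕ) : K) = 0 := by
    haveI : Fact (Nat.Prime 2) := ⟨Nat.prime_two⟩
    exact cast_zero_of_dvd h2
  have hc : Nat.Coprime p 2 := (Nat.coprime_primes Fact.out Nat.prime_two).mpr hne
  have a3 := Nat.isCoprime_iff_coprime.mpr hc
  obtain ⟨a, b, hab⟩ := a3
  have a4 := congrArg (Int.cast : ℤ → K) hab
  push_cast at a4
  rw [a1] at a4
  have a2' : (2 : K) = 0 := by exact_mod_cast a2
  rw [a2'] at a4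
  simp at a4

theorem classIn_imp {p : ℕ} [Fact p.Prime] {T : Type} [Group T] (h : ClassIn p T) :
    ClassicalIn p T ∨ OrthTwo p T := by
  obtain ⟨K, _, _, d, hpK, hd, h⟩ := h
  rcases h with ⟨X, π, ⟨θ, ε, B, h1, ⟨h2, h3, h4⟩, h5⟩, h6, h7⟩ | ⟨h2K, h6, Q, X, hQ, e⟩
  · exact Or.inl ⟨K, inferInstance, inferInstance, d, hpK, hd, θ, ε, B, X, π, h1, h2, h3, h4, h5,
      h6, h7⟩
  · exact Or.inr ⟨eq_two hpK h2K, K, inferInstance, inferInstance, d, h2K, h6, Q, X, hQ, e⟩

/-- the pairs in a covering group of `PSL_d(K)` -/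
theorem tame_lin {p m d : ℕ} [Fact p.Prime] {K : Type} [Field K] [Finite K] {L : Type} [Group L]
    (hd : 2 ≤ d) (hK : 9 < Nat.card K) (hpK : ¬ p ∣ Nat.card K)
    {π : SpecialLinearGroup K (Fin d → K) →* L} (hπ : Function.Surjective π)
    (hk : π.ker ≤ Subgroup.center _) {A : Subgroup L}
    (hg : ¬ (p ∣ d ∧ p ∣ Nat.card K - 1))
    (h : d < p ∨ ((∀ x ∈ A, ∀ y ∈ A, x * y * x⁻¹ * y⁻¹ ∈ Subgroup.center L) ∧
      (d ≤ m ∨ RootIn p (RingHom.id K)))) :
    TameP p m L A := by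
  have hcen : ∀ x, π x ∈ Subgroup.center L → x ∈ Subgroup.center _ := by
    intro x hx
    refine PairP.center_of_map π ?_ (perfect_lin hd hK) hx
    intro y hy z
    exact (Subgroup.mem_center_iff.mp (hk (MonoidHom.mem_ker.mpr hy)) z).symm
  refine tame_gen (by omega) hpK (X := ⊤)
    (π := π.comp (⊤ : Subgroup (SpecialLinearGroup K (Fin d → K))).subtype)
    (Or.inl ⟨fun _ => rfl, rfl⟩) ?_ (fun x hx => hcen _ hx) ?_
    (h.imp_right fun h => ⟨h.1, h.2.imp_right fun h => ⟨h, Or.inl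
      fun h2 => hg ⟨h2, rootIn_id.mp h⟩⟩⟩)
  · intro y
    obtain ⟨x, rfl⟩ := hπ y
    exact ⟨⟨x, Subgroup.mem_top x⟩, rfl⟩
  · intro z i hz hc
    exact Subtype.ext (cen_one (fun h => hg ⟨h.trans (Nat.gcd_dvd_left _ _),
      h.trans (Nat.gcd_dvd_right _ _)⟩) hd (i := i) (by rw [← Subgroup.coe_pow, hz]; rfl) hc)

end Y

/-- the constant -/
noncomputable def cY0 (p n m : ℕ) : ℕ :=
  max (max m (2 * H12.CA n)) (max (H12.Sl.csl (2 * n)) (max (max (H799.BS.bS p n) (H799.BS.bO n))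
    (H471.Au.abP p n m)))

/-- the constant -/
noncomputable def cY (p n m : ℕ) : ℕ := max (cY0 p n m) (H799.CH.bBig p n m)

theorem cY0_le {p n m : ℕ} : cY0 p n m ≤ cY p n m := le_max_left _ _

/-- the constant -/
def mY (p n m : ℕ) : ℕ :=
  max (max m 2520) (max (max ((max n 9) ^ 4) (n ^ 5)) (max (H259.Loc.bZ n) (Y.cD p m)))

theorem abP_le {p n m : ℕ} : H471.Au.abP p n m ≤ cY p n m :=
  ((le_max_right _ _).trans ((le_max_right _ _).trans (le_max_right _ _))).trans cY0_le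

theorem bO_le {p n m : ℕ} : H799.BS.bO n ≤ cY p n m :=
  ((le_max_right _ _).trans ((le_max_left _ _).trans ((le_max_right _ _).trans
    (le_max_right _ _)))).trans cY0_le

theorem bS_le {p n m : ℕ} : H799.BS.bS p n ≤ cY p n m :=
  ((le_max_left _ _).trans ((le_max_left _ _).trans ((le_max_right _ _).trans
    (le_max_right _ _)))).trans cY0_le

theorem bCv_le (p n m : ℕ) [Fact p.Prime] : H799.CD.bCv p n ≤ cY p n m := by
  have g0 : H471.Au.abP p n m ≤ cY p n m := abP_le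
  exact max_le ((PairP.le_cP9.trans (le_max_left _ _)).trans g0) ((le_max_right _ _).trans g0)

theorem bOm_le (p n m : ℕ) [Fact p.Prime] : H799.CG.bOm p n ≤ cY p n m := by
  have g0 : H471.Au.abP p n m ≤ cY p n m := abP_le
  have g1 : H799.BS.bO n ≤ cY p n m := bO_le
  exact max_le g1 (max_le ((PairP.le_cP9.trans (le_max_left _ _)).trans g0)
    ((le_max_right _ _).trans g0))

theorem corP_act {p n m : ℕ} [Fact p.Prime] {k : Type u} [Field k] [IsAlgClosed k] [CharP k p]
    {G : Type} [Group G] [Finite G] {D L : Subgroup G} (hD : IsPGroup p D)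
    (hDn : Nat.card D ≤ n) (h : TameAct p m L (Gam D L) (D.subgroupOf L))
    (hr : ∃ x ∈ D, x ∈ L ∧ ¬ ∀ y ∈ L, x * y = y * x) {b : MonoidAlgebra k G}
    (hbF : b ∈ Fix (cj k G) ⊤) (hb : br D b ≠ 0) : CorP p (cY p n m) b D L := by
  have g0 : H471.Au.abP p n m ≤ cY p n m := abP_le
  have g1 : H799.BS.bO n ≤ cY p n m := bO_le
  rcases h with ⟨h1, h2⟩ | ⟨h, hin | ⟨hl, hcc⟩⟩ | h | h | h
  · exact (H471.He.corP_cycOn hD hDn (Y.cycOn_of hD h1 h2) b).mono ((le_max_right _ _).trans g0)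
  · exact (PairP.corP_tamePair hD hDn (Y.tameP_imp h) (Y.sup_of_Gam hin) b).mono
      ((le_max_left _ _).trans g0)
  · obtain ⟨K, _, _, d, h3, hK, hd, π, hπ, hk⟩ := hl
    exact (H471.El.corP_sld hD hDn
      ⟨K, inferInstance, inferInstance, d, π, h3, hK, hd.1, hd.2, hπ, hk⟩
      (Y.abEl_of_cenOn hcc) (Y.tameP_imp h) hr hbF hb).mono g0
  · rcases S.simOn_imp h with h | ⟨⟨h, hcc⟩, h'⟩
    · exact (H799.BS.corP_semiIso hD hDn h b).mono g1
    · exact (H471.El.corP_iso hD hDn h' (Y.abEl_of_cenOn hcc) (Y.tameP_imp h) b).mono g0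
  · exact (H799.BY.corP_parOut hD hDn h b).mono g1
  · rcases H799.CC.sim_or h with h | ⟨hL, Γ', hΓ', h⟩
    · rcases H799.CD.coverSim_cases h with ⟨h1, h2⟩ | hcc | h1
      · exact (H799.CD.corP_coverOne hD hDn h1 (fun r hr hrN => h2 _ ⟨⟨r, hrN⟩, hr, rfl⟩) b).mono
          (bCv_le p n m)
      · exact (H799.CD.corP_coverSim hD hDn h (fun r hr hrN => ⟨⟨r, hrN⟩, hr, rfl⟩)
          (Y.abEl_of_cenOn hcc) b).mono (bCv_le p n m)
      · obtain ⟨hL, K, _, _, d, h4, hd, hpK, hodd, hK, hlin, hζ, B, X, π, hB, hX, hπ, hker, hsim⟩ :=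
          h1
        exact (H799.BY.corP_parOut hD hDn (Oc.parOut_orth (H954.Hc.odd_of_lin Fact.out hpK _ hlin)
          (by rw [Module.finrank_fin_fun]; exact hd) (by rw [Module.finrank_fin_fun]; exact h4) hodd
          hK hζ hL hB hX hπ hker (Oc.isPGroup_Gam hD) hsim) b).mono g1
    · exact (H799.CG.corP_simE hD hDn hL hΓ' h (fun hcc => Y.abEl_of_cenOn hcc) b).mono
        (bOm_le p n m)

theorem corP_cyc_on {p n m : ℕ} [Fact p.Prime] {k : Type u} [Field k] [IsAlgClosed k] [CharP k p]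
    {G : Type} [Group G] [Finite G] {D L : Subgroup G} (hD : IsPGroup p D)
    (hDn : Nat.card D ≤ n) (h : CycLev (D ⊓ Subgroup.normalizer (L : Set G)) L)
    (b : MonoidAlgebra k G) : CorP p (cY p n m) b D L :=
  (H471.He.corP_cycOn hD hDn (H799.BZ.cycOn_of_lev h inf_le_right) b).mono ((le_max_right _ _).trans
    abP_le)

/-- Components with `L / Z(L)` isomorphic to `PSL_d(K)`. -/
theorem lin_case {p n m : ℕ} [Fact p.Prime] {k : Type u} [Field k] [IsAlgClosed k] [CharP k p]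
    {G : Type} [Group G] [Finite G] {D L : Subgroup G} {a b : MonoidAlgebra k G}
    (hD : IsPGroup p D) (hDn : Nat.card D ≤ n) (hb : IsBlock b) (ha : a ∈ Fix (cj k G) D)
    (hba : b = tr (cj k G) D ⊤ a) (hdef : IsDefectGroupR b D) (hL : commutator L = ⊤)
    (hr : ∃ x ∈ D, x ∈ L ∧ ¬ ∀ y ∈ L, x * y = y * x) {K : Type} [Field K] [Finite K] {d : ℕ}
    (h : IsLin d K (L ⧸ Subgroup.center L))
    (hd : d = 2 ∨ p ∣ Nat.card K ∨ (LinDeg p d (Nat.card K) ∧
      TameDim (CenOn p L (Gam D L) (D.subgroupOf L)) (ExpOn p L (D.subgroupOf L))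
        (SmallOn p L (D.subgroupOf L)) p m d (RingHom.id K))) :
    Nat.card (L ⧸ Subgroup.center L) ≤ mY p n m ∨
    (IsLocalChar p n (L ⧸ Subgroup.center L) ∧
      ∀ P : Sylow p (L ⧸ Subgroup.center L), n < Nat.card P) ∨
    (SolvOut L ∧ CorP p (cY p n m) b D L) := by
  have e1 : (max n 9) ^ 4 ≤ mY p n m :=
    (le_max_left _ _).trans ((le_max_left _ _).trans (le_max_right _ _))
  have e2 : n ^ 5 ≤ mY p n m :=
    (le_max_right _ _).trans ((le_max_left _ _).trans (le_max_right _ _))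
  have e3 : Y.cD p m ≤ mY p n m :=
    (le_max_right _ _).trans ((le_max_right _ _).trans (le_max_right _ _))
  have e4 : 1 ≤ mY p n m := le_trans (by norm_num) ((le_max_right m 2520).trans (le_max_left _ _))
  by_cases hd1 : d < 2
  · exact Or.inl ((Y.card_lin_one hd1 h).trans e4)
  by_cases hpK : p ∣ Nat.card K
  · obtain ⟨e⟩ := h
    obtain ⟨h1, h2 | h2⟩ := H259.Loc.lc_psl (Y.cast_zero_of_dvd hpK) (by omega) n e
    · exact Or.inl (h2.trans e2)
    · exact Or.inr (Or.inl ⟨h1, h2⟩)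
  by_cases hd2 : d = 2
  · subst hd2
    obtain ⟨e⟩ := h
    rcases psl2_case hD hDn hb ha hba hdef hL hr e with h1 | h1 | h1
    · exact Or.inl (h1.trans e1)
    · exact Or.inr (Or.inl h1)
    · exact Or.inr (Or.inr ⟨h1.1, h1.2.mono (((le_max_left _ _).trans (le_max_right _ _)).trans
        cY0_le)⟩)
  have hd3 : 3 ≤ d := by omega
  by_cases hK : 9 < Nat.card K
  swap
  · left
    have hdm : d ≤ max p m := by
      rcases hd with h | h | ⟨-, h | h⟩
      · exact absurd h hd2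
      · exact absurd h hpK
      · exact h.1.le.trans (le_max_left _ _)
      · rcases h.2 with h1 | h1
        · exact h1.trans (le_max_right _ _)
        · exact absurd h1.1 hK
    exact (Y.cD_bound (Y.card_lin_le d K h) (by omega) (by omega) hdm).trans e3
  right; right
  obtain ⟨e⟩ := h
  obtain ⟨π, hπ, hk⟩ := H589.Sch.exists_surj_slv (by omega) hK hL e
  refine ⟨⟨5, H589.solvOut_of_quot hL (H589.Bt.derived_le_conj_psl hd3 e)⟩, ?_⟩
  have g1 : H799.BS.bS p n ≤ cY p n m := bS_le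
  have g2 : H471.Au.abP p n m ≤ cY p n m := abP_le
  rcases hd with h | h | ⟨hg, ⟨h, h'⟩ | ⟨hc | ⟨hs, hse⟩, hm⟩⟩
  · exact absurd h hd2
  · exact absurd h hpK
  · rw [Y.rootIn_id] at h'
    by_cases hp1 : p ∣ Nat.card K - 1
    · exact (H799.BS.corP_split hD hDn hd3 h hp1 π hπ hk b).mono g1
    have htame : TameP p m L (D.subgroupOf L) :=
      Y.tame_lin (by omega) hK hpK hπ hk (fun h2 => hp1 h2.2) (Or.inl h)
    by_cases hno : ¬ p ∣ Nat.card (K ≃+* K)
    swap
    · have hab : H471.El.AbEl p D L := by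
        rcases (h'.resolve_left hp1).resolve_left hno with hc | he
        · exact Y.abEl_of_cenOn hc
        · exact H471.El.abEl_of_comm (H471.El.comm_of_dim_sl hD hpK h hπ) (Y.pow_of_exp he)
      exact (H471.El.corP_sld hD hDn ⟨K, inferInstance, inferInstance, d, π, hd3, hpK,
        fun h2 => hp1 h2.2, Or.inl (by omega), hπ, hk⟩ hab (Y.tameP_imp htame) hr
        (isBlock_iff.mp hb).mem.2 (br_of_defect hb ha hba hdef)).mono g2
    · refine (PairP.corP_tamePair hD hDn (Y.tameP_imp htame) ?_ b).mono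
        ((le_max_left _ _).trans g2)
      rintro r ⟨hrD, hrN⟩
      obtain ⟨i, hi⟩ := hD ⟨r, hrD⟩
      have hi : r ^ p ^ i = 1 := congrArg Subtype.val hi
      refine Inn.inn_of_noaut (by omega) hd3 (fun h2 => ?_) hno hπ hk hrN hi
      have h3 := Nat.le_of_dvd (by omega) (h2.trans (Nat.gcd_dvd_left _ _))
      omega
  · have hc' := Y.abEl_of_cenOn hc
    refine (H471.El.corP_sld hD hDn ⟨K, inferInstance, inferInstance, d, π, hd3, hpK, hg.1, hg.2,
      hπ, hk⟩ hc' ?_ hr (isBlock_iff.mp hb).mem.2 (br_of_defect hb ha hba hdef)).mono g2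
    exact Y.tameP_imp (Y.tame_lin (m := m) (by omega) hK hpK hπ hk hg.1
      (Or.inr ⟨Y.center_of_abEl hc', hm.imp_right fun h => h.2.2⟩))
  · have hs' : Nat.card (L ⊓ D : Subgroup G) < p ^ p := by
      haveI : Finite (SpecialLinearGroup K (Fin d → K)) := H799.BN.finite_sl
      refine Bm.card_of_smallOn hD (fun x i hx hi => Bm.eq_one_of_center hπ (fun z hz hzp => ?_) hx
        hi) hs
      refine Y.cen_one (fun h => hg.1 ⟨h.trans (Nat.gcd_dvd_left _ _),
        h.trans (Nat.gcd_dvd_right _ _)⟩) (by omega) (i := 1) (by rw [pow_one]; exact hzp) ?_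
      refine PairP.center_of_map π (fun y hy z => ?_) (Y.perfect_lin (by omega) hK) hz
      exact (Subgroup.mem_center_iff.mp (hk (MonoidHom.mem_ker.mpr hy)) z).symm
    exact (Bm.corP_small_lin (m := m) hD hDn hs' hd3 hpK hg hπ hk hr (fun A hA => Y.tameP_imp
      (Y.tame_lin (by omega) hK hpK hπ hk hg.1 (Or.inr ⟨hA, hm.imp_right fun h => h.2.2⟩)))
      hse (isBlock_iff.mp hb).mem.2 (br_of_defect hb ha hba hdef)).mono g2

/-- Components with `L / Z(L)` isomorphic to `PSp_d(K)` or `PSU_d(K)`. -/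
theorem form_case {p n m : ℕ} [Fact p.Prime] {k : Type u} [Field k] [IsAlgClosed k]
    [CharP k p] {G : Type} [Group G] [Finite G] {D L : Subgroup G} {b : MonoidAlgebra k G}
    (hD : IsPGroup p D) (hDn : Nat.card D ≤ n) (hL : commutator L = ⊤)
    (hr : ∃ x ∈ D, x ∈ L ∧ ¬ ∀ y ∈ L, x * y = y * x) (hbF : b ∈ Fix (cj k G) ⊤) (hb : br D b ≠ 0)
    {K : Type} [Field K] [Finite K] {d : ℕ} {θ : K →+* K}
    (h : IsFormGrp d θ (L ⧸ Subgroup.center L))
    (hpK : ¬ p ∣ Nat.card K) (hlin : LinPr p θ)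
    (hd : TameDim (CenOn p L (Gam D L) (D.subgroupOf L)) (ExpOn p L (D.subgroupOf L))
      (SmallOn p L (D.subgroupOf L)) p m d θ) :
    Nat.card (L ⧸ Subgroup.center L) ≤ mY p n m ∨ (SolvOut L ∧ CorP p (cY p n m) b D L) := by
  have e3 : Y.cD p m ≤ mY p n m :=
    (le_max_right _ _).trans ((le_max_right _ _).trans (le_max_right _ _))
  have g1 : H799.BS.bO n ≤ cY p n m := bO_le
  have g2 : H471.Au.abP p n m ≤ cY p n m := abP_le
  obtain ⟨hd3, ε, B, X, π, hcase, hB, hX, hπ, hker⟩ := h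
  by_cases hK : 9 < Nat.card K ∧ (324 < Nat.card K ∨ ∀ a, θ a = a)
  swap
  · have hdm : d ≤ max p m := by
      rcases hd with h | h
      · exact h.1.le.trans (le_max_left _ _)
      · rcases h.2 with h1 | h1
        · exact h1.trans (le_max_right _ _)
        · exact absurd ⟨h1.1, h1.2.1⟩ hK
    have hK2 : Nat.card K ≤ 324 := by
      by_contra hcon
      exact hK ⟨by omega, Or.inl (not_le.mp hcon)⟩
    exact Or.inl ((Y.cD_bound (S.card_form_le hπ) hK2 (by omega) hdm).trans e3)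
  right
  have hd4 : 4 ≤ d ∨ ∃ a, θ a ≠ a := hcase.imp (fun h => h.2.2.1) fun h => h.1
  have hpack : derivedSeries (MulAut (L ⧸ Subgroup.center L)) 2 ≤
      (MulAut.conj : L ⧸ Subgroup.center L →* MulAut (L ⧸ Subgroup.center L)).range ∧
      S.FPack d θ L := by
    rcases hcase with ⟨hθ, rfl, -, halt⟩ | ⟨⟨a, ha⟩, rfl⟩
    · obtain rfl : θ = RingHom.id K := RingHom.ext hθ
      exact S.sp_pack hK.1 hd3 hL hB halt hX hπ hker
    · have hK2 : 324 < Nat.card K := by
        rcases hK.2 with h | h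
        · exact h
        · exact absurd (h a) ha
      exact S.un_pack hK2 hd3 hL ⟨a, ha⟩ hB hX hπ hker
  obtain ⟨hout, ε, B, X, π, hB, hgood, hX, hπ, hcen, hinn, hsim⟩ := hpack
  have hp2 : Odd p := H954.Hc.odd_of_lin (Fact.out : p.Prime) hpK θ hlin
  have hsim' := fun α (hα : α ∈ Gam D L) => (Y.exists_pow_of_Gam hD hα).elim fun i hi =>
    hsim α (p ^ i) hp2.pow hi
  refine ⟨⟨2, H589.solvOut_of_quot hL hout⟩, ?_⟩
  have htame : (d < p ∨ (CenOn p L (Gam D L) (D.subgroupOf L) ∧ (d ≤ m ∨ RootIn p θ))) →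
      TameP p m L (D.subgroupOf L) := fun hd =>
    S.tame_form (by omega) hpK hlin hB hgood hX hπ hcen
      (hd.imp_right fun hc => ⟨Y.center_of_abEl (Y.abEl_of_cenOn hc.1), hc.2⟩)
  have hcase' : CenOn p L (Gam D L) (D.subgroupOf L) → TameP p m L (D.subgroupOf L) →
      CorP p (cY p n m) b D L := fun hc ht =>
    corP_act hD hDn (Or.inr (Or.inr (Or.inl (S.form_sim hd3 hd4
      (Or.inr ⟨⟨ht, hc⟩, hpK, hlin⟩) _ hB hgood hX hπ hcen hsim')))) hr hbF hb
  rcases hd with ⟨hdp, hζ | hno | hc | he⟩ | ⟨hc | ⟨hs, hse⟩, hm⟩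
  · rcases S.simOn_imp (S.form_sim (c := False) hd3 hd4 (Or.inl ⟨hdp, hζ⟩) (Gam D L) hB hgood hX
      hπ hcen hsim') with h1 | h1
    · exact (H799.BS.corP_semiIso hD hDn h1 b).mono g1
    · exact h1.1.elim
  · refine (PairP.corP_tamePair hD hDn (Y.tameP_imp (htame (Or.inl hdp))) ?_ b).mono
      ((le_max_left _ _).trans g2)
    rintro r ⟨hrD, hrN⟩
    obtain ⟨i, hi⟩ := hD ⟨r, hrD⟩
    have hi : r ^ p ^ i = 1 := congrArg Subtype.val hi
    refine hinn r (p ^ i) hrN hp2.pow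
      (Nat.Coprime.pow_left _ ((Nat.Prime.coprime_iff_not_dvd Fact.out).mpr hno))
      (Nat.Coprime.pow_left _ ((Nat.Prime.coprime_iff_not_dvd Fact.out).mpr fun h => ?_)) hi
    have h3 := Nat.le_of_dvd (by omega) h
    omega
  · exact hcase' hc (htame (Or.inl hdp))
  · exact hcase' (Y.cenOn_of_exp he (H471.El.comm_of_dim hD hpK hdp hπ)) (htame (Or.inl hdp))
  · exact hcase' hc (htame (Or.inr ⟨hc, hm.imp_right fun h => h.2.2⟩))
  · exact (Bm.corP_small_sim (m := m) hD hDn hs ⟨⟨ε, hB⟩, ⟨fun g hg => (hX g).mp hg,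
      fun g h hg _ hg' _ => absurd ((hX g).mpr hg') hg, Or.inr fun g hg => (hX g).mpr hg⟩, hgood⟩
      ⟨hπ, fun x hx => (hcen x).mp hx, hsim'⟩ hd3 hd4 hpK hlin (fun A hA => Y.tameP_imp
      (S.tame_form (by omega) hpK hlin hB hgood hX hπ hcen
        (Or.inr ⟨hA, hm.imp_right fun h => h.2.2⟩))) hse b).mono g2

/-- Components with `L / Z(L)` an orthogonal group. -/
theorem orth_case {p n m : ℕ} [Fact p.Prime] {k : Type u} [Field k] [IsAlgClosed k]
    [CharP k p] {G : Type} [Group G] [Finite G] {D L : Subgroup G} {b : MonoidAlgebra k G}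
    (hD : IsPGroup p D) (hDn : Nat.card D ≤ n) (hL : commutator L = ⊤)
    {K : Type} [Field K] [Finite K] {d : ℕ} {θ : K →+* K}
    (h : IsOrthGrp p m d θ (L ⧸ Subgroup.center L))
    (hpK : ¬ p ∣ Nat.card K) (hlin : LinPr p θ)
    (hd : TameDim (CenOn p L (Gam D L) (D.subgroupOf L)) (ExpOn p L (D.subgroupOf L))
      (SmallOn p L (D.subgroupOf L)) p m d θ) :
    Nat.card (L ⧸ Subgroup.center L) ≤ mY p n m ∨ (SolvOut L ∧ CorP p (cY p n m) b D L) := by
  have e3 : Y.cD p m ≤ mY p n m :=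
    (le_max_right _ _).trans ((le_max_right _ _).trans (le_max_right _ _))
  have g1 : H799.BS.bO n ≤ cY p n m := bO_le
  have g2 : H471.Au.abP p n m ≤ cY p n m := abP_le
  have g3 : max (H799.BS.bO n) (max (H799.BN.bnB n) (H799.BZ.bdL p (H799.CB.lvM p) n)) ≤ cY p n m :=
    max_le g1 ((PairP.le_cP9.trans (le_max_left _ _)).trans g2)
  obtain ⟨hθ, h7, hdp, hs⟩ := h
  obtain rfl : θ = RingHom.id K := RingHom.ext hθ
  have hp2 : Odd p := H954.Hc.odd_of_lin (Fact.out : p.Prime) hpK (RingHom.id K) hlin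
  have h8 : p = 3 → d ≠ 8 := fun h => by
    rcases hdp with h' | h'
    · omega
    · exact h'.2 h
  have hdm : d ≤ max p m := hdp.elim (fun h => h.le.trans (le_max_left _ _))
    fun h => h.1.trans (le_max_right _ _)
  have hc4 : d < p → ((RootIn p (RingHom.id K) ∨ ¬ p ∣ Nat.card (K ≃+* K)) ∨
      H471.El.AbEl p D L ∨ ∀ y ∈ D, y ∈ L → ∀ l ∈ L, y ^ p * l = l * y ^ p) := by
    intro _
    rcases hd with ⟨-, hζ | hno | hc | he⟩ | ⟨hc | ⟨-, hno | he⟩, -⟩
    · exact Or.inl (Or.inl hζ)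
    · exact Or.inl (Or.inr hno)
    · exact Or.inr (Or.inl (Y.abEl_of_cenOn hc))
    · exact Or.inr (Or.inr (Y.pow_of_exp he))
    · exact Or.inr (Or.inl (Y.abEl_of_cenOn hc))
    · exact Or.inl (Or.inr hno)
    · exact Or.inr (Or.inr (Y.pow_of_exp he))
  rcases hs with ⟨hodd, B, X, π, hB, hX, hπ, hcenX, -⟩ | hs
  · by_cases hK : 9 < Nat.card K
    swap
    · exact Or.inl ((Y.cD_bound (S.card_form_le hπ) (by omega) (by omega) hdm).trans e3)
    right
    have hker : ∀ x : X, π x = 1 → (x : SpecialLinearGroup K (Fin d → K)) ∈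
        Subgroup.center _ := fun x hx => hcenX x (by rw [hx]; exact Subgroup.one_mem _)
    have hout := Oc.out_pack hp2 hodd hK h7 h8 hL hB hX hπ hker
    refine ⟨hout.2.2.imp fun l hl => H589.solvOut_of_quot hL hl, ?_⟩
    by_cases hlt : d < p
    · rcases hc4 hlt with hζ | hc
      · exact (Oc.cor_orth hlt (by omega) hodd hK hpK hlin hζ hD hDn hL hB hX hπ hker hout
          b).2.mono g3
      · exact (H799.CD.corP_coverT hD hDn hL (by omega) hlt hpK hodd hK hlin hB hX hπ hker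
          (fun β j hβ => hout.1 β j hβ) hc b).mono (bCv_le p n m)
    · have hZ := H799.CH.not_dvd_odd hodd hK h7 hpK hlin hL hB hX hπ hker
      exact (H799.CH.big_odd hD hDn hL (by omega) hpK hodd hlin hB hX hπ hker hZ hout.1
        (fun A hA hab => H471.Os.pairZ_odd hpK hodd hK hlin hB hX hL π hπ hker hZ
          (hdp.resolve_left hlt).1 A hA hab) (hd.resolve_left fun h => hlt h.1).1 b).mono
        (le_max_right _ _)
  · obtain ⟨Φ, Q, X, π, hθ', hQ, hX, hπ, hker, -⟩ := H799.CG.sim_data hL hs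
    by_cases hK : 9 < Nat.card K
    swap
    · exact Or.inl ((Y.cD_bound (S.card_form_le hπ) (by omega) (by omega) hdm).trans e3)
    right
    have hfd : Module.finrank K (Fin d → K) = d := Module.finrank_fin_fun K
    have hout := H799.CG.out_packQ (p := p) hp2 hs.1 (by omega) (by rw [hfd]; exact h7)
      (by rw [hfd]; exact h8) hQ hX hπ hker
    by_cases hlt : d < p
    · have hr := H799.CG.cor_omega hD hDn hθ' hQ hX (by omega) hlt (by omega) hpK hlin hL hπ
        hker hout (hc4 hlt) b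
      exact ⟨hr.1, hr.2.mono (bOm_le p n m)⟩
    · refine ⟨hout.2.2.imp fun l hl => H589.solvOut_of_quot hL hl, ?_⟩
      have hlin' : ∀ j : ℕ, (∀ c : K, Φ.θ c = c ^ (ringChar K ^ j)) →
          ¬ p ∣ ringChar K ^ j + 1 := fun j hj => hlin j fun a => by rw [← hj a, hθ']; rfl
      have hZ := H799.CH.not_dvd_even hs.1 hK (by rw [hfd]; exact h7) hpK hlin hL hQ hX hπ hker
      exact (H799.CH.big_even hD hDn hL hθ' hQ hX (by omega) hpK hlin hπ hker hZ hout.1
        (fun A hA hab => H471.Os.pairZ_even hQ hX (by rw [hfd]; omega) hpK (by omega) hlin' hL π hπ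
          hker hZ (by rw [hfd]; exact (hdp.resolve_left hlt).1) A hA hab)
        (hd.resolve_left fun h => hlt h.1).1 b).mono (le_max_right _ _)

/-- The local theorem for the general reduction. -/
theorem locY (p n m : ℕ) [Fact p.Prime] (k : Type u) [Field k] [IsAlgClosed k] [CharP k p] :
    LocL (ExcX p n m) (SmallT p n ((max 1 (cY p n m)) ^ n) (b7 n (mY p n m) (max m 2))) k p n := by
  refine loc_genU ?_
  intro G _ _ Z D a b hs hST hNR hD L hL hp hr hE
  have f1 : max m 2520 ≤ mY p n m := le_max_left _ _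
  have f2 : H259.Loc.bZ n ≤ mY p n m :=
    (le_max_left _ _).trans ((le_max_right _ _).trans (le_max_right _ _))
  have hbF : b ∈ Fix (cj k G) ⊤ := (isBlock_iff.mp hs.hb).mem.2
  have hbr : br D b ≠ 0 := br_of_defect hs.hb hs.ha hs.hba hD
  by_cases hcv : Covered (CenOn p L (Gam D L) (D.subgroupOf L)) (ExpOn p L (D.subgroupOf L))
      (SmallOn p L (D.subgroupOf L)) p n m (L ⧸ Subgroup.center L)
  · rcases hcv with h | ⟨d, ⟨iso⟩⟩ | h | h | ⟨K, _, _, d, ⟨h, hd⟩ | ⟨θ, h, hpK, hlin, hd⟩⟩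
    · exact Or.inl (h.trans ((le_max_left _ _).trans f1))
    · by_cases hd : d < 8
      · left
        refine le_trans ?_ ((le_max_right _ _).trans f1)
        refine le_trans ?_ (H589.card_alt_lt_eight hd)
        exact (Nat.card_congr iso.toEquiv).le
      · right
        right
        refine ⟨Or.inl ((H589.out_ext' (by omega) hL.1.1 iso).trans (le_max_right _ _)), ?_⟩
        exact (H589.corP_ext (n := n) (by omega) hL.1.1 iso hs.Dp hs.Dn b).mono
          (((le_max_right _ _).trans (le_max_left _ _)).trans cY0_le)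
    · rcases Y.classIn_imp h with h | h
      · obtain ⟨h1, h2 | h2⟩ := H259.Loc.lc_classical h hp n
        · exact Or.inl (h2.trans f2)
        · exact Or.inr (Or.inl ⟨h1, Or.inr h2⟩)
      · obtain ⟨h1, h2 | h2⟩ := H259.Loc.lc_orth h hp n
        · exact Or.inl (h2.trans f2)
        · exact Or.inr (Or.inl ⟨h1, Or.inr h2⟩)
    · exact Or.inr (Or.inl h)
    · rcases lin_case (m := m) hs.Dp hs.Dn hs.hb hs.ha hs.hba hD hL.1.1 hr h hd with h1 | h1 | h1
      · exact Or.inl h1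
      · exact Or.inr (Or.inl ⟨h1.1, Or.inr h1.2⟩)
      · exact Or.inr (Or.inr ⟨Or.inr h1.1, h1.2⟩)
    · rcases h.elim (fun h => form_case (m := m) (b := b) hs.Dp hs.Dn hL.1.1 hr hbF hbr h hpK hlin
        hd) (fun h => orth_case (n := n) hs.Dp hs.Dn hL.1.1 h hpK hlin hd) with h1 | h1
      · exact Or.inl h1
      · exact Or.inr (Or.inr ⟨Or.inr h1.1, h1.2⟩)
  right
  right
  by_cases ho : (L ⊔ Subgroup.centralizer (L : Set G)).relIndex
      (Subgroup.normalizer (L : Set G)) ≤ m ∨ SolvOut L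
  · refine ⟨ho.imp_left fun h => h.trans (le_max_left _ _), ?_⟩
    by_cases hss : HasSmallSource m b D L
    · exact (corP_of_small hs.hb.ne_zero hs.Dp hss).mono
        (((le_max_left _ _).trans (le_max_left _ _)).trans cY0_le)
    by_cases hy : CycLev (D ⊓ Subgroup.normalizer (L : Set G)) L
    · exact corP_cyc_on hs.Dp hs.Dn hy b
    by_cases hk : TameAct p m L (Gam D L) (D.subgroupOf L)
    · exact corP_act hs.Dp hs.Dn hk hr hbF hbr
    · exact absurd ⟨hcv, Or.inr ⟨hss, hy, hk⟩⟩ hE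
  · push Not at ho
    exact absurd ⟨hcv, Or.inl ⟨ho.2, ho.1⟩⟩ hE

end Vale.Agent.P180.R2.H365
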