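import Mathlib

/-!
P180: the Newton step. A linear map between two algebras over a common interior group, which is
multiplicative modulo an ideal `J`, can be corrected modulo `J ^ 2` when the source algebra is
relatively separable.
-/

namespace Vale.Agent.P180.R2.H365

variable {Λ : Type*} [CommRing Λ] {V V' : Type*} [AddCommGroup V] [Module Λ V]
  [AddCommGroup V'] [Module Λ V'] {Γ : Type*}

/-- An associative unital multiplication `m` with unit `e` on a module with left and right
operators `L`, `R` such that `m` is bi-equivariant and balanced. -/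
structure IsAlgOp (m : V →ₗ[Λ] V →ₗ[Λ] V) (e : V) (L R : Γ → V →ₗ[Λ] V) : Prop where
  assoc : ∀ a b c, m (m a b) c = m a (m b c)
  one_mul : ∀ a, m e a = a
  mul_one : ∀ a, m a e = a
  left : ∀ x a b, L x (m a b) = m (L x a) b
  right : ∀ x a b, R x (m a b) = m a (R x b)
  bal : ∀ x a b, m (R x a) b = m a (L x b)

/-- A Casimir element, tested on balanced bilinear maps to `V'`. -/
structure IsCas (V' : Type*) [AddCommGroup V'] [Module Λ V']
    (m : V →ₗ[Λ] V →ₗ[Λ] V) (e : V) (L R : Γ → V →ₗ[Λ] V) {ι : Type*}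
    [Fintype ι] (a b : ι → V) : Prop where
  one : ∑ j, m (a j) (b j) = e
  cas : ∀ β : V →ₗ[Λ] V →ₗ[Λ] V', (∀ x v w, β (R x v) w = β v (L x w)) →
    ∀ c, ∑ j, β (m c (a j)) (b j) = ∑ j, β (a j) (m (b j) c)

theorem mem_smul_map {J J' : Ideal Λ} {u v : V'} (B : V' →ₗ[Λ] V' →ₗ[Λ] V')
    (hu : u ∈ J • (⊤ : Submodule Λ V')) (hv : v ∈ J' • (⊤ : Submodule Λ V')) :
    B u v ∈ (J * J') • (⊤ : Submodule Λ V') := by
  refine Submodule.smul_induction_on hu (fun s hs w _ => ?_) (fun x y hx hy => ?_)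
  · refine Submodule.smul_induction_on hv (fun t ht w' _ => ?_) (fun x y hx hy => ?_)
    · rw [LinearMap.map_smul, map_smul, LinearMap.smul_apply, smul_smul, mul_comm t s]
      exact Submodule.smul_mem_smul (Ideal.mul_mem_mul hs ht) trivial
    · rw [map_add]
      exact Submodule.add_mem _ hx hy
  · rw [map_add, LinearMap.add_apply]
    exact Submodule.add_mem _ hx hy

theorem mem_smul_map_right {J : Ideal Λ} {u v : V'} (B : V' →ₗ[Λ] V' →ₗ[Λ] V')
    (hv : v ∈ J • (⊤ : Submodule Λ V')) :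
    B u v ∈ J • (⊤ : Submodule Λ V') := by
  have := mem_smul_map (J := ⊤) (J' := J) B (u := u) (v := v)
    (by rw [Submodule.top_smul]; trivial) hv
  rwa [Ideal.top_mul] at this

theorem newton_step {m : V →ₗ[Λ] V →ₗ[Λ] V} {e : V} {L R : Γ → V →ₗ[Λ] V}
    (hA : IsAlgOp m e L R) {m' : V' →ₗ[Λ] V' →ₗ[Λ] V'} {e' : V'} {L' R' : Γ → V' →ₗ[Λ] V'}
    (hA' : IsAlgOp m' e' L' R') {ι : Type*} [Fintype ι] {a b : ι → V}
    (hC : IsCas V' m e L R a b) (hLe : ∀ x, L x e = R x e)
    (g : V →ₗ[Λ] V') (hgL : ∀ x v, g (L x v) = L' x (g v)) (hgR : ∀ x v, g (R x v) = R' x (g v))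
    (J : Ideal Λ) (hJ : ∀ v w, g (m v w) - m' (g v) (g w) ∈ J • (⊤ : Submodule Λ V'))
    (hJe : g e - e' ∈ J • (⊤ : Submodule Λ V')) :
    ∃ g' : V →ₗ[Λ] V', (∀ x v, g' (L x v) = L' x (g' v)) ∧ (∀ x v, g' (R x v) = R' x (g' v)) ∧
      (∀ v, g' v - g v ∈ J • (⊤ : Submodule Λ V')) ∧
      (∀ v w, g' (m v w) - m' (g' v) (g' w) ∈ (J * J) • (⊤ : Submodule Λ V')) ∧
      g' e - e' ∈ (J * J) • (⊤ : Submodule Λ V') := by
  classical
  let c : V →ₗ[Λ] V →ₗ[Λ] V' := m.compr₂ g - m'.compl₁₂ g g
  have hc : ∀ v w, c v w = g (m v w) - m' (g v) (g w) := fun v w => rfl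
  have hcJ : ∀ v w, c v w ∈ J • (⊤ : Submodule Λ V') := hJ
  let h : V →ₗ[Λ] V' := ∑ j, (m' (g (a j))) ∘ₗ (c (b j))
  have hh : ∀ v, h v = ∑ j, m' (g (a j)) (c (b j) v) := fun v => by
    simp [h, LinearMap.sum_apply]
  have hhJ : ∀ v, h v ∈ J • (⊤ : Submodule Λ V') := by
    intro v
    rw [hh]
    exact Submodule.sum_mem _ fun j _ => mem_smul_map_right m' (hcJ _ _)
  -- equivariance of `c`
  have hcL : ∀ x v w, c (L x v) w = L' x (c v w) := by
    intro x v w
    rw [hc, hc, ← hA.left, hgL, hgL, map_sub, hA'.left]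
  have hcR : ∀ x v w, c v (R x w) = R' x (c v w) := by
    intro x v w
    rw [hc, hc, ← hA.right, hgR, hgR, map_sub, hA'.right]
  have hcB : ∀ x v w, c (R x v) w = c v (L x w) := by
    intro x v w
    rw [hc, hc, hA.bal, hgR, hgL, hA'.bal]
  -- the balanced map
  have hbal : ∀ w, ∀ x (v v' : V), (m'.compl₁₂ g (c.flip w)) (R x v) v' =
      (m'.compl₁₂ g (c.flip w)) v (L x v') := by
    intro w x v v'
    change m' (g (R x v)) (c v' w) = m' (g v) (c (L x v') w)
    rw [hgR, hA'.bal, hcL]
  have hcas : ∀ w d, ∑ j, m' (g (m d (a j))) (c (b j) w) =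
      ∑ j, m' (g (a j)) (c (m (b j) d) w) := fun w d =>
    hC.cas (m'.compl₁₂ g (c.flip w)) (hbal w) d
  -- the cocycle identity
  have hcoc : ∀ u v w, m' (g u) (c v w) - c (m u v) w + c u (m v w) - m' (c u v) (g w) = 0 := by
    intro u v w
    simp only [hc, map_sub, LinearMap.sub_apply, hA.assoc, hA'.assoc]
    abel
  have hmul : ∀ v w, (g + h) (m v w) - m' ((g + h) v) ((g + h) w) ∈
      (J * J) • (⊤ : Submodule Λ V') := by
    intro v w
    have hJJ : ∀ p ∈ J • (⊤ : Submodule Λ V'), ∀ q ∈ J • (⊤ : Submodule Λ V'),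
        m' p q ∈ (J * J) • (⊤ : Submodule Λ V') := fun p hp q hq => mem_smul_map m' hp hq
    -- main identity
    have hmain : g (m v w) + h (m v w) - m' (g v + h v) (g w + h w) =
        - m' (g e - e') (c v w) + ∑ j, m' (c (a j) (b j)) (c v w)
          + ∑ j, m' (c v (a j)) (c (b j) w) - m' (h v) (h w) := by
      have e1 : h (m v w) = ∑ j, (m' (g (a j)) (c (m (b j) v) w)
          - m' (m' (g (a j)) (g (b j))) (c v w) + m' (m' (g (a j)) (c (b j) v)) (g w)) := by
        rw [hh]
        refine Finset.sum_congr rfl fun j _ => ?_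
        have h2 := hcoc (b j) v w
        have h3 : c (b j) (m v w) = c (m (b j) v) w - m' (g (b j)) (c v w)
            + m' (c (b j) v) (g w) := by
          rw [← sub_eq_zero, ← h2]
          abel
        rw [h3, map_add, map_sub, hA'.assoc, hA'.assoc]
      have e2 : ∑ j, m' (g (a j)) (c (m (b j) v) w) =
          m' (g v) (h w) + ∑ j, m' (c v (a j)) (c (b j) w) := by
        rw [← hcas, hh, map_sum, ← Finset.sum_add_distrib]
        refine Finset.sum_congr rfl fun j _ => ?_
        rw [← hA'.assoc, ← LinearMap.add_apply, ← map_add]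
        congr 2
        rw [hc]
        abel
      have e3 : ∑ j, m' (m' (g (a j)) (g (b j))) (c v w) =
          m' (g e) (c v w) - ∑ j, m' (c (a j) (b j)) (c v w) := by
        rw [eq_sub_iff_add_eq, ← Finset.sum_add_distrib, ← hC.one, map_sum, map_sum,
          LinearMap.sum_apply]
        refine Finset.sum_congr rfl fun j _ => ?_
        rw [← LinearMap.add_apply, ← map_add]
        congr 2
        rw [hc]
        abel
      have e4 : ∑ j, m' (m' (g (a j)) (c (b j) v)) (g w) = m' (h v) (g w) := by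
        rw [hh, map_sum, LinearMap.sum_apply]
      rw [e1, Finset.sum_add_distrib, Finset.sum_sub_distrib, e2, e3, e4]
      have e5 : g (m v w) = c v w + m' (g v) (g w) := by rw [hc]; abel
      rw [e5]
      simp only [map_add, map_sub, LinearMap.add_apply, LinearMap.sub_apply, hA'.one_mul]
      abel
    rw [LinearMap.add_apply, LinearMap.add_apply, LinearMap.add_apply, hmain]
    refine Submodule.sub_mem _ (Submodule.add_mem _ (Submodule.add_mem _
      (Submodule.neg_mem _ (hJJ _ hJe _ (hcJ _ _))) ?_) ?_) (hJJ _ (hhJ _) _ (hhJ _))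
    · exact Submodule.sum_mem _ fun j _ => hJJ _ (hcJ _ _) _ (hcJ _ _)
    · exact Submodule.sum_mem _ fun j _ => hJJ _ (hcJ _ _) _ (hcJ _ _)
  refine ⟨g + h, ?_, ?_, ?_, hmul, ?_⟩
  · intro x v
    have h1 : h (L x v) = L' x (h v) := by
      have hL : ∀ d, L x d = m (L x e) d := fun d => by
        rw [← hA.left, hA.one_mul]
      have hR : ∀ d, R x d = m d (L x e) := fun d => by
        rw [hLe, ← hA.right, hA.mul_one]
      rw [hh, hh, map_sum]
      calc ∑ j, m' (g (a j)) (c (b j) (L x v)) = ∑ j, m' (g (a j)) (c (m (b j) (L x e)) v) := by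
            refine Finset.sum_congr rfl fun j _ => ?_
            rw [← hcB, hR]
        _ = ∑ j, m' (g (m (L x e) (a j))) (c (b j) v) := (hcas v (L x e)).symm
        _ = ∑ j, L' x (m' (g (a j)) (c (b j) v)) := by
            refine Finset.sum_congr rfl fun j _ => ?_
            rw [← hL, hgL, hA'.left]
    rw [LinearMap.add_apply, LinearMap.add_apply, map_add, hgL, h1]
  · intro x v
    have h1 : h (R x v) = R' x (h v) := by
      rw [hh, hh, map_sum]
      refine Finset.sum_congr rfl fun j _ => ?_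
      rw [hcR, hA'.right]
    rw [LinearMap.add_apply, LinearMap.add_apply, map_add, hgR, h1]
  · intro v
    rw [LinearMap.add_apply, add_sub_cancel_left]
    exact hhJ v
  · have h1 : (g + h) e - e' ∈ J • (⊤ : Submodule Λ V') := by
      have h2 : (g + h) e - e' = (g e - e') + h e := by
        rw [LinearMap.add_apply]
        abel
      rw [h2]
      exact Submodule.add_mem _ hJe (hhJ e)
    have h3 := hmul e e
    have h4 := mem_smul_map m' h1 h1
    have h5 : (g + h) e - e' = -((g + h) (m e e) - m' ((g + h) e) ((g + h) e)) -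
        m' ((g + h) e - e') ((g + h) e - e') := by
      rw [hA.one_mul, map_sub, map_sub, LinearMap.sub_apply, LinearMap.sub_apply, hA'.one_mul,
        hA'.one_mul, hA'.mul_one]
      abel
    rw [h5]
    exact Submodule.sub_mem _ (Submodule.neg_mem _ h3) h4

end Vale.Agent.P180.R2.H365
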