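import Mathlib

/-!
P180: the group of outer automorphisms of a quotient of `SL_2(K)` by a central subgroup is solvable.
-/

set_option linter.all false

namespace Vale.Agent.P180.R2.H365.OutA

variable {K : Type*} [Field K]

/-- a matrix of determinant one -/
def mk2 (a b c d : K) (h : a * d - b * c = 1) : Matrix.SpecialLinearGroup (Fin 2) K :=
  ⟨!![a, b; c, d], by rw [Matrix.det_fin_two_of]; exact h⟩

theorem mk00 {a b c d : K} (h : a * d - b * c = 1) : mk2 a b c d h 0 0 = a := rfl
theorem mk01 {a b c d : K} (h : a * d - b * c = 1) : mk2 a b c d h 0 1 = b := rfl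
theorem mk10 {a b c d : K} (h : a * d - b * c = 1) : mk2 a b c d h 1 0 = c := rfl
theorem mk11 {a b c d : K} (h : a * d - b * c = 1) : mk2 a b c d h 1 1 = d := rfl

theorem ext2 {g h : Matrix.SpecialLinearGroup (Fin 2) K} (h00 : g 0 0 = h 0 0)
    (h01 : g 0 1 = h 0 1) (h10 : g 1 0 = h 1 0) (h11 : g 1 1 = h 1 1) : g = h := by
  apply Matrix.SpecialLinearGroup.ext
  intro i j
  fin_cases i <;> fin_cases j <;> assumption

theorem det2 (g : Matrix.SpecialLinearGroup (Fin 2) K) :
    g 0 0 * g 1 1 - g 0 1 * g 1 0 = 1 := by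
  have := g.det_coe
  rwa [Matrix.det_fin_two] at this

theorem mul2 (g h : Matrix.SpecialLinearGroup (Fin 2) K) (i j : Fin 2) :
    (g * h) i j = g i 0 * h 0 j + g i 1 * h 1 j := by
  rw [Matrix.SpecialLinearGroup.coe_mul, Matrix.mul_apply, Fin.sum_univ_two]

theorem one00 : (1 : Matrix.SpecialLinearGroup (Fin 2) K) 0 0 = 1 := by simp
theorem one01 : (1 : Matrix.SpecialLinearGroup (Fin 2) K) 0 1 = 0 := by simp
theorem one10 : (1 : Matrix.SpecialLinearGroup (Fin 2) K) 1 0 = 0 := by simp
theorem one11 : (1 : Matrix.SpecialLinearGroup (Fin 2) K) 1 1 = 1 := by simp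

/-- upper unitriangular matrices -/
def mU (a : K) : Matrix.SpecialLinearGroup (Fin 2) K := mk2 1 a 0 1 (by ring)

/-- diagonal matrices -/
def mH (t : Kˣ) : Matrix.SpecialLinearGroup (Fin 2) K :=
  mk2 (t : K) 0 0 (t : K)⁻¹ (by rw [mul_zero, sub_zero, mul_inv_cancel₀ t.ne_zero])

/-- the Weyl element -/
def mW : Matrix.SpecialLinearGroup (Fin 2) K := mk2 0 1 (-1) 0 (by ring)

theorem mU_add (a b : K) : mU (a + b) = mU a * mU b := by
  apply ext2 <;> simp only [mul2, mU, mH, mW, mk00, mk01, mk10, mk11, one00, one01, one10, one11, mul_zero,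
        zero_mul, mul_one, one_mul, add_zero, zero_add, neg_mul, mul_neg, neg_neg, neg_zero,
        Units.mul_inv, Units.inv_mul, Units.val_mul, mul_inv, inv_inv, Units.val_one, inv_one,
        Units.val_mk0, Units.val_inv_eq_inv_val]
  ring

theorem mH_mul (s t : Kˣ) : mH (s * t) = (mH s * mH t : Matrix.SpecialLinearGroup (Fin 2) K) := by
  apply ext2 <;> simp only [mul2, mU, mH, mW, mk00, mk01, mk10, mk11, one00, one01, one10, one11, mul_zero,
        zero_mul, mul_one, one_mul, add_zero, zero_add, neg_mul, mul_neg, neg_neg, neg_zero,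
        Units.mul_inv, Units.inv_mul, Units.val_mul, mul_inv, inv_inv, Units.val_one, inv_one,
        Units.val_mk0, Units.val_inv_eq_inv_val]

theorem mU_zero : mU (0 : K) = 1 := by
  apply ext2 <;> simp only [mul2, mU, mH, mW, mk00, mk01, mk10, mk11, one00, one01, one10, one11, mul_zero,
        zero_mul, mul_one, one_mul, add_zero, zero_add, neg_mul, mul_neg, neg_neg, neg_zero,
        Units.mul_inv, Units.inv_mul, Units.val_mul, mul_inv, inv_inv, Units.val_one, inv_one,
        Units.val_mk0, Units.val_inv_eq_inv_val]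

theorem mH_one : mH (1 : Kˣ) = (1 : Matrix.SpecialLinearGroup (Fin 2) K) := by
  apply ext2 <;> simp only [mul2, mU, mH, mW, mk00, mk01, mk10, mk11, one00, one01, one10, one11, mul_zero,
        zero_mul, mul_one, one_mul, add_zero, zero_add, neg_mul, mul_neg, neg_neg, neg_zero,
        Units.mul_inv, Units.inv_mul, Units.val_mul, mul_inv, inv_inv, Units.val_one, inv_one,
        Units.val_mk0, Units.val_inv_eq_inv_val]

theorem mU_neg (a : K) : mU (-a) = (mU a)⁻¹ := by
  rw [eq_inv_iff_mul_eq_one, ← mU_add, neg_add_cancel, mU_zero]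

theorem mH_inv (t : Kˣ) : mH (t⁻¹) = (mH t : Matrix.SpecialLinearGroup (Fin 2) K)⁻¹ := by
  rw [eq_inv_iff_mul_eq_one, ← mH_mul, inv_mul_cancel, mH_one]

theorem mH_conj (t : Kˣ) (x : K) : mH t * mU x * (mH t)⁻¹ = mU ((t : K) ^ 2 * x) := by
  rw [mul_inv_eq_iff_eq_mul]
  apply ext2 <;> simp only [mul2, mU, mH, mW, mk00, mk01, mk10, mk11, one00, one01, one10, one11, mul_zero,
        zero_mul, mul_one, one_mul, add_zero, zero_add, neg_mul, mul_neg, neg_neg, neg_zero,
        Units.mul_inv, Units.inv_mul, Units.val_mul, mul_inv, inv_inv, Units.val_one, inv_one,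
        Units.val_mk0, Units.val_inv_eq_inv_val]
  have := t.ne_zero
  field_simp

theorem mW_conj (t : Kˣ) : mW * mH t * mW⁻¹ = mH t⁻¹ := by
  rw [mul_inv_eq_iff_eq_mul]
  apply ext2 <;> simp only [mul2, mU, mH, mW, mk00, mk01, mk10, mk11, one00, one01, one10, one11, mul_zero,
        zero_mul, mul_one, one_mul, add_zero, zero_add, neg_mul, mul_neg, neg_neg, neg_zero,
        Units.mul_inv, Units.inv_mul, Units.val_mul, mul_inv, inv_inv, Units.val_one, inv_one,
        Units.val_mk0, Units.val_inv_eq_inv_val]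

theorem mW_cube : (mW * mU (1 : K)) ^ 3 = 1 := by
  rw [pow_succ, pow_two]
  apply ext2 <;> simp only [mul2, mU, mH, mW, mk00, mk01, mk10, mk11, one00, one01, one10, one11, mul_zero,
        zero_mul, mul_one, one_mul, add_zero, zero_add, neg_mul, mul_neg, neg_neg, neg_zero,
        Units.mul_inv, Units.inv_mul, Units.val_mul, mul_inv, inv_inv, Units.val_one, inv_one,
        Units.val_mk0, Units.val_inv_eq_inv_val] <;> ring

theorem mW_mU (x : K) : mW * mU x * mW⁻¹ = mk2 1 0 (-x) 1 (by ring) := by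
  rw [mul_inv_eq_iff_eq_mul]
  apply ext2 <;> simp only [mul2, mU, mH, mW, mk00, mk01, mk10, mk11, one00, one01, one10, one11, mul_zero,
        zero_mul, mul_one, one_mul, add_zero, zero_add, neg_mul, mul_neg, neg_neg, neg_zero,
        Units.mul_inv, Units.inv_mul, Units.val_mul, mul_inv, inv_inv, Units.val_one, inv_one,
        Units.val_mk0, Units.val_inv_eq_inv_val]

theorem mH_eq (t : Kˣ) : mH t = mU (t : K) * (mW * mU ((t : K)⁻¹) * mW⁻¹) * mU (t : K) *
    mW⁻¹ := by
  rw [eq_mul_inv_iff_mul_eq, mW_mU]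
  have := t.ne_zero
  apply ext2 <;> simp only [mul2, mU, mH, mW, mk00, mk01, mk10, mk11, one00, one01, one10, one11, mul_zero,
        zero_mul, mul_one, one_mul, add_zero, zero_add, neg_mul, mul_neg, neg_neg, neg_zero,
        Units.mul_inv, Units.inv_mul, Units.val_mul, mul_inv, inv_inv, Units.val_one, inv_one,
        Units.val_mk0, Units.val_inv_eq_inv_val] <;> field_simp <;> ring

theorem bruhat (g : Matrix.SpecialLinearGroup (Fin 2) K) :
    (∃ (t : Kˣ) (x : K), g = mH t * mU x) ∨
      ∃ (t : Kˣ) (x y : K), g = mU x * mH t * mW * mU y := by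
  have hd := det2 g
  by_cases hc : g 1 0 = 0
  · left
    rw [hc, mul_zero, sub_zero] at hd
    have ha : g 0 0 ≠ 0 := left_ne_zero_of_mul_eq_one hd
    refine ⟨Units.mk0 _ ha, g 0 1 / g 0 0, ?_⟩
    have h1 : g 1 1 = (g 0 0)⁻¹ := eq_inv_of_mul_eq_one_right hd
    apply ext2 <;> simp only [mul2, mU, mH, mW, mk00, mk01, mk10, mk11, one00, one01, one10, one11, mul_zero,
        zero_mul, mul_one, one_mul, add_zero, zero_add, neg_mul, mul_neg, neg_neg, neg_zero,
        Units.mul_inv, Units.inv_mul, Units.val_mul, mul_inv, inv_inv, Units.val_one, inv_one,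
        Units.val_mk0, Units.val_inv_eq_inv_val]
    · field_simp
    · exact hc
    · exact h1
  · right
    refine ⟨Units.mk0 (-(g 1 0)⁻¹) (neg_ne_zero.mpr (inv_ne_zero hc)), g 0 0 / g 1 0,
      g 1 1 / g 1 0, ?_⟩
    apply ext2 <;> simp only [mul2, mU, mH, mW, mk00, mk01, mk10, mk11, one00, one01, one10, one11, mul_zero,
        zero_mul, mul_one, one_mul, add_zero, zero_add, neg_mul, mul_neg, neg_neg, neg_zero,
        Units.mul_inv, Units.inv_mul, Units.val_mul, mul_inv, inv_inv, Units.val_one, inv_one,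
        Units.val_mk0, Units.val_inv_eq_inv_val]
    · field_simp
    · field_simp
      linear_combination -hd
    · field_simp
    · field_simp

end Vale.Agent.P180.R2.H365.OutA
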