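import Vale.Agent.P180.R2.H365.OutA

/-!
P180: the group of outer automorphisms of a quotient of `SL_2(K)` by a central subgroup is solvable.
-/

set_option linter.all false

namespace Vale.Agent.P180.R2.H365.OutA

variable {K : Type*} [Field K]

theorem ent {g h : Matrix.SpecialLinearGroup (Fin 2) K} (e : g = h) (i j : Fin 2) :
    g i j = h i j := by rw [e]

/-- scalar matrices of determinant one -/
def mS (e : K) (h : e * e = 1) : Matrix.SpecialLinearGroup (Fin 2) K :=
  mk2 e 0 0 e (by rw [mul_zero, sub_zero, h])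

theorem mS_comm (e : K) (h : e * e = 1) (g : Matrix.SpecialLinearGroup (Fin 2) K) :
    mS e h * g = g * mS e h := by
  apply ext2 <;> simp only [mul2, mU, mH, mW, mS, mk00, mk01, mk10, mk11, one00, one01, one10, one11, mul_zero,
        zero_mul, mul_one, one_mul, add_zero, zero_add, neg_mul, mul_neg, neg_neg, neg_zero,
        Units.mul_inv, Units.inv_mul, Units.val_mul, mul_inv, inv_inv, Units.val_one, inv_one,
        Units.val_mk0, Units.val_inv_eq_inv_val] <;> ring

theorem mS_sq (e : K) (h : e * e = 1) : mS e h * mS e h = 1 := by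
  apply ext2 <;> simp only [mul2, mU, mH, mW, mS, mk00, mk01, mk10, mk11, one00, one01, one10, one11, mul_zero,
        zero_mul, mul_one, one_mul, add_zero, zero_add, neg_mul, mul_neg, neg_neg, neg_zero,
        Units.mul_inv, Units.inv_mul, Units.val_mul, mul_inv, inv_inv, Units.val_one, inv_one,
        Units.val_mk0, Units.val_inv_eq_inv_val] <;> exact h

theorem eq_mS {g : Matrix.SpecialLinearGroup (Fin 2) K} (h : ∀ g', g * g' = g' * g) :
    ∃ e, ∃ he : e * e = 1, g = mS e he := by
  have h1 := h (mU 1)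
  have h2 := h mW
  have a1 := ent h1 0 0
  have a2 := ent h1 0 1
  have a3 := ent h2 0 0
  revert a1 a2 a3
  simp only [mul2, mU, mH, mW, mS, mk00, mk01, mk10, mk11, one00, one01, one10, one11, mul_zero,
        zero_mul, mul_one, one_mul, add_zero, zero_add, neg_mul, mul_neg, neg_neg, neg_zero,
        Units.mul_inv, Units.inv_mul, Units.val_mul, mul_inv, inv_inv, Units.val_one, inv_one,
        Units.val_mk0, Units.val_inv_eq_inv_val]
  intro a1 a2 a3
  have c0 : g 1 0 = 0 := by linear_combination -a1
  have b0 : g 0 1 = 0 := by linear_combination -a3 - c0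
  have ad : g 0 0 = g 1 1 := by linear_combination a2
  have hd := det2 g
  rw [b0, c0, mul_zero, sub_zero, ← ad] at hd
  refine ⟨g 0 0, hd, ?_⟩
  apply ext2 <;> simp only [mul2, mU, mH, mW, mS, mk00, mk01, mk10, mk11, one00, one01, one10, one11, mul_zero,
        zero_mul, mul_one, one_mul, add_zero, zero_add, neg_mul, mul_neg, neg_neg, neg_zero,
        Units.mul_inv, Units.inv_mul, Units.val_mul, mul_inv, inv_inv, Units.val_one, inv_one,
        Units.val_mk0, Units.val_inv_eq_inv_val]
  · exact b0
  · exact c0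
  · exact ad.symm

section Quot

variable {L : Type*} [Group L] {π : Matrix.SpecialLinearGroup (Fin 2) K →* L}

theorem of_eq (hk : π.ker ≤ Subgroup.center _) {g h : Matrix.SpecialLinearGroup (Fin 2) K}
    (hgh : π g = π h) : ∃ e, ∃ he : e * e = 1, g = mS e he * h ∧ π (mS e he) = 1 := by
  have h1 : g * h⁻¹ ∈ π.ker := by
    rw [MonoidHom.mem_ker, map_mul, map_inv, hgh, mul_inv_cancel]
  obtain ⟨e, he, h2⟩ := eq_mS fun g' => (Subgroup.mem_center_iff.mp (hk h1) g').symm
  refine ⟨e, he, ?_, ?_⟩
  · rw [← h2, inv_mul_cancel_right]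
  · rw [← h2]; exact h1

theorem u_inj (hk : π.ker ≤ Subgroup.center _) {x y : K} (h : π (mU x) = π (mU y)) : x = y := by
  obtain ⟨e, he, h1, -⟩ := of_eq hk h
  have a1 := ent h1 0 0
  have a2 := ent h1 0 1
  revert a1 a2
  simp only [mul2, mU, mH, mW, mS, mk00, mk01, mk10, mk11, one00, one01, one10, one11, mul_zero,
        zero_mul, mul_one, one_mul, add_zero, zero_add, neg_mul, mul_neg, neg_neg, neg_zero,
        Units.mul_inv, Units.inv_mul, Units.val_mul, mul_inv, inv_inv, Units.val_one, inv_one,
        Units.val_mk0, Units.val_inv_eq_inv_val]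
  intro a1 a2
  rw [← a1, one_mul] at a2
  exact a2

/-- an element normalising the image of the unitriangular matrices -/
theorem norm_u (hπ : Function.Surjective π) (hk : π.ker ≤ Subgroup.center _) {b : L} {y : K}
    (h : b * π (mU 1) * b⁻¹ = π (mU y)) :
    ∃ g, π g = b ∧ g 1 0 = 0 ∧ y = g 0 0 ^ 2 ∧
      ∀ x, b * π (mU x) * b⁻¹ = π (mU (g 0 0 ^ 2 * x)) := by
  obtain ⟨g, rfl⟩ := hπ b
  rw [mul_inv_eq_iff_eq_mul, ← map_mul, ← map_mul] at h
  obtain ⟨e, he, h1, -⟩ := of_eq hk h
  have a0 := ent h1 0 0
  have a1 := ent h1 0 1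
  have a2 := ent h1 1 0
  have a3 := ent h1 1 1
  revert a0 a1 a2 a3
  simp only [mul2, mU, mH, mW, mS, mk00, mk01, mk10, mk11, one00, one01, one10, one11, mul_zero,
        zero_mul, mul_one, one_mul, add_zero, zero_add, neg_mul, mul_neg, neg_neg, neg_zero,
        Units.mul_inv, Units.inv_mul, Units.val_mul, mul_inv, inv_inv, Units.val_one, inv_one,
        Units.val_mk0, Units.val_inv_eq_inv_val]
  intro a0 a1 a2 a3
  have hd := det2 g
  have he1 : e = 1 := by
    by_contra hne
    have h2 : e - 1 ≠ 0 := sub_ne_zero.mpr hne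
    have hc : g 1 0 = 0 := by
      have : (e - 1) * g 1 0 = 0 := by linear_combination -a2
      exact (mul_eq_zero.mp this).resolve_left h2
    have hdd : g 1 1 = 0 := by
      have : (e - 1) * g 1 1 = 0 := by linear_combination -a3 + hc
      exact (mul_eq_zero.mp this).resolve_left h2
    rw [hc, hdd, mul_zero, mul_zero, sub_zero] at hd
    exact zero_ne_one hd
  subst he1
  have hc : g 1 0 = 0 := by linear_combination a3
  have hy : y = g 0 0 ^ 2 := by
    rw [hc, mul_zero, sub_zero] at hd
    have : g 0 0 = y * g 1 1 := by linear_combination a1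
    have h3 : y = y * (g 0 0 * g 1 1) := by rw [hd, mul_one]
    rw [h3, pow_two]
    linear_combination -g 0 0 * this
  refine ⟨g, rfl, hc, hy, fun x => ?_⟩
  rw [mul_inv_eq_iff_eq_mul, ← map_mul, ← map_mul]
  congr 1
  rw [hc, mul_zero, sub_zero] at hd
  apply ext2 <;> simp only [mul2, mU, mH, mW, mS, mk00, mk01, mk10, mk11, one00, one01, one10, one11, mul_zero,
        zero_mul, mul_one, one_mul, add_zero, zero_add, neg_mul, mul_neg, neg_neg, neg_zero,
        Units.mul_inv, Units.inv_mul, Units.val_mul, mul_inv, inv_inv, Units.val_one, inv_one,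
        Units.val_mk0, Units.val_inv_eq_inv_val]
  · rw [hc]; ring
  · linear_combination -(g 0 0 * x) * hd
  · rw [hc]; ring

end Quot

end Vale.Agent.P180.R2.H365.OutA
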