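import Vale.Agent.P180.R2.H365.OutB

/-!
P180: the group of outer automorphisms of a quotient of `SL_2(K)` by a central subgroup is solvable.
-/

set_option linter.all false

namespace Vale.Agent.P180.R2.H365.OutA

variable {K : Type*} [Field K] {L : Type*} [Group L] {π : Matrix.SpecialLinearGroup (Fin 2) K →* L}

/-- the automorphisms which stabilise the image of the unitriangular matrices -/
def S0 (π : Matrix.SpecialLinearGroup (Fin 2) K →* L) : Subgroup (MulAut L) where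
  carrier := {α | ∀ z, (∃ x, α z = π (mU x)) ↔ ∃ x, z = π (mU x)}
  one_mem' := fun z => Iff.rfl
  mul_mem' := fun {a b} ha hb z => (ha (b z)).trans (hb z)
  inv_mem' := fun {a} ha z => by
    have := ha (a⁻¹ z)
    rw [MulAut.apply_inv_self] at this
    exact this.symm

/-- the linear ones -/
def S1 (π : Matrix.SpecialLinearGroup (Fin 2) K →* L) : Subgroup (MulAut L) where
  carrier := {α | ∃ c : Kˣ, ∀ x, α (π (mU x)) = π (mU ((c : K) * x))}
  one_mem' := ⟨1, fun x => by rw [Units.val_one, one_mul]; rfl⟩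
  mul_mem' := by
    rintro a b ⟨c, hc⟩ ⟨d, hd⟩
    refine ⟨c * d, fun x => ?_⟩
    rw [MulAut.mul_apply, hd, hc, Units.val_mul, mul_assoc]
  inv_mem' := by
    rintro a ⟨c, hc⟩
    refine ⟨c⁻¹, fun x => ?_⟩
    apply a.injective
    rw [MulAut.apply_inv_self, hc, ← mul_assoc, Units.mul_inv, one_mul]

/-- the ones acting trivially -/
def S2 (π : Matrix.SpecialLinearGroup (Fin 2) K →* L) : Subgroup (MulAut L) where
  carrier := {α | ∀ x, α (π (mU x)) = π (mU x)}
  one_mem' := fun x => rfl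
  mul_mem' := by
    intro a b ha hb x
    rw [MulAut.mul_apply, hb, ha]
  inv_mem' := by
    intro a ha x
    apply a.injective
    rw [MulAut.apply_inv_self, ha]

theorem comm_S1 : ⁅S1 π, S1 π⁆ ≤ S2 π := by
  rw [Subgroup.commutator_le]
  rintro a ⟨c, hc⟩ b ⟨d, hd⟩ x
  have hc' : ∀ y, a⁻¹ (π (mU y)) = π (mU (((c⁻¹ : Kˣ) : K) * y)) := by
    intro y
    apply a.injective
    rw [MulAut.apply_inv_self, hc, ← mul_assoc, Units.mul_inv, one_mul]
  have hd' : ∀ y, b⁻¹ (π (mU y)) = π (mU (((d⁻¹ : Kˣ) : K) * y)) := by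
    intro y
    apply b.injective
    rw [MulAut.apply_inv_self, hd, ← mul_assoc, Units.mul_inv, one_mul]
  rw [commutatorElement_def, MulAut.mul_apply, MulAut.mul_apply, MulAut.mul_apply, hd', hc', hd, hc]
  congr 2
  have h1 : (c : K) * ((c⁻¹ : Kˣ) : K) = 1 := Units.mul_inv c
  have h2 : (d : K) * ((d⁻¹ : Kˣ) : K) = 1 := Units.mul_inv d
  linear_combination (((d : K) * ((d⁻¹ : Kˣ) : K)) * x) * h1 + x * h2

theorem S0_fun (hk : π.ker ≤ Subgroup.center _) {α : MulAut L} (hα : α ∈ S0 π) :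
    ∃ f : K → K, (∀ x, α (π (mU x)) = π (mU (f x))) ∧ Function.Bijective f ∧
      ∀ x y, f (x + y) = f x + f y := by
  choose f hf using fun x => (hα (π (mU x))).mpr ⟨x, rfl⟩
  refine ⟨f, hf, ⟨?_, ?_⟩, ?_⟩
  · intro x y hxy
    apply u_inj hk
    apply α.injective
    rw [hf, hf, hxy]
  · intro y
    obtain ⟨x, hx⟩ := (hα (α⁻¹ (π (mU y)))).mp ⟨y, by rw [MulAut.apply_inv_self]⟩
    refine ⟨x, ?_⟩
    apply u_inj hk
    rw [← hf, ← hx, MulAut.apply_inv_self]
  · intro x y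
    apply u_inj hk
    rw [← hf, mU_add, map_mul, map_mul, hf, hf, mU_add, map_mul]

/-- the key identity -/
theorem S0_key [Finite K] (hπ : Function.Surjective π) (hk : π.ker ≤ Subgroup.center _)
    {α : MulAut L} {f : K → K} (hf : ∀ x, α (π (mU x)) = π (mU (f x)))
    (hb : Function.Bijective f) (hadd : ∀ x y, f (x + y) = f x + f y) (s x : K) :
    f (s * x) * f 1 = f s * f x := by
  have f0 : f 0 = 0 := by
    have := hadd 0 0
    rw [add_zero] at this
    exact left_eq_add.mp this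
  have hsub : ∀ x y, f (x - y) = f x - f y := by
    intro x y
    have := hadd (x - y) y
    rw [sub_add_cancel] at this
    rw [this, add_sub_cancel_right]
  have hsq : ∀ t : K, ∃ χ : K, ∀ x, f (t ^ 2 * x) = χ * f x := by
    intro t
    by_cases ht : t = 0
    · refine ⟨0, fun x => ?_⟩
      rw [ht, zero_pow two_ne_zero, zero_mul, zero_mul, f0]
    · obtain ⟨x1, hx1⟩ := hb.2 1
      have hconj : ∀ x, α (π (mH (Units.mk0 t ht))) * π (mU (f x)) *
          (α (π (mH (Units.mk0 t ht))))⁻¹ = π (mU (f (t ^ 2 * x))) := by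
        intro x
        rw [← hf, ← map_inv, ← map_mul, ← map_mul, ← map_inv, ← map_mul, ← map_mul, mH_conj,
          hf, Units.val_mk0]
      have h1 := hconj x1
      rw [hx1] at h1
      obtain ⟨g, -, -, -, hg⟩ := norm_u hπ hk h1
      refine ⟨g 0 0 ^ 2, fun x => ?_⟩
      apply u_inj hk
      rw [← hconj, hg]
  have hall : ∀ s : K, ∃ χ : K, ∀ x, f (s * x) = χ * f x := by
    intro s
    by_cases h2 : ringChar K = 2
    · obtain ⟨r, hr⟩ := FiniteField.isSquare_of_char_two h2 s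
      obtain ⟨χ, hχ⟩ := hsq r
      exact ⟨χ, fun x => by rw [← hχ, hr, pow_two]⟩
    · have h2' : (2 : K) ≠ 0 := Ring.two_ne_zero h2
      obtain ⟨χ1, h1⟩ := hsq ((s + 1) / 2)
      obtain ⟨χ2, h3⟩ := hsq ((s - 1) / 2)
      refine ⟨χ1 - χ2, fun x => ?_⟩
      rw [sub_mul, ← h1, ← h3, ← hsub]
      congr 1
      field_simp
      ring
  obtain ⟨χ, hχ⟩ := hall s
  have h1 := hχ 1
  rw [mul_one] at h1
  rw [hχ, h1]
  ring

/-- endomorphisms of a cyclic group commute -/
theorem units_comm [Finite K] (σ τ : K → K) (hσ : ∀ x y, σ (x * y) = σ x * σ y) (hσ1 : σ 1 = 1)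
    (hσ0 : σ 0 = 0) (hτ : ∀ x y, τ (x * y) = τ x * τ y) (hτ1 : τ 1 = 1) (hτ0 : τ 0 = 0) (x : K) :
    σ (τ x) = τ (σ x) := by
  by_cases hx : x = 0
  · rw [hx, hσ0, hτ0, hσ0]
  let s : K →* K := ⟨⟨σ, hσ1⟩, hσ⟩
  let t : K →* K := ⟨⟨τ, hτ1⟩, hτ⟩
  obtain ⟨m, hm⟩ := (Units.map s).map_cyclic
  obtain ⟨n, hn⟩ := (Units.map t).map_cyclic
  have h1 : ∀ y : Kˣ, ((y ^ m : Kˣ) : K) = σ (y : K) := fun y =>
    (congrArg Units.val (hm y)).symm
  have h2 : ∀ y : Kˣ, ((y ^ n : Kˣ) : K) = τ (y : K) := fun y =>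
    (congrArg Units.val (hn y)).symm
  have h3 := h1 ((Units.mk0 x hx) ^ n)
  have h4 := h2 ((Units.mk0 x hx) ^ m)
  rw [h2, Units.val_mk0] at h3
  rw [h1, Units.val_mk0] at h4
  rw [← h3, ← h4, ← zpow_mul, ← zpow_mul, mul_comm]

theorem comm_S0 [Finite K] (hπ : Function.Surjective π) (hk : π.ker ≤ Subgroup.center _) :
    ⁅S0 π, S0 π⁆ ≤ S1 π := by
  rw [Subgroup.commutator_le]
  intro a ha b hb
  obtain ⟨f, hf, hfb, hfa⟩ := S0_fun hk ha
  obtain ⟨g, hg, hgb, hga⟩ := S0_fun hk hb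
  have kf := S0_key hπ hk hf hfb hfa
  have kg := S0_key hπ hk hg hgb hga
  have z0 : ∀ {f : K → K}, (∀ x y, f (x + y) = f x + f y) → f 0 = 0 := by
    intro f hadd
    have := hadd 0 0
    rw [add_zero] at this
    exact left_eq_add.mp this
  have f1 : f 1 ≠ 0 := fun h => one_ne_zero (hfb.1 (h.trans (z0 hfa).symm))
  have g1 : g 1 ≠ 0 := fun h => one_ne_zero (hgb.1 (h.trans (z0 hga).symm))
  have hc : ∀ x, f (g x / g 1) / f 1 = g (f x / f 1) / g 1 := by
    refine units_comm (fun x => f x / f 1) (fun x => g x / g 1) ?_ ?_ ?_ ?_ ?_ ?_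
    · intro x y
      have := kf x y
      field_simp
      rw [← this]
    · exact div_self f1
    · show f 0 / f 1 = 0
      rw [z0 hfa, zero_div]
    · intro x y
      have := kg x y
      field_simp
      rw [← this]
    · exact div_self g1
    · show g 0 / g 1 = 0
      rw [z0 hga, zero_div]
  have e1 : ∀ x, f (g x) = (f (g x / g 1) / f 1) * f (g 1) := by
    intro x
    have := kf (g x / g 1) (g 1)
    rw [div_mul_cancel₀ _ g1] at this
    field_simp
    rw [this]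
  have e2 : ∀ x, g (f x) = (g (f x / f 1) / g 1) * g (f 1) := by
    intro x
    have := kg (f x / f 1) (f 1)
    rw [div_mul_cancel₀ _ f1] at this
    field_simp
    rw [this]
  have n1 : f (g 1) ≠ 0 := fun h => g1 (hfb.1 (h.trans (z0 hfa).symm))
  have n2 : g (f 1) ≠ 0 := fun h => f1 (hgb.1 (h.trans (z0 hga).symm))
  have e3 : ∀ x, f (g x) = (f (g 1) / g (f 1)) * g (f x) := by
    intro x
    rw [e1, e2 x, hc]
    field_simp
  refine ⟨Units.mk0 _ (div_ne_zero n1 n2), fun x => ?_⟩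
  obtain ⟨x', hx'⟩ := hgb.2 x
  obtain ⟨y, rfl⟩ := hfb.2 x'
  subst hx'
  have i1 : b⁻¹ (π (mU (g (f y)))) = π (mU (f y)) := by
    rw [← hg, MulAut.inv_apply_self]
  have i2 : a⁻¹ (π (mU (f y))) = π (mU y) := by
    rw [← hf, MulAut.inv_apply_self]
  rw [commutatorElement_def, MulAut.mul_apply, MulAut.mul_apply, MulAut.mul_apply, i1, i2, hg, hf,
    e3, Units.val_mk0]

end Vale.Agent.P180.R2.H365.OutA
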