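import Vale.Agent.P180.R2.H365.OutC

/-!
P180: the group of outer automorphisms of a quotient of `SL_2(K)` by a central subgroup is solvable.
-/

set_option linter.all false

namespace Vale.Agent.P180.R2.H365.OutA

variable {K : Type*} [Field K] {L : Type*} [Group L] {π : Matrix.SpecialLinearGroup (Fin 2) K →* L}

theorem S2_inner [Finite K] (hK : 5 < Nat.card K) (hπ : Function.Surjective π)
    (hk : π.ker ≤ Subgroup.center _) {α : MulAut L} (hα : α ∈ S2 π) :
    ∃ l : L, ∀ z, α z = l * z * l⁻¹ := by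
  -- an element of the torus of order at least five
  obtain ⟨t, ht⟩ : ∃ t : Kˣ, t ^ 4 ≠ 1 := by
    obtain ⟨g, hg⟩ := IsCyclic.exists_generator (α := Kˣ)
    refine ⟨g, fun h => ?_⟩
    have h1 : orderOf g ∣ 4 := orderOf_dvd_of_pow_eq_one h
    have h2 : orderOf g = Nat.card Kˣ := orderOf_eq_card_of_forall_mem_zpowers hg
    have h3 : Nat.card Kˣ = Nat.card K - 1 := Nat.card_units K
    have h4 := Nat.le_of_dvd (by norm_num) h1
    omega
  have ht4 : (t : K) ^ 4 ≠ 1 := fun h => ht (Units.ext (by rw [Units.val_pow_eq_pow_val, h, Units.val_one]))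
  have ht0 : (t : K) ≠ 0 := t.ne_zero
  have ht2 : (t : K) ^ 2 - 1 ≠ 0 := fun h => ht4 (by linear_combination ((t : K) ^ 2 + 1) * h)
  -- the image of the torus element
  have h1 : α (π (mH t)) * π (mU 1) * (α (π (mH t)))⁻¹ = π (mU ((t : K) ^ 2 * 1)) := by
    have h2 : α (π (mH t) * π (mU 1) * (π (mH t))⁻¹) = α (π (mU ((t : K) ^ 2 * 1))) := by
      rw [← map_inv, ← map_mul, ← map_mul, mH_conj]
    rw [map_mul, map_mul, map_inv, hα, hα] at h2
    exact h2
  obtain ⟨g, hg, hg10, hg00, -⟩ := norm_u hπ hk h1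
  have hd := det2 g
  rw [hg10, mul_zero, sub_zero] at hd
  have ha0 : g 0 0 ≠ 0 := left_ne_zero_of_mul_eq_one hd
  have h11 : g 1 1 = (g 0 0)⁻¹ := eq_inv_of_mul_eq_one_right hd
  obtain ⟨e, he⟩ : ∃ e, e = g 0 0 / t := ⟨_, rfl⟩
  have hee : e * e = 1 := by
    rw [he]
    field_simp
    rw [← hg00, mul_one]
  have hge : g 0 0 = e * t := by rw [he, div_mul_cancel₀ _ ht0]
  have hg1 : g = mS e hee * mH t * mU (g 0 1 / g 0 0) := by
    have he0 : e ≠ 0 := left_ne_zero_of_mul_eq_one hee
    apply ext2 <;> simp only [mul2, mU, mH, mW, mS, mk00, mk01, mk10, mk11, one00, one01, one10, one11, mul_zero,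
        zero_mul, mul_one, one_mul, add_zero, zero_add, neg_mul, mul_neg, neg_neg, neg_zero,
        Units.mul_inv, Units.inv_mul, Units.val_mul, mul_inv, inv_inv, Units.val_one, inv_one,
        Units.val_mk0, Units.val_inv_eq_inv_val]
    · exact hge
    · rw [← hge]
      field_simp
    · exact hg10
    · rw [h11, hge, mul_inv, inv_eq_of_mul_eq_one_left hee]
  -- the correction
  obtain ⟨y, hy⟩ : ∃ y : K, y * (1 - ((t : K)⁻¹) ^ 2) = -(g 0 1 / g 0 0) := by
    refine ⟨-(g 0 1 / g 0 0) / (1 - ((t : K)⁻¹) ^ 2), div_mul_cancel₀ _ ?_⟩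
    intro h
    apply ht2
    field_simp at h
    linear_combination h
  have hz : ∀ l : L, π (mS e hee) * l = l * π (mS e hee) := by
    intro l
    obtain ⟨g', rfl⟩ := hπ l
    rw [← map_mul, ← map_mul, mS_comm]
  have hbeta : π (mU (-y)) * α (π (mH t)) * π (mU y) = π (mS e hee) * π (mH t) := by
    rw [← hg, ← map_mul, ← map_mul, ← map_mul]
    congr 1
    rw [hg1]
    have h3 : mH t * mU (-((t : K)⁻¹) ^ 2 * y) = mU (-y) * mH t := by
      apply ext2 <;> simp only [mul2, mU, mH, mW, mS, mk00, mk01, mk10, mk11, one00, one01, one10, one11, mul_zero,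
        zero_mul, mul_one, one_mul, add_zero, zero_add, neg_mul, mul_neg, neg_neg, neg_zero,
        Units.mul_inv, Units.inv_mul, Units.val_mul, mul_inv, inv_inv, Units.val_one, inv_one,
        Units.val_mk0, Units.val_inv_eq_inv_val] <;> field_simp
    have h4 : mU (-y) * (mS e hee * mH t * mU (g 0 1 / g 0 0)) * mU y =
        mS e hee * (mU (-y) * mH t) * (mU (g 0 1 / g 0 0) * mU y) := by
      rw [← mul_assoc, ← mul_assoc, ← mS_comm]
      simp only [mul_assoc]
    rw [h4, ← h3, ← mU_add, mul_assoc, mul_assoc, ← mU_add]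
    have h5 : -((t : K)⁻¹) ^ 2 * y + (g 0 1 / g 0 0 + y) = 0 := by linear_combination hy
    rw [h5, mU_zero, mul_one]
  -- the corrected automorphism
  obtain ⟨β, hβ⟩ : ∃ β : L →* L, ∀ z, β z = π (mU (-y)) * α z * π (mU y) := by
    refine ⟨((MulAut.conj (π (mU (-y)))).toMonoidHom).comp α.toMonoidHom, fun z => ?_⟩
    have h6 : π (mU y) = (π (mU (-y)))⁻¹ := by
      rw [mU_neg, map_inv, inv_inv]
    rw [h6]
    rfl
  have hβu : ∀ x, β (π (mU x)) = π (mU x) := by
    intro x
    rw [hβ, hα, ← map_mul, ← map_mul, ← mU_add, ← mU_add]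
    congr 2
    ring
  have hβh : β (π (mH t)) = π (mS e hee) * π (mH t) := by rw [hβ, hbeta]
  have hss : π (mS e hee) * π (mS e hee) = 1 := by rw [← map_mul, mS_sq, map_one]
  -- the image of the Weyl element
  have h7 : π mW * π (mH t) = π (mH t⁻¹) * π mW := by
    rw [← map_mul, ← map_mul, ← mW_conj, inv_mul_cancel_right]
  have hw1 : β (π mW) * π (mH t) = π (mH t⁻¹) * β (π mW) := by
    have h8 := congrArg β h7
    have h9 : β (π (mH t⁻¹)) = π (mS e hee) * π (mH t⁻¹) := by
      have hsi : (π (mS e hee))⁻¹ = π (mS e hee) := inv_eq_of_mul_eq_one_left hss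
      rw [mH_inv, map_inv, map_inv, hβh, mul_inv_rev, hsi, ← hz]
    rw [map_mul, map_mul, hβh, h9, ← mul_assoc, ← hz, mul_assoc, mul_assoc] at h8
    exact mul_left_cancel h8
  obtain ⟨x, hx⟩ := hπ ((π mW)⁻¹ * β (π mW))
  have hx1 : π (x * mH t) = π (mH t * x) := by
    have h14 : (π mW)⁻¹ * π (mH t⁻¹) = π (mH t) * (π mW)⁻¹ := by
      rw [inv_mul_eq_iff_eq_mul, ← mul_assoc, eq_mul_inv_iff_mul_eq]
      exact h7.symm
    rw [map_mul, map_mul, hx, mul_assoc, hw1, ← mul_assoc, ← mul_assoc, h14]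
  obtain ⟨e', he', hx2, -⟩ := of_eq hk hx1
  have b0 := ent hx2 0 0
  have b1 := ent hx2 0 1
  have b2 := ent hx2 1 0
  have b3 := ent hx2 1 1
  revert b0 b1 b2 b3
  simp only [mul2, mU, mH, mW, mS, mk00, mk01, mk10, mk11, one00, one01, one10, one11, mul_zero,
        zero_mul, mul_one, one_mul, add_zero, zero_add, neg_mul, mul_neg, neg_neg, neg_zero,
        Units.mul_inv, Units.inv_mul, Units.val_mul, mul_inv, inv_inv, Units.val_one, inv_one,
        Units.val_mk0, Units.val_inv_eq_inv_val]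
  intro b0 b1 b2 b3
  have hdx := det2 x
  have hx01 : x 0 1 = 0 := by
    by_contra hne
    have h10 : (t : K)⁻¹ = e' * t := by
      apply mul_left_cancel₀ hne
      linear_combination b1
    have h11' : e' * (t : K) ^ 2 = 1 := by
      have := congrArg (· * (t : K)) h10
      simp only [inv_mul_cancel₀ ht0] at this
      linear_combination -this
    apply ht4
    have : ((t : K) ^ 2) ^ 2 = (e' * e') * ((t : K) ^ 2) ^ 2 := by rw [he', one_mul]
    calc (t : K) ^ 4 = (e' * e') * ((t : K) ^ 2) ^ 2 := by rw [he', one_mul]; ring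
      _ = (e' * (t : K) ^ 2) ^ 2 := by ring
      _ = 1 := by rw [h11', one_pow]
  have hx10 : x 1 0 = 0 := by
    by_contra hne
    have h10 : (t : K) = e' * (t : K)⁻¹ := by
      apply mul_left_cancel₀ hne
      linear_combination b2
    have h11' : (t : K) ^ 2 = e' := by
      have := congrArg (· * (t : K)) h10
      simp only [mul_assoc, inv_mul_cancel₀ ht0, mul_one] at this
      rw [pow_two]
      exact this
    apply ht4
    calc (t : K) ^ 4 = ((t : K) ^ 2) ^ 2 := by ring
      _ = 1 := by rw [h11', pow_two, he']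
  rw [hx01, zero_mul, sub_zero] at hdx
  have hx00 : x 0 0 ≠ 0 := left_ne_zero_of_mul_eq_one hdx
  have hx11 : x 1 1 = (x 0 0)⁻¹ := eq_inv_of_mul_eq_one_right hdx
  obtain ⟨s, hs⟩ : ∃ s : Kˣ, s = Units.mk0 _ hx00 := ⟨_, rfl⟩
  have hxs : x = mH s := by
    rw [hs]
    apply ext2 <;> simp only [mul2, mU, mH, mW, mS, mk00, mk01, mk10, mk11, one00, one01, one10, one11, mul_zero,
        zero_mul, mul_one, one_mul, add_zero, zero_add, neg_mul, mul_neg, neg_neg, neg_zero,
        Units.mul_inv, Units.inv_mul, Units.val_mul, mul_inv, inv_inv, Units.val_one, inv_one,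
        Units.val_mk0, Units.val_inv_eq_inv_val]
    · exact hx01
    · exact hx10
    · exact hx11
  have hβw : β (π mW) = π mW * π (mH s) := by
    rw [← hxs, hx, mul_inv_cancel_left]
  -- the relation of order three
  have hcube : π ((mW * mH s * mU 1) ^ 3) = π 1 := by
    have h12 := congrArg β (congrArg π (mW_cube (K := K)))
    rw [map_one, map_one, map_pow, map_pow, map_mul, map_mul, hβw, hβu, ← map_mul, ← map_mul,
      ← map_pow] at h12
    rw [h12, map_one]
  obtain ⟨e2, he2, hc2, hc3⟩ := of_eq hk hcube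
  rw [mul_one] at hc2
  have hs0 : (s : K) ≠ 0 := s.ne_zero
  have c1 := ent hc2 0 1
  have c0 := ent hc2 0 0
  rw [pow_succ, pow_two] at c1 c0
  revert c1 c0
  simp only [mul2, mU, mH, mW, mS, mk00, mk01, mk10, mk11, one00, one01, one10, one11, mul_zero,
        zero_mul, mul_one, one_mul, add_zero, zero_add, neg_mul, mul_neg, neg_neg, neg_zero,
        Units.mul_inv, Units.inv_mul, Units.val_mul, mul_inv, inv_inv, Units.val_one, inv_one,
        Units.val_mk0, Units.val_inv_eq_inv_val]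
  intro c1 c0
  have hs2 : (s : K) * s = 1 := by
    field_simp at c1
    linear_combination c1
  have hinv : (s : K)⁻¹ = s := inv_eq_of_mul_eq_one_left hs2
  have hs3 : (s : K) = e2 := by
    rw [hinv] at c0
    linear_combination c0 - (s : K) * hs2
  have hmH : mH s = mS e2 he2 := by
    apply ext2 <;> simp only [mul2, mU, mH, mW, mS, mk00, mk01, mk10, mk11, one00, one01, one10, one11, mul_zero,
        zero_mul, mul_one, one_mul, add_zero, zero_add, neg_mul, mul_neg, neg_neg, neg_zero,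
        Units.mul_inv, Units.inv_mul, Units.val_mul, mul_inv, inv_inv, Units.val_one, inv_one,
        Units.val_mk0, Units.val_inv_eq_inv_val]
    · exact hs3
    · rw [hinv]; exact hs3
  rw [hmH, hc3, mul_one] at hβw
  -- conclusion
  have hβH : ∀ s : Kˣ, β (π (mH s)) = π (mH s) := by
    intro s
    rw [mH_eq]
    simp only [map_mul, map_inv, hβu, hβw]
  have hid : ∀ z, β z = z := by
    intro z
    obtain ⟨g', rfl⟩ := hπ z
    rcases bruhat g' with ⟨s, x, rfl⟩ | ⟨s, x, y, rfl⟩
    · simp only [map_mul, hβu, hβH]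
    · simp only [map_mul, hβu, hβH, hβw]
  refine ⟨π (mU y), fun z => ?_⟩
  have h13 := hid z
  rw [hβ, mU_neg, map_inv] at h13
  calc α z = π (mU y) * ((π (mU y))⁻¹ * α z * π (mU y)) * (π (mU y))⁻¹ := by group
    _ = π (mU y) * z * (π (mU y))⁻¹ := by rw [h13]

end Vale.Agent.P180.R2.H365.OutA
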