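import Vale.Agent.P180.R2.H365.OutD

/-!
P180: the group of outer automorphisms of a quotient of `SL_2(K)` by a central subgroup is solvable.
-/

set_option linter.all false

namespace Vale.Agent.P180.R2.H365.OutA

variable {K : Type*} [Field K] {L : Type*} [Group L] {π : Matrix.SpecialLinearGroup (Fin 2) K →* L}

/-- the image of the unitriangular matrices -/
def UU (π : Matrix.SpecialLinearGroup (Fin 2) K →* L) : Subgroup L where
  carrier := {z | ∃ x, z = π (mU x)}
  one_mem' := ⟨0, by rw [mU_zero, map_one]⟩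
  mul_mem' := by
    rintro a b ⟨x, rfl⟩ ⟨y, rfl⟩
    exact ⟨x + y, by rw [mU_add, map_mul]⟩
  inv_mem' := by
    rintro a ⟨x, rfl⟩
    exact ⟨-x, by rw [mU_neg, map_inv]⟩

theorem mU_pow (x : K) (n : ℕ) : mU x ^ n = mU (n * x) := by
  induction n with
  | zero => rw [pow_zero, Nat.cast_zero, zero_mul, mU_zero]
  | succ n ih =>
    rw [pow_succ, ih, ← mU_add]
    congr 1
    push_cast
    ring

theorem UU_pgroup {r : ℕ} [CharP K r] : IsPGroup r (UU π) := by
  rintro ⟨_, x, rfl⟩
  refine ⟨1, Subtype.ext ?_⟩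
  show π (mU x) ^ r ^ 1 = 1
  rw [pow_one, ← map_pow, mU_pow, CharP.cast_eq_zero, zero_mul, mU_zero, map_one]

/-- powers of upper triangular matrices -/
theorem tri_pow {g : Matrix.SpecialLinearGroup (Fin 2) K} (h : g 1 0 = 0) (n : ℕ) :
    (g ^ n) 1 0 = 0 ∧ (g ^ n) 0 0 = g 0 0 ^ n := by
  induction n with
  | zero => rw [pow_zero, pow_zero]; exact ⟨one10, one00⟩
  | succ n ih =>
    rw [pow_succ, mul2, mul2, ih.1, h, ih.2, pow_succ]
    constructor <;> ring

theorem UU_max [Finite K] {r : ℕ} [Fact r.Prime] [CharP K r] (hπ : Function.Surjective π)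
    (hk : π.ker ≤ Subgroup.center _) {P : Subgroup L} [Finite L] (hP : IsPGroup r P)
    (hUP : UU π ≤ P) : P ≤ UU π := by
  by_contra hnot
  haveI : Group.IsNilpotent P := hP.isNilpotent
  have hcond := Group.normalizerCondition_of_isNilpotent (G := P) ((UU π).subgroupOf P)
    (lt_top_iff_ne_top.mpr fun h => hnot (Subgroup.subgroupOf_eq_top.mp h))
  obtain ⟨x, hx, hxU⟩ := SetLike.exists_of_lt hcond
  apply hxU
  rw [Subgroup.mem_subgroupOf]
  have h1 : (x : L) * π (mU 1) * (x : L)⁻¹ ∈ UU π := by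
    have h2 : (⟨π (mU 1), hUP ⟨1, rfl⟩⟩ : P) ∈ (UU π).subgroupOf P := ⟨1, rfl⟩
    exact (Subgroup.mem_normalizer_iff.mp hx _).mp h2
  obtain ⟨y, hy⟩ := h1
  obtain ⟨g, hg, hg10, -, -⟩ := norm_u hπ hk hy
  rw [← hg]
  obtain ⟨k, hk'⟩ := hP x
  have hxk : π (g ^ r ^ k) = π 1 := by
    rw [map_pow, hg, map_one]
    exact congrArg Subtype.val hk'
  obtain ⟨e, he, h3, h4⟩ := of_eq hk hxk
  rw [mul_one] at h3
  have h5 := ent h3 0 0
  rw [(tri_pow hg10 _).2] at h5
  have h5' : g 0 0 ^ r ^ k = e := h5.trans rfl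
  have hsq : g 0 0 ^ 2 = 1 := by
    have h6 : (g 0 0 ^ 2) ^ r ^ k = 1 := by
      rw [← pow_mul, mul_comm, pow_mul, h5', pow_two, he]
    have h7 : (g 0 0 ^ 2 - 1) ^ r ^ k = 0 := by
      rw [sub_pow_char_pow, h6, one_pow, sub_self]
    exact sub_eq_zero.mp ((pow_eq_zero_iff (pow_pos (Fact.out : r.Prime).pos k).ne').mp h7)
  have hae : g 0 0 = e := by
    rcases (Fact.out : r.Prime).eq_two_or_odd' with h2 | hodd
    · subst h2
      have : g 0 0 = 1 := by
        have h8 : (g 0 0 - 1) ^ 2 = 0 := by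
          have := sub_pow_char (R := K) (p := 2) (g 0 0) 1
          rw [this, hsq, one_pow, sub_self]
        exact sub_eq_zero.mp (pow_eq_zero_iff two_ne_zero |>.mp h8)
      rw [← h5', this, one_pow]
    · obtain ⟨m, hm⟩ := hodd.pow (n := k)
      rw [← h5', hm, pow_succ, pow_mul, hsq, one_pow, one_mul]
  have hd := det2 g
  rw [hg10, mul_zero, sub_zero] at hd
  have h11 : g 1 1 = e := by
    rw [hae] at hd
    calc g 1 1 = (e * e) * g 1 1 := by rw [he, one_mul]
      _ = e * (e * g 1 1) := by ring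
      _ = e := by rw [hd, mul_one]
  refine ⟨e * g 0 1, ?_⟩
  have hgm : g = mS e he * mU (e * g 0 1) := by
    apply ext2 <;> simp only [mul2, mU, mH, mW, mS, mk00, mk01, mk10, mk11, one00, one01, one10, one11, mul_zero,
        zero_mul, mul_one, one_mul, add_zero, zero_add, neg_mul, mul_neg, neg_neg, neg_zero,
        Units.mul_inv, Units.inv_mul, Units.val_mul, mul_inv, inv_inv, Units.val_one, inv_one,
        Units.val_mk0, Units.val_inv_eq_inv_val]
    · exact hae
    · rw [← mul_assoc, he, one_mul]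
    · exact hg10
    · exact h11
  conv_lhs => rw [hgm]
  rw [map_mul, h4, one_mul]

open scoped Pointwise in
theorem exists_conj_S0 [Finite K] [Finite L] (hπ : Function.Surjective π)
    (hk : π.ker ≤ Subgroup.center _) (α : MulAut L) :
    ∃ l : L, MulAut.conj l * α ∈ S0 π := by
  obtain ⟨r, hr⟩ := CharP.exists K
  haveI : Fact r.Prime := ⟨CharP.char_is_prime K r⟩
  obtain ⟨P, hP⟩ := (UU_pgroup (π := π) (r := r)).exists_le_sylow
  have hPU : (P : Subgroup L) = UU π := le_antisymm (UU_max hπ hk P.2 hP) hP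
  obtain ⟨l, hl⟩ := MulAction.exists_smul_eq L (α • P) P
  refine ⟨l, fun z => ?_⟩
  have h1 : (MulAut.conj l * α) • (P : Subgroup L) = P := by
    rw [mul_smul]
    exact congrArg (fun Q : Sylow r L => (Q : Subgroup L)) hl
  have h2 : (MulAut.conj l * α) z ∈ (P : Subgroup L) ↔ z ∈ (P : Subgroup L) := by
    conv_lhs => rw [← h1]
    exact Subgroup.smul_mem_pointwise_smul_iff
  rw [hPU] at h2
  exact h2

theorem derived_le_conj [Finite K] [Finite L] (hK : 5 < Nat.card K) (hπ : Function.Surjective π)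
    (hk : π.ker ≤ Subgroup.center _) :
    derivedSeries (MulAut L) 2 ≤ (MulAut.conj : L →* MulAut L).range := by
  haveI hN : ((MulAut.conj : L →* MulAut L).range).Normal := by
    refine ⟨?_⟩
    rintro _ ⟨l, rfl⟩ α
    refine ⟨α l, ?_⟩
    ext z
    rw [MulAut.mul_apply, MulAut.mul_apply, MulAut.conj_apply, MulAut.conj_apply, map_mul, map_mul,
      map_inv, MulAut.apply_inv_self]
  let I := (MulAut.conj : L →* MulAut L).range
  let q : MulAut L →* MulAut L ⧸ I := QuotientGroup.mk' I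
  have hq : Function.Surjective (q.comp (S0 π).subtype) := by
    intro z
    obtain ⟨α, rfl⟩ := QuotientGroup.mk'_surjective I z
    obtain ⟨l, hl⟩ := exists_conj_S0 hπ hk α
    refine ⟨⟨_, hl⟩, ?_⟩
    show q (MulAut.conj l * α) = q α
    rw [map_mul]
    have : q (MulAut.conj l) = 1 := (QuotientGroup.eq_one_iff _).mpr ⟨l, rfl⟩
    rw [this, one_mul]
  have h1 : derivedSeries (S0 π) 1 ≤ (S1 π).subgroupOf (S0 π) := by
    rw [derivedSeries_succ, derivedSeries_zero, Subgroup.commutator_le]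
    intro a _ b _
    rw [Subgroup.mem_subgroupOf]
    exact comm_S0 hπ hk (Subgroup.commutator_mem_commutator a.2 b.2)
  have h2 : derivedSeries (S0 π) 2 ≤ I.subgroupOf (S0 π) := by
    rw [derivedSeries_succ]
    refine (Subgroup.commutator_mono h1 h1).trans ?_
    rw [Subgroup.commutator_le]
    intro a ha b hb
    rw [Subgroup.mem_subgroupOf]
    have h3 := comm_S1 (Subgroup.commutator_mem_commutator
      (Subgroup.mem_subgroupOf.mp ha) (Subgroup.mem_subgroupOf.mp hb))
    obtain ⟨l, hl⟩ := S2_inner hK hπ hk h3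
    refine ⟨l, ?_⟩
    ext z
    rw [MulAut.conj_apply]
    exact (hl z).symm
  have h3 : derivedSeries (MulAut L ⧸ I) 2 = ⊥ := by
    rw [← map_derivedSeries_eq hq 2, eq_bot_iff]
    rintro _ ⟨s, hs, rfl⟩
    exact Subgroup.mem_bot.mpr ((QuotientGroup.eq_one_iff _).mpr (h2 hs))
  intro α hα
  have h4 : q α ∈ derivedSeries (MulAut L ⧸ I) 2 :=
    map_derivedSeries_le_derivedSeries q 2 ⟨α, hα, rfl⟩
  rw [h3] at h4
  exact (QuotientGroup.eq_one_iff _).mp (Subgroup.mem_bot.mp h4)

end Vale.Agent.P180.R2.H365.OutA
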