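import Vale.Agent.P180.R2.H365.Gen
import Vale.Agent.P180.R2.H259.Cyc.Prim

/-!
P180: primitive idempotents of the fixed points of an abelian `p`-group remain primitive in an
extension by that group.
-/

set_option linter.all false

namespace Vale.Agent.P180.R2.H365

open Vale.Agent.P180 Vale.Agent.P180.H768.Gd Vale.Agent.P180.R2.H259.Cyc

section Nil

variable {A : Type*} [Ring A] {T : Subring A}

theorem pow_add_mul {a x u : A} (ha : a ∈ T) (hx : x ∈ T) (hu : u ∈ T)
    (hc : ∀ t ∈ T, u * t = t * u) (m : ℕ) : ∃ t ∈ T, (a + x * u) ^ m = a ^ m + t * u := by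
  induction m with
  | zero => exact ⟨0, T.zero_mem, by rw [pow_zero, pow_zero, zero_mul, add_zero]⟩
  | succ m ih =>
    obtain ⟨t, ht, h⟩ := ih
    refine ⟨a ^ m * x + t * a + t * x * u, T.add_mem (T.add_mem (T.mul_mem (T.pow_mem ha m) hx)
      (T.mul_mem ht ha)) (T.mul_mem (T.mul_mem ht hx) hu), ?_⟩
    rw [pow_succ, h, add_mul, mul_add, mul_add, ← pow_succ]
    have h1 : t * u * a = t * a * u := by rw [mul_assoc, hc a ha, ← mul_assoc]
    have h2 : t * u * (x * u) = t * x * u * u := by
      rw [mul_assoc t u, ← mul_assoc u x u, hc x hx]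
      simp only [mul_assoc]
    rw [h1, h2, add_mul, add_mul, mul_assoc (a ^ m) x u]
    abel

theorem nilp_add_mul {a x u : A} (ha : a ∈ T) (hx : x ∈ T) (hu : u ∈ T)
    (hc : ∀ t ∈ T, u * t = t * u) (hun : IsNilpotent u) (han : IsNilpotent a) :
    IsNilpotent (a + x * u) := by
  obtain ⟨N, hN⟩ := han
  obtain ⟨t, ht, h⟩ := pow_add_mul ha hx hu hc N
  rw [hN, zero_add] at h
  have h1 : IsNilpotent ((a + x * u) ^ N) := by
    rw [h]
    exact Commute.isNilpotent_mul_left (show t * u = u * t from (hc t ht).symm) hun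
  obtain ⟨M, hM⟩ := h1
  exact ⟨N * M, by rw [pow_mul]; exact hM⟩

theorem nilp_add_sum {ι : Type*} (s : Finset ι) {a : A} {x u : ι → A} (ha : a ∈ T)
    (hx : ∀ y ∈ s, x y ∈ T) (hu : ∀ y ∈ s, u y ∈ T) (hc : ∀ y ∈ s, ∀ t ∈ T, u y * t = t * u y)
    (hun : ∀ y ∈ s, IsNilpotent (u y)) (han : IsNilpotent a) :
    IsNilpotent (a + ∑ y ∈ s, x y * u y) := by
  classical
  induction s using Finset.induction_on with
  | empty => rwa [Finset.sum_empty, add_zero]
  | insert y s hy ih =>
    rw [Finset.sum_insert hy, add_comm (x y * u y), ← add_assoc]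
    refine nilp_add_mul (T := T) ?_ (hx y (Finset.mem_insert_self _ _))
      (hu y (Finset.mem_insert_self _ _)) (hc y (Finset.mem_insert_self _ _))
      (hun y (Finset.mem_insert_self _ _)) (ih (fun z hz => hx z (Finset.mem_insert_of_mem hz))
        (fun z hz => hu z (Finset.mem_insert_of_mem hz))
        (fun z hz => hc z (Finset.mem_insert_of_mem hz))
        (fun z hz => hun z (Finset.mem_insert_of_mem hz)))
    exact T.add_mem ha (T.sum_mem fun z hz => T.mul_mem (hx z (Finset.mem_insert_of_mem hz))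
      (hu z (Finset.mem_insert_of_mem hz)))

end Nil

variable {k : Type*} [Field k] {p : ℕ} [Fact p.Prime] [CharP k p] {G : Type*} [Group G] [Finite G]

/-- Primitive idempotents of `(kL)^R` are primitive in `(kG)^R` if `G = L R` and `R` is abelian. -/
theorem primIn_fix {L R : Subgroup G} [L.Normal] (hR : IsPGroup p R)
    (hab : ∀ x ∈ R, ∀ y ∈ R, x * y = y * x) (hLR : L ⊔ R = ⊤) {i : MonoidAlgebra k G}
    (hi : PrimIn (SubAlg k L ⊓ Fix (cj k G) R) i) : PrimIn (Fix (cj k G) R) i := by
  classical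
  have _ := Fintype.ofFinite (G ⧸ L)
  have hfin : FiniteDimensional k (MonoidAlgebra k G) :=
    Module.Finite.equiv (MonoidAlgebra.coeffLinearEquiv k (M := G) (S := k)).symm
  obtain ⟨hiL, hiR⟩ := hi.mem
  refine ⟨hiR, hi.idem, hi.ne_zero, ?_⟩
  intro f hf hff hfi hif
  have hrep : ∀ q : G ⧸ L, ∃ r ∈ R, (r : G ⧸ L) = q := by
    intro q
    obtain ⟨g, rfl⟩ := QuotientGroup.mk_surjective q
    have hg : g ∈ L ⊔ R := by rw [hLR]; trivial
    obtain ⟨l, hl, r, hr, rfl⟩ := Subgroup.mem_sup_of_normal_left.mp hg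
    refine ⟨r, hr, ?_⟩
    rw [QuotientGroup.mk_mul, (QuotientGroup.eq_one_iff l).mpr hl, one_mul]
  choose r hrR hrq using hrep
  have hcomm : ∀ a b : G ⧸ L, a * b = b * a := by
    intro a b
    rw [← hrq a, ← hrq b, ← QuotientGroup.mk_mul, ← QuotientGroup.mk_mul,
      hab _ (hrR a) _ (hrR b)]
  have hsF : ∀ x ∈ R, MonoidAlgebra.single x (1 : k) ∈ Fix (cj k G) R := by
    intro x hx y hy
    rw [cj_single, hab y hy x hx, mul_inv_cancel_right]
  have hsc : ∀ x ∈ R, ∀ t ∈ Fix (cj k G) R, MonoidAlgebra.single x (1 : k) * t =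
      t * MonoidAlgebra.single x 1 := by
    intro x hx t ht
    have h1 := ht x hx
    rw [cj_eq] at h1
    calc MonoidAlgebra.single x (1 : k) * t
        = MonoidAlgebra.single x 1 * t * MonoidAlgebra.single x⁻¹ 1 * MonoidAlgebra.single x 1 := by
          rw [mul_assoc _ (MonoidAlgebra.single x⁻¹ (1 : k)), MonoidAlgebra.single_mul_single,
            inv_mul_cancel, one_mul, ← MonoidAlgebra.one_def, mul_one]
      _ = t * MonoidAlgebra.single x 1 := by rw [h1]
  have hcf : ∀ q, comp L q f ∈ Fix (cj k G) R := by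
    intro q x hx
    apply MonoidAlgebra.coeff_injective
    ext y
    rw [cj_coeff, comp_coeff, comp_coeff]
    have h1 : ((x⁻¹ * y * x : G) : G ⧸ L) = (y : G ⧸ L) := by
      rw [QuotientGroup.mk_mul, QuotientGroup.mk_mul, hcomm _ (y : G ⧸ L), mul_assoc,
        ← QuotientGroup.mk_mul, inv_mul_cancel, QuotientGroup.mk_one, mul_one]
    have h2 : f.coeff (x⁻¹ * y * x) = f.coeff y := by
      conv_rhs => rw [← hf x hx]
      rw [cj_coeff]
    rw [h1, h2]
  let b : G ⧸ L → MonoidAlgebra k G := fun q => comp L q f * MonoidAlgebra.single (r q)⁻¹ 1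
  let u : G ⧸ L → MonoidAlgebra k G := fun q => MonoidAlgebra.single (r q) 1 - 1
  have hbF : ∀ q, b q ∈ Fix (cj k G) R := fun q =>
    Subalgebra.mul_mem _ (hcf q) (hsF _ (R.inv_mem (hrR q)))
  have hbL : ∀ q, b q ∈ SubAlg k L := by
    intro q
    rw [mem_SubAlg_iff_cst]
    have h1 : SuppIn (cst L q⁻¹) (MonoidAlgebra.single (r q)⁻¹ (1 : k)) := by
      refine SuppIn.single (show (r q)⁻¹ ∈ cst L q⁻¹ from ?_) 1
      change (((r q)⁻¹ : G) : G ⧸ L) = q⁻¹
      rw [QuotientGroup.mk_inv, hrq]
    have h2 := mul_supp_cst (comp_supp L q f) h1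
    rwa [mul_inv_cancel] at h2
  have hic : ∀ q, i * comp L q f = comp L q f := by
    intro q
    rw [← comp_mul_left hiL, hif]
  have hci : ∀ q, comp L q f * i = comp L q f := by
    intro q
    have h1 : ∑ q, comp L q f * i = ∑ q, comp L q f := by
      rw [← Finset.sum_mul, sum_comp, hfi]
    have h2 := congrArg (comp L q) h1
    rw [map_sum, map_sum, Finset.sum_eq_single q, Finset.sum_eq_single q] at h2
    · rwa [comp_of_supp L q (comp_supp L q f), comp_of_supp L q] at h2
      have h3 := mul_supp_cst (comp_supp L q f) (mem_SubAlg_iff_cst.mp hiL)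
      rwa [mul_one] at h3
    · intro c _ hc
      exact comp_of_supp_ne L hc (comp_supp L c f)
    · intro h; exact absurd (Finset.mem_univ q) h
    · intro c _ hc
      refine comp_of_supp_ne L hc ?_
      have h3 := mul_supp_cst (comp_supp L c f) (mem_SubAlg_iff_cst.mp hiL)
      rwa [mul_one] at h3
    · intro h; exact absurd (Finset.mem_univ q) h
  have hib : ∀ q, i * b q = b q := by
    intro q
    change i * (comp L q f * _) = comp L q f * _
    rw [← mul_assoc, hic]
  have hbi : ∀ q, b q * i = b q := by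
    intro q
    change comp L q f * MonoidAlgebra.single (r q)⁻¹ 1 * i = comp L q f * _
    rw [mul_assoc, hsc _ (R.inv_mem (hrR q)) i hiR, ← mul_assoc, hci]
  have huF : ∀ q, u q ∈ Fix (cj k G) R := fun q =>
    Subalgebra.sub_mem _ (hsF _ (hrR q)) (Subalgebra.one_mem _)
  have huc : ∀ q, ∀ t ∈ Fix (cj k G) R, u q * t = t * u q := by
    intro q t ht
    change (MonoidAlgebra.single (r q) 1 - 1) * t = t * (MonoidAlgebra.single (r q) 1 - 1)
    rw [sub_mul, mul_sub, one_mul, mul_one, hsc _ (hrR q) t ht]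
  have hun : ∀ q, IsNilpotent (u q) := by
    intro q
    apply single_sub_one_nilp (p := p)
    obtain ⟨n, hn⟩ := hR ⟨r q, hrR q⟩
    exact ⟨n, congrArg Subtype.val hn⟩
  set T : Subring (MonoidAlgebra k G) := (Fix (cj k G) R).toSubring with hT
  have hmT : ∀ x, x ∈ Fix (cj k G) R → x ∈ T := fun x hx => hx
  obtain ⟨c, hc⟩ : ∃ c, c = ∑ q, b q := ⟨_, rfl⟩
  have hcF : c ∈ Fix (cj k G) R := by rw [hc]; exact Subalgebra.sum_mem _ fun q _ => hbF q
  have hcL : c ∈ SubAlg k L := by rw [hc]; exact Subalgebra.sum_mem _ fun q _ => hbL q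
  have hicc : i * c = c := by rw [hc, Finset.mul_sum]; exact Finset.sum_congr rfl fun q _ => hib q
  have hcic : c * i = c := by rw [hc, Finset.sum_mul]; exact Finset.sum_congr rfl fun q _ => hbi q
  have hfs : f = c + ∑ q, b q * u q := by
    have h1 : f = ∑ q, b q * MonoidAlgebra.single (r q) 1 := by
      conv_lhs => rw [← sum_comp L f]
      refine Finset.sum_congr rfl fun q _ => ?_
      change _ = comp L q f * MonoidAlgebra.single (r q)⁻¹ 1 * MonoidAlgebra.single (r q) 1
      rw [mul_assoc, MonoidAlgebra.single_mul_single, inv_mul_cancel, one_mul,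
        ← MonoidAlgebra.one_def, mul_one]
    rw [h1, hc, ← Finset.sum_add_distrib]
    refine Finset.sum_congr rfl fun q _ => ?_
    change _ = b q + b q * (MonoidAlgebra.single (r q) 1 - 1)
    rw [mul_sub, mul_one]
    abel
  obtain ⟨ν, hν⟩ : ∃ ν, ν = ∑ q, b q * u q := ⟨_, rfl⟩
  have hνF : ν ∈ Fix (cj k G) R := by
    rw [hν]; exact Subalgebra.sum_mem _ fun q _ => Subalgebra.mul_mem _ (hbF q) (huF q)
  have hcc : IsNilpotent (c * c - c) := by
    have h1 : c = f - ν := by rw [hfs, ← hν]; abel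
    have h2 : c * c - c = 0 + ∑ q, (-(f * b q) - b q * f + ν * b q + b q) * u q := by
      have e1 : ∑ q, f * b q * u q = f * ν := by
        rw [hν, Finset.mul_sum]
        exact Finset.sum_congr rfl fun q _ => mul_assoc _ _ _
      have e2 : ∑ q, b q * f * u q = ν * f := by
        rw [hν, Finset.sum_mul]
        refine Finset.sum_congr rfl fun q _ => ?_
        rw [mul_assoc (b q) f (u q), mul_assoc (b q) (u q) f, huc q f hf]
      have e3 : ∑ q, ν * b q * u q = ν * ν := by
        have e3' : ν * ν = ν * ∑ q, b q * u q := by rw [← hν]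
        rw [e3', Finset.mul_sum]
        exact Finset.sum_congr rfl fun q _ => mul_assoc _ _ _
      have e4 : ∑ q, (-(f * b q) - b q * f + ν * b q + b q) * u q =
          -(f * ν) - ν * f + ν * ν + ν := by
        rw [← e1, ← e2, ← e3, hν, ← Finset.sum_neg_distrib, ← Finset.sum_sub_distrib,
          ← Finset.sum_add_distrib, ← Finset.sum_add_distrib]
        rw [← hν]
        refine Finset.sum_congr rfl fun q _ => ?_
        simp only [add_mul, sub_mul, neg_mul]
      rw [e4, h1, zero_add]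
      have e5 : (f - ν) * (f - ν) = f - f * ν - ν * f + ν * ν := by
        rw [sub_mul, mul_sub, mul_sub, hff]
        abel
      rw [e5]
      abel
    rw [h2]
    refine nilp_add_sum (T := T) _ T.zero_mem (fun q _ => ?_) (fun q _ => hmT _ (huF q))
      (fun q _ t ht => huc q t ht) (fun q _ => hun q) ⟨1, by rw [pow_one]⟩
    exact T.add_mem (T.add_mem (T.sub_mem (T.neg_mem (T.mul_mem (hmT _ hf) (hmT _ (hbF q))))
      (T.mul_mem (hmT _ (hbF q)) (hmT _ hf))) (T.mul_mem (hmT _ hνF) (hmT _ (hbF q))))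
      (hmT _ (hbF q))
  have hidn : ∀ g : MonoidAlgebra k G, g * g = g → IsNilpotent g → g = 0 := by
    rintro g hg ⟨n, hn⟩
    have h1 : ∀ m : ℕ, g ^ (m + 1) = g := by
      intro m
      induction m with
      | zero => rw [zero_add, pow_one]
      | succ m ih => rw [pow_succ, ih, hg]
    rw [← h1 n, pow_succ, hn, zero_mul]
  rcases hi.dichotomy ⟨hcL, hcF⟩ hicc hcic with hn | ⟨y, ⟨hyL, hyF⟩, hiy, hyi, hcy, hyc⟩
  · left
    apply hidn f hff
    rw [hfs]
    exact nilp_add_sum (T := T) _ (hmT _ hcF) (fun q _ => hmT _ (hbF q)) (fun q _ => hmT _ (huF q))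
      (fun q _ t ht => huc q t ht) (fun q _ => hun q) hn
  · right
    have h1 : IsNilpotent (i - c) := by
      have h2 : i - c = -(y * (c * c - c)) := by
        rw [mul_sub, ← mul_assoc, hyc, hicc]
        abel
      rw [h2]
      refine IsNilpotent.neg ?_
      refine Commute.isNilpotent_mul_left ?_ hcc
      change y * (c * c - c) = (c * c - c) * y
      rw [mul_sub, sub_mul, hyc, hcy, ← mul_assoc, hyc, mul_assoc, hcy, hicc, hcic]
    have h2 : IsNilpotent (i - f) := by
      have h3 : i - f = (i - c) + ∑ q, (-b q) * u q := by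
        rw [hfs]
        simp only [neg_mul, Finset.sum_neg_distrib]
        abel
      rw [h3]
      exact nilp_add_sum (T := T) _ (T.sub_mem (hmT _ hiR) (hmT _ hcF))
        (fun q _ => T.neg_mem (hmT _ (hbF q))) (fun q _ => hmT _ (huF q))
        (fun q _ t ht => huc q t ht) (fun q _ => hun q) h1
    have h3 := hidn (i - f) (by
      rw [sub_mul, mul_sub, mul_sub, hi.idem, hif, hfi, hff]
      abel) h2
    exact (sub_eq_zero.mp h3).symm

end Vale.Agent.P180.R2.H365
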