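import Vale.Agent.P180.R2.H47.Red

/-!
P180: the reduction for arbitrary finite groups.
-/

set_option linter.all false

namespace Vale.Agent.P180.R2.H365

open Vale.Agent.P180 Vale.Agent.P180.H768.Gd Vale.Agent.P180.R2.H47
open Vale.Agent.P180.H768 hiding pull mem_pull exists_factor Lay mk_mem comm_mem

universe u v

variable {k : Type u} [Field k]

/-- The state of the general reduction. -/
structure Rs (p n : ℕ) {G : Type} [Group G] [Finite G]
    (Z D : Subgroup G) (a b : MonoidAlgebra k G) : Prop where
  Dp : IsPGroup p D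
  Zc : ∀ z ∈ Z, ∀ g, z * g = g * z
  Zp : ¬ p ∣ Nat.card Z
  hb : IsBlock b
  ha : a ∈ Fix (cj k G) D
  hba : b = tr (cj k G) D ⊤ a
  Dn : Nat.card D ≤ n

variable {p n : ℕ} [Fact p.Prime] [CharP k p]

theorem reduce_all_aux {P : ∀ (G : Type) [Group G], MonoidAlgebra k G → Prop}
    (hP : Clo k p P)
    (hend : ∀ (G : Type) [Group G] [Finite G] (Z D : Subgroup G) (a b : MonoidAlgebra k G),
      Rs p n Z D a b → STab b → NRed p Z ⊤ b → P G b) (i : ℕ) :
    ∀ (G : Type) [Group G] [Finite G] (Z D : Subgroup G) (a b : MonoidAlgebra k G),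
      Rs p n Z D a b → Z.index ≤ i → P G b := by
  induction i with
  | zero =>
    intro G _ _ Z D a b _ hi
    exact absurd (Nat.le_zero.mp hi) Z.index_ne_zero_of_finite
  | succ i ih =>
    intro G _ _ Z D a b hs hi
    by_cases hST : STab b
    swap
    · unfold STab at hST
      push Not at hST
      obtain ⟨N, hN, e, he, hbe, g, hg⟩ := hST
      obtain ⟨b', hb', hbb', -, x, a', ha', hb'a'⟩ := fong_reynolds he hs.hb hbe hs.ha hs.hba
      refine hP.fr he hs.hb hbe hb' hbb' ?_
      have hZT : Z ≤ stabE e := by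
        intro z hz
        rw [mem_stabE]
        exact cj_eq_self_of_commute he.mem.1 fun a _ => hs.Zc z hz a
      have hT : (stabE e).index ≠ 1 := by
        rw [Ne, Subgroup.index_eq_one]
        intro h
        apply hg
        rw [← mem_stabE, h]
        exact Subgroup.mem_top g
      have hT0 : (stabE e).index ≠ 0 := Subgroup.index_ne_zero_of_finite
      have hidx : (Z.subgroupOf (stabE e)).index ≤ i := by
        have h1 : Z.relIndex (stabE e) * (stabE e).index = Z.index :=
          Subgroup.relIndex_mul_index hZT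
        have h2 : (Z.subgroupOf (stabE e)).index ≠ 0 := Subgroup.index_ne_zero_of_finite
        have h3 : Z.relIndex (stabE e) * 2 ≤ Z.relIndex (stabE e) * (stabE e).index :=
          Nat.mul_le_mul_left _ (by omega)
        change Z.relIndex (stabE e) ≠ 0 at h2
        change Z.relIndex (stabE e) ≤ i
        omega
      have hDp : IsPGroup p ((conjS x D).subgroupOf (stabE e)) := by
        rintro ⟨⟨w, hwT⟩, hw⟩
        rw [Subgroup.mem_subgroupOf, mem_conjS] at hw
        obtain ⟨r, hr⟩ := hs.Dp ⟨_, hw⟩
        refine ⟨r, Subtype.ext (Subtype.ext ?_)⟩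
        have h3 : (x⁻¹ * w * x) ^ (p ^ r) = 1 := congrArg Subtype.val hr
        have h4 : (x⁻¹ * w * (x⁻¹)⁻¹) ^ (p ^ r) = 1 := by rwa [inv_inv]
        rw [conj_pow] at h4
        change w ^ (p ^ r) = 1
        calc w ^ (p ^ r) = x * (x⁻¹ * w ^ (p ^ r) * (x⁻¹)⁻¹) * x⁻¹ := by group
          _ = 1 := by rw [h4, mul_one, mul_inv_cancel]
      refine ih (stabE e) (Z.subgroupOf (stabE e)) ((conjS x D).subgroupOf (stabE e)) a' b' ?_ hidx
      exact
        { Dp := hDp
          Zc := fun z hz g => Subtype.ext (hs.Zc _ hz g)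
          Zp := by
            rw [Nat.card_congr (Subgroup.subgroupOfEquivOfLe hZT).toEquiv]
            exact hs.Zp
          hb := hb'
          ha := ha'
          hba := hb'a'
          Dn := (card_subgroupOf_conjS_le _ x D).trans hs.Dn }
    · by_cases hNR : NRed p Z ⊤ b
      swap
      · unfold NRed at hNR
        push Not at hNR
        obtain ⟨N, Y, hN, hYn, hZN, hNA, hYN, hY, hYc, e, he, hbe, hez, hcard⟩ := hNR
        have hYD : Y ≤ D := op_le p hY hs.hb.idem hs.hb.ne_zero hs.ha hs.hba
        obtain ⟨H, iH, fH, Z', π, c, hc, hZ', hpZ', hZπ, hidx', hπ, hker, hMo, hTh, D', a', hD',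
          ha', hca', hD'M⟩ := hP.kp hY hYN hYc he (hST N hN e he hbe) hs.hb hbe hez hs.ha hs.hba
            hYD
        apply hMo
        have hidx : Z'.index ≤ i := by
          have h1 : Nat.card Z * Nat.card Y ≤ Nat.card N := by
            rw [← card_sup_eq hs.Zp hY]
            exact Nat.card_le_card_of_injective _
              (Subgroup.inclusion_injective (sup_le hZN hYN))
          have h2 : Nat.card Z * Nat.card Y < Nat.card N :=
            lt_of_le_of_ne h1 (Ne.symm hcard)
          have h3 := Subgroup.card_mul_index N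
          have h4 := Subgroup.card_mul_index Z
          have h5 : 0 < N.index := Nat.pos_of_ne_zero Subgroup.index_ne_zero_of_finite
          have h6 : Nat.card Z * (Nat.card Y * N.index) < Nat.card Z * Z.index := by
            rw [h4, ← h3, ← mul_assoc]
            exact Nat.mul_lt_mul_of_pos_right h2 h5
          have h7 := Nat.lt_of_mul_lt_mul_left h6
          omega
        obtain ⟨P', hPD, hP', a'', ha'', hca''⟩ := exists_sylow_trace (p := p) ha' hca'
        refine ih H Z' P' a'' c ?_ hidx
        exact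
          { Dp := hP'
            Zc := hZ'
            Zp := hpZ'
            hb := hc
            ha := ha''
            hba := hca''
            Dn := ((Nat.card_le_card_of_injective _ (Subgroup.inclusion_injective hPD)).trans
              hD').trans hs.Dn }
      · exact hend G Z D a b hs hST hNR

/-- **The general reduction.** -/
theorem reduce_all {P : ∀ (G : Type) [Group G], MonoidAlgebra k G → Prop}
    (hP : Clo k p P)
    (hend : ∀ (G : Type) [Group G] [Finite G] (Z D : Subgroup G) (a b : MonoidAlgebra k G),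
      Rs p n Z D a b → STab b → NRed p Z ⊤ b → P G b)
    (G : Type) [Group G] [Finite G] (D : Subgroup G) (hD : IsPGroup p D)
    (hDn : Nat.card D ≤ n) (a b : MonoidAlgebra k G) (hb : IsBlock b)
    (ha : a ∈ Fix (cj k G) D) (hba : b = tr (cj k G) D ⊤ a) : P G b := by
  refine reduce_all_aux hP hend (⊥ : Subgroup G).index G ⊥ D a b ?_ le_rfl
  exact
    { Dp := hD
      Zc := fun z hz g => by
        rw [Subgroup.mem_bot] at hz
        rw [hz, one_mul, mul_one]
      Zp := by
        rw [Subgroup.card_bot]
        intro h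
        exact absurd (Nat.le_of_dvd one_pos h)
          (Nat.not_le.mpr (Nat.Prime.one_lt (Fact.out : p.Prime)))
      hb := hb
      ha := ha
      hba := hba
      Dn := hDn }

/-- Morita equivalence over `k` to a block with a prescribed property, as a reduction property. -/
theorem clo_field' (k : Type u) [Field k] [IsAlgClosed k] (p : ℕ) [Fact p.Prime] [CharP k p]
    (Φ : ∀ (G : Type) [Group G] [Finite G], MonoidAlgebra k G → Prop) :
    Clo k p (fun G _ b => ∀ hb : IsBlock b, ∃ (H : Type) (_ : Group H) (_ : Finite H)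
      (c : MonoidAlgebra k H) (hc : IsBlock c), Φ H c ∧ IsMoritaEquivalent k hb.Alg hc.Alg) where
  fr := by
    intro G _ _ N _ e b he hb hbe b' hb' hbb' h hb0
    obtain ⟨b'', hb'', hbb'', hM, -⟩ := fong_reynolds he hb hbe (D := ⊤)
      (isBlock_iff.mp hb).mem.2 (tr_top_top (isBlock_iff.mp hb).mem.2).symm
    have h1 : b'' = b' := incl_injective _ (hbb''.trans hbb'.symm)
    subst h1
    obtain ⟨H, iH, fH, c, hc, hΦ, hj⟩ := h hb'
    exact ⟨H, iH, fH, c, hc, hΦ, IsMoritaEquivalent.trans k hM hj⟩
  kp := by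
    intro G _ _ N Y _ _ hY hYN hYc e b he heG hb hbe heY D a ha hba hYD
    obtain ⟨H', iH, fH, Z, π, d, hd, h1, h2, h3, h4, h5, h6, -, hM, h7, h8⟩ :=
      kp_ext hY hYN hYc he heG hb hbe heY ha hba hYD
    refine ⟨H', iH, fH, Z, π, d, hd, h1, h2, h3, h4, h5, h6, ?_, h7, h8⟩
    intro h hb0
    obtain ⟨H, iH', fH', c, hc, hΦ, hj⟩ := h hd
    exact ⟨H, iH', fH', c, hc, hΦ, IsMoritaEquivalent.trans k hM hj⟩

section Integral

open IsLocalRing
open Vale.Agent.P180.I (EO EO_fr)

/-- The lift of the block is Morita equivalent over `O` to the lift of a block with a prescribed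
property, as a reduction property. -/
theorem clo_integral' (O : Type u) [CommRing O] [IsDomain O] [IsDiscreteValuationRing O]
    [IsAdicComplete (maximalIdeal O) O] [IsAlgClosed (ResidueField O)]
    (p : ℕ) [Fact p.Prime] [CharP (ResidueField O) p]
    (Φ : ∀ (G : Type) [Group G] [Finite G], MonoidAlgebra (ResidueField O) G → Prop) :
    Clo (ResidueField O) p (fun G _ b => ∃ (H : Type) (_ : Group H) (_ : Finite H)
      (c : MonoidAlgebra (ResidueField O) H), Φ H c ∧ EO O b c) where
  fr := by
    intro G _ _ N _ e b he hb hbe b' hb' hbb' h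
    obtain ⟨H, iH, fH, c, hΦ, hj⟩ := h
    exact ⟨H, iH, fH, c, hΦ, (EO_fr he hb hbe hb' hbb').trans hj⟩
  kp := by
    intro G _ _ N Y _ _ hY hYN hYc e b he heG hb hbe heY D a ha hba hYD
    obtain ⟨H', iH, fH, Z, π, d, hd, h1, h2, h3, h4, h5, h6, -, hM, h7, h8⟩ :=
      kpO_ext (O := O) hY hYN hYc he heG hb hbe heY ha hba hYD
    refine ⟨H', iH, fH, Z, π, d, hd, h1, h2, h3, h4, h5, h6, ?_, h7, h8⟩
    rintro ⟨H, iH', fH', c, hΦ, hj⟩
    exact ⟨H, iH', fH', c, hΦ, hM.trans hj⟩

end Integral

end Vale.Agent.P180.R2.H365
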