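import Vale.Agent.P180.R2.H365.Struct

/-!
P180: rigidity of relatively separable interior algebras over nilpotent thickenings.
-/

set_option linter.unusedSectionVars false

namespace Vale.Agent.P180.R2.H365

universe u

section Ideal

variable {Λ : Type*} [CommRing Λ] {r : ℕ}

theorem mem_smul_top_of {I : Ideal Λ} {v : Fin r → Λ} (h : ∀ t, v t ∈ I) :
    v ∈ I • (⊤ : Submodule Λ (Fin r → Λ)) := by
  rw [pi_eq_sum_univ' v]
  exact Submodule.sum_mem _ fun t _ => Submodule.smul_mem_smul (h t) trivial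

theorem of_mem_smul_top {I : Ideal Λ} {v : Fin r → Λ}
    (h : v ∈ I • (⊤ : Submodule Λ (Fin r → Λ))) (t : Fin r) : v t ∈ I := by
  refine Submodule.smul_induction_on h (fun s hs w _ => ?_) (fun x y hx hy => ?_)
  · exact I.mul_mem_right _ hs
  · exact I.add_mem hx hy

/-- iteration of the Newton step -/
theorem newton_iter {V V' : Type*} [AddCommGroup V] [Module Λ V]
    [AddCommGroup V'] [Module Λ V'] {Γ : Type*}
    {m : V →ₗ[Λ] V →ₗ[Λ] V} {e : V} {L R : Γ → V →ₗ[Λ] V}
    (hA : IsAlgOp m e L R) {m' : V' →ₗ[Λ] V' →ₗ[Λ] V'} {e' : V'} {L' R' : Γ → V' →ₗ[Λ] V'}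
    (hA' : IsAlgOp m' e' L' R') {ι : Type*} [Fintype ι] {a b : ι → V}
    (hC : IsCas V' m e L R a b) (hLe : ∀ x, L x e = R x e)
    (g : V →ₗ[Λ] V') (hgL : ∀ x v, g (L x v) = L' x (g v)) (hgR : ∀ x v, g (R x v) = R' x (g v))
    (J : Ideal Λ) (hJ : ∀ v w, g (m v w) - m' (g v) (g w) ∈ J • (⊤ : Submodule Λ V'))
    (hJe : g e - e' ∈ J • (⊤ : Submodule Λ V')) (s : ℕ) :
    ∃ g' : V →ₗ[Λ] V', (∀ x v, g' (L x v) = L' x (g' v)) ∧ (∀ x v, g' (R x v) = R' x (g' v)) ∧
      (∀ v, g' v - g v ∈ J • (⊤ : Submodule Λ V')) ∧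
      (∀ v w, g' (m v w) - m' (g' v) (g' w) ∈ (J ^ (2 ^ s)) • (⊤ : Submodule Λ V')) ∧
      g' e - e' ∈ (J ^ (2 ^ s)) • (⊤ : Submodule Λ V') := by
  induction s with
  | zero => exact ⟨g, hgL, hgR, fun v => by simp, by simpa using hJ, by simpa using hJe⟩
  | succ s ih =>
    obtain ⟨g₁, h1, h2, h3, h4, h5⟩ := ih
    obtain ⟨g₂, k1, k2, k3, k4, k5⟩ := newton_step hA hA' hC hLe g₁ h1 h2 _ h4 h5
    have he : J ^ (2 ^ s) * J ^ (2 ^ s) = J ^ (2 ^ (s + 1)) := by
      rw [← pow_add]
      congr 1
      ring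
    rw [he] at k4 k5
    refine ⟨g₂, k1, k2, fun v => ?_, k4, k5⟩
    have h6 : g₂ v - g v = (g₂ v - g₁ v) + (g₁ v - g v) := by abel
    rw [h6]
    refine Submodule.add_mem _ (Submodule.smul_mono_left (Ideal.pow_le_self ?_) (k3 v)) (h3 v)
    positivity

end Ideal

section Cas

variable {k : Type u} [Field k] {N : Type} [Fintype N] [DecidableEq N] {r : ℕ}
  {Γ : Type} (P Q : Γ → Matrix N N k)

/-- relative separability of a structure over `k` -/
def CasK (y : Ix N r → k) : Prop :=
  ∃ (n : ℕ) (a b : Fin n → (Fin r → k)), ∑ j, mulB y (a j) (b j) = un y ∧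
    ∀ (W : Type u) [AddCommGroup W] [Module k W] (β : (Fin r → k) →ₗ[k] (Fin r → k) →ₗ[k] W),
      (∀ g v w, β (op y (Q g) v) w = β v (op y (P g) w)) →
        ∀ c, ∑ j, β (mulB y c (a j)) (b j) = ∑ j, β (a j) (mulB y (b j) c)

variable {P Q} {Λ : Type u} [CommRing Λ] [Algebra k Λ]

theorem isCas_base {y : Ix N r → k} {n : ℕ} {a b : Fin n → (Fin r → k)}
    (h1 : ∑ j, mulB y (a j) (b j) = un y)
    (h2 : ∀ (W : Type u) [AddCommGroup W] [Module k W]
      (β : (Fin r → k) →ₗ[k] (Fin r → k) →ₗ[k] W),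
      (∀ g v w, β (op y (Q g) v) w = β v (op y (P g) w)) →
        ∀ c, ∑ j, β (mulB y c (a j)) (b j) = ∑ j, β (a j) (mulB y (b j) c)) :
    IsCas (Fin r → Λ) (mulB (Λ := Λ) (fun i => algebraMap k Λ (y i)))
      (un (fun i => algebraMap k Λ (y i)))
      (fun g => op (Λ := Λ) (fun i => algebraMap k Λ (y i)) (P g))
      (fun g => op (Λ := Λ) (fun i => algebraMap k Λ (y i)) (Q g))
      (fun j i => algebraMap k Λ (a j i)) (fun j i => algebraMap k Λ (b j i)) := by
  let φ : k →ₐ[k] Λ := Algebra.ofId k Λ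
  have hφ : ∀ {n : Type} (v : n → k), (fun i => algebraMap k Λ (v i)) = φ ∘ v := fun v => rfl
  simp only [hφ]
  refine ⟨?_, ?_⟩
  · have h3 : ∑ j, mulB (φ ∘ y) (φ ∘ a j) (φ ∘ b j) = φ ∘ (∑ j, mulB y (a j) (b j)) := by
      ext t
      simp only [Finset.sum_apply, Function.comp_apply, map_sum, ← mulB_nat]
    rw [h1, un_nat] at h3
    exact h3
  · intro β hβ c
    let βk : (Fin r → k) →ₗ[k] (Fin r → k) →ₗ[k] (Fin r → Λ) :=
      LinearMap.mk₂ k (fun v w => β (φ ∘ v) (φ ∘ w))
        (fun v v' w => by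
          have : φ ∘ (v + v') = φ ∘ v + φ ∘ v' := by ext; simp
          rw [this, map_add, LinearMap.add_apply])
        (fun c v w => by
          have : φ ∘ (c • v) = (algebraMap k Λ c) • (φ ∘ v) := by
            ext t
            simp [φ, Algebra.ofId_apply]
          rw [this, LinearMap.map_smul, LinearMap.smul_apply, algebraMap_smul])
        (fun v w w' => by
          have : φ ∘ (w + w') = φ ∘ w + φ ∘ w' := by ext; simp
          rw [this, map_add])
        (fun c v w => by
          have : φ ∘ (c • w) = (algebraMap k Λ c) • (φ ∘ w) := by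
            ext t
            simp [φ, Algebra.ofId_apply]
          rw [this, LinearMap.map_smul, algebraMap_smul])
    have hk := h2 (Fin r → Λ) βk (fun g v w => by
      change β (φ ∘ op y (Q g) v) (φ ∘ w) = β (φ ∘ v) (φ ∘ op y (P g) w)
      rw [op_nat, op_nat]
      exact hβ g _ _)
    have hlin : (∑ j, (β.flip (φ ∘ b j)).comp ((mulB (φ ∘ y)).flip (φ ∘ a j))) =
        ∑ j, (β (φ ∘ a j)).comp (mulB (φ ∘ y) (φ ∘ b j)) := by
      refine lin_ext fun i => ?_
      rw [LinearMap.sum_apply, LinearMap.sum_apply]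
      have h3 := hk (Pi.single i 1)
      change ∑ j, β (φ ∘ mulB y (Pi.single i 1) (a j)) (φ ∘ b j) =
        ∑ j, β (φ ∘ a j) (φ ∘ mulB y (b j) (Pi.single i 1)) at h3
      simp only [mulB_nat, single_nat] at h3
      exact h3
    have h4 := LinearMap.congr_fun hlin c
    rw [LinearMap.sum_apply, LinearMap.sum_apply] at h4
    exact h4

theorem rigid {y : Ix N r → k} (hy : IsStr y P Q) (hc : CasK P Q y) (I : Ideal Λ)
    (hI : IsNilpotent I) (x : Ix N r → Λ) (hx : IsStr x P Q)
    (hxy : ∀ i, x i - algebraMap k Λ (y i) ∈ I) :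
    ∃ G G', IsIso P Q x (fun i => algebraMap k Λ (y i)) G G' := by
  classical
  obtain ⟨n, a, b, h1, h2⟩ := hc
  let φ : k →ₐ[k] Λ := Algebra.ofId k Λ
  set y' : Ix N r → Λ := fun i => algebraMap k Λ (y i) with hy'
  have hy'' : y' = φ ∘ y := rfl
  have hys : IsStr y' P Q := by
    rw [hy'']
    refine ⟨?_, fun g => ?_, fun g => ?_, fun i j l => ?_, fun i => ?_, fun i => ?_,
      fun g i j => ?_, fun g i j => ?_, fun g i j => ?_, fun g => ?_⟩
    · rw [← be_nat, ← al_nat, ← mul_nat, hy.split, one_nat]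
    · rw [← be_nat, ← al_nat, ← map_map_nat φ, ← mul_nat, ← mul_nat, ← mul_nat, hy.comP]
    · rw [← be_nat, ← al_nat, ← map_map_nat φ, ← mul_nat, ← mul_nat, ← mul_nat, hy.comQ]
    · simp only [← single_nat φ, ← mulB_nat, hy.assoc]
    · simp only [← single_nat φ, ← mulB_nat, ← un_nat, hy.one_mul]
    · simp only [← single_nat φ, ← mulB_nat, ← un_nat, hy.mul_one]
    · simp only [← single_nat φ, ← mulB_nat, ← op_nat, hy.left]
    · simp only [← single_nat φ, ← mulB_nat, ← op_nat, hy.right]
    · simp only [← single_nat φ, ← mulB_nat, ← op_nat, hy.bal]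
    · simp only [← un_nat, ← op_nat, hy.unit]
  have hC := isCas_base (P := P) (Q := Q) (Λ := Λ) h1 h2
  -- the initial map
  have hbx : ∀ (M : Matrix N N k), al x * be x * M.map (algebraMap k Λ) =
      M.map (algebraMap k Λ) * (al x * be x) → al y' * be y' * M.map (algebraMap k Λ) =
      M.map (algebraMap k Λ) * (al y' * be y') → ∀ v,
      (be x * al y').mulVec (op y' M v) = op x M ((be x * al y').mulVec v) := by
    intro M hM hM' v
    rw [op_apply, op_apply]
    simp only [Matrix.mulVec_mulVec]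
    congr 1
    have e1 : be x * al y' * be y' * M.map (algebraMap k Λ) * al y' =
        be x * M.map (algebraMap k Λ) * al y' := by
      calc be x * al y' * be y' * M.map (algebraMap k Λ) * al y'
          = be x * (al y' * be y' * M.map (algebraMap k Λ)) * al y' := by
            simp only [Matrix.mul_assoc]
        _ = be x * M.map (algebraMap k Λ) * al y' * (be y' * al y') := by
            rw [hM']; simp only [Matrix.mul_assoc]
        _ = be x * M.map (algebraMap k Λ) * al y' := by rw [hys.split, Matrix.mul_one]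
    have e2 : be x * M.map (algebraMap k Λ) * al x * (be x * al y') =
        be x * M.map (algebraMap k Λ) * al y' := by
      calc be x * M.map (algebraMap k Λ) * al x * (be x * al y')
          = be x * (M.map (algebraMap k Λ) * (al x * be x)) * al y' := by
            simp only [Matrix.mul_assoc]
        _ = (be x * al x) * (be x * M.map (algebraMap k Λ) * al y') := by
            rw [← hM]; simp only [Matrix.mul_assoc]
        _ = be x * M.map (algebraMap k Λ) * al y' := by rw [hx.split, Matrix.one_mul]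
    have e3 : be x * al y' * (be y' * (M.map (algebraMap k Λ) * al y')) =
        be x * al y' * be y' * M.map (algebraMap k Λ) * al y' := by
      simp only [Matrix.mul_assoc]
    have e4 : be x * (M.map (algebraMap k Λ) * (al x * (be x * al y'))) =
        be x * M.map (algebraMap k Λ) * al x * (be x * al y') := by
      simp only [Matrix.mul_assoc]
    rw [e3, e4, e1, e2]
  have hg0 : ∀ v, (be x * al y').mulVec v - v ∈ I • (⊤ : Submodule Λ (Fin r → Λ)) := by
    intro v
    refine mem_smul_top_of fun t => ?_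
    have h3 : (be x * al y').mulVec v - v = ((be x - be y') * al y').mulVec v := by
      rw [Matrix.sub_mul, hys.split, Matrix.sub_mulVec, Matrix.one_mulVec]
    rw [h3]
    rw [Matrix.mulVec, dotProduct]
    refine I.sum_mem fun s _ => I.mul_mem_right _ ?_
    rw [Matrix.mul_apply]
    exact I.sum_mem fun n _ => I.mul_mem_right _ (hxy _)
  have hmu : ∀ v w, mulB y' v w - mulB x v w ∈ I • (⊤ : Submodule Λ (Fin r → Λ)) := by
    intro v w
    refine mem_smul_top_of fun t => ?_
    rw [Pi.sub_apply, mulB_apply, mulB_apply, ← Finset.sum_sub_distrib]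
    refine I.sum_mem fun i _ => ?_
    rw [← Finset.sum_sub_distrib]
    refine I.sum_mem fun j _ => ?_
    rw [← mul_sub, ← neg_sub, mul_neg]
    exact I.neg_mem (I.mul_mem_left _ (hxy _))
  obtain ⟨s, hs⟩ := hI
  obtain ⟨g, g1, g2, g3, g4, g5⟩ := newton_iter hys.isAlgOp hx.isAlgOp hC hys.unit
    (be x * al y').mulVecLin
    (fun g v => hbx (P g) (hx.comP g) (hys.comP g) v)
    (fun g v => hbx (Q g) (hx.comQ g) (hys.comQ g) v) I
    (fun v w => by
      have e1 : (be x * al y').mulVecLin (mulB y' v w) -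
          mulB x ((be x * al y').mulVecLin v) ((be x * al y').mulVecLin w) =
          ((be x * al y').mulVec (mulB y' v w) - mulB y' v w) + (mulB y' v w - mulB x v w)
          - (mulB x ((be x * al y').mulVec v - v) ((be x * al y').mulVec w) +
            mulB x v ((be x * al y').mulVec w - w)) := by
        simp only [Matrix.mulVecLin_apply, map_sub, LinearMap.sub_apply]
        abel
      rw [e1]
      refine Submodule.sub_mem _ (Submodule.add_mem _ (hg0 _) (hmu v w))
        (Submodule.add_mem _ ?_ (mem_smul_map_right _ (hg0 w)))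
      exact mem_smul_map_right (mulB x).flip (hg0 v))
    (by
      have e1 : (be x * al y').mulVecLin (un y') - un x =
          ((be x * al y').mulVec (un y') - un y') - (un x - un y') := by
        simp only [Matrix.mulVecLin_apply]
        abel
      rw [e1]
      exact Submodule.sub_mem _ (hg0 _) (mem_smul_top_of fun t => hxy _)) s
  have hzero : I ^ (2 ^ s) = ⊥ := by
    have h5 : s ≤ 2 ^ s := (Nat.lt_two_pow_self).le
    rw [← Nat.sub_add_cancel h5, pow_add, hs]
    simp
  rw [hzero, Submodule.bot_smul] at g4 g5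
  have g6 : ∀ v, g v - v ∈ I • (⊤ : Submodule Λ (Fin r → Λ)) := by
    intro v
    have : g v - v = (g v - (be x * al y').mulVecLin v) + ((be x * al y').mulVec v - v) := by
      simp only [Matrix.mulVecLin_apply]
      abel
    rw [this]
    exact Submodule.add_mem _ (g3 v) (hg0 v)
  let G : Matrix (Fin r) (Fin r) Λ := LinearMap.toMatrix' g
  have hG : ∀ v, G.mulVec v = g v := fun v => LinearMap.toMatrix'_mulVec g v
  have hdet : IsUnit G.det := by
    have h6 : G.map (Ideal.Quotient.mk I) = 1 := by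
      ext i j
      have h7 : G i j - (1 : Matrix (Fin r) (Fin r) Λ) i j ∈ I := by
        have h8 := of_mem_smul_top (g6 (Pi.single j 1)) i
        rw [← hG, Pi.sub_apply, Matrix.mulVec_single_one] at h8
        have h9 : (Pi.single j (1 : Λ) : Fin r → Λ) i = (1 : Matrix (Fin r) (Fin r) Λ) i j := by
          rw [Matrix.one_apply, Pi.single_apply]
        rw [h9] at h8
        exact h8
      have h10 : Ideal.Quotient.mk I (G i j) =
          Ideal.Quotient.mk I ((1 : Matrix (Fin r) (Fin r) Λ) i j) :=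
        Ideal.Quotient.eq.mpr h7
      rw [Matrix.map_apply, h10, Matrix.one_apply, Matrix.one_apply]
      split_ifs <;> simp
    have h11 : G.det - 1 ∈ I := by
      rw [← Ideal.Quotient.eq, map_one, RingHom.map_det]
      have : (Ideal.Quotient.mk I).mapMatrix G = G.map (Ideal.Quotient.mk I) := rfl
      rw [this, h6, Matrix.det_one]
    have h12 : IsNilpotent (G.det - 1) := ⟨s, by
      have h13 := Ideal.pow_mem_pow h11 s
      rw [hs] at h13
      exact h13⟩
    have h14 := h12.isUnit_add_one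
    rwa [sub_add_cancel] at h14
  refine ⟨G, G⁻¹, Matrix.mul_nonsing_inv G hdet, Matrix.nonsing_inv_mul G hdet, fun i j => ?_,
    fun g' i => ?_, fun g' i => ?_⟩
  · simp only [hG]
    exact sub_eq_zero.mp ((Submodule.mem_bot Λ).mp (g4 _ _))
  · simp only [hG]
    exact g1 g' _
  · simp only [hG]
    exact g2 g' _

/-- **Finiteness** of the relatively separable structures up to isomorphism. -/
theorem finite_structures [IsAlgClosed k] (S₀ : Set (Ix N r → k)) (hS : ∀ y ∈ S₀, IsStr y P Q)
    (hcas : ∀ y ∈ S₀, CasK P Q y) :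
    ∃ S : Set (Ix N r → k), S.Finite ∧ S ⊆ S₀ ∧ ∀ y ∈ S₀, ∃ y' ∈ S, ∃ G G', IsIso P Q y y' G G' := by
  obtain ⟨S, h1, h2, h3⟩ := finite_rigid (FF P Q r) (HH P Q r) (by
    intro Ω _ _ x y y' _ _ _ h h'
    rw [rel_HH_iff] at h h' ⊢
    obtain ⟨G, G', hG⟩ := h
    obtain ⟨K, K', hK⟩ := h'
    exact ⟨_, _, hG.symm.trans hK⟩) S₀ (fun y hy f hf => hf k y (hS y hy)) (by
    intro y hy Λ _ _ I hI x hx hxy
    rw [rel_HH_iff]
    exact rigid (hS y hy) (hcas y hy) I hI x (isStr_of_FF P Q x hx) hxy)
  refine ⟨S, h1, h2, fun y hy => ?_⟩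
  obtain ⟨y', hy', h⟩ := h3 y hy
  exact ⟨y', hy', (rel_HH_iff P Q y y').mp h⟩

end Cas

end Vale.Agent.P180.R2.H365
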