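import Vale.Agent.P180.R2.H47.InvDef
import Mathlib.GroupTheory.Solvable

/-!
P180: definitions, the sections of a group given by the group `G'` and its subgroup `D'`.
-/

namespace Vale.Agent.P180.R2.H365

open Vale.Agent.P180

universe u

/-- The quotient of `G` by a solvable normal subgroup `S` is a section of `G₀`, and the image of `D`
in it is covered by `D₀`: there are a subgroup `K` of `G₀` and a surjective homomorphism `f` from
`K` to `G / S` such that the image of `D` in `G / S` is contained in `f (K ∩ D₀)`. -/
def SecMod {G₀ : Type} [Group G₀] (D₀ : Subgroup G₀) {G : Type} [Group G] (D : Subgroup G) :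
    Prop :=
  ∃ (K : Subgroup G₀) (S : Subgroup G) (_ : S.Normal) (f : K →* G ⧸ S), Group.IsSolvable S ∧
    Function.Surjective f ∧ ∀ y ∈ D, ∃ x : K, (x : G₀) ∈ D₀ ∧ f x = (y : G ⧸ S)

/-- The group of the automorphisms of `L` induced by elements of `D` is a section of `D₀`: it is the
image of a subgroup `K` of `D₀` under a homomorphism `f`. -/
def ActSec {G₀ : Type} [Group G₀] (D₀ : Subgroup G₀) {G : Type} [Group G] (D L : Subgroup G) :
    Prop :=
  ∃ (K : Subgroup G₀) (f : K →* MulAut L), K ≤ D₀ ∧
    ∀ φ : MulAut L, φ ∈ f.range ↔ ∃ r ∈ D, ∀ y : L, (φ y : G) = r * y * r⁻¹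

/-- The component `L` is exceptional, `L / Z(L)` is a section of the normal closure of `D₀`, the
group of automorphisms of `L` induced by `N_D(L)` is a section of `D₀`, and the quotient of `G` by a
solvable normal subgroup is a section of `G₀` as in `SecMod`. -/
def ExcJ (Exc : ∀ (k : Type u) [Field k] (G : Type) [Group G] [Finite G],
      MonoidAlgebra k G → Subgroup G → Subgroup G → Prop) {G₀ : Type} [Group G₀]
    (D₀ : Subgroup G₀) (k : Type u) [Field k] (G : Type) [Group G] [Finite G]
    (b : MonoidAlgebra k G) (D L : Subgroup G) : Prop :=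
  Exc k G b D L ∧ Involved (L ⧸ Subgroup.center L) (Subgroup.normalClosure (D₀ : Set G₀)) ∧
    ActSec D₀ D L ∧ SecMod D₀ D

end Vale.Agent.P180.R2.H365
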