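import Vale.Agent.P180.R2.H47.QsR
import Vale.Agent.P180.R2.H47.CmpQ

set_option linter.all false

/-!
P180: the terminal group of the reductions is, modulo a solvable normal subgroup, a section of the
original group.
-/

namespace Vale.Agent.P180.R2.H365

open Vale.Agent.P180 Vale.Agent.P180.H768.Gd Vale.Agent.P180.R2.H47
open Vale.Agent.P180.H768 hiding pull mem_pull exists_factor Lay mk_mem comm_mem
open Subgroup (mem_centralizer_iff mem_normalizer_iff centralizer normalizer)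

/-- There is a relation between `G₀` and `G` which is the graph of a homomorphism of a subgroup of
`G₀` onto `G` modulo a solvable normal subgroup, and `D` is covered by `D₀`. -/
def SecRel {G₀ : Type} [Group G₀] (D₀ : Subgroup G₀) (G : Type) [Group G] (D : Subgroup G) : Prop :=
  ∃ (S : Subgroup G) (Γ : Subgroup (G₀ × G)), S.Normal ∧ Group.IsSolvable S ∧
    (∀ y : G, ((1 : G₀), y) ∈ Γ → y ∈ S) ∧ (∀ y : G, ∃ x, (x, y) ∈ Γ) ∧
    ∀ y ∈ D, ∃ x ∈ D₀, (x, y) ∈ Γ

variable {p : ℕ} [Fact p.Prime]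

theorem ctr_secRel {G₀ : Type} [Group G₀] (D₀ : Subgroup G₀) :
    Ctr p (fun G _ D => SecRel D₀ G D) where
  mono := by
    rintro G _ _ D D' hD ⟨S, Γ, hS, hSs, h1, h2, h3⟩
    exact ⟨S, Γ, hS, hSs, h1, h2, fun y hy => h3 y (hD hy)⟩
  fr := by
    rintro G _ _ N T D _ hNT hCT x ⟨S, Γ, hS, hSs, h1, h2, h3⟩
    obtain ⟨a, ha⟩ := h2 x
    let φ : G₀ × T →* G₀ × G :=
      (MulAut.conj a).toMonoidHom.prodMap T.subtype
    refine ⟨S.subgroupOf T, Γ.comap φ, inferInstance, ?_, ?_, ?_, ?_⟩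
    · exact solvable_of_solvable_injective
        (f := (T.subtype.comp (S.subgroupOf T).subtype).codRestrict S fun y => y.2)
        (by
          intro y y' h
          have h4 := congrArg (fun z : S => (z : G)) h
          exact Subtype.ext (Subtype.ext h4))
    · intro y hy
      have h : (a * 1 * a⁻¹, (y : G)) ∈ Γ := hy
      rw [mul_one, mul_inv_cancel] at h
      exact h1 _ h
    · intro y
      obtain ⟨b, hb⟩ := h2 (y : G)
      refine ⟨a⁻¹ * b * a, ?_⟩
      change (a * (a⁻¹ * b * a) * a⁻¹, (y : G)) ∈ Γ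
      have e : a * (a⁻¹ * b * a) * a⁻¹ = b := by group
      rw [e]
      exact hb
    · intro y hy
      rw [Subgroup.mem_subgroupOf, mem_conjS] at hy
      obtain ⟨d, hd, hdy⟩ := h3 _ hy
      refine ⟨d, hd, ?_⟩
      change (a * d * a⁻¹, (y : G)) ∈ Γ
      have h := Γ.mul_mem (Γ.mul_mem ha hdy) (Γ.inv_mem ha)
      have e : (a, x) * (d, x⁻¹ * (y : G) * x) * (a, x)⁻¹ = (a * d * a⁻¹, (y : G)) := by
        refine Prod.ext rfl ?_
        change x * (x⁻¹ * (y : G) * x) * x⁻¹ = y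
        group
      rwa [e] at h
  kp := by
    rintro G H _ _ _ _ N D Y _ π Z hT hY hZ hZπ hcard D' hD' ⟨S, Γ, hS, hSs, h1, h2, h3⟩
    have hk : Group.IsSolvable π.ker := solvable_ker hY hZ hZπ hcard
    have hSn : (S.map (QuotientGroup.mk' N)).Normal :=
      Subgroup.Normal.map inferInstance _ (QuotientGroup.mk'_surjective N)
    let Γ' : Subgroup (G₀ × H) :=
      { carrier := {z | ∃ y : G, (z.1, y) ∈ Γ ∧ QuotientGroup.mk' N y = π z.2}
        mul_mem' := by
          rintro ⟨a, h⟩ ⟨a', h'⟩ ⟨y, hy, hyh⟩ ⟨y', hy', hyh'⟩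
          refine ⟨y * y', Γ.mul_mem hy hy', ?_⟩
          rw [map_mul, hyh, hyh', ← map_mul]
          rfl
        one_mem' := ⟨1, Γ.one_mem, by rw [map_one]; exact (map_one π).symm⟩
        inv_mem' := by
          rintro ⟨a, h⟩ ⟨y, hy, hyh⟩
          refine ⟨y⁻¹, Γ.inv_mem hy, ?_⟩
          rw [map_inv, hyh, ← map_inv]
          rfl }
    refine ⟨(S.map (QuotientGroup.mk' N)).comap π, Γ', inferInstance, ?_, ?_, ?_, ?_⟩
    · have h4 : Group.IsSolvable (S.map (QuotientGroup.mk' N)) :=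
        solvable_of_surjective ((QuotientGroup.mk' N).subgroupMap_surjective S)
      let f : (S.map (QuotientGroup.mk' N)).comap π →* S.map (QuotientGroup.mk' N) :=
        π.subgroupComap _
      let g : π.ker →* (S.map (QuotientGroup.mk' N)).comap π :=
        Subgroup.inclusion (by
          intro y hy
          rw [Subgroup.mem_comap, MonoidHom.mem_ker.mp hy]
          exact Subgroup.one_mem _)
      refine solvable_of_ker_le_range g f ?_
      intro y hy
      have h5 : π y = 1 := congrArg Subtype.val (MonoidHom.mem_ker.mp hy)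
      exact ⟨⟨y, MonoidHom.mem_ker.mpr h5⟩, Subtype.ext rfl⟩
    · rintro h ⟨y, hy, hyh⟩
      rw [Subgroup.mem_comap]
      exact ⟨y, h1 y hy, hyh⟩
    · intro h
      obtain ⟨y, hy⟩ := QuotientGroup.mk'_surjective N (π h)
      obtain ⟨a, ha⟩ := h2 y
      exact ⟨a, y, ha, hy⟩
    · intro h hh
      obtain ⟨y, hy, hyh⟩ := mem_pull.mp (hD' hh)
      obtain ⟨d, hd, hdy⟩ := h3 y hy
      exact ⟨d, hd, y, hdy, hyh⟩

theorem Ctr.and2 {𝒞 𝒞' : ∀ (G : Type) [Group G], Subgroup G → Prop} (h : Ctr p 𝒞)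
    (h' : Ctr p 𝒞') : Ctr p (fun G _ D => 𝒞 G D ∧ 𝒞' G D) where
  mono := fun hD hC => ⟨h.mono hD hC.1, h'.mono hD hC.2⟩
  fr := fun hNT hCT x hC => ⟨h.fr hNT hCT x hC.1, h'.fr hNT hCT x hC.2⟩
  kp := fun hT hY hZ hZπ hcard D' hD' hC =>
    ⟨h.kp hT hY hZ hZπ hcard D' hD' hC.1, h'.kp hT hY hZ hZπ hcard D' hD' hC.2⟩

theorem secRel_refl {G : Type} [Group G] {D P : Subgroup G} (hP : P ≤ D) : SecRel D G P := by
  let Γ : Subgroup (G × G) := ((MonoidHom.id G).prod (MonoidHom.id G)).range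
  refine ⟨⊥, Γ, inferInstance, inferInstance, ?_, ?_, ?_⟩
  · rintro y ⟨z, hz⟩
    have h1 : z = 1 := congrArg Prod.fst hz
    have h2 : z = y := congrArg Prod.snd hz
    rw [Subgroup.mem_bot, ← h2, h1]
  · exact fun y => ⟨y, y, rfl⟩
  · exact fun y hy => ⟨y, hP hy, y, rfl⟩

end Vale.Agent.P180.R2.H365
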