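import Vale.Agent.P180.R2.H365.SecM
import Vale.Agent.P180.R2.H365.SecDef

set_option linter.all false

/-!
P180: the action of the defect group of the terminal block on the components.
-/

namespace Vale.Agent.P180.R2.H365

open Vale.Agent.P180 Vale.Agent.P180.H768.Gd Vale.Agent.P180.R2.H47
open Vale.Agent.P180.H768 hiding pull mem_pull exists_factor Lay mk_mem comm_mem
open Subgroup (mem_centralizer_iff mem_normalizer_iff centralizer normalizer)

theorem comps_of_component {G : Type} [Group G] {L : Subgroup G} (hL : IsComponent L) :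
    ∃ E : Subgroup G, E.Normal ∧ L ∈ comps E := by
  obtain ⟨hq, E, hE, hLE, hn⟩ := hL
  exact ⟨E, hE, hLE, hn, qs_of_isQuasisimple hq⟩

/-- solvable normal subgroups centralise components -/
theorem cm_of_solvable {G : Type} [Group G] {S L : Subgroup G} [S.Normal]
    (hS : Group.IsSolvable S) (hL : IsComponent L) : Cm L S := by
  obtain ⟨E, hE, hLE⟩ := comps_of_component hL
  rcases comps_dich (N := S) hLE with h | h
  · exfalso
    have h1 : Group.IsSolvable L := solvable_of_solvable_injective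
      (f := Subgroup.inclusion h) (Subgroup.inclusion_injective h)
    have h2 := hLE.2.2
    have : Nontrivial L := (Subgroup.nontrivial_iff_ne_bot L).mpr h2.ne
    have h3 := Group.IsSolvable.commutator_lt_top_of_nontrivial L
    rw [hL.1.1] at h3
    exact lt_irrefl _ h3
  · exact h

variable {G₀ : Type} [Group G₀] {D₀ : Subgroup G₀} {G : Type} [Group G] {D : Subgroup G}

theorem secMod_of (h : SecRel D₀ G D) : SecMod D₀ D := by
  obtain ⟨S, Γ, hS, hSs, h1, h2, h3⟩ := h
  let K : Subgroup G₀ := Γ.map (MonoidHom.fst G₀ G)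
  have hK : ∀ x : K, ∃ y, ((x : G₀), y) ∈ Γ := by
    rintro ⟨_, ⟨⟨a, y⟩, hz, rfl⟩⟩
    exact ⟨y, hz⟩
  choose c hc using hK
  have key : ∀ (x : G₀) (y y' : G), (x, y) ∈ Γ → (x, y') ∈ Γ →
      QuotientGroup.mk' S y = QuotientGroup.mk' S y' := by
    intro x y y' hy hy'
    have h4 := Γ.mul_mem (Γ.inv_mem hy) hy'
    have e : (x, y)⁻¹ * (x, y') = ((1 : G₀), y⁻¹ * y') := Prod.ext (inv_mul_cancel x) rfl
    rw [e] at h4
    exact (QuotientGroup.eq (s := S)).mpr (h1 _ h4)
  let f : K →* G ⧸ S :=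
    { toFun := fun x => QuotientGroup.mk' S (c x)
      map_one' := by
        rw [key 1 (c 1) 1 (hc 1) Γ.one_mem, map_one]
      map_mul' := fun x x' => by
        rw [← map_mul]
        exact key _ _ _ (hc (x * x')) (Γ.mul_mem (hc x) (hc x')) }
  refine ⟨K, S, hS, f, hSs, ?_, ?_⟩
  · intro z
    obtain ⟨y, rfl⟩ := QuotientGroup.mk'_surjective S z
    obtain ⟨x, hx⟩ := h2 y
    let x' : K := ⟨x, ⟨(x, y), hx, rfl⟩⟩
    exact ⟨x', key x _ _ (hc x') hx⟩
  · intro y hy
    obtain ⟨x, hx, hxy⟩ := h3 y hy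
    let x' : K := ⟨x, ⟨(x, y), hxy, rfl⟩⟩
    exact ⟨x', hx, key x _ _ (hc x') hxy⟩

theorem actSec_of [Finite G] (h : SecRel D₀ G D) {L : Subgroup G} (hL : IsComponent L) :
    ActSec D₀ D L := by
  obtain ⟨S, Γ, hS, hSs, h1, h2, h3⟩ := h
  have hcm := cm_of_solvable hSs hL
  let K : Subgroup G₀ := D₀ ⊓ (Γ ⊓ (D ⊓ normalizer (L : Set G)).comap (MonoidHom.snd G₀ G)).map
    (MonoidHom.fst G₀ G)
  have hK : ∀ x : K, ∃ y : normalizer (L : Set G), (y : G) ∈ D ∧ ((x : G₀), (y : G)) ∈ Γ := by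
    rintro ⟨_, -, ⟨⟨a, y⟩, ⟨hz, hy⟩, rfl⟩⟩
    exact ⟨⟨y, hy.2⟩, hy.1, hz⟩
  choose c hcD hc using hK
  have key : ∀ (x : G₀) (y y' : normalizer (L : Set G)), (x, (y : G)) ∈ Γ → (x, (y' : G)) ∈ Γ →
      L.normalizerMonoidHom y = L.normalizerMonoidHom y' := by
    intro x y y' hy hy'
    have h4 := Γ.mul_mem (Γ.inv_mem hy) hy'
    have e : (x, (y : G))⁻¹ * (x, (y' : G)) = ((1 : G₀), (y : G)⁻¹ * y') :=
      Prod.ext (inv_mul_cancel x) rfl
    rw [e] at h4
    have h5 := h1 _ h4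
    have h6 : y⁻¹ * y' ∈ L.normalizerMonoidHom.ker := by
      rw [Subgroup.normalizerMonoidHom_ker, Subgroup.mem_subgroupOf, mem_centralizer_iff]
      exact fun z hz => hcm z hz _ h5
    rw [MonoidHom.mem_ker, map_mul, map_inv, inv_mul_eq_one] at h6
    exact h6
  let f : K →* MulAut L :=
    { toFun := fun x => L.normalizerMonoidHom (c x)
      map_one' := by
        rw [key 1 (c 1) 1 (hc 1) Γ.one_mem, map_one]
      map_mul' := fun x x' => by
        rw [← map_mul]
        exact key _ _ _ (hc (x * x')) (Γ.mul_mem (hc x) (hc x')) }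
  refine ⟨K, f, inf_le_left, ?_⟩
  intro φ
  constructor
  · rintro ⟨x, rfl⟩
    exact ⟨c x, hcD x, fun y => rfl⟩
  · rintro ⟨r, hr, hφ⟩
    have hrN : r ∈ normalizer (L : Set G) := by
      rw [mem_normalizer_iff]
      intro y
      constructor
      · intro hy
        have h4 := hφ ⟨y, hy⟩
        rw [← h4]
        exact (φ ⟨y, hy⟩).2
      · intro hy
        obtain ⟨z, hz⟩ := φ.surjective ⟨_, hy⟩
        have h4 := hφ z
        rw [hz] at h4
        have h5 : y = z := mul_left_cancel (mul_right_cancel h4)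
        rw [h5]
        exact z.2
    obtain ⟨x, hx, hxr⟩ := h3 r hr
    let x' : K := ⟨x, hx, ⟨(x, r), ⟨hxr, hr, hrN⟩, rfl⟩⟩
    refine ⟨x', ?_⟩
    have h5 : L.normalizerMonoidHom (c x') = L.normalizerMonoidHom ⟨r, hrN⟩ :=
      key x _ _ (hc x') hxr
    refine Eq.trans h5 (MulEquiv.ext fun y => Subtype.ext ?_)
    exact (hφ y).symm

end Vale.Agent.P180.R2.H365
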