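import Vale.Agent.P180.R2.H365.Def10
import Vale.Agent.P180.R2.H47.PairB
import Vale.Agent.P180.R2.H47.PairDef
import Vale.Agent.P180.R2.H799.BT8
import Vale.Agent.P180.R2.H589.Sx.Au8

/-!
P180: components with `L / Z(L)` isomorphic to `PSp_d(K)`.
-/

set_option linter.all false

namespace Vale.Agent.P180.R2.H365

open Vale.Agent.P180 Vale.Agent.P180.R2.H47

universe u

namespace S

theorem two_ne {K : Type} [Field K] [Finite K] (h : Odd (Nat.card K)) : (2 : K) ≠ 0 := by
  intro h2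
  have h3 : (2 : ℕ) ∣ Nat.card K := by
    have h4 : addOrderOf (1 : K) = 2 := by
      refine addOrderOf_eq_prime ?_ one_ne_zero
      rw [two_nsmul]
      calc (1 : K) + 1 = 2 := by norm_num
        _ = 0 := h2
    rw [← h4]
    exact addOrderOf_dvd_natCard 1
  exact (Nat.not_even_iff_odd.mpr h) (even_iff_two_dvd.mpr h3)

theorem mem_sup_of_inner {G : Type*} [Group G] {L : Subgroup G} {r : G}
    (hr : r ∈ Subgroup.normalizer (L : Set G))
    (h : L.normalizerMonoidHom ⟨r, hr⟩ ∈ (MulAut.conj : L →* MulAut L).range) :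
    r ∈ L ⊔ Subgroup.centralizer (L : Set G) := by
  obtain ⟨s, hs⟩ := h
  have h2 : ((s : L) : G)⁻¹ * r ∈ Subgroup.centralizer (L : Set G) := by
    rw [Subgroup.mem_centralizer_iff]
    intro l hl
    have h3 : r * l * r⁻¹ = (s : G) * l * (s : G)⁻¹ := by
      have h4 := congrArg (fun α : MulAut L => ((α ⟨l, hl⟩ : L) : G)) hs
      exact h4.symm
    calc l * (((s : L) : G)⁻¹ * r) = ((s : L) : G)⁻¹ * ((s : G) * l * (s : G)⁻¹) * r := by
          group
      _ = ((s : L) : G)⁻¹ * (r * l * r⁻¹) * r := by rw [h3]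
      _ = ((s : L) : G)⁻¹ * r * l := by group
  have h5 : r = (s : G) * (((s : L) : G)⁻¹ * r) := by group
  rw [h5]
  exact Subgroup.mul_mem_sup s.2 h2

theorem formOn_add {K E : Type} [Field K] [AddCommGroup E] [Module K E] {B : E → E → K}
    (h : FormOn B (RingHom.id K) (-1)) (x y z : E) : B x (y + z) = B x y + B x z := by
  obtain ⟨h1, h2, h3, h4, h5, h6⟩ := h
  have e : ∀ x y, B y x = - B x y := fun x y => by rw [h5 x y]; simp
  rw [e (y + z) x, h1, e x y, e x z]
  ring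

theorem formOn_alt {K E : Type} [Field K] [AddCommGroup E] [Module K E] {B : E → E → K}
    (h : FormOn B (RingHom.id K) (-1)) (h2 : (2 : K) ≠ 0) (x : E) : B x x = 0 := by
  obtain ⟨h1, -, h3, h4, h5, h6⟩ := h
  have e : B x x = - B x x := by
    have := h5 x x
    simpa using this
  have e2 : (2 : K) * B x x = 0 := by linear_combination e
  exact (mul_eq_zero.mp e2).resolve_left h2

/-- `L` is a covering group of `PSp_d(K)` or `PSU_d(K)` -/
def FPack (d : ℕ) {K : Type} [Field K] (θ : K →+* K) {G : Type} [Group G] (L : Subgroup G) :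
    Prop :=
  ∃ (ε : K) (B : (Fin d → K) → (Fin d → K) → K) (X : Subgroup (SpecialLinearGroup K (Fin d → K)))
    (π : X →* L), FormOn B θ ε ∧ (Odd (Nat.card K) ∨ (∃ a, θ a ≠ a) ∨ ∀ x, B x x = 0) ∧
    (∀ g, g ∈ X ↔ Pres B g) ∧
    Function.Surjective π ∧ (∀ x : X, π x ∈ Subgroup.center L ↔ x.1 ∈ Subgroup.center _) ∧
    (∀ (r : G) (m : ℕ), r ∈ Subgroup.normalizer (L : Set G) → Odd m →
      m.Coprime (Nat.card (K ≃+* K)) → m.Coprime d → r ^ m = 1 →
      r ∈ L ⊔ Subgroup.centralizer (L : Set G)) ∧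
    ∀ (α : MulAut L) (m : ℕ), Odd m → α ^ m = 1 →
      ∃ (σ : K ≃+* K) (c : K) (g : (Fin d → K) → (Fin d → K)),
      Function.Bijective g ∧ (∀ v w, g (v + w) = g v + g w) ∧
      (∀ (a : K) v, g (a • v) = σ a • g v) ∧ (∀ v w, B (g v) (g w) = c * σ (B v w)) ∧
      ∀ x : X, ∃ y : X, (∀ v, g (ap x.1 v) = ap y.1 (g v)) ∧ α (π x) = π y

/-- the facts on components with `L / Z(L)` isomorphic to `PSp_d(K)` -/
theorem sp_pack {d : ℕ} {K : Type} [Field K] [Finite K] (hK : 9 < Nat.card K) (hd : 3 ≤ d)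
    {G : Type} [Group G] [Finite G] {L : Subgroup G} (hL : commutator L = ⊤)
    {B : (Fin d → K) → (Fin d → K) → K}
    {X : Subgroup (SpecialLinearGroup K (Fin d → K))} {π : X →* L ⧸ Subgroup.center L}
    (hB : FormOn B (RingHom.id K) (-1)) (halt : ∀ x, B x x = 0) (hX : ∀ g, g ∈ X ↔ Pres B g)
    (hπ : Function.Surjective π) (hker : ∀ x : X, π x = 1 ↔ x.1 ∈ Subgroup.center _) :
    derivedSeries (MulAut (L ⧸ Subgroup.center L)) 2 ≤
      (MulAut.conj : L ⧸ Subgroup.center L →* MulAut (L ⧸ Subgroup.center L)).range ∧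
    FPack d (RingHom.id K) L := by
  have hfd : Module.finrank K (Fin d → K) = d := by rw [Module.finrank_fin_fun]
  have hB' := hB
  obtain ⟨b1, b2, b3, b4, b5, b6⟩ := hB'
  have hXe : ∀ g : SpecialLinearGroup K (Fin d → K), g ∈ X ↔ ∀ x y, B (g x) (g y) = B x y := hX
  obtain ⟨π', hπ', hcen⟩ := H589.Sp.exists_surj_alt hK (by omega) b1 (formOn_add hB) b2 halt b6
    hXe hπ hker hL (MulEquiv.refl _)
  obtain ⟨B', hBB, hSy⟩ := H589.Sp.exists_bilin b1 (formOn_add hB) b2 halt b6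
  have hXe' : ∀ g : SpecialLinearGroup K (Fin d → K), g ∈ X ↔ ∀ x y, B' (g x) (g y) = B' x y := by
    intro g
    rw [hXe]
    simp only [hBB]
  have hcX : ∀ x : X, x ∈ Subgroup.center X ↔
      (x : SpecialLinearGroup K (Fin d → K)) ∈ Subgroup.center _ := by
    intro x
    constructor
    · intro hx
      rw [← hcen, Subgroup.mem_center_iff]
      intro y
      obtain ⟨y, rfl⟩ := hπ' y
      rw [← map_mul, ← map_mul, Subgroup.mem_center_iff.mp hx y]
    · intro hx
      rw [Subgroup.mem_center_iff] at hx ⊢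
      intro y
      exact Subtype.ext (hx y)
  have hkT : π.ker = Subgroup.center X := by
    ext x
    rw [MonoidHom.mem_ker, hker, hcX]
  have hkL : π'.ker ≤ Subgroup.center X := by
    intro x hx
    rw [hcX, ← hcen, MonoidHom.mem_ker.mp hx]
    exact Subgroup.one_mem _
  refine ⟨H589.Sx.derived_le_conj_all hSy (by omega) (by omega) hXe' hπ hkT.le, -1, B, X, π', hB,
    Or.inr (Or.inr halt), hX, hπ', hcen,
    ?_, fun α m hm hαm => ?_⟩
  · intro r m hr hm hco _ hrm
    refine mem_sup_of_inner hr ?_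
    refine H589.Sx.inner_of_coprime_all hSy (by omega) (by omega) hXe' hπ' hkL hm hco ?_
    have h1 : (⟨r, hr⟩ : Subgroup.normalizer (L : Set G)) ^ m = 1 := Subtype.ext hrm
    rw [← map_pow, h1, map_one]
  · obtain ⟨σ, κ, g, g1, g2, g3, g4⟩ :=
      H589.Sx.ssim_of_odd hSy (by omega) (by omega) hXe' hπ' hkL hm hαm
    refine ⟨σ, κ, g, g.bijective, fun v w => map_add g v w, g2, fun v w => ?_, fun x => ?_⟩
    · rw [← hBB, ← hBB, g3]
    · have hs : H589.Sp.SSim B' g σ κ := ⟨g2, g1, g3⟩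
      let x' : H589.Sp.SpG B' :=
        ⟨((x : SpecialLinearGroup K (Fin d → K)) : (Fin d → K) ≃ₗ[K] (Fin d → K)),
          (hXe' _).mp x.2⟩
      obtain ⟨y, hy⟩ := hs.exists_conj x'
      let y' : SpecialLinearGroup K (Fin d → K) :=
        ⟨(y : _ ≃ₗ[K] _), H589.Sp.det_SpG hSy (by omega) y.2⟩
      have hy' : y' ∈ X := (hXe' _).mpr y.2
      exact ⟨⟨y', hy'⟩, hy, g4 x ⟨y', hy'⟩ hy⟩

end S

end Vale.Agent.P180.R2.H365
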