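import Vale.Agent.P180.R2.H365.Vfin
import Vale.Agent.P180.R2.H365.Newton

/-!
P180: interior algebras in coordinates. For fixed operators `P g`, `Q g` on `k ^ N`, the relatively
separable interior algebra structures on direct summands of rank `r` of `k ^ N` fall into finitely
many isomorphism classes.
-/

set_option linter.unusedSectionVars false

namespace Vale.Agent.P180.R2.H365

open MvPolynomial

universe u

/-- index type of the coordinates -/
abbrev Ix (N : Type) (r : ℕ) : Type :=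
  (N × Fin r) ⊕ (Fin r × N) ⊕ (Fin r × Fin r × Fin r) ⊕ Fin r

/-- index type of the coordinates of an isomorphism -/
abbrev Kx (r : ℕ) : Type := (Fin r × Fin r) ⊕ (Fin r × Fin r)

section Defs

variable {k : Type u} [Field k] {N : Type} [Fintype N] {r : ℕ}
  {Λ : Type*} [CommRing Λ] [Algebra k Λ] (x : Ix N r → Λ)

/-- the embedding in `Λ ^ N` -/
def al : Matrix N (Fin r) Λ := fun n i => x (Sum.inl (n, i))

/-- the projection from `Λ ^ N` -/
def be : Matrix (Fin r) N Λ := fun i n => x (Sum.inr (Sum.inl (i, n)))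

/-- the structure constants -/
def mu (i j t : Fin r) : Λ := x (Sum.inr (Sum.inr (Sum.inl (i, j, t))))

/-- the unit -/
def un : Fin r → Λ := fun i => x (Sum.inr (Sum.inr (Sum.inr i)))

/-- the multiplication -/
def mulB : (Fin r → Λ) →ₗ[Λ] (Fin r → Λ) →ₗ[Λ] (Fin r → Λ) :=
  LinearMap.mk₂ Λ (fun v w t => ∑ i, ∑ j, v i * w j * mu x i j t)
    (fun v v' w => by
      ext t
      simp only [Pi.add_apply, ← Finset.sum_add_distrib]
      refine Finset.sum_congr rfl fun i _ => Finset.sum_congr rfl fun j _ => ?_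
      ring)
    (fun c v w => by
      ext t
      simp only [Pi.smul_apply, smul_eq_mul, Finset.mul_sum]
      refine Finset.sum_congr rfl fun i _ => Finset.sum_congr rfl fun j _ => ?_
      ring)
    (fun v w w' => by
      ext t
      simp only [Pi.add_apply, ← Finset.sum_add_distrib]
      refine Finset.sum_congr rfl fun i _ => Finset.sum_congr rfl fun j _ => ?_
      ring)
    (fun c v w => by
      ext t
      simp only [Pi.smul_apply, smul_eq_mul, Finset.mul_sum]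
      refine Finset.sum_congr rfl fun i _ => Finset.sum_congr rfl fun j _ => ?_
      ring)

theorem mulB_apply (v w : Fin r → Λ) (t : Fin r) :
    mulB x v w t = ∑ i, ∑ j, v i * w j * mu x i j t := rfl

/-- the operator given by a matrix on `k ^ N` -/
def op (M : Matrix N N k) : (Fin r → Λ) →ₗ[Λ] (Fin r → Λ) :=
  (be x).mulVecLin ∘ₗ (M.map (algebraMap k Λ)).mulVecLin ∘ₗ (al x).mulVecLin

theorem op_apply (M : Matrix N N k) (v : Fin r → Λ) :
    op x M v = (be x).mulVec ((M.map (algebraMap k Λ)).mulVec ((al x).mulVec v)) := rfl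

variable {Γ : Type} (P Q : Γ → Matrix N N k)

/-- the structure equations -/
structure IsStr [DecidableEq N] : Prop where
  split : be x * al x = 1
  comP : ∀ g, al x * be x * (P g).map (algebraMap k Λ) = (P g).map (algebraMap k Λ) * (al x * be x)
  comQ : ∀ g, al x * be x * (Q g).map (algebraMap k Λ) = (Q g).map (algebraMap k Λ) * (al x * be x)
  assoc : ∀ i j l, mulB x (mulB x (Pi.single i 1) (Pi.single j 1)) (Pi.single l 1) =
    mulB x (Pi.single i 1) (mulB x (Pi.single j 1) (Pi.single l 1))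
  one_mul : ∀ i, mulB x (un x) (Pi.single i 1) = Pi.single i 1
  mul_one : ∀ i, mulB x (Pi.single i 1) (un x) = Pi.single i 1
  left : ∀ g i j, op x (P g) (mulB x (Pi.single i 1) (Pi.single j 1)) =
    mulB x (op x (P g) (Pi.single i 1)) (Pi.single j 1)
  right : ∀ g i j, op x (Q g) (mulB x (Pi.single i 1) (Pi.single j 1)) =
    mulB x (Pi.single i 1) (op x (Q g) (Pi.single j 1))
  bal : ∀ g i j, mulB x (op x (Q g) (Pi.single i 1)) (Pi.single j 1) =
    mulB x (Pi.single i 1) (op x (P g) (Pi.single j 1))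
  unit : ∀ g, op x (P g) (un x) = op x (Q g) (un x)

/-- `G` is an isomorphism from the algebra `y` to the algebra `x` with inverse `G'` -/
structure IsIso (x y : Ix N r → Λ) (G G' : Matrix (Fin r) (Fin r) Λ) : Prop where
  inv : G * G' = 1
  inv' : G' * G = 1
  mul : ∀ i j, G.mulVec (mulB y (Pi.single i 1) (Pi.single j 1)) =
    mulB x (G.mulVec (Pi.single i 1)) (G.mulVec (Pi.single j 1))
  left : ∀ g i, G.mulVec (op y (P g) (Pi.single i 1)) = op x (P g) (G.mulVec (Pi.single i 1))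
  right : ∀ g i, G.mulVec (op y (Q g) (Pi.single i 1)) = op x (Q g) (G.mulVec (Pi.single i 1))

end Defs

section Natural

variable {k : Type u} [Field k] {N : Type} [Fintype N] {r : ℕ}
  {Λ Λ' : Type*} [CommRing Λ] [Algebra k Λ] [CommRing Λ'] [Algebra k Λ'] (φ : Λ →ₐ[k] Λ')
  (x y : Ix N r → Λ)

theorem al_nat : (al x).map φ = al (φ ∘ x) := rfl

theorem be_nat : (be x).map φ = be (φ ∘ x) := rfl

theorem mu_nat (i j t : Fin r) : φ (mu x i j t) = mu (φ ∘ x) i j t := rfl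

theorem un_nat : φ ∘ un x = un (φ ∘ x) := rfl

theorem mulB_nat (v w : Fin r → Λ) : φ ∘ (mulB x v w) = mulB (φ ∘ x) (φ ∘ v) (φ ∘ w) := by
  ext t
  simp only [Function.comp_apply, mulB_apply, map_sum, map_mul, mu_nat]

theorem mulVec_nat {m n : Type} [Fintype n] (M : Matrix m n Λ) (v : n → Λ) :
    φ ∘ (M.mulVec v) = (M.map φ).mulVec (φ ∘ v) := by
  ext t
  simp [Matrix.mulVec, dotProduct, map_sum, map_mul]

theorem map_map_nat (M : Matrix N N k) :
    (M.map (algebraMap k Λ)).map φ = M.map (algebraMap k Λ') := by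
  ext i j
  simp

theorem op_nat (M : Matrix N N k) (v : Fin r → Λ) :
    φ ∘ (op x M v) = op (φ ∘ x) M (φ ∘ v) := by
  rw [op_apply, op_apply, mulVec_nat, mulVec_nat, mulVec_nat, al_nat, be_nat, map_map_nat]

theorem single_nat (i : Fin r) : φ ∘ (Pi.single i 1 : Fin r → Λ) = Pi.single i 1 := by
  ext t
  by_cases h : t = i
  · subst h; simp
  · simp [h]

end Natural

section Polys

variable {k : Type u} [Field k] {N : Type} [Fintype N] [DecidableEq N] {r : ℕ}
  {Γ : Type} (P Q : Γ → Matrix N N k)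

/-- the polynomials vanishing on all structures -/
def FF (r : ℕ) : Set (MvPolynomial (Ix N r) k) :=
  {f | ∀ (Λ : Type u) [CommRing Λ] [Algebra k Λ] (x : Ix N r → Λ), IsStr x P Q → aeval x f = 0}

/-- the first structure -/
def xc {Λ : Type*} (w : Ix N r ⊕ Ix N r ⊕ Kx r → Λ) : Ix N r → Λ := fun i => w (Sum.inl i)

/-- the second structure -/
def yc {Λ : Type*} (w : Ix N r ⊕ Ix N r ⊕ Kx r → Λ) : Ix N r → Λ :=
  fun i => w (Sum.inr (Sum.inl i))

/-- the isomorphism -/
def gm {Λ : Type*} (w : Ix N r ⊕ Ix N r ⊕ Kx r → Λ) : Matrix (Fin r) (Fin r) Λ :=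
  fun i j => w (Sum.inr (Sum.inr (Sum.inl (i, j))))

/-- its inverse -/
def gm' {Λ : Type*} (w : Ix N r ⊕ Ix N r ⊕ Kx r → Λ) : Matrix (Fin r) (Fin r) Λ :=
  fun i j => w (Sum.inr (Sum.inr (Sum.inr (i, j))))

/-- the polynomials vanishing on all isomorphisms -/
def HH (r : ℕ) : Set (MvPolynomial (Ix N r ⊕ Ix N r ⊕ Kx r) k) :=
  {h | ∀ (Λ : Type u) [CommRing Λ] [Algebra k Λ] (w : Ix N r ⊕ Ix N r ⊕ Kx r → Λ),
    IsIso P Q (xc w) (yc w) (gm w) (gm' w) → aeval w h = 0}

theorem aeval_comp_X {σ : Type} {Λ : Type u} [CommRing Λ] [Algebra k Λ] (x : σ → Λ) :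
    (aeval x : MvPolynomial σ k →ₐ[k] Λ) ∘ X = x := by
  ext i
  simp

theorem vec_ext {n : Type} {Λ : Type u} [CommRing Λ] {v w : n → Λ} (h : ∀ t, v t - w t = 0) :
    v = w := funext fun t => sub_eq_zero.mp (h t)

theorem mat_ext {m n : Type} {Λ : Type u} [CommRing Λ] {v w : Matrix m n Λ}
    (h : ∀ i j, v i j - w i j = 0) : v = w := by
  ext i j
  exact sub_eq_zero.mp (h i j)

/-- transfer of an identity of vectors -/
theorem transfer_vec {σ n : Type} {S : Set (MvPolynomial σ k)}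
    {pr : ∀ (Λ : Type u) [CommRing Λ] [Algebra k Λ], (σ → Λ) → Prop}
    (hS : S = {f | ∀ (Λ : Type u) [CommRing Λ] [Algebra k Λ] (x : σ → Λ), pr Λ x → aeval x f = 0})
    (E E' : ∀ (Λ : Type u) [CommRing Λ] [Algebra k Λ], (σ → Λ) → n → Λ)
    (hE : ∀ (Λ Λ' : Type u) [CommRing Λ] [Algebra k Λ] [CommRing Λ'] [Algebra k Λ']
      (φ : Λ →ₐ[k] Λ') (x : σ → Λ), φ ∘ E Λ x = E Λ' (φ ∘ x))
    (hE' : ∀ (Λ Λ' : Type u) [CommRing Λ] [Algebra k Λ] [CommRing Λ'] [Algebra k Λ']
      (φ : Λ →ₐ[k] Λ') (x : σ → Λ), φ ∘ E' Λ x = E' Λ' (φ ∘ x))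
    (hpr : ∀ (Λ : Type u) [CommRing Λ] [Algebra k Λ] (x : σ → Λ), pr Λ x → E Λ x = E' Λ x)
    (Λ : Type u) [CommRing Λ] [Algebra k Λ] (x : σ → Λ) (hx : ∀ f ∈ S, aeval x f = 0) :
    E Λ x = E' Λ x := by
  refine vec_ext fun t => ?_
  have key : ∀ (Λ : Type u) [CommRing Λ] [Algebra k Λ] (x : σ → Λ),
      aeval x (E (MvPolynomial σ k) X t - E' (MvPolynomial σ k) X t) = E Λ x t - E' Λ x t := by
    intro Λ _ _ x
    have h1 := congrFun (hE (MvPolynomial σ k) Λ (aeval x) X) t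
    have h2 := congrFun (hE' (MvPolynomial σ k) Λ (aeval x) X) t
    rw [aeval_comp_X] at h1 h2
    rw [map_sub]
    exact congrArg₂ (· - ·) h1 h2
  rw [← key Λ x]
  apply hx
  rw [hS]
  intro Λ' _ _ x' hx'
  rw [key Λ' x', hpr Λ' x' hx', sub_self]


theorem mul_nat {l m n : Type} [Fintype m] {Λ Λ' : Type*} [CommRing Λ] [Algebra k Λ]
    [CommRing Λ'] [Algebra k Λ'] (φ : Λ →ₐ[k] Λ') (A : Matrix l m Λ) (B : Matrix m n Λ) :
    (A * B).map φ = A.map φ * B.map φ := by
  ext i j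
  simp [Matrix.mul_apply, map_sum]

theorem one_nat {m : Type} [DecidableEq m] {Λ Λ' : Type*} [CommRing Λ] [Algebra k Λ]
    [CommRing Λ'] [Algebra k Λ'] (φ : Λ →ₐ[k] Λ') :
    (1 : Matrix m m Λ).map φ = 1 := by
  ext i j
  by_cases h : i = j
  · subst h; simp
  · simp [h]

/-- transfer of an identity of matrices -/
theorem transfer_mat {σ m n : Type} {S : Set (MvPolynomial σ k)}
    {pr : ∀ (Λ : Type u) [CommRing Λ] [Algebra k Λ], (σ → Λ) → Prop}
    (hS : S = {f | ∀ (Λ : Type u) [CommRing Λ] [Algebra k Λ] (x : σ → Λ), pr Λ x → aeval x f = 0})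
    (E E' : ∀ (Λ : Type u) [CommRing Λ] [Algebra k Λ], (σ → Λ) → Matrix m n Λ)
    (hE : ∀ (Λ Λ' : Type u) [CommRing Λ] [Algebra k Λ] [CommRing Λ'] [Algebra k Λ']
      (φ : Λ →ₐ[k] Λ') (x : σ → Λ), (E Λ x).map φ = E Λ' (φ ∘ x))
    (hE' : ∀ (Λ Λ' : Type u) [CommRing Λ] [Algebra k Λ] [CommRing Λ'] [Algebra k Λ']
      (φ : Λ →ₐ[k] Λ') (x : σ → Λ), (E' Λ x).map φ = E' Λ' (φ ∘ x))
    (hpr : ∀ (Λ : Type u) [CommRing Λ] [Algebra k Λ] (x : σ → Λ), pr Λ x → E Λ x = E' Λ x)
    (Λ : Type u) [CommRing Λ] [Algebra k Λ] (x : σ → Λ) (hx : ∀ f ∈ S, aeval x f = 0) :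
    E Λ x = E' Λ x := by
  have h := transfer_vec (n := m × n) hS (fun Λ _ _ x p => E Λ x p.1 p.2)
    (fun Λ _ _ x p => E' Λ x p.1 p.2)
    (fun Λ Λ' _ _ _ _ φ x => by
      ext p
      exact congrFun (congrFun (hE Λ Λ' φ x) p.1) p.2)
    (fun Λ Λ' _ _ _ _ φ x => by
      ext p
      exact congrFun (congrFun (hE' Λ Λ' φ x) p.1) p.2)
    (fun Λ _ _ x hx => by
      ext p
      rw [hpr Λ x hx]) Λ x hx
  ext i j
  exact congrFun h (i, j)

theorem isStr_of_FF {Λ : Type u} [CommRing Λ] [Algebra k Λ] (x : Ix N r → Λ)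
    (hx : ∀ f ∈ FF P Q r, aeval x f = 0) : IsStr x P Q := by
  have hS : FF P Q r = {f | ∀ (Λ : Type u) [CommRing Λ] [Algebra k Λ] (x : Ix N r → Λ),
    IsStr x P Q → aeval x f = 0} := rfl
  refine ⟨?_, fun g => ?_, fun g => ?_, fun i j l => ?_, fun i => ?_, fun i => ?_,
    fun g i j => ?_, fun g i j => ?_, fun g i j => ?_, fun g => ?_⟩
  · exact transfer_mat hS (fun Λ _ _ x => be x * al x) (fun Λ _ _ x => 1)
      (fun Λ Λ' _ _ _ _ φ x => by rw [mul_nat, be_nat, al_nat])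
      (fun Λ Λ' _ _ _ _ φ x => one_nat φ) (fun Λ _ _ x hx => hx.split) Λ x hx
  · exact transfer_mat hS (fun Λ _ _ x => al x * be x * (P g).map (algebraMap k Λ))
      (fun Λ _ _ x => (P g).map (algebraMap k Λ) * (al x * be x))
      (fun Λ Λ' _ _ _ _ φ x => by rw [mul_nat, mul_nat, be_nat, al_nat, map_map_nat])
      (fun Λ Λ' _ _ _ _ φ x => by rw [mul_nat, mul_nat, be_nat, al_nat, map_map_nat])
      (fun Λ _ _ x hx => hx.comP g) Λ x hx
  · exact transfer_mat hS (fun Λ _ _ x => al x * be x * (Q g).map (algebraMap k Λ))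
      (fun Λ _ _ x => (Q g).map (algebraMap k Λ) * (al x * be x))
      (fun Λ Λ' _ _ _ _ φ x => by rw [mul_nat, mul_nat, be_nat, al_nat, map_map_nat])
      (fun Λ Λ' _ _ _ _ φ x => by rw [mul_nat, mul_nat, be_nat, al_nat, map_map_nat])
      (fun Λ _ _ x hx => hx.comQ g) Λ x hx
  · exact transfer_vec hS
      (fun Λ _ _ x => mulB x (mulB x (Pi.single i 1) (Pi.single j 1)) (Pi.single l 1))
      (fun Λ _ _ x => mulB x (Pi.single i 1) (mulB x (Pi.single j 1) (Pi.single l 1)))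
      (fun Λ Λ' _ _ _ _ φ x => by simp only [mulB_nat, single_nat])
      (fun Λ Λ' _ _ _ _ φ x => by simp only [mulB_nat, single_nat])
      (fun Λ _ _ x hx => hx.assoc i j l) Λ x hx
  · exact transfer_vec hS
      (fun Λ _ _ x => mulB x (un x) (Pi.single i 1))
      (fun Λ _ _ x => Pi.single i 1)
      (fun Λ Λ' _ _ _ _ φ x => by simp only [mulB_nat, single_nat, un_nat])
      (fun Λ Λ' _ _ _ _ φ x => by simp only [single_nat])
      (fun Λ _ _ x hx => hx.one_mul i) Λ x hx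
  · exact transfer_vec hS
      (fun Λ _ _ x => mulB x (Pi.single i 1) (un x))
      (fun Λ _ _ x => Pi.single i 1)
      (fun Λ Λ' _ _ _ _ φ x => by simp only [mulB_nat, single_nat, un_nat])
      (fun Λ Λ' _ _ _ _ φ x => by simp only [single_nat])
      (fun Λ _ _ x hx => hx.mul_one i) Λ x hx
  · exact transfer_vec hS
      (fun Λ _ _ x => op x (P g) (mulB x (Pi.single i 1) (Pi.single j 1)))
      (fun Λ _ _ x => mulB x (op x (P g) (Pi.single i 1)) (Pi.single j 1))
      (fun Λ Λ' _ _ _ _ φ x => by simp only [mulB_nat, single_nat, op_nat])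
      (fun Λ Λ' _ _ _ _ φ x => by simp only [mulB_nat, single_nat, op_nat])
      (fun Λ _ _ x hx => hx.left g i j) Λ x hx
  · exact transfer_vec hS
      (fun Λ _ _ x => op x (Q g) (mulB x (Pi.single i 1) (Pi.single j 1)))
      (fun Λ _ _ x => mulB x (Pi.single i 1) (op x (Q g) (Pi.single j 1)))
      (fun Λ Λ' _ _ _ _ φ x => by simp only [mulB_nat, single_nat, op_nat])
      (fun Λ Λ' _ _ _ _ φ x => by simp only [mulB_nat, single_nat, op_nat])
      (fun Λ _ _ x hx => hx.right g i j) Λ x hx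
  · exact transfer_vec hS
      (fun Λ _ _ x => mulB x (op x (Q g) (Pi.single i 1)) (Pi.single j 1))
      (fun Λ _ _ x => mulB x (Pi.single i 1) (op x (P g) (Pi.single j 1)))
      (fun Λ Λ' _ _ _ _ φ x => by simp only [mulB_nat, single_nat, op_nat])
      (fun Λ Λ' _ _ _ _ φ x => by simp only [mulB_nat, single_nat, op_nat])
      (fun Λ _ _ x hx => hx.bal g i j) Λ x hx
  · exact transfer_vec hS
      (fun Λ _ _ x => op x (P g) (un x))
      (fun Λ _ _ x => op x (Q g) (un x))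
      (fun Λ Λ' _ _ _ _ φ x => by simp only [op_nat, un_nat])
      (fun Λ Λ' _ _ _ _ φ x => by simp only [op_nat, un_nat])
      (fun Λ _ _ x hx => hx.unit g) Λ x hx

theorem isIso_of_HH {Λ : Type u} [CommRing Λ] [Algebra k Λ] (w : Ix N r ⊕ Ix N r ⊕ Kx r → Λ)
    (hw : ∀ f ∈ HH P Q r, aeval w f = 0) :
    IsIso P Q (xc w) (yc w) (gm w) (gm' w) := by
  have hS : HH P Q r = {f | ∀ (Λ : Type u) [CommRing Λ] [Algebra k Λ]
    (w : Ix N r ⊕ Ix N r ⊕ Kx r → Λ),
    IsIso P Q (xc w) (yc w) (gm w) (gm' w) → aeval w f = 0} := rfl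
  have hG : ∀ (Λ Λ' : Type u) [CommRing Λ] [Algebra k Λ] [CommRing Λ'] [Algebra k Λ']
      (φ : Λ →ₐ[k] Λ') (w : Ix N r ⊕ Ix N r ⊕ Kx r → Λ), (gm w).map φ = gm (φ ∘ w) :=
    fun Λ Λ' _ _ _ _ φ w => rfl
  have hG' : ∀ (Λ Λ' : Type u) [CommRing Λ] [Algebra k Λ] [CommRing Λ'] [Algebra k Λ']
      (φ : Λ →ₐ[k] Λ') (w : Ix N r ⊕ Ix N r ⊕ Kx r → Λ), (gm' w).map φ = gm' (φ ∘ w) :=
    fun Λ Λ' _ _ _ _ φ w => rfl
  have hx : ∀ (Λ Λ' : Type u) [CommRing Λ] [Algebra k Λ] [CommRing Λ'] [Algebra k Λ']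
      (φ : Λ →ₐ[k] Λ') (w : Ix N r ⊕ Ix N r ⊕ Kx r → Λ), φ ∘ xc w = xc (φ ∘ w) :=
    fun Λ Λ' _ _ _ _ φ w => rfl
  have hy : ∀ (Λ Λ' : Type u) [CommRing Λ] [Algebra k Λ] [CommRing Λ'] [Algebra k Λ']
      (φ : Λ →ₐ[k] Λ') (w : Ix N r ⊕ Ix N r ⊕ Kx r → Λ), φ ∘ yc w = yc (φ ∘ w) :=
    fun Λ Λ' _ _ _ _ φ w => rfl
  refine ⟨?_, ?_, fun i j => ?_, fun g i => ?_, fun g i => ?_⟩
  · exact transfer_mat hS (fun Λ _ _ w => gm w * gm' w) (fun Λ _ _ x => 1)
      (fun Λ Λ' _ _ _ _ φ x => by rw [mul_nat, hG, hG'])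
      (fun Λ Λ' _ _ _ _ φ x => one_nat φ) (fun Λ _ _ x hx => hx.inv) Λ w hw
  · exact transfer_mat hS (fun Λ _ _ w => gm' w * gm w) (fun Λ _ _ x => 1)
      (fun Λ Λ' _ _ _ _ φ x => by rw [mul_nat, hG, hG'])
      (fun Λ Λ' _ _ _ _ φ x => one_nat φ) (fun Λ _ _ x hx => hx.inv') Λ w hw
  · exact transfer_vec hS
      (fun Λ _ _ w => (gm w).mulVec (mulB (yc w) (Pi.single i 1) (Pi.single j 1)))
      (fun Λ _ _ w => mulB (xc w) ((gm w).mulVec (Pi.single i 1))
        ((gm w).mulVec (Pi.single j 1)))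
      (fun Λ Λ' _ _ _ _ φ x => by rw [mulVec_nat, mulB_nat, single_nat, single_nat, hG, hy])
      (fun Λ Λ' _ _ _ _ φ x => by
        rw [mulB_nat, mulVec_nat, mulVec_nat, single_nat, single_nat, hG, hx])
      (fun Λ _ _ x hx => hx.mul i j) Λ w hw
  · exact transfer_vec hS
      (fun Λ _ _ w => (gm w).mulVec (op (yc w) (P g) (Pi.single i 1)))
      (fun Λ _ _ w => op (xc w) (P g) ((gm w).mulVec (Pi.single i 1)))
      (fun Λ Λ' _ _ _ _ φ x => by rw [mulVec_nat, op_nat, single_nat, hG, hy])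
      (fun Λ Λ' _ _ _ _ φ x => by rw [op_nat, mulVec_nat, single_nat, hG, hx])
      (fun Λ _ _ x hx => hx.left g i) Λ w hw
  · exact transfer_vec hS
      (fun Λ _ _ w => (gm w).mulVec (op (yc w) (Q g) (Pi.single i 1)))
      (fun Λ _ _ w => op (xc w) (Q g) ((gm w).mulVec (Pi.single i 1)))
      (fun Λ Λ' _ _ _ _ φ x => by rw [mulVec_nat, op_nat, single_nat, hG, hy])
      (fun Λ Λ' _ _ _ _ φ x => by rw [op_nat, mulVec_nat, single_nat, hG, hx])
      (fun Λ _ _ x hx => hx.right g i) Λ w hw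

/-- the relation of `Rel` for `HH` is isomorphism -/
theorem rel_HH_iff {Λ : Type u} [CommRing Λ] [Algebra k Λ] (x y : Ix N r → Λ) :
    Rel (HH P Q r) Λ x y ↔ ∃ G G' : Matrix (Fin r) (Fin r) Λ, IsIso P Q x y G G' := by
  constructor
  · rintro ⟨z, hz⟩
    exact ⟨_, _, isIso_of_HH P Q (Sum.elim x (Sum.elim y z)) hz⟩
  · rintro ⟨G, G', h⟩
    refine ⟨Sum.elim (fun p => G p.1 p.2) (fun p => G' p.1 p.2), fun f hf => ?_⟩
    exact hf Λ _ h

end Polys

section Algebra

variable {k : Type u} [Field k] {N : Type} [Fintype N] [DecidableEq N] {r : ℕ}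
  {Γ : Type} {P Q : Γ → Matrix N N k} {Λ : Type u} [CommRing Λ] [Algebra k Λ]

/-- bilinear maps agreeing on the standard basis agree -/
theorem bil_ext {W : Type*} [AddCommGroup W] [Module Λ W]
    {B B' : (Fin r → Λ) →ₗ[Λ] (Fin r → Λ) →ₗ[Λ] W}
    (h : ∀ i j, B (Pi.single i 1) (Pi.single j 1) = B' (Pi.single i 1) (Pi.single j 1)) :
    B = B' := by
  refine LinearMap.pi_ext' fun i => LinearMap.ext_ring ?_
  refine LinearMap.pi_ext' fun j => LinearMap.ext_ring ?_
  exact h i j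

theorem lin_ext {W : Type*} [AddCommGroup W] [Module Λ W] {B B' : (Fin r → Λ) →ₗ[Λ] W}
    (h : ∀ i, B (Pi.single i 1) = B' (Pi.single i 1)) : B = B' :=
  LinearMap.pi_ext' fun i => LinearMap.ext_ring (h i)

theorem IsStr.isAlgOp {x : Ix N r → Λ} (h : IsStr x P Q) :
    IsAlgOp (mulB x) (un x) (fun g => op x (P g)) (fun g => op x (Q g)) where
  assoc a b c := by
    have h3 : ∀ i j c, mulB x (mulB x (Pi.single i 1) (Pi.single j 1)) c =
        mulB x (Pi.single i 1) (mulB x (Pi.single j 1) c) := by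
      intro i j c
      have : mulB x (mulB x (Pi.single i 1) (Pi.single j 1)) =
          (mulB x (Pi.single i 1)).comp (mulB x (Pi.single j 1)) :=
        lin_ext fun l => h.assoc i j l
      exact LinearMap.congr_fun this c
    have h2 : ∀ i b c, mulB x (mulB x (Pi.single i 1) b) c =
        mulB x (Pi.single i 1) (mulB x b c) := by
      intro i b c
      have : ((mulB x).flip c).comp (mulB x (Pi.single i 1)) =
          (mulB x (Pi.single i 1)).comp ((mulB x).flip c) :=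
        lin_ext fun j => h3 i j c
      exact LinearMap.congr_fun this b
    have h1 : ((mulB x).flip c).comp ((mulB x).flip b) = (mulB x).flip (mulB x b c) :=
      lin_ext fun i => h2 i b c
    exact LinearMap.congr_fun h1 a
  one_mul a := by
    have : mulB x (un x) = LinearMap.id := lin_ext fun i => h.one_mul i
    rw [this]; rfl
  mul_one a := by
    have : (mulB x).flip (un x) = LinearMap.id := lin_ext fun i => h.mul_one i
    exact LinearMap.congr_fun this a
  left g a b := by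
    have : (mulB x).compr₂ (op x (P g)) = (mulB x).comp (op x (P g)) :=
      bil_ext fun i j => h.left g i j
    exact LinearMap.congr_fun₂ this a b
  right g a b := by
    have : (mulB x).compr₂ (op x (Q g)) = (mulB x).compl₂ (op x (Q g)) :=
      bil_ext fun i j => h.right g i j
    exact LinearMap.congr_fun₂ this a b
  bal g a b := by
    have : (mulB x).comp (op x (Q g)) = (mulB x).compl₂ (op x (P g)) :=
      bil_ext fun i j => h.bal g i j
    exact LinearMap.congr_fun₂ this a b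


theorem IsIso.mul' {x y : Ix N r → Λ} {G G' : Matrix (Fin r) (Fin r) Λ} (h : IsIso P Q x y G G')
    (v w : Fin r → Λ) : G.mulVec (mulB y v w) = mulB x (G.mulVec v) (G.mulVec w) := by
  have : (mulB y).compr₂ G.mulVecLin = (mulB x).compl₁₂ G.mulVecLin G.mulVecLin :=
    bil_ext fun i j => h.mul i j
  exact LinearMap.congr_fun₂ this v w

theorem IsIso.left' {x y : Ix N r → Λ} {G G' : Matrix (Fin r) (Fin r) Λ} (h : IsIso P Q x y G G')
    (g : Γ) (v : Fin r → Λ) : G.mulVec (op y (P g) v) = op x (P g) (G.mulVec v) := by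
  have : G.mulVecLin.comp (op y (P g)) = (op x (P g)).comp G.mulVecLin :=
    lin_ext fun i => h.left g i
  exact LinearMap.congr_fun this v

theorem IsIso.right' {x y : Ix N r → Λ} {G G' : Matrix (Fin r) (Fin r) Λ} (h : IsIso P Q x y G G')
    (g : Γ) (v : Fin r → Λ) : G.mulVec (op y (Q g) v) = op x (Q g) (G.mulVec v) := by
  have : G.mulVecLin.comp (op y (Q g)) = (op x (Q g)).comp G.mulVecLin :=
    lin_ext fun i => h.right g i
  exact LinearMap.congr_fun this v

theorem IsIso.symm {x y : Ix N r → Λ} {G G' : Matrix (Fin r) (Fin r) Λ}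
    (h : IsIso P Q x y G G') : IsIso P Q y x G' G := by
  have h1 : ∀ v, G'.mulVec (G.mulVec v) = v := fun v => by
    rw [Matrix.mulVec_mulVec, h.inv', Matrix.one_mulVec]
  have h2 : ∀ v, G.mulVec (G'.mulVec v) = v := fun v => by
    rw [Matrix.mulVec_mulVec, h.inv, Matrix.one_mulVec]
  refine ⟨h.inv', h.inv, fun i j => ?_, fun g i => ?_, fun g i => ?_⟩
  · have := h.mul' (G'.mulVec (Pi.single i 1)) (G'.mulVec (Pi.single j 1))
    rw [h2, h2] at this
    rw [← this, h1]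
  · have := h.left' g (G'.mulVec (Pi.single i 1))
    rw [h2] at this
    rw [← this, h1]
  · have := h.right' g (G'.mulVec (Pi.single i 1))
    rw [h2] at this
    rw [← this, h1]

theorem IsIso.trans {x y z : Ix N r → Λ} {G G' K K' : Matrix (Fin r) (Fin r) Λ}
    (h : IsIso P Q x y G G') (h' : IsIso P Q y z K K') : IsIso P Q x z (G * K) (K' * G') := by
  refine ⟨?_, ?_, fun i j => ?_, fun g i => ?_, fun g i => ?_⟩
  · rw [Matrix.mul_assoc, ← Matrix.mul_assoc K, h'.inv, Matrix.one_mul, h.inv]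
  · rw [Matrix.mul_assoc, ← Matrix.mul_assoc G', h.inv', Matrix.one_mul, h'.inv']
  · simp only [← Matrix.mulVec_mulVec]
    rw [h'.mul', h.mul']
  · simp only [← Matrix.mulVec_mulVec]
    rw [h'.left', h.left']
  · simp only [← Matrix.mulVec_mulVec]
    rw [h'.right', h.right']

end Algebra

end Vale.Agent.P180.R2.H365
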