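import Mathlib

/-!
P180: a finiteness lemma. A system of polynomial equations over an algebraically closed field has
only finitely many rigid solutions up to an equivalence relation given by polynomial equations.
-/

namespace Vale.Agent.P180.R2.H365

open MvPolynomial

universe u

section Points

/-- a nonzero finitely generated algebra over a field has a point over the algebraic closure -/
theorem exists_point_algClosure (K : Type u) [Field K] (T : Type u) [CommRing T] [Algebra K T]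
    [Algebra.FiniteType K T] [Nontrivial T] (Ω : Type u) [Field Ω] [Algebra K Ω] [IsAlgClosed Ω] :
    Nonempty (T →ₐ[K] Ω) := by
  obtain ⟨M, hM⟩ := Ideal.exists_maximal T
  let _ : Field (T ⧸ M) := Ideal.Quotient.field M
  have : Algebra.FiniteType K (T ⧸ M) :=
    Algebra.FiniteType.of_surjective (Ideal.Quotient.mkₐ K M) (Ideal.Quotient.mkₐ_surjective K M)
  have : Module.Finite K (T ⧸ M) := finite_of_finite_type_of_isJacobsonRing K (T ⧸ M)
  have : Algebra.IsAlgebraic K (T ⧸ M) := Algebra.IsAlgebraic.of_finite K (T ⧸ M)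
  exact ⟨(IsAlgClosed.lift : (T ⧸ M) →ₐ[K] Ω).comp (Ideal.Quotient.mkₐ K M)⟩

/-- a finitely generated algebra `T` over a noetherian domain `R` with points in `R ⧸ m ^ j` for
all `j`, where `m` is a proper ideal, has a point over an algebraic closure of the fraction field -/
theorem exists_generic_point (R : Type u) [CommRing R] [IsDomain R] [IsNoetherianRing R]
    (m : Ideal R) (hm : m ≠ ⊤) (T : Type u) [CommRing T] [Algebra R T] [Algebra.FiniteType R T]
    (h : ∀ j : ℕ, Nonempty (T →ₐ[R] (R ⧸ m ^ j))) :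
    Nonempty (T →ₐ[R] AlgebraicClosure (FractionRing R)) := by
  have hinj : Function.Injective (algebraMap R T) := by
    rw [injective_iff_map_eq_zero]
    intro f hf
    have h1 : f ∈ ⨅ j : ℕ, m ^ j := by
      rw [Ideal.mem_iInf]
      intro j
      obtain ⟨φ⟩ := h j
      have h2 : algebraMap R (R ⧸ m ^ j) f = 0 := by
        rw [← φ.commutes, hf, map_zero]
      exact Ideal.Quotient.eq_zero_iff_mem.mp h2
    rw [Ideal.iInf_pow_eq_bot_of_isDomain m hm] at h1
    exact h1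
  let K := FractionRing R
  have : Nontrivial (TensorProduct R K T) := by
    have h3 : Function.Injective (LinearMap.lTensor K (Algebra.linearMap R T)) :=
      Module.Flat.lTensor_preserves_injective_linearMap _ hinj
    have : Nontrivial (TensorProduct R K R) :=
      (TensorProduct.rid R K).symm.injective.nontrivial
    exact h3.nontrivial
  obtain ⟨φ⟩ := exists_point_algClosure K (TensorProduct R K T) (AlgebraicClosure K)
  let ψ : T →ₐ[R] TensorProduct R K T := Algebra.TensorProduct.includeRight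
  exact ⟨(φ.restrictScalars R).comp ψ⟩

end Points

/-- the equivalence relation given by the polynomials `H` -/
def Rel {k : Type u} [Field k] {ι κ : Type} (H : Set (MvPolynomial (ι ⊕ ι ⊕ κ) k))
    (Λ : Type u) [CommRing Λ] [Algebra k Λ] (x y : ι → Λ) : Prop :=
  ∃ z : κ → Λ, ∀ h ∈ H, aeval (Sum.elim x (Sum.elim y z)) h = 0

theorem Rel.generic_aux {k : Type u} [Field k] {ι κ : Type} [Finite κ]
    {H : Set (MvPolynomial (ι ⊕ ι ⊕ κ) k)} (R : Type u) [CommRing R] [IsDomain R]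
    [IsNoetherianRing R] [Algebra k R] (ev : R →ₐ[k] k) (xu : ι → R) (y : ι → k)
    (hrig : ∀ j : ℕ, Rel H (R ⧸ (RingHom.ker ev) ^ j)
      (fun i => algebraMap R (R ⧸ (RingHom.ker ev) ^ j) (xu i)) (fun i => algebraMap k _ (y i))) :
    Rel H (AlgebraicClosure (FractionRing R))
      (fun i => algebraMap R _ (xu i)) (fun i => algebraMap k _ (y i)) := by
  classical
  have hm : RingHom.ker ev ≠ ⊤ := RingHom.ker_ne_top ev.toRingHom
  let sub : MvPolynomial (ι ⊕ ι ⊕ κ) k →ₐ[k] MvPolynomial κ R :=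
    aeval (Sum.elim (fun i => C (xu i)) (Sum.elim (fun i => C (algebraMap k R (y i))) X))
  let J : Ideal (MvPolynomial κ R) := Ideal.span (sub '' H)
  have key : ∀ (Λ : Type u) [CommRing Λ] [Algebra k Λ] [Algebra R Λ] [IsScalarTower k R Λ]
      (z : κ → Λ) (h : MvPolynomial (ι ⊕ ι ⊕ κ) k),
      (aeval z : MvPolynomial κ R →ₐ[R] Λ) (sub h) = aeval (Sum.elim (fun i => algebraMap R Λ (xu i))
        (Sum.elim (fun i => algebraMap k Λ (y i)) z)) h := by
    intro Λ _ _ _ _ z h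
    have : ((aeval z : MvPolynomial κ R →ₐ[R] Λ).restrictScalars k).comp sub =
        aeval (Sum.elim (fun i => algebraMap R Λ (xu i))
        (Sum.elim (fun i => algebraMap k Λ (y i)) z)) := by
      apply MvPolynomial.algHom_ext
      rintro (i | i | i)
      · simp [sub]
      · simp only [AlgHom.comp_apply, sub, aeval_X, Sum.elim_inr, Sum.elim_inl,
          AlgHom.restrictScalars_apply, aeval_C]
        exact (IsScalarTower.algebraMap_apply k R Λ _).symm
      · simp [sub]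
    exact DFunLike.congr_fun this h
  have hT : Nonempty ((MvPolynomial κ R ⧸ J) →ₐ[R] AlgebraicClosure (FractionRing R)) := by
    refine exists_generic_point R (RingHom.ker ev) hm (MvPolynomial κ R ⧸ J) fun j => ?_
    obtain ⟨z, hz⟩ := hrig j
    refine ⟨Ideal.Quotient.liftₐ J (aeval z) ?_⟩
    intro a ha
    have h5 : J ≤ RingHom.ker (aeval z : MvPolynomial κ R →ₐ[R] (R ⧸ (RingHom.ker ev) ^ j)) := by
      rw [Ideal.span_le]
      rintro _ ⟨h, hh, rfl⟩
      change (aeval z) (sub h) = 0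
      rw [key _ z h]
      exact hz h hh
    exact h5 ha
  obtain ⟨φ⟩ := hT
  refine ⟨fun i => φ (Ideal.Quotient.mk J (X i)), fun h hh => ?_⟩
  rw [← key (AlgebraicClosure (FractionRing R))]
  have h6 : (aeval (fun i => φ (Ideal.Quotient.mk J (X i))) :
      MvPolynomial κ R →ₐ[R] AlgebraicClosure (FractionRing R)) =
      φ.comp (Ideal.Quotient.mkₐ R J) := by
    apply MvPolynomial.algHom_ext
    intro i
    simp
  rw [h6]
  have h7 : Ideal.Quotient.mk J (sub h) = 0 :=
    Ideal.Quotient.eq_zero_iff_mem.mpr (Ideal.subset_span ⟨h, hh, rfl⟩)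
  change φ (Ideal.Quotient.mk J (sub h)) = 0
  rw [h7, map_zero]

theorem Rel.generic {k : Type u} [Field k] {ι κ : Type} [Finite ι] [Finite κ]
    {H : Set (MvPolynomial (ι ⊕ ι ⊕ κ) k)} (𝔭 : Ideal (MvPolynomial ι k)) [𝔭.IsPrime]
    (y : ι → k) (hy : ∀ f ∈ 𝔭, aeval y f = 0)
    (hrig : ∀ (Λ : Type u) [CommRing Λ] [Algebra k Λ] (I : Ideal Λ), IsNilpotent I →
      ∀ x : ι → Λ, (∀ f ∈ 𝔭, aeval x f = 0) → (∀ i, x i - algebraMap k Λ (y i) ∈ I) →
        Rel H Λ x (fun i => algebraMap k Λ (y i))) :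
    Rel H (AlgebraicClosure (FractionRing (MvPolynomial ι k ⧸ 𝔭)))
      (fun i => algebraMap (MvPolynomial ι k ⧸ 𝔭) _ (Ideal.Quotient.mk 𝔭 (X i)))
      (fun i => algebraMap k _ (y i)) := by
  classical
  let ev : (MvPolynomial ι k ⧸ 𝔭) →ₐ[k] k := Ideal.Quotient.liftₐ 𝔭 (aeval y) hy
  refine Rel.generic_aux (MvPolynomial ι k ⧸ 𝔭) ev (fun i => Ideal.Quotient.mk 𝔭 (X i)) y
    fun j => ?_
  refine hrig _ ((RingHom.ker ev).map (Ideal.Quotient.mk ((RingHom.ker ev) ^ j))) ⟨j, by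
      rw [← Ideal.map_pow, Ideal.map_quotient_self]
      rfl⟩ _ ?_ ?_
  · intro f hf
    have h1 : (aeval (fun i => algebraMap (MvPolynomial ι k ⧸ 𝔭)
        ((MvPolynomial ι k ⧸ 𝔭) ⧸ (RingHom.ker ev) ^ j) (Ideal.Quotient.mk 𝔭 (X i))) :
          MvPolynomial ι k →ₐ[k] _) =
          (IsScalarTower.toAlgHom k (MvPolynomial ι k ⧸ 𝔭) _).comp (Ideal.Quotient.mkₐ k 𝔭) := by
      apply MvPolynomial.algHom_ext
      intro i
      simp
    rw [h1]
    change algebraMap (MvPolynomial ι k ⧸ 𝔭) _ (Ideal.Quotient.mk 𝔭 f) = 0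
    rw [Ideal.Quotient.eq_zero_iff_mem.mpr hf, map_zero]
  · intro i
    have h3 : Ideal.Quotient.mk 𝔭 (X i) - algebraMap k (MvPolynomial ι k ⧸ 𝔭) (y i) ∈
        RingHom.ker ev := by
      rw [RingHom.mem_ker, map_sub, ev.commutes]
      simp [ev]
    have h4 := Ideal.mem_map_of_mem (Ideal.Quotient.mk ((RingHom.ker ev) ^ j)) h3
    rw [map_sub] at h4
    exact h4

/-- descent of the relation from a field extension to the algebraically closed field `k` -/
theorem Rel.descend {k : Type u} [Field k] [IsAlgClosed k] {ι κ : Type} [Finite κ]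
    {H : Set (MvPolynomial (ι ⊕ ι ⊕ κ) k)} (Ω : Type u) [Field Ω] [Algebra k Ω] {x y : ι → k}
    (h : Rel H Ω (fun i => algebraMap k Ω (x i)) (fun i => algebraMap k Ω (y i))) :
    Rel H k x y := by
  classical
  obtain ⟨z, hz⟩ := h
  let sub : MvPolynomial (ι ⊕ ι ⊕ κ) k →ₐ[k] MvPolynomial κ k :=
    aeval (Sum.elim (fun i => C (x i)) (Sum.elim (fun i => C (y i)) X))
  let J : Ideal (MvPolynomial κ k) := Ideal.span (sub '' H)
  have key : ∀ (Λ : Type u) [CommRing Λ] [Algebra k Λ]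
      (z : κ → Λ) (h : MvPolynomial (ι ⊕ ι ⊕ κ) k),
      (aeval z : MvPolynomial κ k →ₐ[k] Λ) (sub h) = aeval (Sum.elim (fun i => algebraMap k Λ (x i))
        (Sum.elim (fun i => algebraMap k Λ (y i)) z)) h := by
    intro Λ _ _ z h
    have : (aeval z : MvPolynomial κ k →ₐ[k] Λ).comp sub =
        aeval (Sum.elim (fun i => algebraMap k Λ (x i))
        (Sum.elim (fun i => algebraMap k Λ (y i)) z)) := by
      apply MvPolynomial.algHom_ext
      rintro (i | i | i) <;> simp [sub]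
    exact DFunLike.congr_fun this h
  have hle : J ≤ RingHom.ker (aeval z : MvPolynomial κ k →ₐ[k] Ω) := by
    rw [Ideal.span_le]
    rintro _ ⟨h, hh, rfl⟩
    change (aeval z) (sub h) = 0
    rw [key Ω z h]
    exact hz h hh
  have : Nontrivial (MvPolynomial κ k ⧸ J) := by
    apply Ideal.Quotient.nontrivial_iff.mpr
    intro hJ
    rw [hJ] at hle
    exact RingHom.ker_ne_top (aeval z : MvPolynomial κ k →ₐ[k] Ω).toRingHom (top_le_iff.mp hle)
  obtain ⟨φ⟩ := exists_point_algClosure k (MvPolynomial κ k ⧸ J) k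
  refine ⟨fun i => φ (Ideal.Quotient.mk J (X i)), fun h hh => ?_⟩
  have h8 := key k (fun i => φ (Ideal.Quotient.mk J (X i))) h
  have h6 : (aeval (fun i => φ (Ideal.Quotient.mk J (X i))) : MvPolynomial κ k →ₐ[k] k) =
      φ.comp (Ideal.Quotient.mkₐ k J) := by
    apply MvPolynomial.algHom_ext
    intro i
    simp
  rw [h6] at h8
  have h7 : Ideal.Quotient.mk J (sub h) = 0 :=
    Ideal.Quotient.eq_zero_iff_mem.mpr (Ideal.subset_span ⟨h, hh, rfl⟩)
  change φ (Ideal.Quotient.mk J (sub h)) = _ at h8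
  rw [h7, map_zero] at h8
  exact h8.symm

/-- **Finiteness of rigid solutions.** -/
theorem finite_rigid {k : Type u} [Field k] [IsAlgClosed k] {ι κ : Type} [Finite ι] [Finite κ]
    (F : Set (MvPolynomial ι k)) (H : Set (MvPolynomial (ι ⊕ ι ⊕ κ) k))
    (hrel : ∀ (Ω : Type u) [Field Ω] [Algebra k Ω] (x y y' : ι → Ω),
      (∀ f ∈ F, aeval x f = 0) → (∀ f ∈ F, aeval y f = 0) → (∀ f ∈ F, aeval y' f = 0) →
      Rel H Ω x y → Rel H Ω x y' → Rel H Ω y y')
    (P : Set (ι → k)) (hP : ∀ y ∈ P, ∀ f ∈ F, aeval y f = 0)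
    (hrig : ∀ y ∈ P, ∀ (Λ : Type u) [CommRing Λ] [Algebra k Λ] (I : Ideal Λ), IsNilpotent I →
      ∀ x : ι → Λ, (∀ f ∈ F, aeval x f = 0) → (∀ i, x i - algebraMap k Λ (y i) ∈ I) →
        Rel H Λ x (fun i => algebraMap k Λ (y i))) :
    ∃ S : Set (ι → k), S.Finite ∧ S ⊆ P ∧ ∀ y ∈ P, ∃ y' ∈ S, Rel H k y y' := by
  classical
  let Q : Set (Ideal (MvPolynomial ι k)) := (Ideal.span F).minimalPrimes
  have hQ : Q.Finite := Ideal.finite_minimalPrimes_of_isNoetherianRing _ _
  have hex : ∀ y ∈ P, ∃ 𝔭 ∈ Q, 𝔭 ≤ RingHom.ker (aeval y : MvPolynomial ι k →ₐ[k] k) := by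
    intro y hy
    have : (RingHom.ker (aeval y : MvPolynomial ι k →ₐ[k] k)).IsPrime :=
      RingHom.ker_isPrime (aeval y : MvPolynomial ι k →ₐ[k] k).toRingHom
    exact Ideal.exists_minimalPrimes_le (Ideal.span_le.mpr fun f hf => hP y hy f hf)
  have hmain : ∀ 𝔭 ∈ Q, ∀ y ∈ P, ∀ y' ∈ P,
      𝔭 ≤ RingHom.ker (aeval y : MvPolynomial ι k →ₐ[k] k) →
      𝔭 ≤ RingHom.ker (aeval y' : MvPolynomial ι k →ₐ[k] k) → Rel H k y y' := by
    intro 𝔭 h𝔭 y hy y' hy' h1 h2
    have : 𝔭.IsPrime := h𝔭.1.1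
    have hF : F ⊆ 𝔭 := fun f hf => h𝔭.1.2 (Ideal.subset_span hf)
    have g1 := Rel.generic (H := H) 𝔭 y (fun f hf => h1 hf)
      (fun Λ _ _ I hI x hx hxy => hrig y hy Λ I hI x (fun f hf => hx f (hF hf)) hxy)
    have g2 := Rel.generic (H := H) 𝔭 y' (fun f hf => h2 hf)
      (fun Λ _ _ I hI x hx hxy => hrig y' hy' Λ I hI x (fun f hf => hx f (hF hf)) hxy)
    refine Rel.descend (AlgebraicClosure (FractionRing (MvPolynomial ι k ⧸ 𝔭))) ?_
    refine hrel _ _ _ _ ?_ ?_ ?_ g1 g2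
    · intro f hf
      have h3 : aeval (fun i => algebraMap (MvPolynomial ι k ⧸ 𝔭)
          (AlgebraicClosure (FractionRing (MvPolynomial ι k ⧸ 𝔭))) (Ideal.Quotient.mk 𝔭 (X i))) f =
          algebraMap (MvPolynomial ι k ⧸ 𝔭) _ (Ideal.Quotient.mk 𝔭 f) := by
        have : (aeval (fun i => algebraMap (MvPolynomial ι k ⧸ 𝔭)
          (AlgebraicClosure (FractionRing (MvPolynomial ι k ⧸ 𝔭))) (Ideal.Quotient.mk 𝔭 (X i))) :
            MvPolynomial ι k →ₐ[k] _) =
            (IsScalarTower.toAlgHom k (MvPolynomial ι k ⧸ 𝔭) _).comp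
              (Ideal.Quotient.mkₐ k 𝔭) := by
          apply MvPolynomial.algHom_ext
          intro i
          simp
        rw [this]
        rfl
      rw [h3, Ideal.Quotient.eq_zero_iff_mem.mpr (hF hf), map_zero]
    · intro f hf
      have h4 : aeval (fun i => algebraMap k
          (AlgebraicClosure (FractionRing (MvPolynomial ι k ⧸ 𝔭))) (y i)) f =
          algebraMap k _ (aeval y f) := by
        exact MvPolynomial.aeval_algebraMap_apply _ _ _
      rw [h4, hP y hy f hf, map_zero]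
    · intro f hf
      have h4 : aeval (fun i => algebraMap k
          (AlgebraicClosure (FractionRing (MvPolynomial ι k ⧸ 𝔭))) (y' i)) f =
          algebraMap k _ (aeval y' f) := by
        exact MvPolynomial.aeval_algebraMap_apply _ _ _
      rw [h4, hP y' hy' f hf, map_zero]
  let good : Ideal (MvPolynomial ι k) → Prop := fun 𝔭 =>
    ∃ y ∈ P, 𝔭 ≤ RingHom.ker (aeval y : MvPolynomial ι k →ₐ[k] k)
  let pick : Ideal (MvPolynomial ι k) → (ι → k) := fun 𝔭 =>
    if h : good 𝔭 then h.choose else 0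
  refine ⟨pick '' {𝔭 ∈ Q | good 𝔭}, (hQ.subset (Set.sep_subset _ _)).image _, ?_, ?_⟩
  · rintro _ ⟨𝔭, ⟨-, h⟩, rfl⟩
    simp only [pick, dif_pos h]
    exact h.choose_spec.1
  · intro y hy
    obtain ⟨𝔭, h𝔭, hle⟩ := hex y hy
    have hg : good 𝔭 := ⟨y, hy, hle⟩
    refine ⟨pick 𝔭, ⟨𝔭, ⟨h𝔭, hg⟩, rfl⟩, ?_⟩
    have h5 : pick 𝔭 ∈ P ∧ 𝔭 ≤ RingHom.ker (aeval (pick 𝔭) : MvPolynomial ι k →ₐ[k] k) := by
      simp only [pick, dif_pos hg]
      exact hg.choose_spec
    exact hmain 𝔭 h𝔭 y hy _ h5.1 hle h5.2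

end Vale.Agent.P180.R2.H365
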