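import Vale.Agent.P180.R2.H365.Exc

/-!
P180: the centraliser of the product of the components of a given kind in a reduced group.
-/

set_option linter.all false

namespace Vale.Agent.P180.R2.H365

open Vale.Agent.P180 Vale.Agent.P180.H768.Gd Vale.Agent.P180.R2.H47
open Vale.Agent.P180.H768 hiding pull mem_pull exists_factor Lay mk_mem comm_mem

open scoped Nat commutatorElement

universe u

theorem map_conj_comm {G : Type} [Group G] (S : Subgroup G) (g : G) :
    (⁅S, S⁆ : Subgroup G).map (MulAut.conj g).toMonoidHom =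
      ⁅S.map (MulAut.conj g).toMonoidHom, S.map (MulAut.conj g).toMonoidHom⁆ :=
  Subgroup.map_commutator _ _ _

/-- the `p`-element `r = z * l` with `z` central of order prime to `p` is a power of `l` -/
theorem mem_of_mul {G : Type} [Group G] [Finite G] {p : ℕ} [Fact p.Prime] {Z : Subgroup G}
    (hZ : ∀ z ∈ Z, ∀ g, z * g = g * z) (hp : ¬ p ∣ Nat.card Z) {z l r : G} (hz : z ∈ Z)
    {i : ℕ} (hr : r ^ p ^ i = 1) (h : r = z * l) : r ∈ Subgroup.zpowers l := by
  have hco : Nat.Coprime (p ^ i) (Nat.card Z) :=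
    Nat.Coprime.pow_left i ((Nat.Prime.coprime_iff_not_dvd Fact.out).mpr hp)
  obtain ⟨s, hs1, hs2⟩ := Nat.chineseRemainder hco 1 0
  have h1 : r ^ s = r := by
    have h2 : r ^ (s : ℕ) = r ^ 1 := by
      rw [pow_eq_pow_iff_modEq]
      exact hs1.of_dvd (orderOf_dvd_of_pow_eq_one hr)
    rwa [pow_one] at h2
  have h2 : z ^ s = 1 := by
    have h3 : Nat.card Z ∣ s := (Nat.modEq_zero_iff_dvd).mp hs2
    have h4 : z ^ Nat.card Z = 1 := by
      have := pow_card_eq_one' (x := (⟨z, hz⟩ : Z))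
      exact congrArg Subtype.val this
    obtain ⟨t, rfl⟩ := h3
    rw [pow_mul, h4, one_pow]
  refine ⟨s, ?_⟩
  have h3 : r ^ s = z ^ s * l ^ s := by
    rw [h, (show Commute z l from hZ z hz l).mul_pow]
  rw [h1, h2, one_mul] at h3
  exact (zpow_natCast l s).trans h3.symm

theorem comp_bound {k : Type u} [Field k] {p n : ℕ} [Fact p.Prime] [CharP k p] {G : Type}
    [Group G] [Finite G] {Q : Subgroup G → Prop}
    (hQ : ∀ (L : Subgroup G) (g : G), Q L → Q (L.map (MulAut.conj g).toMonoidHom)) {m : ℕ}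
    {Z D : Subgroup G} {a b : MonoidAlgebra k G}
    (hs : Rs p n Z D a b) (hST : STab b) (hNR : NRed p Z ⊤ b)
    (hexc : ∀ L : Subgroup G, IsComponent L → p ∣ Nat.card (L ⧸ Subgroup.center L) →
      (∀ g : G, ∃ r ∈ D, r ∈ L.map (MulAut.conj g).toMonoidHom ∧
        ¬ ∀ y ∈ L.map (MulAut.conj g).toMonoidHom, r * y = y * r) → ¬ Q L →
      Nat.card (L ⧸ Subgroup.center L) ≤ m ∨
        (IsLocalChar p n (L ⧸ Subgroup.center L) ∧
          ∀ P : Sylow p (L ⧸ Subgroup.center L), n < Nat.card P)) :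
    ∃ 𝒯 : Set (Subgroup G),
      (∀ T ∈ 𝒯, IsComponent T ∧ Q T ∧ p ∣ Nat.card (T ⧸ Subgroup.center T) ∧
        ∃ r ∈ D, r ∈ T ∧ ¬ ∀ y ∈ T, r * y = y * r) ∧
      (∀ T ∈ 𝒯, ∀ T' ∈ 𝒯, T ≠ T' → ∀ x ∈ T, ∀ y ∈ T', x * y = y * x) ∧
      (∀ T ∈ 𝒯, ∀ g : G, T.map (MulAut.conj g).toMonoidHom ∈ 𝒯) ∧ Nat.card 𝒯 ≤ n ∧
      Z.relIndex (Subgroup.centralizer ((sSup 𝒯 : Subgroup G) : Set G)) ≤
        n * (n * m)! * n ! := by
  obtain ⟨C, W, Y0, hCn, hWn, hY0n, 𝒮, hY0p, hW, hWC, hcent, hrel, hCidx, h1, h2, h3, h4, h5, h6,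
    hY0D, hrD⟩ := red_struct hs hST hNR
  have hZ := hs.Zc
  have hpZ := hs.Zp
  have hWS : ∀ S ∈ 𝒮, W ≤ S := fun S hS => (h1 S hS).1
  have hSC : ∀ S ∈ 𝒮, S ≤ C := fun S hS => (h1 S hS).2.1
  have hsim : ∀ S ∈ 𝒮, IsSimpleGroup (S.map (QuotientGroup.mk' W)) :=
    fun S hS => (h1 S hS).2.2.2.2.1
  have hna := fun S hS => (h1 S hS).2.2.2.2.2.1
  have hcS : ∀ S ∈ 𝒮, ∀ w ∈ W, ∀ s ∈ S, w * s = s * w :=
    fun S hS w hw s hs => hcent w hw s (hSC S hS hs)
  have hqs : ∀ S ∈ 𝒮, IsQuasisimple (⁅S, S⁆ : Subgroup G) := fun S hS =>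
    comm_quasisimple (hWS S hS) (hcS S hS) (hsim S hS) (hna S hS)
  have hiso : ∀ S ∈ 𝒮, Nonempty ((⁅S, S⁆ : Subgroup G) ⧸ Subgroup.center (⁅S, S⁆ : Subgroup G) ≃*
      S.map (QuotientGroup.mk' W)) := fun S hS =>
    comm_quot (hWS S hS) (hcS S hS) (hsim S hS) (hna S hS)
  have hdec : ∀ S ∈ 𝒮, ∀ x ∈ S, ∃ w ∈ W, ∃ l ∈ (⁅S, S⁆ : Subgroup G), w * l = x :=
    fun S hS x hx => le_sup_comm (hWS S hS) (hsim S hS) (hna S hS) hx
  have hLS : ∀ S : Subgroup G, (⁅S, S⁆ : Subgroup G) ≤ S := fun S => Subgroup.commutator_le_self S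
  -- the `p`-elements of `D`
  have hDL : ∀ S ∈ 𝒮, ∃ r ∈ D, r ∈ (⁅S, S⁆ : Subgroup G) ∧
      ¬ ∀ y ∈ (⁅S, S⁆ : Subgroup G), r * y = y * r := by
    intro S hS
    obtain ⟨r, hr1, hr2, hr3⟩ := hrD S hS
    obtain ⟨w, hw, l, hl, hwl⟩ := hdec S hS r hr2
    have hw' := hw
    rw [hW] at hw'
    obtain ⟨z, hz, y, hy, hzy⟩ := Subgroup.mem_sup_of_normal_right.mp hw'
    have hyD : r * y⁻¹ ∈ D := D.mul_mem hr1 (D.inv_mem (hY0D hy))
    have hyW : y ∈ W := by rw [hW]; exact Subgroup.mem_sup_right hy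
    have hyl : r * y⁻¹ = z * l := by
      have h7 := hcS S hS y hyW l (hLS S hl)
      rw [← hwl, ← hzy]
      calc z * y * l * y⁻¹ = z * (y * l) * y⁻¹ := by group
        _ = z * (l * y) * y⁻¹ := by rw [h7]
        _ = z * l := by group
    obtain ⟨i, hi⟩ := hs.Dp ⟨_, hyD⟩
    have hi' : (r * y⁻¹) ^ p ^ i = 1 := congrArg Subtype.val hi
    have h8 := mem_of_mul hZ hpZ hz hi' hyl
    have h9 : r * y⁻¹ ∈ (⁅S, S⁆ : Subgroup G) := (Subgroup.zpowers_le.mpr hl) h8
    refine ⟨r * y⁻¹, hyD, h9, ?_⟩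
    intro hcen
    apply hr3
    have h10 : r * y⁻¹ ∈ W := by
      refine (h1 S hS).2.2.2.1 _ (hLS S h9) ?_
      intro x hx
      obtain ⟨w', hw', l', hl', rfl⟩ := hdec S hS x hx
      have h11 := hcS S hS w' hw' _ (hLS S h9)
      calc r * y⁻¹ * (w' * l') = (r * y⁻¹ * w') * l' := by group
        _ = w' * (r * y⁻¹ * l') := by rw [← h11]; group
        _ = w' * l' * (r * y⁻¹) := by rw [hcen l' hl']; group
    have := W.mul_mem h10 hyW
    rwa [inv_mul_cancel_right] at this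
  have hsupn : (sSup 𝒮).Normal := by
    constructor
    intro x hx g
    have h7 : sSup 𝒮 ≤ (sSup 𝒮).comap (MulAut.conj g).toMonoidHom := by
      refine sSup_le fun S hS => ?_
      rw [← Subgroup.map_le_iff_le_comap]
      exact le_sSup (h3 S hS g)
    exact h7 hx
  have hnorm : ∀ S ∈ 𝒮, sSup 𝒮 ≤ Subgroup.normalizer ((⁅S, S⁆ : Subgroup G) : Set G) := by
    intro S hS
    refine sSup_le fun S' hS' => ?_
    by_cases hSS : S = S'
    · subst hSS
      intro x hx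
      rw [Subgroup.mem_normalizer_iff]
      have key : ∀ y ∈ S, ∀ z ∈ (⁅S, S⁆ : Subgroup G), y * z * y⁻¹ ∈ (⁅S, S⁆ : Subgroup G) := by
        intro y hy z hz
        have h8 := map_conj_comm S y
        have h9 : S.map (MulAut.conj y).toMonoidHom = S := by
          ext x
          rw [mem_map_conj]
          constructor
          · intro hx
            have := S.mul_mem (S.mul_mem hy hx) (S.inv_mem hy)
            simpa [mul_assoc] using this
          · intro hx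
            exact S.mul_mem (S.mul_mem (S.inv_mem hy) hx) hy
        rw [h9] at h8
        rw [← h8]
        exact ⟨z, hz, rfl⟩
      intro z
      constructor
      · exact key x hx z
      · intro hz
        have := key x⁻¹ (S.inv_mem hx) _ hz
        simpa [mul_assoc] using this
    · intro x hx
      rw [Subgroup.mem_normalizer_iff]
      intro z
      have h7 := h2 S hS S' hS' hSS
      constructor
      · intro hz
        rw [← h7 z (hLS S hz) x hx, mul_inv_cancel_right]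
        exact hz
      · intro hz
        have h8 := h7 _ (hLS S hz) x hx
        have h9 : x * z * x⁻¹ = z := by
          calc x * z * x⁻¹ = x⁻¹ * (x * (x * z * x⁻¹)) := by group
            _ = x⁻¹ * (x * z * x⁻¹ * x) := by rw [h8]
            _ = z := by group
        rwa [h9] at hz
  have hcomp : ∀ S ∈ 𝒮, IsComponent (⁅S, S⁆ : Subgroup G) := by
    intro S hS
    refine ⟨hqs S hS, sSup 𝒮, hsupn, (hLS S).trans (le_sSup hS), ?_⟩
    intro x hx y hy
    exact (Subgroup.mem_normalizer_iff.mp (hnorm S hS hx) y).mp hy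
  have hpL : ∀ S ∈ 𝒮, p ∣ Nat.card ((⁅S, S⁆ : Subgroup G) ⧸
      Subgroup.center (⁅S, S⁆ : Subgroup G)) := by
    intro S hS
    obtain ⟨e⟩ := hiso S hS
    rw [Nat.card_congr e.toEquiv]
    exact (h1 S hS).2.2.2.2.2.2
  have hsmall : ∀ S ∈ 𝒮, ¬ Q (⁅S, S⁆ : Subgroup G) →
      Nat.card (S.map (QuotientGroup.mk' W)) ≤ m := by
    intro S hS hnQ
    obtain ⟨e⟩ := hiso S hS
    rcases hexc _ (hcomp S hS) (hpL S hS) (fun g => by
      rw [map_conj_comm]
      exact hDL _ (h3 S hS g)) hnQ with h | ⟨h, h'⟩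
    · rwa [Nat.card_congr e.toEquiv] at h
    · exfalso
      obtain ⟨P, hP⟩ := h6 S hS (isLocalChar_of_equiv e h)
      let P' : Sylow p ((⁅S, S⁆ : Subgroup G) ⧸ Subgroup.center (⁅S, S⁆ : Subgroup G)) :=
        P.comapOfInjective e.toMonoidHom e.injective (by
          rw [MonoidHom.range_eq_top.mpr e.surjective]
          exact le_top)
      have h7 := h' P'
      refine absurd h7 (not_lt.mpr (le_trans ?_ hP))
      exact Nat.card_le_card_of_injective
        (fun x : P' => (⟨e x.1, x.2⟩ : P)) (fun x y hxy => Subtype.ext (e.injective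
          (congrArg Subtype.val hxy)))
  -- the set `𝒯`
  obtain ⟨𝒯, h𝒯⟩ : ∃ 𝒯 : Set (Subgroup G), 𝒯 =
    (fun S : Subgroup G => (⁅S, S⁆ : Subgroup G)) '' {S | S ∈ 𝒮 ∧ Q (⁅S, S⁆ : Subgroup G)} :=
    ⟨_, rfl⟩
  have hTC : sSup 𝒯 ≤ C := by
    refine sSup_le ?_
    rw [h𝒯]
    rintro _ ⟨S, ⟨hS, -⟩, rfl⟩
    exact (hLS S).trans (hSC S hS)
  refine ⟨𝒯, ?_, ?_, ?_, ?_, ?_⟩
  · rw [h𝒯]
    rintro _ ⟨S, ⟨hS, hQS⟩, rfl⟩
    exact ⟨hcomp S hS, hQS, hpL S hS, hDL S hS⟩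
  · rw [h𝒯]
    rintro _ ⟨S, ⟨hS, hQS⟩, rfl⟩ _ ⟨S', ⟨hS', hQS'⟩, rfl⟩ hne x hx y hy
    exact h2 S hS S' hS' (fun h => hne (by rw [h])) x (hLS S hx) y (hLS S' hy)
  · rw [h𝒯]
    rintro _ ⟨S, ⟨hS, hQS⟩, rfl⟩ g
    refine ⟨S.map (MulAut.conj g).toMonoidHom, ⟨h3 S hS g, ?_⟩, (map_conj_comm S g).symm⟩
    rw [← map_conj_comm]
    exact hQ _ g hQS
  · refine le_trans ?_ h5
    rw [h𝒯]
    refine (Nat.card_le_card_of_surjective
      (fun S : {S | S ∈ 𝒮 ∧ Q (⁅S, S⁆ : Subgroup G)} =>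
        (⟨⁅S.1, S.1⁆, ⟨S.1, S.2, rfl⟩⟩ : ((fun S : Subgroup G => (⁅S, S⁆ : Subgroup G)) ''
          {S | S ∈ 𝒮 ∧ Q (⁅S, S⁆ : Subgroup G)} : Set (Subgroup G)))) ?_).trans ?_
    · rintro ⟨_, ⟨S, hS, rfl⟩⟩
      exact ⟨⟨S, hS⟩, rfl⟩
    · refine Nat.card_le_card_of_injective (fun S => (⟨S.1, S.2.1⟩ : 𝒮)) ?_
      intro S S' h
      have h7 : (⟨S.1, S.2.1⟩ : 𝒮) = ⟨S'.1, S'.2.1⟩ := h
      exact Subtype.ext (Subtype.mk.inj h7)
  · set cX := Subgroup.centralizer ((sSup 𝒯 : Subgroup G) : Set G) with hcX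
    set K := C ⊓ cX with hK
    have hZW : Z ≤ W := by rw [hW]; exact le_sup_left
    have hWK : W ≤ K := by
      refine le_inf hWC ?_
      intro w hw
      rw [hcX, Subgroup.mem_centralizer_iff]
      intro x hx
      exact (hcent w hw x (hTC hx)).symm
    rw [← Subgroup.relIndex_mul_relIndex Z W cX hZW (hWK.trans inf_le_right),
      ← Subgroup.relIndex_mul_relIndex W K cX hWK inf_le_right, ← mul_assoc]
    have hKW : W.relIndex K ≤ (n * m)! := by
      let π := QuotientGroup.mk' W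
      have hπ : Function.Surjective π := QuotientGroup.mk'_surjective W
      have hπW : ∀ x, π x = 1 ↔ x ∈ W := fun x => QuotientGroup.eq_one_iff x
      rw [relIndex_eq_card_map]
      obtain ⟨𝒰, h𝒰⟩ : ∃ 𝒰 : Set (Subgroup (G ⧸ W)), 𝒰 =
        (fun S : Subgroup G => S.map π) '' {S | S ∈ 𝒮 ∧ ¬ Q (⁅S, S⁆ : Subgroup G)} := ⟨_, rfl⟩
      have h𝒰n : Nat.card 𝒰 ≤ n := by
        refine le_trans ?_ h5
        rw [h𝒰]
        refine (Nat.card_le_card_of_surjective
          (fun S : {S | S ∈ 𝒮 ∧ ¬ Q (⁅S, S⁆ : Subgroup G)} =>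
            (⟨S.1.map π, ⟨S.1, S.2, rfl⟩⟩ : ((fun S : Subgroup G => S.map π) ''
              {S | S ∈ 𝒮 ∧ ¬ Q (⁅S, S⁆ : Subgroup G)} : Set (Subgroup (G ⧸ W))))) ?_).trans ?_
        · rintro ⟨_, ⟨S, hS, rfl⟩⟩
          exact ⟨⟨S, hS⟩, rfl⟩
        · refine Nat.card_le_card_of_injective (fun S => (⟨S.1, S.2.1⟩ : 𝒮)) ?_
          intro S S' h
          have h7 : (⟨S.1, S.2.1⟩ : 𝒮) = ⟨S'.1, S'.2.1⟩ := h
          exact Subtype.ext (Subtype.mk.inj h7)
      refine (card_le_factorial m (K.map π) 𝒰 ?_ ?_ ?_).trans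
        (Nat.factorial_le (Nat.mul_le_mul_right m h𝒰n))
      · rw [h𝒰]
        rintro _ ⟨S, ⟨hS, hnQ⟩, rfl⟩
        exact hsmall S hS hnQ
      · rw [h𝒰]
        rintro _ ⟨S, ⟨hS, hnQ⟩, rfl⟩ g
        obtain ⟨g', rfl⟩ := hπ g
        refine ⟨S.map (MulAut.conj g').toMonoidHom, ⟨h3 S hS g', ?_⟩, ?_⟩
        · intro hQS
          apply hnQ
          rw [← map_conj_comm] at hQS
          have h7 := hQ _ g'⁻¹ hQS
          rw [Subgroup.map_map] at h7
          have h8 : (MulAut.conj g'⁻¹).toMonoidHom.comp (MulAut.conj g').toMonoidHom =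
              MonoidHom.id G := by
            ext x
            change g'⁻¹ * (g' * x * g'⁻¹) * g'⁻¹⁻¹ = x
            group
          rw [h8, Subgroup.map_id] at h7
          exact h7
        · change (S.map (MulAut.conj g').toMonoidHom).map π =
            (S.map π).map (MulAut.conj (π g')).toMonoidHom
          rw [Subgroup.map_map, Subgroup.map_map]
          congr 1
      · rintro _ ⟨c, hc, rfl⟩ hcom
        rw [hπW]
        obtain ⟨hcC, hccX⟩ := Subgroup.mem_inf.mp hc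
        apply h4 c hcC
        intro S hS x hx
        by_cases hQS : Q (⁅S, S⁆ : Subgroup G)
        · obtain ⟨w, hw, l, hl, rfl⟩ := hdec S hS x hx
          have h7 : l ∈ sSup 𝒯 := by
            refine (le_sSup (?_ : (⁅S, S⁆ : Subgroup G) ∈ 𝒯)) hl
            rw [h𝒯]
            exact ⟨S, ⟨hS, hQS⟩, rfl⟩
          have h8 : l * c = c * l := (Subgroup.mem_centralizer_iff.mp hccX) l h7
          have h9 := hcent w hw c hcC
          have h10 : c * (w * l) * c⁻¹ * (w * l)⁻¹ = 1 := by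
            have : c * (w * l) = w * l * c := by
              calc c * (w * l) = (c * w) * l := by group
                _ = w * (c * l) := by rw [← h9]; group
                _ = w * l * c := by rw [← h8]; group
            rw [this, mul_inv_cancel_right, mul_inv_cancel]
          rw [h10]
          exact W.one_mem
        · have h7 := hcom (S.map π) (by rw [h𝒰]; exact ⟨S, ⟨hS, hQS⟩, rfl⟩) (π x)
            (Subgroup.mem_map_of_mem π hx)
          rw [← hπW, map_mul, map_mul, map_mul, map_inv, map_inv, h7, mul_inv_cancel_right,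
            mul_inv_cancel]
    have hKX : K.relIndex cX ≤ n ! := by
      refine le_trans ?_ hCidx
      rw [hK, Subgroup.inf_relIndex_right]
      exact Nat.le_of_dvd (Nat.pos_of_ne_zero Subgroup.index_ne_zero_of_finite)
        (Subgroup.relIndex_dvd_index_of_normal _ _)
    exact Nat.mul_le_mul (Nat.mul_le_mul hrel hKW) hKX

end Vale.Agent.P180.R2.H365
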